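import Vale.Agent.P347.Core

namespace Vale.Agent.P347

open MeasureTheory ProbabilityTheory
open scoped RealInnerProductSpace NNReal

variable {d : ℕ}

theorem Det.mono {q : ℕ} {Ω : Type} {mΩ : MeasurableSpace Ω} {F : (E d → E d) → Ω → E d}
    (h : Det d q Ω mΩ F) : ∀ q', q ≤ q' → Det d q' Ω mΩ F := by
  induction h with
  | stop q Ω mΩ out h => exact fun q' _ => Det.stop q' Ω mΩ out h
  | ask q Ω mΩ x h F _ ih =>
    intro q' hq
    obtain ⟨r, rfl⟩ : ∃ r, q' = r + 1 := ⟨q' - 1, by omega⟩
    exact Det.ask r Ω mΩ x h F (ih r (by omega))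

theorem Det.comap {q : ℕ} {Ω : Type} {mΩ : MeasurableSpace Ω} {F : (E d → E d) → Ω → E d}
    (h : Det d q Ω mΩ F) : ∀ (Ω' : Type) (mΩ' : MeasurableSpace Ω') (φ : Ω' → Ω), Measurable φ →
      Det d q Ω' mΩ' fun O o => F O (φ o) := by
  induction h with
  | stop q Ω mΩ out h => exact fun Ω' mΩ' φ hφ => Det.stop q Ω' mΩ' _ (h.comp hφ)
  | ask q Ω mΩ x h F _ ih =>
    intro Ω' mΩ' φ hφ
    exact Det.ask q Ω' mΩ' (fun o => x (φ o)) (h.comp hφ) _
      (ih (Ω' × E d) inferInstance (fun p => (φ p.1, p.2))
        ((hφ.comp measurable_fst).prodMk measurable_snd))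

theorem Det.seq {q₁ q₂ : ℕ} {Ω : Type} {mΩ : MeasurableSpace Ω} {F : (E d → E d) → Ω → E d}
    (h : Det d q₁ Ω mΩ F) : ∀ G : (E d → E d) → Ω × E d → E d,
      Det d q₂ (Ω × E d) inferInstance G → Det d (q₁ + q₂) Ω mΩ fun O o => G O (o, F O o) := by
  induction h with
  | stop q Ω mΩ out h =>
    intro G hG
    exact (hG.comap Ω mΩ (fun o => (o, out o)) (measurable_id.prodMk h)).mono _ (by omega)
  | ask q Ω mΩ x h F _ ih =>
    intro G hG
    have h1 := ih _ (hG.comap ((Ω × E d) × E d) inferInstance (fun r => (r.1.1, r.2))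
      (measurable_fst.fst.prodMk measurable_snd))
    rw [Nat.add_right_comm]
    exact Det.ask _ Ω mΩ x h _ h1

theorem Det.measurable {q : ℕ} {Ω : Type} {mΩ : MeasurableSpace Ω} {F : (E d → E d) → Ω → E d}
    (h : Det d q Ω mΩ F) {O : E d → E d} (hO : Measurable O) : Measurable (F O) := by
  induction h with
  | stop q Ω mΩ out h => exact h
  | ask q Ω mΩ x h F _ ih => exact ih.comp (measurable_id.prodMk (hO.comp h))

theorem Seed.prob {R : Type} [MeasurableSpace R] {P : Measure R} (h : Seed R P) :
    IsProbabilityMeasure P := by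
  obtain ⟨N, ψ, hψ⟩ := h
  rw [← hψ.map_eq]
  exact Measure.isProbabilityMeasure_map hψ.measurable.aemeasurable

theorem Seed.prod {R R' : Type} [MeasurableSpace R] [MeasurableSpace R'] {P : Measure R}
    {P' : Measure R'} (h : Seed R P) (h' : Seed R' P') : Seed (R × R') (P.prod P') := by
  have := h.prob
  have := h'.prob
  obtain ⟨N, ψ, hψ⟩ := h
  obtain ⟨N', ψ', hψ'⟩ := h'
  exact ⟨N + N', _, (hψ.prod hψ').comp
    ((measurePreserving_sumPiEquivProdPi fun _ : Fin N ⊕ Fin N' => gaussianReal 0 1).comp
      (measurePreserving_piCongrLeft (fun _ : Fin N ⊕ Fin N' => gaussianReal 0 1)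
        finSumFinEquiv.symm))⟩

theorem seed_gam : Seed (E d) (gam d) :=
  ⟨d, WithLp.toLp 2, by fun_prop, map_pi_eq_stdGaussian⟩

theorem seed_unit : Seed Unit (Measure.dirac ()) :=
  ⟨0, fun _ => (), measurable_const, by simp⟩

/-- the history recursion over a general parameter space -/
noncomputable def gh {O : Type} (query : ℕ → O × (ℕ → ℝ × E d) → E d) (V : E d → ℝ) (o : O) :
    ℕ → (ℕ → ℝ × E d)
  | 0 => fun _ => 0
  | i + 1 => Function.update (gh query V o i) i
      (V (query i (o, gh query V o i)), gradient V (query i (o, gh query V o i)))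

theorem Det.toAlg {q : ℕ} {Ω : Type} {mΩ : MeasurableSpace Ω} {F : (E d → E d) → Ω → E d}
    (h : Det d q Ω mΩ F) :
    ∃ (query : ℕ → Ω × (ℕ → ℝ × E d) → E d) (out : Ω × (ℕ → ℝ × E d) → E d),
      (∀ i, Measurable (query i)) ∧ Measurable out ∧
        ∀ V o, out (o, gh query V o q) = F (gradient V) o := by
  induction h with
  | stop q Ω mΩ out h =>
    exact ⟨fun _ _ => 0, fun p => out p.1, fun _ => measurable_const, h.comp measurable_fst,
      fun _ _ => rfl⟩
  | ask q Ω mΩ x h F _ ih =>
    obtain ⟨Q', out', hQ', hout', he⟩ := ih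
    let sh : Ω × (ℕ → ℝ × E d) → (Ω × E d) × (ℕ → ℝ × E d) :=
      fun p => ((p.1, (p.2 0).2), fun n => p.2 (n + 1))
    have hsh : Measurable sh := by fun_prop
    let Q : ℕ → Ω × (ℕ → ℝ × E d) → E d := fun i =>
      match i with
      | 0 => fun p => x p.1
      | i + 1 => fun p => Q' i (sh p)
    have key : ∀ V o i, sh (o, gh Q V o (i + 1)) =
        ((o, gradient V (x o)), gh Q' V (o, gradient V (x o)) i) := by
      intro V o i
      induction i with
      | zero =>
        simp only [sh, gh, Q, Function.update_self]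
        congr 1
      | succ i ih =>
        have h1 : (gh Q V o (i + 1) 0).2 = gradient V (x o) := congrArg (fun p => p.1.2) ih
        have h2 : ∀ n, gh Q V o (i + 1) (n + 1) = gh Q' V (o, gradient V (x o)) i n :=
          fun n => congrFun (congrArg (fun p => p.2) ih) n
        have h3 : Q (i + 1) (o, gh Q V o (i + 1)) =
            Q' i ((o, gradient V (x o)), gh Q' V (o, gradient V (x o)) i) := by
          simp only [Q, ih]
        rw [gh, h3]
        simp only [sh]
        rw [Function.update_of_ne (Nat.succ_ne_zero i).symm, h1]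
        congr 1
        funext n
        conv_rhs => rw [gh]
        by_cases hn : n = i
        · subst hn
          simp
        · rw [Function.update_of_ne hn, Function.update_of_ne (by omega), h2]
    refine ⟨Q, fun p => out' (sh p), fun i => ?_, hout'.comp hsh, fun V o => ?_⟩
    · cases i with
      | zero => exact h.comp measurable_fst
      | succ i => exact (hQ' i).comp hsh
    · simp only [key, he]

theorem Alg.hist_eq (A : Alg d) (V : E d → ℝ) (o : Fin A.N → ℝ) (i : ℕ) :
    A.hist V o i = gh A.query V o i := by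
  induction i with
  | zero => rfl
  | succ i ih => rw [Alg.hist, gh, ih]

theorem approxAux_int {R : Type} [MeasurableSpace R] {P : Measure R} [IsFiniteMeasure P]
    {Y : R → E d} (hY : Integrable Y P) {g : E d → ℝ} {L : ℝ≥0} (hg : LipschitzWith L g) :
    Integrable (fun r => g (Y r)) P := by
  refine ((integrable_const |g 0|).add (hY.norm.const_mul L)).mono'
    (hg.continuous.comp_aestronglyMeasurable hY.1) (ae_of_all _ fun r => ?_)
  have h1 := hg.dist_le_mul (Y r) 0
  rw [dist_zero_right, Real.dist_eq] at h1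
  have h2 := abs_add_le (g (Y r) - g 0) (g 0)
  rw [sub_add_cancel] at h2
  simp only [Real.norm_eq_abs, Pi.add_apply]
  linarith

theorem approxAux_gam (y : E d) (t : ℝ) : Integrable (fun z => y + t • z) (gam d) :=
  (integrable_const y).add (IsGaussian.integrable_fun_id.smul t)

end Vale.Agent.P347
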