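import Vale.Agent.P347.Core

namespace Vale.Agent.P347

open MeasureTheory ProbabilityTheory
open scoped RealInnerProductSpace NNReal ContDiff

variable {d : ℕ}

variable {V : E d → ℝ}

theorem Pot_taylor {φ φ' φ'' : ℝ → ℝ} {c : ℝ} (h1 : ∀ t, HasDerivAt φ (φ' t) t)
    (h2 : ∀ t, HasDerivAt φ' (φ'' t) t) (hc : ∀ t, c ≤ φ'' t) : φ 0 + φ' 0 + c / 2 ≤ φ 1 := by
  have d2 : ∀ t, HasDerivAt (fun t => φ' t - c * t) (φ'' t - c * 1) t := fun t =>
    (h2 t).sub ((hasDerivAt_id t).const_mul c)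
  have m2 : Monotone fun t => φ' t - c * t :=
    monotone_of_deriv_nonneg (fun t => (d2 t).differentiableAt) fun t => by
      rw [(d2 t).deriv]; linarith [hc t]
  have d1 : ∀ t, HasDerivAt (fun t => φ t - φ' 0 * t - c * t ^ 2 / 2)
      (φ' t - c * t - (φ' 0 - c * 0)) t := fun t => by
    refine (((h1 t).sub ((hasDerivAt_id t).const_mul (φ' 0))).sub
      (((hasDerivAt_pow 2 t).const_mul c).div_const 2)).congr_deriv ?_
    push_cast
    ring
  have m1 : MonotoneOn (fun t => φ t - φ' 0 * t - c * t ^ 2 / 2) (Set.Ici 0) :=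
    monotoneOn_of_deriv_nonneg (convex_Ici 0)
      (fun t _ => (d1 t).continuousAt.continuousWithinAt)
      (fun t _ => (d1 t).differentiableAt.differentiableWithinAt) fun t ht => by
        rw [(d1 t).deriv]
        exact sub_nonneg.2 (m2 (Set.mem_Ici.1 (interior_subset ht)))
  have := m1 (Set.mem_Ici.2 le_rfl) (Set.mem_Ici.2 zero_le_one) zero_le_one
  simp only at this
  linarith

theorem InClass.hess (hV : InClass V) (x v : E d) :
    ‖v‖ ^ 2 ≤ fderiv ℝ (fderiv ℝ V) x v v ∧ fderiv ℝ (fderiv ℝ V) x v v ≤ 2 * ‖v‖ ^ 2 := by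
  have h := hV.2.2.2 x v
  rw [iteratedFDeriv_two_apply] at h
  exact h

theorem InClass.Pot_diff (hV : InClass V) : Differentiable ℝ V := hV.1.differentiable (by simp)

theorem InClass.Pot_cd (hV : InClass V) : ContDiff ℝ 1 (fderiv ℝ V) :=
  hV.1.fderiv_right (m := 1) (by norm_num)

theorem InClass.Pot_line (hV : InClass V) (x z : E d) (t : ℝ) :
    HasDerivAt (fun t : ℝ => V (x + t • z)) (fderiv ℝ V (x + t • z) z) t ∧
    HasDerivAt (fun t : ℝ => fderiv ℝ V (x + t • z) z)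
      (fderiv ℝ (fderiv ℝ V) (x + t • z) z z) t := by
  have h1 : HasDerivAt (fun s : ℝ => x + s • z) z t := by
    simpa using ((hasDerivAt_id t).smul_const z).const_add x
  refine ⟨(hV.Pot_diff _).hasFDerivAt.comp_hasDerivAt t h1, ?_⟩
  have h2 := (hV.Pot_cd.differentiable (by simp) (x + t • z)).hasFDerivAt.comp_hasDerivAt t h1
  simpa using h2.clm_apply (hasDerivAt_const t z)

theorem Pot_inner_grad (V : E d → ℝ) (x z : E d) : ⟪gradient V x, z⟫ = fderiv ℝ V x z := by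
  rw [gradient, InnerProductSpace.toDual_symm_apply]

theorem InClass.Pot_lower (hV : InClass V) (x z : E d) :
    V x + ⟪gradient V x, z⟫ + ‖z‖ ^ 2 / 2 ≤ V (x + z) := by
  have := Pot_taylor (fun t => (hV.Pot_line x z t).1) (fun t => (hV.Pot_line x z t).2)
    fun t => (hV.hess _ z).1
  simpa [Pot_inner_grad] using this

theorem InClass.lower (hV : InClass V) (x : E d) : ‖x‖ ^ 2 / 2 ≤ V x := by
  simpa [hV.2.1, hV.2.2.1] using hV.Pot_lower 0 x

theorem InClass.nonneg (hV : InClass V) (x : E d) : 0 ≤ V x :=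
  le_trans (by positivity) (hV.lower x)

/-- the Riesz map as a real linear map -/
noncomputable def Pot_riesz (d : ℕ) : (E d →L[ℝ] ℝ) →L[ℝ] E d where
  toFun := (InnerProductSpace.toDual ℝ (E d)).symm
  map_add' := map_add _
  map_smul' := fun c l => by simp
  cont := (InnerProductSpace.toDual ℝ (E d)).symm.continuous

theorem Pot_grad_eq (V : E d → ℝ) : gradient V = Pot_riesz d ∘ fderiv ℝ V := rfl

theorem InClass.contDiff_grad (hV : InClass V) : ContDiff ℝ 1 (gradient V) := by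
  rw [Pot_grad_eq]
  exact (Pot_riesz d).contDiff.comp hV.Pot_cd

theorem InClass.Pot_bilin (hV : InClass V) (x u v : E d) :
    |fderiv ℝ (fderiv ℝ V) x u v| ≤ 2 * ‖u‖ * ‖v‖ := by
  have hs := (hV.1.contDiffAt (x := x)).isSymmSndFDerivAt (by simp)
  set B := fderiv ℝ (fderiv ℝ V) x with hB
  have h0 : ∀ w, 0 ≤ B w w := fun w => le_trans (by positivity) (hV.hess x w).1
  have h := discrim_le_zero (a := B v v) (b := 2 * B u v) (c := B u u) fun t => by
    have := h0 (u + t • v)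
    simp only [map_add, map_smul, add_apply, smul_apply,
      smul_eq_mul] at this
    have e : B v u = B u v := hs.eq v u
    rw [e] at this
    linarith
  rw [discrim] at h
  have h1 := mul_le_mul (hV.hess x v).2 (hV.hess x u).2 (h0 u) (by positivity)
  refine abs_le_of_sq_le_sq' ?_ (by positivity) |> abs_le.2
  rw [← hB] at h1
  nlinarith

theorem InClass.norm_fderiv_grad (hV : InClass V) (x : E d) : ‖fderiv ℝ (gradient V) x‖ ≤ 2 := by
  have h := ((Pot_riesz d).hasFDerivAt.comp x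
    (hV.Pot_cd.differentiable (by simp) x).hasFDerivAt).fderiv
  rw [Pot_grad_eq, h]
  refine ContinuousLinearMap.opNorm_le_bound _ (by norm_num) fun u => ?_
  show ‖(InnerProductSpace.toDual ℝ (E d)).symm (fderiv ℝ (fderiv ℝ V) x u)‖ ≤ _
  rw [LinearIsometryEquiv.norm_map]
  exact ContinuousLinearMap.opNorm_le_bound _ (by positivity) fun v => hV.Pot_bilin x u v

theorem InClass.lip_grad (hV : InClass V) : LipschitzWith 2 (gradient V) :=
  lipschitzWith_of_nnnorm_fderiv_le (hV.contDiff_grad.differentiable (by simp)) fun x => by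
    exact_mod_cast hV.norm_fderiv_grad x

theorem InClass.norm_grad (hV : InClass V) (x : E d) : ‖gradient V x‖ ≤ 2 * ‖x‖ := by
  simpa [hV.2.2.1] using hV.lip_grad.dist_le_mul x 0

theorem InClass.mono_grad (hV : InClass V) (x y : E d) :
    ‖x - y‖ ^ 2 ≤ ⟪x - y, gradient V x - gradient V y⟫ := by
  have h1 := hV.Pot_lower x (y - x)
  have h2 := hV.Pot_lower y (x - y)
  rw [add_sub_cancel] at h1 h2
  rw [← neg_sub x y, inner_neg_right, norm_neg] at h1
  rw [real_inner_comm, inner_sub_left]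
  linarith

theorem InClass.mid (hV : InClass V) (x y : E d) :
    V ((1 / 2 : ℝ) • (x + y)) ≤ (V x + V y) / 2 - ‖x - y‖ ^ 2 / 8 := by
  have h1 := hV.Pot_lower ((1 / 2 : ℝ) • (x + y)) ((1 / 2 : ℝ) • (x - y))
  have h2 := hV.Pot_lower ((1 / 2 : ℝ) • (x + y)) (-((1 / 2 : ℝ) • (x - y)))
  rw [show (1 / 2 : ℝ) • (x + y) + (1 / 2 : ℝ) • (x - y) = x by module] at h1
  rw [show (1 / 2 : ℝ) • (x + y) + -((1 / 2 : ℝ) • (x - y)) = y by module, inner_neg_right,
    norm_neg] at h2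
  rw [norm_smul, Real.norm_eq_abs, abs_of_pos (by norm_num : (0 : ℝ) < 1 / 2)] at h1 h2
  linarith

theorem InClass.upper (hV : InClass V) (x z : E d) :
    V (x + z) ≤ V x + ⟪gradient V x, z⟫ + ‖z‖ ^ 2 := by
  have := Pot_taylor (c := -(2 * ‖z‖ ^ 2)) (fun t => (hV.Pot_line x z t).1.fun_neg)
    (fun t => (hV.Pot_line x z t).2.fun_neg) fun t => neg_le_neg (hV.hess _ z).2
  simp only [zero_smul, add_zero, one_smul] at this
  rw [Pot_inner_grad]
  linarith

theorem Pot_sqrt_pos (t : ℝ) : 0 < √(1 + t ^ 2) := Real.sqrt_pos.2 (by positivity)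

theorem Pot_sq_sqrt (t : ℝ) : √(1 + t ^ 2) ^ 2 = 1 + t ^ 2 := Real.sq_sqrt (by positivity)

theorem Pot_cd_sqrt : ContDiff ℝ ∞ fun t : ℝ => √(1 + t ^ 2) :=
  (contDiff_const.add (contDiff_id.pow 2)).sqrt fun t => by positivity

theorem contDiff_Sn : ContDiff ℝ ∞ Sn :=
  contDiff_id.div Pot_cd_sqrt fun t => (Pot_sqrt_pos t).ne'

theorem contDiff_Cs : ContDiff ℝ ∞ Cs :=
  contDiff_const.div Pot_cd_sqrt fun t => (Pot_sqrt_pos t).ne'

theorem Pot_deriv_sqrt (t : ℝ) : HasDerivAt (fun t : ℝ => √(1 + t ^ 2)) (t / √(1 + t ^ 2)) t := by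
  refine (((hasDerivAt_pow 2 t).const_add 1).sqrt (by positivity)).congr_deriv ?_
  have := Pot_sqrt_pos t
  push_cast
  field_simp

theorem hasDerivAt_Sn (t : ℝ) : HasDerivAt Sn (Cs t ^ 3) t := by
  refine ((hasDerivAt_id' t).fun_div (Pot_deriv_sqrt t) (Pot_sqrt_pos t).ne').congr_deriv ?_
  have h0 := Pot_sqrt_pos t
  have h1 := Pot_sq_sqrt t
  unfold Cs
  field_simp
  linarith

theorem hasDerivAt_Cs (t : ℝ) : HasDerivAt Cs (-(Sn t * Cs t ^ 2)) t := by
  refine ((hasDerivAt_const t (1 : ℝ)).fun_div (Pot_deriv_sqrt t)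
    (Pot_sqrt_pos t).ne').congr_deriv ?_
  have h0 := Pot_sqrt_pos t
  unfold Cs Sn
  field_simp
  ring

theorem Sn_sq_add (t : ℝ) : Sn t ^ 2 + Cs t ^ 2 = 1 := by
  unfold Sn Cs
  rw [div_pow, div_pow, Pot_sq_sqrt]
  field_simp
  ring

theorem Cs_pos (t : ℝ) : 0 < Cs t := one_div_pos.2 (Pot_sqrt_pos t)

theorem Cs_le_one (t : ℝ) : Cs t ≤ 1 := by
  have := Sn_sq_add t
  have := Cs_pos t
  nlinarith [sq_nonneg (Sn t)]

theorem Sn_eq (t : ℝ) : Sn t = t * Cs t := by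
  unfold Sn Cs
  ring

theorem Cs_ge {t : ℝ} (h : |t| ≤ 1 / 2) : 3 / 4 ≤ Cs t := by
  have h1 : t ^ 2 ≤ (1 / 2) ^ 2 := by
    rw [← sq_abs]; exact pow_le_pow_left₀ (abs_nonneg _) h 2
  have h2 : √(1 + t ^ 2) ≤ 4 / 3 := Real.sqrt_le_iff.2 ⟨by norm_num, by linarith⟩
  rw [Cs, le_div_iff₀ (Pot_sqrt_pos t)]
  linarith

theorem Sn_zero : Sn 0 = 0 := by simp [Sn]

theorem Cs_zero : Cs 0 = 1 := by simp [Cs]

theorem Sn_mono : Monotone Sn :=
  monotone_of_deriv_nonneg (fun t => (hasDerivAt_Sn t).differentiableAt) fun t => by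
    rw [(hasDerivAt_Sn t).deriv]
    exact (pow_pos (Cs_pos t) 3).le

theorem Pot_Sn_sq (t : ℝ) : Sn t ^ 2 = t ^ 2 / (1 + t ^ 2) := by rw [Sn, div_pow, Pot_sq_sqrt]

theorem brA_mem {T : ℝ} (h0 : 0 < T) (h1 : T ≤ 1 / 4) : 0 ≤ brA T ∧ brA T ≤ 1 / 2 := by
  refine ⟨by unfold brA; positivity, ?_⟩
  have e : brA T = (1 + 4 * T ^ 2) / (4 * (1 + T ^ 2)) := by
    rw [brA, Pot_Sn_sq, Pot_Sn_sq]
    field_simp
    ring
  rw [e, div_le_iff₀ (by positivity)]
  nlinarith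

theorem brB_ge {T : ℝ} (h0 : 0 < T) (h1 : T ≤ 1 / 4) : T / 2 ≤ brB T := by
  refine Real.le_sqrt_of_sq_le ?_
  have h2 := (brA_mem h0 h1).2
  have h3 : 3 / 4 ≤ Cs T := Cs_ge (by rw [abs_of_pos h0]; linarith)
  have h4 : (T * (3 / 4)) ^ 2 ≤ Sn T ^ 2 := by
    rw [Sn_eq]; gcongr
  calc (T / 2) ^ 2 ≤ (T * (3 / 4)) ^ 2 * (1 / 2) := by nlinarith
    _ ≤ _ := mul_le_mul h4 (by linarith) (by norm_num) (by positivity)

theorem Dom.mono {Ω X Y : Type*} [MeasurableSpace Ω] [Norm X] [Norm Y] {μ : Measure Ω} {F : Ω → X}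
    {G : Ω → Y} {c c' : ℝ} (h : Dom μ F c) (hG : ∀ᵐ o ∂μ, ‖G o‖ ≤ ‖F o‖) (hc : c ≤ c') :
    Dom μ G c' := by
  obtain ⟨r, h1, h2, h3⟩ := h
  refine ⟨r, h1, h2.trans hc, ?_⟩
  filter_upwards [h3, hG] with o a b using b.trans a

theorem Dom.add_le {Ω X Y Z : Type*} [MeasurableSpace Ω] [Norm X] [Norm Y] [Norm Z]
    {μ : Measure Ω} {F : Ω → X} {G : Ω → Y} {H : Ω → Z} {c c' a b : ℝ} (h : Dom μ F c)
    (h' : Dom μ G c') (ha : 0 ≤ a) (hb : 0 ≤ b)
    (hH : ∀ᵐ o ∂μ, ‖H o‖ ≤ a * ‖F o‖ + b * ‖G o‖) : Dom μ H (a * c + b * c') := by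
  obtain ⟨r, h1, h2, h3⟩ := h
  obtain ⟨r', h1', h2', h3'⟩ := h'
  refine ⟨fun o => a * r o + b * r' o, (h1.const_mul a).add (h1'.const_mul b), ?_, ?_⟩
  · rw [integral_add (h1.const_mul a) (h1'.const_mul b), integral_const_mul, integral_const_mul]
    gcongr
  · filter_upwards [h3, h3', hH] with o e1 e2 e3
    refine e3.trans ?_
    gcongr

theorem Dom.smul_le {Ω X Z : Type*} [MeasurableSpace Ω] [Norm X] [Norm Z]
    {μ : Measure Ω} {F : Ω → X} {H : Ω → Z} {c a : ℝ} (h : Dom μ F c) (ha : 0 ≤ a)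
    (hH : ∀ᵐ o ∂μ, ‖H o‖ ≤ a * ‖F o‖) : Dom μ H (a * c) := by
  have := h.add_le (H := H) h ha le_rfl (by simpa using hH)
  simpa using this

theorem Dom.sum {Ω X ι : Type*} [MeasurableSpace Ω] [SeminormedAddCommGroup X] {μ : Measure Ω} (s : Finset ι)
    {F : ι → Ω → X} {c : ι → ℝ} (h : ∀ i ∈ s, Dom μ (F i) (c i)) :
    Dom μ (fun o => ∑ i ∈ s, ‖F i o‖) (∑ i ∈ s, c i) := by
  classical
  induction s using Finset.induction_on with
  | empty => exact ⟨fun _ => 0, integrable_zero _ _ _, by simp, by simp⟩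
  | insert a s ha ih =>
    have h1 := (h a (Finset.mem_insert_self a s)).add_le
      (H := fun o => ∑ i ∈ insert a s, ‖F i o‖)
      (ih fun i hi => h i (Finset.mem_insert_of_mem hi)) zero_le_one zero_le_one
      (Filter.Eventually.of_forall fun o => by
        rw [Finset.sum_insert ha, one_mul, one_mul]
        exact (norm_add_le _ _).trans (by rw [norm_norm]))
    rwa [one_mul, one_mul, ← Finset.sum_insert ha] at h1

theorem Dom.comp {Ω Ω' X : Type*} [MeasurableSpace Ω] [MeasurableSpace Ω'] [Norm X] {μ : Measure Ω}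
    {ν : Measure Ω'} {φ : Ω' → Ω} (hφ : MeasurePreserving φ ν μ) {F : Ω → X} {c : ℝ}
    (h : Dom μ F c) : Dom ν (fun o => F (φ o)) c := by
  obtain ⟨r, h1, h2, h3⟩ := h
  refine ⟨fun o => r (φ o), hφ.integrable_comp_of_integrable h1, ?_,
    hφ.quasiMeasurePreserving.ae h3⟩
  rw [← integral_map hφ.measurable.aemeasurable (by rw [hφ.map_eq]; exact h1.1), hφ.map_eq]
  exact h2

theorem Dom.of_integrable {Ω X : Type*} [MeasurableSpace Ω] [NormedAddCommGroup X] {μ : Measure Ω}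
    {F : Ω → X} {c : ℝ} (h : Integrable F μ) (hc : ∫ o, ‖F o‖ ∂μ ≤ c) : Dom μ F c :=
  ⟨fun o => ‖F o‖, h.norm, hc, Filter.Eventually.of_forall fun _ => le_rfl⟩

theorem Dom.integrable {Ω X : Type*} [MeasurableSpace Ω] [NormedAddCommGroup X] {μ : Measure Ω}
    {F : Ω → X} {c : ℝ} (h : Dom μ F c) (hm : AEStronglyMeasurable F μ) :
    Integrable F μ ∧ ∫ o, ‖F o‖ ∂μ ≤ c := by
  obtain ⟨r, h1, h2, h3⟩ := h
  have hi := h1.mono' hm h3
  exact ⟨hi, (integral_mono_ae hi.norm h1 h3).trans h2⟩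

/-- Fubini for `Dom` -/
theorem Dom.prod {Ω Ω' X : Type*} [MeasurableSpace Ω] [MeasurableSpace Ω'] [NormedAddCommGroup X]
    {μ : Measure Ω} {ν : Measure Ω'} [SFinite μ] [SFinite ν] {F : Ω × Ω' → X} {c : Ω → ℝ} {c' : ℝ}
    (hm : AEStronglyMeasurable F (μ.prod ν)) (h : ∀ o, Dom ν (fun o' => F (o, o')) (c o))
    (hc : Integrable c μ) (hc' : ∫ o, c o ∂μ ≤ c') : Dom (μ.prod ν) F c' := by
  have h1 : ∀ᵐ o ∂μ, Integrable (fun o' => F (o, o')) ν ∧ ∫ o', ‖F (o, o')‖ ∂ν ≤ c o := by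
    filter_upwards [hm.prodMk_left] with o ho using (h o).integrable ho
  have h2 : Integrable (fun o => ∫ o', ‖F (o, o')‖ ∂ν) μ := by
    refine hc.mono' hm.norm.integral_prod_right' ?_
    filter_upwards [h1] with o ho
    rw [Real.norm_eq_abs, abs_of_nonneg (integral_nonneg fun _ => norm_nonneg _)]
    exact ho.2
  have hi : Integrable F (μ.prod ν) := (integrable_prod_iff hm).2 ⟨h1.mono fun _ ho => ho.1, h2⟩
  refine Dom.of_integrable hi ?_
  rw [integral_prod _ hi.norm]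
  exact (integral_mono_ae h2 hc (h1.mono fun _ ho => ho.2)).trans hc'

theorem Dom.abs_integral_sub {Ω X : Type*} [MeasurableSpace Ω] [NormedAddCommGroup X]
    {μ : Measure Ω} {A B : Ω → X} {c : ℝ} (h : Dom μ (fun o => A o - B o) c) {f : X → ℝ} {L : ℝ≥0}
    (hf : LipschitzWith L f) (hA : Integrable (fun o => f (A o)) μ)
    (hB : Integrable (fun o => f (B o)) μ) :
    |∫ o, f (A o) ∂μ - ∫ o, f (B o) ∂μ| ≤ L * c := by
  obtain ⟨r, h1, h2, h3⟩ := h
  rw [← integral_sub hA hB, ← Real.norm_eq_abs]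
  refine (norm_integral_le_of_norm_le (h1.const_mul L) ?_).trans ?_
  · filter_upwards [h3] with o ho
    exact (hf.norm_sub_le _ _).trans (mul_le_mul_of_nonneg_left ho L.2)
  · rw [integral_const_mul]
    exact mul_le_mul_of_nonneg_left h2 L.2

end Vale.Agent.P347
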