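import Vale.Agent.P347.Gauss
import Vale.Agent.P347.Pot
import Vale.Agent.P347.ApproxAux

namespace Vale.Agent.P347

open MeasureTheory ProbabilityTheory
open scoped RealInnerProductSpace NNReal

variable {d : ℕ}

variable {Ω : Type} [MeasurableSpace Ω]

theorem Approx.mono {T : (E d → ℝ) → Ω → (E d → ℝ) → ℝ} {e e' : (E d → ℝ) → Ω → ℝ} {q q' : ℕ}
    (h : Approx Ω T e q) (he : ∀ V, InClass V → ∀ o, e V o ≤ e' V o) (hq : q ≤ q') :
    Approx Ω T e' q' := by
  obtain ⟨R, mR, P, hS, F, hF, H⟩ := h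
  exact ⟨R, mR, P, hS, F, hF.mono _ hq, fun V hV o => ⟨(H V hV o).1, fun f L hf =>
    ((H V hV o).2 f L hf).trans (mul_le_mul_of_nonneg_left (he V hV o) L.2)⟩⟩

theorem Approx.congr {T T' : (E d → ℝ) → Ω → (E d → ℝ) → ℝ} {e e' : (E d → ℝ) → Ω → ℝ} {q : ℕ}
    (h : Approx Ω T e q) (hT : ∀ V, InClass V → ∀ o (f : E d → ℝ) (L : ℝ≥0), LipschitzWith L f →
      |T V o f - T' V o f| ≤ L * e' V o) :
    Approx Ω T' (fun V o => e V o + e' V o) q := by
  obtain ⟨R, mR, P, hS, F, hF, H⟩ := h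
  refine ⟨R, mR, P, hS, F, hF, fun V hV o => ⟨(H V hV o).1, fun f L hf => ?_⟩⟩
  rw [mul_add]
  exact (abs_sub_le _ _ _).trans (add_le_add ((H V hV o).2 f L hf) (hT V hV o f L hf))

theorem Approx.nonneg {T : (E d → ℝ) → Ω → (E d → ℝ) → ℝ} {e : (E d → ℝ) → Ω → ℝ} {q : ℕ}
    (h : Approx Ω T e q) {V : E d → ℝ} (hV : InClass V) (o : Ω) : 0 ≤ e V o := by
  obtain ⟨R, mR, P, hS, F, hF, H⟩ := h
  have := (abs_nonneg _).trans ((H V hV o).2 (fun _ => 0) 1 (LipschitzWith.const' 0))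
  simpa using this

theorem Approx.comap {Ω' : Type} [MeasurableSpace Ω'] {T : (E d → ℝ) → Ω → (E d → ℝ) → ℝ}
    {e : (E d → ℝ) → Ω → ℝ} {q : ℕ} (h : Approx Ω T e q) {φ : Ω' → Ω} (hφ : Measurable φ) :
    Approx Ω' (fun V o => T V (φ o)) (fun V o => e V (φ o)) q := by
  obtain ⟨R, mR, P, hS, F, hF, H⟩ := h
  exact ⟨R, mR, P, hS, _, hF.comap (Ω' × R) inferInstance (fun p => (φ p.1, p.2))
    ((hφ.comp measurable_fst).prodMk measurable_snd), fun V hV o => H V hV (φ o)⟩

theorem Approx.of_eq {T T' : (E d → ℝ) → Ω → (E d → ℝ) → ℝ} {e e' : (E d → ℝ) → Ω → ℝ} {q q' : ℕ}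
    (h : Approx Ω T e q) (hT : ∀ V, InClass V → ∀ o (f : E d → ℝ) (L : ℝ≥0), LipschitzWith L f →
      T V o f = T' V o f) (he : ∀ V, InClass V → ∀ o, e V o ≤ e' V o) (hq : q ≤ q') :
    Approx Ω T' e' q' :=
  (h.congr (e' := fun _ _ => 0) fun V hV o f L hf => by simp [hT V hV o f L hf]).mono
    (fun V hV o => by simpa using he V hV o) hq

theorem Approx.bind {T₁ : (E d → ℝ) → Ω → (E d → ℝ) → ℝ} {e₁ : (E d → ℝ) → Ω → ℝ} {q₁ : ℕ}
    {T₂ : (E d → ℝ) → Ω × E d → (E d → ℝ) → ℝ} {e₂ : (E d → ℝ) → Ω × E d → ℝ} {q₂ : ℕ}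
    (h₁ : Approx Ω T₁ e₁ q₁) (h₂ : Approx (Ω × E d) T₂ e₂ q₂) (lam b : ℝ≥0)
    (hT : ∀ V, InClass V → ∀ o (f : E d → ℝ) (L : ℝ≥0), LipschitzWith L f →
      LipschitzWith (lam * L) fun y => T₂ V (o, y) f)
    (he : ∀ V, InClass V → ∀ o, LipschitzWith b fun y => e₂ V (o, y)) :
    Approx Ω (fun V o f => T₁ V o fun y => T₂ V (o, y) f)
      (fun V o => (lam + b) * e₁ V o + T₁ V o fun y => e₂ V (o, y)) (q₁ + q₂) := by
  obtain ⟨R₁, m₁, P₁, hS₁, F₁, hF₁, H₁⟩ := h₁
  obtain ⟨R₂, m₂, P₂, hS₂, F₂, hF₂, H₂⟩ := h₂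
  have := hS₁.prob
  have := hS₂.prob
  have hD := (hF₁.comap (Ω × (R₁ × R₂)) inferInstance (fun p => (p.1, p.2.1)) (by fun_prop)).seq _
    (hF₂.comap ((Ω × (R₁ × R₂)) × E d) inferInstance (fun p => ((p.1.1, p.2), p.1.2.2))
      (by fun_prop))
  refine ⟨R₁ × R₂, inferInstance, P₁.prod P₂, hS₁.prod hS₂, _, hD, fun V hV o => ?_⟩
  have hY := (H₁ V hV o).1
  set Y := fun r => F₁ (gradient V) (o, r) with hYd
  have hm : Measurable fun r : R₁ × R₂ => F₂ (gradient V) ((o, Y r.1), r.2) :=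
    (hD.measurable hV.lip_grad.continuous.measurable).comp measurable_prodMk_left
  have hie := approxAux_int hY (he V hV o)
  have hint : Integrable (fun r : R₁ × R₂ => F₂ (gradient V) ((o, Y r.1), r.2)) (P₁.prod P₂) := by
    rw [integrable_prod_iff hm.aestronglyMeasurable]
    refine ⟨ae_of_all _ fun r => (H₂ V hV (o, Y r)).1, ?_⟩
    refine ((approxAux_int hY (hT V hV o _ 1 lipschitzWith_one_norm)).add hie).mono'
      hm.aestronglyMeasurable.norm.integral_prod_right' (ae_of_all _ fun r => ?_)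
    have h1 := (abs_le.1 ((H₂ V hV (o, Y r)).2 _ 1 lipschitzWith_one_norm)).2
    rw [Real.norm_of_nonneg (integral_nonneg fun _ => norm_nonneg _)]
    simp only [NNReal.coe_one, one_mul, Pi.add_apply] at h1 ⊢
    linarith
  refine ⟨hint, fun f L hf => ?_⟩
  have hfi := approxAux_int hint hf
  have hiT := approxAux_int hY (hT V hV o f L hf)
  have h1 := (H₁ V hV o).2 _ _ (hT V hV o f L hf)
  have h2 := (abs_le.1 ((H₁ V hV o).2 _ _ (he V hV o))).2
  have h3 : |∫ r, f (F₂ (gradient V) ((o, Y r.1), r.2)) ∂P₁.prod P₂ -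
      ∫ r, T₂ V (o, Y r) f ∂P₁| ≤ L * ∫ r, e₂ V (o, Y r) ∂P₁ := by
    rw [integral_prod _ hfi, ← integral_sub hfi.integral_prod_left hiT, ← integral_const_mul]
    rw [← Real.norm_eq_abs]
    exact norm_integral_le_of_norm_le (hie.const_mul _)
      (ae_of_all _ fun r => by rw [Real.norm_eq_abs]; exact (H₂ V hV (o, Y r)).2 f L hf)
  have h4 := mul_le_mul_of_nonneg_left h2 L.2
  refine (abs_sub_le _ (∫ r, T₂ V (o, Y r) f ∂P₁) _).trans ?_
  simp only [NNReal.coe_mul, NNReal.val_eq_coe] at h1 h4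
  have h5 := add_le_add h3 h1
  refine h5.trans ?_
  simp only [hYd]
  linarith

theorem approx_gauss : Approx Ω (fun (_ : E d → ℝ) _ f => ∫ z, f z ∂gam d) (fun _ _ => 0) 0 :=
  ⟨E d, inferInstance, gam d, seed_gam, _, Det.stop 0 _ _ _ measurable_snd,
    fun _ _ _ => ⟨IsGaussian.integrable_fun_id, fun f L _ => by simp⟩⟩

theorem approx_query {x : Ω → E d} (hx : Measurable x) (w : ℝ) :
    Approx Ω (fun V o f => f (w • gradient V (x o))) (fun _ _ => 0) 1 :=
  ⟨Unit, inferInstance, Measure.dirac (), seed_unit, _,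
    Det.ask 0 (Ω × Unit) inferInstance (fun p => x p.1) (hx.comp measurable_fst) _
      (Det.stop 0 _ _ (fun p => w • p.2) (measurable_snd.const_smul w)),
    fun V _ o => ⟨integrable_const (w • gradient V (x o)), fun f L _ => by simp⟩⟩

theorem approx_det {g : Ω → E d} (hg : Measurable g) :
    Approx Ω (fun (_ : E d → ℝ) o f => f (g o)) (fun _ _ => 0) 0 :=
  ⟨Unit, inferInstance, Measure.dirac (), seed_unit, _,
    Det.stop 0 (Ω × Unit) inferInstance (fun p => g p.1) (hg.comp measurable_fst),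
    fun _ _ o => ⟨integrable_const (g o), fun f L _ => by simp⟩⟩

theorem samp_known {φ : Ω → E d} (hφ : Measurable φ) (t : ℝ) :
    Samp Ω (fun _ => φ) t (fun _ _ => 0) 0 :=
  ⟨E d, inferInstance, gam d, seed_gam, _,
    Det.stop 0 (Ω × E d) inferInstance (fun p => φ p.1 + t • p.2)
      ((hφ.comp measurable_fst).add (measurable_snd.const_smul t)),
    fun _ _ o => ⟨approxAux_gam (φ o) t, fun f L _ => by simp⟩⟩

theorem Samp.affine {u : (E d → ℝ) → Ω → E d} {t : ℝ} {e : (E d → ℝ) → Ω → ℝ} {q : ℕ}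
    (h : Samp Ω u t e q) (a : ℝ) {φ : Ω → E d} (hφ : Measurable φ) :
    Samp Ω (fun V o => a • u V o + φ o) (|a| * t) (fun V o => |a| * e V o) q := by
  have h1 := Approx.bind h (approx_det (Ω := Ω × E d) (g := fun p => a • p.2 + φ p.1)
    ((measurable_snd.const_smul a).add (hφ.comp measurable_fst))) ‖a‖₊ 0
    (fun V _ o f L hf => by
      rw [mul_comm]
      refine hf.comp (LipschitzWith.of_dist_le_mul fun y y' => ?_)
      simp [dist_smul₀])
    (fun V _ o => LipschitzWith.const 0)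
  refine h1.of_eq (fun V _ o f L _ => ?_) (fun V _ o => by simp) le_rfl
  rcases le_total 0 a with ha | ha
  · rw [abs_of_nonneg ha]
    refine integral_congr_ae (ae_of_all _ fun z => ?_)
    simp only [smul_add, mul_smul]
    congr 1
    abel
  · rw [abs_of_nonpos ha, ← gam_neg.integral_comp (MeasurableEquiv.neg _).measurableEmbedding]
    refine integral_congr_ae (ae_of_all _ fun z => ?_)
    simp only [smul_add, smul_neg, neg_mul, neg_smul, mul_smul]
    congr 1
    abel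

/-- Gaussian smoothing keeps Lipschitz constants. -/
theorem lip_smooth {f : E d → ℝ} {L : ℝ≥0} (hf : LipschitzWith L f) (t : ℝ) :
    LipschitzWith L fun y => ∫ z, f (y + t • z) ∂gam d := by
  refine LipschitzWith.of_dist_le_mul fun y y' => ?_
  rw [dist_eq_norm, ← integral_sub (approxAux_int (approxAux_gam y t) hf)
    (approxAux_int (approxAux_gam y' t) hf)]
  refine (norm_integral_le_of_norm_le_const (C := L * dist y y') (ae_of_all _ fun z => ?_)).trans
    (by simp)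
  simpa [← dist_eq_norm] using hf.dist_le_mul (y + t • z) (y' + t • z)

theorem smooth_smooth {f : E d → ℝ} {L : ℝ≥0} (hf : LipschitzWith L f) (a b : ℝ) (y : E d) :
    ∫ z, ∫ z', f (y + a • z + b • z') ∂gam d ∂gam d =
      ∫ z, f (y + √(a ^ 2 + b ^ 2) • z) ∂gam d := by
  have hc : Continuous fun x : E d => f (y + x) := hf.continuous.comp (by fun_prop)
  have h1 : Integrable (fun p : E d × E d => y + a • p.1 + b • p.2) ((gam d).prod (gam d)) :=
    ((approxAux_gam y a).comp_fst _).add ((IsGaussian.integrable_fun_id.smul b).comp_snd _)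
  rw [← integral_prod (fun p : E d × E d => f (y + a • p.1 + b • p.2)) (approxAux_int h1 hf),
    ← integral_map (φ := fun z : E d => √(a ^ 2 + b ^ 2) • z) (f := fun x => f (y + x))
      (by fun_prop) hc.aestronglyMeasurable, ← gam_sum,
    integral_map (by fun_prop) hc.aestronglyMeasurable]
  simp only [add_assoc]

theorem Samp.add {u₁ u₂ : (E d → ℝ) → Ω → E d} {t₁ t₂ : ℝ} {e₁ e₂ : (E d → ℝ) → Ω → ℝ}
    {q₁ q₂ : ℕ} (h₁ : Samp Ω u₁ t₁ e₁ q₁) (h₂ : Samp Ω u₂ t₂ e₂ q₂) :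
    Samp Ω (fun V o => u₁ V o + u₂ V o) (√(t₁ ^ 2 + t₂ ^ 2)) (fun V o => e₁ V o + e₂ V o)
      (q₁ + q₂) := by
  have h3 : Samp (Ω × E d) (fun V p => u₂ V p.1) t₂ (fun V p => e₂ V p.1) q₂ :=
    Approx.comap h₂ measurable_fst
  have h4 := Approx.bind h₁ (h3.affine 1 measurable_snd) 1 0
    (fun V _ o f L hf => by
      rw [one_mul]
      refine LipschitzWith.of_dist_le_mul fun y y' => ?_
      simpa using (lip_smooth hf (|1| * t₂)).dist_le_mul (u₂ V o + y) (u₂ V o + y'))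
    (fun V _ o => LipschitzWith.const (|1| * e₂ V o))
  refine h4.of_eq (fun V _ o f L hf => ?_) (fun V _ o => by simp) le_rfl
  rw [← smooth_smooth hf]
  simp only [one_smul, abs_one, one_mul]
  refine integral_congr_ae (ae_of_all _ fun z => integral_congr_ae (ae_of_all _ fun z' => ?_))
  simp only
  congr 2
  abel

theorem Samp.noise_mono {u : (E d → ℝ) → Ω → E d} {t t' : ℝ} {e : (E d → ℝ) → Ω → ℝ} {q : ℕ}
    (h : Samp Ω u t e q) (ht : 0 ≤ t) (ht' : t ≤ t') : Samp Ω u t' e q := by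
  have h1 := h.add (samp_known (φ := fun _ => (0 : E d)) measurable_const √(t' ^ 2 - t ^ 2))
  rw [Real.sq_sqrt (by nlinarith), add_sub_cancel, Real.sqrt_sq (ht.trans ht')] at h1
  simpa using h1

/-- from the internal model to the model of the statement -/
theorem Approx.suffices {T : (E d → ℝ) → Unit → (E d → ℝ) → ℝ} {e : (E d → ℝ) → Unit → ℝ} {q : ℕ}
    (h : Approx Unit T e q) {s : ℝ} (hs : 0 < s)
    (H : ∀ V, InClass V → ∀ B : Set (E d), MeasurableSet B →
      |T V () (fun y => (gam d).real {z | y + s • z ∈ B}) - (gibbs V).real B| + 2 / s * e V () ≤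
        1 / 10) : Suffices d q := by
  obtain ⟨R, mR, P, hS, F, hF, HF⟩ := h
  have := hS.prob
  obtain ⟨N, ψ, hψ⟩ := hS.prod (seed_gam (d := d))
  have hD := (hF.comap (R × E d) inferInstance (fun p => ((), p.1)) (by fun_prop)).seq _
    (Det.stop 0 ((R × E d) × E d) inferInstance (fun p => p.2 + s • p.1.2) (by fun_prop))
  obtain ⟨Qy, out, hQ, hout, he⟩ := (hD.comap _ inferInstance ψ hψ.measurable).toAlg
  refine ⟨⟨N, Qy, out, hQ, hout⟩, fun V hV B hB => ?_⟩
  have hm : Measurable fun p : R × E d => F (gradient V) ((), p.1) + s • p.2 :=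
    hD.measurable hV.lip_grad.continuous.measurable
  have e1 : Alg.law ⟨N, Qy, out, hQ, hout⟩ q V =
      (P.prod (gam d)).map fun p : R × E d => F (gradient V) ((), p.1) + s • p.2 := by
    rw [← hψ.map_eq, Measure.map_map hm hψ.measurable, Alg.law]
    congr 1
    funext o
    rw [Alg.hist_eq]
    exact he V o
  have e2 : (Alg.law ⟨N, Qy, out, hQ, hout⟩ q V).real B =
      ∫ r, (gam d).real {z | F (gradient V) ((), r) + s • z ∈ B} ∂P := by
    rw [e1, map_measureReal_apply hm hB, ← integral_indicator_one (hm hB),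
      integral_prod _ ((integrable_const 1).indicator (hm hB))]
    refine integral_congr_ae (ae_of_all _ fun r => ?_)
    exact integral_indicator_one (measurable_prodMk_left (hm hB))
  have h1 := (HF V hV ()).2 (fun y => (gam d).real {z | y + s • z ∈ B}) _
    (LipschitzWith.of_dist_le' (K := 2 / s) fun y y' => by
      rw [Real.dist_eq, dist_eq_norm]; exact lip_noise hs hB y y')
  rw [Real.coe_toNNReal _ (by positivity)] at h1
  rw [e2]
  refine le_trans ?_ (H V hV B hB)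
  rw [add_comm]
  exact (abs_sub_le _ _ _).trans (add_le_add_left h1 _)

end Vale.Agent.P347
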