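import Vale.Agent.P347.CalcF

namespace Vale.Agent.P347

open MeasureTheory ProbabilityTheory
open scoped ContDiff RealInnerProductSpace

noncomputable section

theorem PolyG.comp_aff {X Y : Type*} [SeminormedAddCommGroup X] [SeminormedAddCommGroup Y]
    {F : Y → ℝ} (h : PolyG F) {φ : X → Y} {a : ℝ} (ha : 0 ≤ a) (hφ : ∀ x, ‖φ x‖ ≤ a + ‖x‖) :
    PolyG fun x => F (φ x) := by
  obtain ⟨C, k, hC, h⟩ := h.exists_nonneg
  refine ⟨C * (1 + a) ^ k, k, fun x => (h _).trans ?_⟩
  rw [mul_assoc, ← mul_pow]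
  refine mul_le_mul_of_nonneg_left (pow_le_pow_left₀ (by positivity) ?_ k) hC
  nlinarith [hφ x, mul_nonneg ha (norm_nonneg x)]

variable (π : Par) (t : ℝ)

/-- smooth functions with polynomial growth at time `t` -/
def PG : Subalgebra ℝ (RZ π) where
  carrier := {u | PolyG fun z : E π.d × E π.d => evA (t, z) u}
  mul_mem' := fun {u v} (hu : PolyG _) (hv : PolyG _) => by
    simpa only [Set.mem_ofPred_eq, map_mul] using hu.mul hv
  add_mem' := fun {u v} (hu : PolyG _) (hv : PolyG _) => by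
    simpa only [Set.mem_ofPred_eq, map_add] using hu.add hv
  algebraMap_mem' := fun c => by
    simpa only [Set.mem_ofPred_eq, AlgHom.commutes] using PolyG.const (algebraMap ℝ ℝ c)

theorem mem_PG {u : RZ π} : u ∈ PG π t ↔ PolyG fun z : E π.d × E π.d => evA (t, z) u := Iff.rfl

theorem cont_ev (u : RZ π) : Continuous fun z : E π.d × E π.d => evA (t, z) u :=
  (smA_smooth u).continuous.comp (continuous_const.prodMk continuous_id)

/-- the potential of the tilt -/
def WW (x : E π.d) : ℝ := Lam π.V (π.s * Cs t) (π.m + (π.s * Sn t) • x)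

theorem WW_smooth : ContDiff ℝ ∞ (WW π t) :=
  (contDiff_Lam π.hV (sC_pos π t)).comp (contDiff_const.add (contDiff_id.const_smul _))

theorem WW_nonneg (x : E π.d) : 0 ≤ WW π t x := Lam_nonneg π.hV _ _

theorem mu_eq : mu π.V π.m π.s t = ((gam π.d).tilted fun x => -WW π t x).prod (gam π.d) := rfl

instance : IsProbabilityMeasure ((gam π.d).tilted fun x => -WW π t x) :=
  isProb_tilted (WW_smooth π t).continuous (WW_nonneg π t)

instance : IsProbabilityMeasure (mu π.V π.m π.s t) := by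
  rw [mu_eq]
  infer_instance

variable {π t}

theorem PG.integrable {u : RZ π} (h : u ∈ PG π t) :
    Integrable (fun z => evA (t, z) u) (mu π.V π.m π.s t) := by
  obtain ⟨C, R, hC, h⟩ := PolyG.le_exp h
  have h1 := (integrable_exp_norm_tilted (WW_smooth π t).continuous (WW_nonneg π t) |R|).mul_prod
    (integrable_exp_norm (d := π.d) |R|)
  refine (h1.const_mul C).mono' (cont_ev π t u).aestronglyMeasurable
    (Filter.Eventually.of_forall fun z => (h z).trans (mul_le_mul_of_nonneg_left ?_ hC))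
  rw [← Real.exp_add, Real.exp_le_exp, ← mul_add]
  refine (mul_le_mul_of_nonneg_right (le_abs_self R) (norm_nonneg _)).trans
    (mul_le_mul_of_nonneg_left ?_ (abs_nonneg R))
  exact max_le (by linarith [norm_nonneg z.2]) (by linarith [norm_nonneg z.1])

/-- integration -/
def II (π : Par) (t : ℝ) (u : RZ π) : ℝ := ∫ z, evA (t, z) u ∂mu π.V π.m π.s t

theorem II_add {u v : RZ π} (hu : u ∈ PG π t) (hv : v ∈ PG π t) :
    II π t (u + v) = II π t u + II π t v := by
  simp only [II, map_add]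
  exact integral_add (PG.integrable hu) (PG.integrable hv)

theorem II_smul (c : ℝ) (u : RZ π) : II π t (c • u) = c * II π t u := by
  simp only [II, map_smul, smul_eq_mul]
  exact integral_const_mul _ _

theorem II_sum {ι : Type} [Fintype ι] {u : ι → RZ π} (hu : ∀ i, u i ∈ PG π t) :
    II π t (∑ i, u i) = ∑ i, II π t (u i) := by
  simp only [II, map_sum]
  exact integral_finsetSum _ fun i _ => PG.integrable (hu i)

theorem II_mono {u v : RZ π} (hu : u ∈ PG π t) (hv : v ∈ PG π t)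
    (h : ∀ z, evA (t, z) u ≤ evA (t, z) v) : II π t u ≤ II π t v :=
  integral_mono (PG.integrable hu) (PG.integrable hv) h

theorem II_const (c : ℝ) : II π t (algebraMap ℝ _ c) = c := by simp [II]

theorem norm_gF_le (z : E π.d × E π.d) :
    ‖gF π.V π.m π.s (t, z)‖ ≤ 4 * (√π.d + ‖π.m‖) + 4 * |π.s * Sn t| * ‖z‖ := by
  have h1 := Cs_pos t
  have h2 := Cs_le_one t
  have h3 := π.hs
  have h4 := π.hs'
  have h5 : (π.s * Cs t) ^ 2 ≤ π.s ^ 2 := by
    refine pow_le_pow_left₀ (by positivity) ?_ 2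
    nlinarith
  have h := norm_gg_le π.hV (sC_pos π t).le (by linarith) (π.m + (π.s * Sn t) • z.1)
  have h6 : ‖π.m + (π.s * Sn t) • z.1‖ ≤ ‖π.m‖ + |π.s * Sn t| * ‖z‖ := by
    refine (norm_add_le _ _).trans ?_
    rw [norm_smul, Real.norm_eq_abs]
    have := mul_le_mul_of_nonneg_left (norm_fst_le z) (abs_nonneg (π.s * Sn t))
    linarith
  rw [Nm] at h
  change ‖gg π.V (π.s * Cs t) (π.m + (π.s * Sn t) • z.1)‖ ≤ _
  linarith

theorem PG_g (i : Fin π.d) : (2 * π.s) • pb π (Th π {i}) ∈ PG π t := by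
  refine PolyG.of_linear (a := 4 * (√π.d + ‖π.m‖)) (b := 4 * |π.s * Sn t|) fun z => ?_
  rw [ev_gF]
  exact (PiLp.norm_apply_le (gF π.V π.m π.s (t, z)) i).trans (norm_gF_le z)

theorem PG_xZ (i : Fin π.d) : xZ π i ∈ PG π t :=
  PolyG.of_linear (a := 0) (b := 1) fun z => by
    have h1 : |z.1 i| ≤ ‖z.1‖ := PiLp.norm_apply_le z.1 i
    have h2 := norm_fst_le z
    rw [evA_xZ]
    linarith

theorem PG_GZ (i : Fin π.d) : GZ π i ∈ PG π t :=
  PolyG.of_linear (a := 0) (b := 1) fun z => by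
    have h1 : |z.2 i| ≤ ‖z.2‖ := PiLp.norm_apply_le z.2 i
    have h2 := norm_snd_le z
    rw [evA_GZ]
    linarith

theorem PG_Sg (i : Fin π.d) : pb π (SY π * gY π i) ∈ PG π t := by
  have h := (PolyG.const (Sn t * π.s)).mul (PG_g (t := t) i)
  refine h.of_le fun z => le_of_eq ?_
  rw [map_mul, map_mul, ev_SY, ev_gY, ev_gF, mul_assoc]

theorem PG_wZ (i : Fin π.d) : wZ π i ∈ PG π t := add_mem (PG_xZ i) (PG_Sg i)

theorem PG_ite (p : Prop) [Decidable p] : (if p then 1 else 0 : RZ π) ∈ PG π t := by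
  split_ifs
  · exact one_mem _
  · exact zero_mem _

theorem Ml.PG {a b : Sh} {M : Mat a b} (h : Ml a b M) (ht : t ∈ Set.Icc (0 : ℝ) (1 / 4))
    (i : a.T π.d) (j : b.T π.d) : pb π (M π i j) ∈ PG π t := by
  obtain ⟨K, -, h⟩ := h.bound
  refine PolyG.of_linear (a := 1 + K) (b := 0) fun z => ?_
  have h1 := (h π (t, yy π.m π.s (t, z)) ht).entry i j
  rw [evA_pb]
  rw [← sq_abs] at h1
  nlinarith [sq_nonneg (|evA (t, yy π.m π.s (t, z)) (M π i j)| - 1)]

theorem PG_dl {w u : RZ π} {D : Derivation ℝ (RZ π) (RZ π)} (hw : w ∈ PG π t) (hu : u ∈ PG π t)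
    (hD : D u ∈ PG π t) : dl w D u ∈ PG π t := sub_mem (mul_mem hw hu) hD

theorem Tm.PG {r : Par → ℝ} {n : ℕ} {a : Sh} {u : Fld a} (h : Tm r n a u)
    (ht : t ∈ Set.Icc (0 : ℝ) (1 / 4)) : ∀ i, u π i ∈ PG π t := by
  refine Tm.ind (P := fun a u => ∀ i, u π i ∈ P347.PG π t) ?_ ?_ ?_ ?_ ?_ ?_ h
  · exact fun i => PG_ite _
  · exact fun _ i => PG_g i
  · exact fun _ _ h₁ h₂ i => add_mem (h₁ i) (h₂ i)
  · exact fun hM _ h i => sum_mem fun j _ => mul_mem (hM.PG ht i j) (h j)
  · exact fun _ h₁ h₂ i => sum_mem fun c _ => PG_dl (PG_wZ c) (h₁ _) (h₂ (c, c, i))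
  · exact fun _ h₁ h₂ i => sum_mem fun c _ => PG_dl (PG_GZ c) (h₁ _) (h₂ (c, c, i))

theorem fderiv_slice_x (u : RZ π) (x G v : E π.d) :
    fderiv ℝ (fun x => evA (t, x, G) u) x v = evA (t, x, G) (der ((0 : ℝ), v, (0 : E π.d)) u) := by
  have h1 : HasFDerivAt (fun x : E π.d => (t, x, G)) _ x :=
    (hasFDerivAt_const t x).prodMk ((hasFDerivAt_id (𝕜 := ℝ) x).prodMk (hasFDerivAt_const G x))
  have h2 := ((smA_smooth u).differentiable (by simp) (t, x, G)).hasFDerivAt.comp x h1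
  exact congrArg (fun L : E π.d →L[ℝ] ℝ => L v) h2.fderiv

theorem fderiv_slice_G (u : RZ π) (x G v : E π.d) :
    fderiv ℝ (fun G => evA (t, x, G) u) G v = evA (t, x, G) (der ((0 : ℝ), (0 : E π.d), v) u) := by
  have h1 : HasFDerivAt (fun G : E π.d => (t, x, G)) _ G :=
    (hasFDerivAt_const t G).prodMk ((hasFDerivAt_const x G).prodMk (hasFDerivAt_id (𝕜 := ℝ) G))
  have h2 := ((smA_smooth u).differentiable (by simp) (t, x, G)).hasFDerivAt.comp G h1
  exact congrArg (fun L : E π.d →L[ℝ] ℝ => L v) h2.fderiv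

theorem PG_slice_x {u : RZ π} (h : u ∈ PG π t) (G : E π.d) : PolyG fun x => evA (t, x, G) u :=
  PolyG.comp_aff h (φ := fun x => (x, G)) (norm_nonneg G) fun x =>
    max_le (by linarith [norm_nonneg G]) (by linarith [norm_nonneg x])

theorem PG_slice_G {u : RZ π} (h : u ∈ PG π t) (x : E π.d) : PolyG fun G => evA (t, x, G) u :=
  PolyG.comp_aff h (φ := fun G => (x, G)) (norm_nonneg x) fun G =>
    max_le (by linarith [norm_nonneg G]) (by linarith [norm_nonneg x])

theorem smooth_slice_x (u : RZ π) (G : E π.d) : ContDiff ℝ 1 fun x => evA (t, x, G) u :=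
  (contDiff_infty.1 (smA_smooth u) 1).comp (contDiff_const.prodMk (contDiff_id.prodMk contDiff_const))

theorem smooth_slice_G (u : RZ π) (x : E π.d) : ContDiff ℝ 1 fun G => evA (t, x, G) u :=
  (contDiff_infty.1 (smA_smooth u) 1).comp (contDiff_const.prodMk (contDiff_const.prodMk contDiff_id))

theorem ibp_x (c : Fin π.d) (u : RZ π) (hu : u ∈ PG π t) (hD : dx π c u ∈ PG π t) :
    II π t (dl (wZ π c) (dx π c) u) = 0 := by
  have hint := PG.integrable (PG_dl (PG_wZ c) hu hD)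
  rw [II, mu_eq] at *
  rw [integral_prod_symm _ hint]
  refine (integral_congr_ae (Filter.Eventually.of_forall fun G => ?_)).trans (integral_zero _ _)
  have hW : ∀ x, fderiv ℝ (WW π t) x (ev c) = evA (t, x, G) (pb π (SY π * gY π c)) := fun x =>
    (fderiv_slice_x (pb π (LamY π)) x G (ev c)).trans (congrArg (evA (t, x, G)) (dx_pb π c _))
  have hc := (WW_smooth π t).continuous
  have h := ibp_tilted (contDiff_infty.1 (WW_smooth π t) 1) (WW_nonneg π t) (ev c)
    (by simpa only [hW] using PG_slice_x (PG_Sg c) G) (smooth_slice_x u G) (PG_slice_x hu G)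
    (by simpa only [fderiv_slice_x, dx] using PG_slice_x hD G)
  simp only [fderiv_slice_x, hW] at h
  have h1 := (PG_slice_x (mul_mem (PG_wZ c) hu) G).integrable_tilted hc (WW_nonneg π t)
    (smooth_slice_x _ G).continuous
  have h2 := (PG_slice_x hD G).integrable_tilted hc (WW_nonneg π t) (smooth_slice_x _ G).continuous
  simp only [dl_apply, map_sub]
  rw [integral_sub h1 h2, sub_eq_zero]
  refine Eq.trans (integral_congr_ae (Filter.Eventually.of_forall fun x => ?_)) h.symm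
  simp [wZ, evA_xZ, mul_comm, EuclideanSpace.inner_single_right]

theorem ibp_G (c : Fin π.d) (u : RZ π) (hu : u ∈ PG π t) (hD : dG π c u ∈ PG π t) :
    II π t (dl (GZ π c) (dG π c) u) = 0 := by
  have hint := PG.integrable (PG_dl (PG_GZ c) hu hD)
  rw [II, mu_eq] at *
  rw [integral_prod _ hint]
  refine (integral_congr_ae (Filter.Eventually.of_forall fun x => ?_)).trans (integral_zero _ _)
  have h := ibp_tilted (W := fun _ => 0) contDiff_const (fun _ => le_rfl) (ev c)
    (by simpa using PolyG.const 0) (smooth_slice_G u x) (PG_slice_G hu x)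
    (by simpa only [fderiv_slice_G, dG] using PG_slice_G hD x)
  simp only [fderiv_slice_G, tilted_const] at h
  have h1 := (PG_slice_G (mul_mem (PG_GZ c) hu) x).integrable_gam
    (smooth_slice_G _ x).continuous.aestronglyMeasurable
  have h2 := (PG_slice_G hD x).integrable_gam (smooth_slice_G _ x).continuous.aestronglyMeasurable
  simp only [dl_apply, map_sub]
  rw [integral_sub h1 h2, sub_eq_zero]
  refine Eq.trans (integral_congr_ae (Filter.Eventually.of_forall fun G => ?_)) h.symm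
  simp [evA_GZ, mul_comm, EuclideanSpace.inner_single_right]

/-- squared norm of a tensor field -/
def N2 (π : Par) (t : ℝ) {α : Type} [Fintype α] (u : α → RZ π) : ℝ := II π t (∑ i, u i ^ 2)

theorem PG_sq {α : Type} [Fintype α] {u : α → RZ π} (h : ∀ i, u i ∈ PG π t) :
    ∑ i, u i ^ 2 ∈ PG π t := sum_mem fun i _ => pow_mem (h i) 2

theorem sum_swap_le {ι : Type} [Fintype ι] (x : ι → ι → ℝ) :
    ∑ e, ∑ c, x c e * x e c ≤ ∑ e, ∑ c, x e c ^ 2 := by
  have h : ∑ e, ∑ c, 2 * (x c e * x e c) ≤ ∑ e, ∑ c, (x c e ^ 2 + x e c ^ 2) :=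
    Finset.sum_le_sum fun e _ => Finset.sum_le_sum fun c _ => by
      nlinarith [sq_nonneg (x c e - x e c)]
  simp only [← Finset.mul_sum, Finset.sum_add_distrib] at h
  rw [Finset.sum_comm (f := fun e c => x c e ^ 2)] at h
  linarith

theorem del_bound {α : Type} [Fintype α] {w : Fin π.d → RZ π}
    {D : Fin π.d → Derivation ℝ (RZ π) (RZ π)} (hc : ∀ e c F, D e (D c F) = D c (D e F))
    (hw : ∀ c, w c ∈ PG π t) (hw' : ∀ e c, D e (w c) ∈ PG π t)
    (ibp : ∀ c u, u ∈ PG π t → D c u ∈ PG π t → II π t (dl (w c) (D c) u) = 0) {K : ℝ}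
    (hK : ∀ z, OpC (fun e c => evA (t, z) (D e (w c))) K) (u : Fin π.d × α → RZ π)
    (h0 : ∀ i, u i ∈ PG π t) (h1 : ∀ e i, D e (u i) ∈ PG π t)
    (h2 : ∀ e f i, D e (D f (u i)) ∈ PG π t) :
    N2 π t (fun a => ∑ c, dl (w c) (D c) (u (c, a))) ≤
      N2 π t (fun i : Fin π.d × Fin π.d × α => D i.1 (u i.2)) + (1 + K) * N2 π t u := by
  have hW : ∀ a, ∑ c, dl (w c) (D c) (u (c, a)) ∈ PG π t := fun a =>
    sum_mem fun c _ => PG_dl (hw c) (h0 _) (h1 _ _)
  have hW' : ∀ e a, D e (∑ c, dl (w c) (D c) (u (c, a))) ∈ PG π t := fun e a => by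
    rw [map_sum]
    refine sum_mem fun c _ => ?_
    rw [der_dl _ (hc _ _ _)]
    exact add_mem (PG_dl (hw c) (h1 _ _) (h2 _ _ _)) (mul_mem (hw' _ _) (h0 _))
  set F : α × Fin π.d → RZ π := fun i => u (i.2, i.1) * (∑ c, dl (w c) (D c) (u (c, i.1))) +
    ∑ c, u (c, i.1) * D c (u (i.2, i.1)) with hF
  have hF0 : ∀ i, F i ∈ PG π t := fun i =>
    add_mem (mul_mem (h0 _) (hW _)) (sum_mem fun c _ => mul_mem (h0 _) (h1 _ _))
  have hF1 : ∀ e i, D e (F i) ∈ PG π t := fun e i => by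
    simp only [hF, map_add, der_mul, map_sum (D e) fun c => u (c, i.1) * _]
    exact add_mem (add_mem (mul_mem (h1 _ _) (hW _)) (mul_mem (h0 _) (hW' _ _)))
      (sum_mem fun c _ => add_mem (mul_mem (h1 _ _) (h1 _ _)) (mul_mem (h0 _) (h2 _ _ _)))
  have hA : ∀ i : α × Fin π.d, dl (w i.2) (D i.2) (F i) ∈ PG π t := fun i =>
    PG_dl (hw _) (hF0 i) (hF1 _ i)
  have hB := PG_sq (u := fun i : Fin π.d × Fin π.d × α => D i.1 (u i.2)) fun i => h1 _ _
  have hC := Subalgebra.smul_mem _ (PG_sq h0) (1 + K)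
  have hA' : ∑ i : α × Fin π.d, dl (w i.2) (D i.2) (F i) ∈ PG π t := sum_mem fun i _ => hA i
  have h3 := II_mono (PG_sq hW) (add_mem (add_mem hA' hB) hC) fun z => by
    simp only [hF, dl_sq hc, map_add, map_sum (evA (t, z)), map_mul, map_smul, map_pow, smul_eq_mul,
      Fintype.sum_prod_type, Finset.sum_add_distrib]
    refine add_le_add (add_le_add le_rfl ?_) ?_
    · exact (Finset.sum_le_sum fun a _ =>
        sum_swap_le fun e c => evA (t, z) (D e (u (c, a)))).trans_eq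
        (Finset.sum_comm.trans (Finset.sum_congr rfl fun e _ => Finset.sum_comm))
    · rw [Finset.sum_comm (γ := Fin π.d), Finset.mul_sum]
      exact Finset.sum_le_sum fun a _ => (hK z).quad fun c => evA (t, z) (u (c, a))
  rw [II_add (add_mem hA' hB) hC, II_add hA' hB, II_sum hA, II_smul, Finset.sum_eq_zero fun i _ => ibp _ _ (hF0 i) (hF1 _ i), zero_add] at h3
  exact h3

end

end Vale.Agent.P347
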