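import Vale.Agent.P347.Field
import Vale.Agent.P347.CalcG

namespace Vale.Agent.P347

open MeasureTheory ProbabilityTheory
open scoped RealInnerProductSpace NNReal ContDiff

variable {d : ℕ}

section
variable {π : Par} {t : ℝ} {r : Par → ℝ}

theorem N2_le {α β : Type} [Fintype α] [Fintype β] {u : α → RZ π} {v : β → RZ π} {c : ℝ}
    (hu : ∀ i, u i ∈ PG π t) (hv : ∀ i, v i ∈ PG π t)
    (h : ∀ z, ∑ i, evA (t, z) (u i) ^ 2 ≤ c * ∑ i, evA (t, z) (v i) ^ 2) :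
    N2 π t u ≤ c * N2 π t v := by
  rw [N2, N2, ← II_smul]
  refine II_mono (PG_sq hu) (Subalgebra.smul_mem _ (PG_sq hv) c) fun z => ?_
  simpa only [map_sum, map_pow, map_smul, smul_eq_mul] using h z

theorem N2_idt : N2 π t (fun i : Fin π.d × Fin π.d => if i.1 = i.2 then 1 else 0) = π.d := by
  rw [N2, ← II_const (π := π) (t := t) π.d]
  congr 1
  rw [Fintype.sum_prod_type]
  simp

theorem delx_bound : ∃ K, 0 ≤ K ∧ ∀ {n : ℕ} {a : Sh} {u : Fld (.p .f a)}, Tm r n _ u →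
    ∀ π, ∀ t ∈ Set.Icc (0 : ℝ) (1 / 4), N2 π t (fun i => ∑ c, dlx π c (u π (c, i))) ≤
      N2 π t (fun i : (Sh.p .f (.p .f a)).T π.d => dx π i.1 (u π i.2)) + K * N2 π t (u π) := by
  obtain ⟨K, hK, h⟩ := ml_H.bound
  refine ⟨1 + K, by positivity, fun hu π t ht => ?_⟩
  refine del_bound (dx_dx π) PG_wZ (fun e c => ?_) ibp_x (fun z => ?_) (_) (hu.PG ht)
    (fun e i => hu.gradx.PG ht (e, i)) fun e f i => hu.gradx.gradx.PG ht (e, f, i)
  · rw [dx_wZ]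
    exact ml_H.PG ht e c
  · simp only [dx_wZ]
    exact h π (t, yy π.m π.s (t, z)) ht

theorem delG_bound {n : ℕ} {a : Sh} {u : Fld (.p .f a)} (hu : Tm r n _ u)
    (ht : t ∈ Set.Icc (0 : ℝ) (1 / 4)) : N2 π t (fun i => ∑ c, dlG π c (u π (c, i))) ≤
      N2 π t (fun i : (Sh.p .f (.p .f a)).T π.d => dG π i.1 (u π i.2)) +
        (1 + 1) * N2 π t (u π) := by
  refine del_bound (dG_dG π) PG_GZ (fun e c => ?_) ibp_G (fun z => ?_) (_) (hu.PG ht)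
    (fun e i => hu.gradG.PG ht (e, i)) fun e f i => hu.gradG.gradG.PG ht (e, f, i)
  · rw [dG_GZ]
    exact PG_ite _
  · simp only [dG_GZ, apply_ite (evA (t, z)), map_one, map_zero]
    exact OpC.one

theorem gF_le_om (ht : t ∈ Set.Icc (0 : ℝ) (1 / 4)) (z : E π.d × E π.d) :
    ‖gF π.V π.m π.s (t, z)‖ ≤ 8 * Nm π.m + ‖om π.V π.m π.s (t, z)‖ := by
  have h1 := Cs_pos t
  have h2 := Cs_le_one t
  have h3 := π.hs
  have h4 := π.hs'
  have h5 : (π.s * Cs t) ^ 2 ≤ π.s ^ 2 := by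
    refine pow_le_pow_left₀ (by positivity) ?_ 2
    nlinarith
  have h6 := norm_gg_le π.hV (sC_pos π t).le (by linarith) π.m
  have hs1 : π.s ≤ 1 := by nlinarith
  have hS0 : 0 ≤ Sn t := by
    rw [Sn_eq]
    exact mul_nonneg ht.1 h1.le
  have hS1 : Sn t ≤ 1 / 4 := by
    rw [Sn_eq]
    nlinarith [ht.1, ht.2]
  have hσ0 : 0 ≤ π.s * Sn t := by positivity
  have hσ : π.s * Sn t ≤ 1 / 4 := by nlinarith
  have h7 := (lip_gg π.hV (sC_pos π t)).dist_le_mul (π.m + (π.s * Sn t) • z.1) π.m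
  rw [dist_eq_norm, dist_eq_norm, add_sub_cancel_left, norm_smul, Real.norm_eq_abs,
    abs_of_nonneg hσ0] at h7
  set g := gF π.V π.m π.s (t, z) with hg
  have h8 : ‖g‖ ≤ ‖gg π.V (π.s * Cs t) π.m‖ + 2 * (π.s * Sn t * ‖z.1‖) := by
    have := norm_le_insert' g (gg π.V (π.s * Cs t) π.m)
    have h7' : ‖g - gg π.V (π.s * Cs t) π.m‖ ≤ 2 * (π.s * Sn t * ‖z.1‖) := h7
    linarith
  have h9 : ‖z.1‖ ≤ ‖om π.V π.m π.s (t, z)‖ + π.s * Sn t * ‖g‖ := by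
    have e : z.1 = om π.V π.m π.s (t, z) - (π.s * Sn t) • g := by
      rw [om]
      simp [hg]
    refine (congrArg norm e).le.trans ((norm_sub_le _ _).trans ?_)
    rw [norm_smul, Real.norm_eq_abs, abs_of_nonneg hσ0]
  have h10 : π.s * Sn t * ‖z.1‖ ≤ 1 / 4 * ‖z.1‖ := mul_le_mul_of_nonneg_right hσ (norm_nonneg _)
  have h11 : π.s * Sn t * ‖g‖ ≤ 1 / 4 * ‖g‖ := mul_le_mul_of_nonneg_right hσ (norm_nonneg _)
  have := norm_nonneg (om π.V π.m π.s (t, z))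
  have := norm_nonneg (gg π.V (π.s * Cs t) π.m)
  linarith

theorem g_sq_le (ht : t ∈ Set.Icc (0 : ℝ) (1 / 4)) (z : E π.d × E π.d) :
    evA (t, z) (∑ i, ((2 * π.s) • pb π (Th π {i})) ^ 2) ≤
      evA (t, z) (algebraMap ℝ _ (128 * Nm π.m ^ 2) + (2 : ℝ) • ∑ i, wZ π i ^ 2) := by
  have := gF_le_om ht z
  rw [map_add, AlgHom.commutes, map_smul]
  simp only [map_sum, map_pow, ev_gF, ev_wZ, ← EuclideanSpace.real_norm_sq_eq, smul_eq_mul]
  have h5 := pow_le_pow_left₀ (norm_nonneg _) this 2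
  change _ ≤ 128 * Nm π.m ^ 2 + _
  nlinarith [sq_nonneg (8 * Nm π.m - ‖om π.V π.m π.s (t, z)‖)]

theorem N2_g : ∃ K, 0 ≤ K ∧ ∀ (π : Par), ∀ t ∈ Set.Icc (0 : ℝ) (1 / 4),
    N2 π t (fun i => (2 * π.s) • pb π (Th π {i})) ≤ K * Nm π.m ^ 2 := by
  obtain ⟨K, hK, h⟩ := delx_bound (r := fun _ => 0)
  refine ⟨128 + 2 * K, by positivity, fun π t ht => ?_⟩
  have h1 := h (Tm.idt 0) π t ht
  have h2 : (fun i => ∑ c, dlx π c (if c = i then 1 else 0)) = wZ π := by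
    funext i
    simp [dlx, dl_apply, der_ite]
  have h3 : N2 π t (fun i : (Sh.p .f (.p .f .f)).T π.d =>
      dx π i.1 (if i.2.1 = i.2.2 then 1 else 0)) = 0 := by
    simp [N2, der_ite, II]
  rw [h3, N2_idt, zero_add] at h1
  change N2 π t (fun i => ∑ c, dlx π c (if c = i then 1 else 0)) ≤ _ at h1
  rw [h2] at h1
  have h4 := II_mono (PG_sq (t := t) PG_g) (add_mem (Subalgebra.algebraMap_mem _ (128 * Nm π.m ^ 2))
    (Subalgebra.smul_mem _ (PG_sq PG_wZ) 2)) (g_sq_le ht)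
  rw [II_add (Subalgebra.algebraMap_mem _ _) (Subalgebra.smul_mem _ (PG_sq PG_wZ) 2), II_const,
    II_smul] at h4
  have h6 : (π.d : ℝ) ≤ Nm π.m ^ 2 := by
    rw [← Real.sq_sqrt (Nat.cast_nonneg π.d)]
    exact pow_le_pow_left₀ (Real.sqrt_nonneg _) (le_add_of_nonneg_right (norm_nonneg _)) 2
  have h7 := mul_le_mul_of_nonneg_left h6 hK
  rw [N2] at h1 ⊢
  linarith

theorem Tm.bound (hr : ∀ π : Par, √π.d ≤ r π) {n : ℕ} {a : Sh} {u : Fld a} (h : Tm r n a u) :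
    ∃ K, 0 ≤ K ∧ ∀ π, ∀ t ∈ Set.Icc (0 : ℝ) (1 / 4), N2 π t (u π) ≤ K * r π ^ 2 := by
  refine Tm.ind (P := fun a u => ∃ K, 0 ≤ K ∧ ∀ π, ∀ t ∈ Set.Icc (0 : ℝ) (1 / 4),
    N2 π t (u π) ≤ K * r π ^ 2) ?_ ?_ ?_ ?_ ?_ ?_ h
  · refine ⟨1, zero_le_one, fun π t _ => N2_idt.le.trans ?_⟩
    rw [one_mul, ← Real.sq_sqrt (Nat.cast_nonneg π.d)]
    exact pow_le_pow_left₀ (Real.sqrt_nonneg _) (hr π) 2
  · intro hN
    obtain ⟨K, hK, h⟩ := N2_g
    refine ⟨K, hK, fun π t ht => (h π t ht).trans (mul_le_mul_of_nonneg_left ?_ hK)⟩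
    exact pow_le_pow_left₀ (add_nonneg (Real.sqrt_nonneg _) (norm_nonneg _)) (hN π) 2
  · rintro n a u v hu hv ⟨K₁, h0, h₁⟩ ⟨K₂, h0', h₂⟩
    refine ⟨2 * K₁ + 2 * K₂, by positivity, fun π t ht => ?_⟩
    have hu' := Subalgebra.smul_mem _ (PG_sq (hu.PG (π := π) ht)) (2 : ℝ)
    have hv' := Subalgebra.smul_mem _ (PG_sq (hv.PG (π := π) ht)) (2 : ℝ)
    have h3 := II_mono (PG_sq ((hu.add hv).PG (π := π) ht)) (add_mem hu' hv') fun z => by
      simp only [map_sum, map_pow, map_add, map_smul, smul_eq_mul, Finset.mul_sum,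
        ← Finset.sum_add_distrib]
      exact Finset.sum_le_sum fun i _ => by
        nlinarith [sq_nonneg (evA (t, z) (u π i) - evA (t, z) (v π i))]
    rw [II_add hu' hv', II_smul, II_smul] at h3
    have h4 := h₁ π t ht
    have h5 := h₂ π t ht
    rw [N2] at h4 h5 ⊢
    linarith
  · rintro n a b M u hM hu ⟨K₁, h0, h₁⟩
    obtain ⟨K, hK, h⟩ := hM.bound
    refine ⟨K * K₁, by positivity, fun π t ht => ?_⟩
    rw [mul_assoc]
    refine (N2_le ((Tm.mul hM hu).PG ht) (hu.PG ht) fun z => ?_).trans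
      (mul_le_mul_of_nonneg_left (h₁ π t ht) hK)
    simp only [map_sum, map_mul]
    exact h π (t, yy π.m π.s (t, z)) ht _
  · rintro n a u hu ⟨K₁, h0, h₁⟩ ⟨K₂, h0', h₂⟩
    obtain ⟨K, hK, h⟩ := delx_bound (r := r)
    refine ⟨K₂ + K * K₁, by positivity, fun π t ht => (h hu π t ht).trans ?_⟩
    have := mul_le_mul_of_nonneg_left (h₁ π t ht) hK
    have := h₂ π t ht
    linarith
  · rintro n a u hu ⟨K₁, h0, h₁⟩ ⟨K₂, h0', h₂⟩
    refine ⟨K₂ + 2 * K₁, by positivity, fun π t ht => (delG_bound hu ht).trans ?_⟩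
    have := h₁ π t ht
    have := h₂ π t ht
    linarith

theorem dom_of_N2 {u : Fin π.d → RZ π} (hu : ∀ i, u i ∈ PG π t) {c a : ℝ} (hc : 0 ≤ c) (ha : 0 ≤ a)
    (h : N2 π t u ≤ c ^ 2) {F : E π.d × E π.d → E π.d}
    (hF : ∀ z i, F z i = a * evA (t, z) (u i)) : Dom (mu π.V π.m π.s t) F (a * c) := by
  set X : E π.d × E π.d → ℝ := fun z => √(evA (t, z) (∑ i, u i ^ 2)) with hX
  have h0 : ∀ z, 0 ≤ evA (t, z) (∑ i, u i ^ 2) := fun z => by
    simp only [map_sum, map_pow]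
    exact Finset.sum_nonneg fun _ _ => sq_nonneg _
  have h1 : (fun z => X z ^ 2) = fun z => evA (t, z) (∑ i, u i ^ 2) :=
    funext fun z => Real.sq_sqrt (h0 z)
  have hm : MemLp X 2 (mu π.V π.m π.s t) :=
    (memLp_two_iff_integrable_sq (cont_ev π t _).sqrt.aestronglyMeasurable).2
      (h1 ▸ PG.integrable (PG_sq hu))
  have h2 := variance_nonneg X (mu π.V π.m π.s t)
  rw [variance_eq_sub hm] at h2
  have h3 : ∫ z, (X ^ 2) z ∂mu π.V π.m π.s t = N2 π t u := congrArg _ h1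
  refine ⟨fun z => a * X z, (hm.integrable one_le_two).const_mul a, ?_,
    Filter.Eventually.of_forall fun z => le_of_eq ?_⟩
  · rw [integral_const_mul]
    refine mul_le_mul_of_nonneg_left (abs_le_of_sq_le_sq' ?_ hc).2 ha
    linarith
  · rw [EuclideanSpace.norm_eq, hX]
    simp only [hF, Real.norm_eq_abs, sq_abs, mul_pow, ← Finset.mul_sum, map_sum, map_pow]
    rw [Real.sqrt_mul (sq_nonneg a), Real.sqrt_sq ha]

theorem Tm.dom (hr : ∀ π : Par, √π.d ≤ r π) {n : ℕ} {u : Fld .f} (h : Tm r n .f u) (K : ℕ) :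
    ∃ C, 0 ≤ C ∧ ∀ k ≤ K, ∀ π, ∀ t ∈ Set.Icc (0 : ℝ) (1 / 4), ∀ a, 0 ≤ a →
      ∀ F : E π.d × E π.d → E π.d, (∀ z i, F z i = a * evA (t, z) ((DZ π)^[k] (u π i))) →
        Dom (mu π.V π.m π.s t) F (a * (C * r π)) := by
  choose B hB0 hB using fun k => (h.dz_iter k).bound hr
  have h0 : 0 ≤ ∑ k ∈ Finset.range (K + 1), B k := Finset.sum_nonneg fun k _ => hB0 k
  refine ⟨√(∑ k ∈ Finset.range (K + 1), B k), Real.sqrt_nonneg _, fun k hk π t ht a ha F hF => ?_⟩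
  refine dom_of_N2 ((h.dz_iter k).PG ht)
    (mul_nonneg (Real.sqrt_nonneg _) ((Real.sqrt_nonneg _).trans (hr π))) ha
    ((hB k π t ht).trans ?_) hF
  rw [mul_pow, Real.sq_sqrt h0]
  exact mul_le_mul_of_nonneg_right (Finset.single_le_sum (fun k _ => hB0 k)
    (Finset.mem_range.2 (Nat.lt_succ_of_le hk))) (sq_nonneg _)

theorem DZ_iter_smul (c : ℝ) (u : RZ π) (k : ℕ) : (DZ π)^[k] (c • u) = c • (DZ π)^[k] u := by
  induction k with
  | zero => rfl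
  | succ k ih => rw [Function.iterate_succ_apply', Function.iterate_succ_apply', ih, DZ_smul]

theorem tm_T {n : ℕ} {u : Fld .f} (h : Tm r n .f u) :
    Tm r n .f fun π i => (2 : ℝ) • ∑ j, pb π (Th π (j ::ₘ {i})) * u π j :=
  (Tm.mul ml_T.tr h).sK (fun _ => 2) 2 fun _ => by simp

theorem ev_T {z : ℝ × E π.d × E π.d} {v : E π.d} {u : Fin π.d → RZ π}
    (h : ∀ j, v j = evA z (u j)) (i : Fin π.d) :
    TF π.V π.m π.s z v i = evA z ((2 : ℝ) • ∑ j, pb π (Th π (j ::ₘ {i})) * u j) := by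
  simp only [ev_TF, h, map_smul, map_sum, map_mul, smul_eq_mul]

end

theorem deriv_aux (K : ℕ) : ∃ C : ℝ, 0 ≤ C ∧ ∀ π : Par, ∀ k ≤ K, ∀ t ∈ Set.Icc (0 : ℝ) (1 / 4),
    Dom (mu π.V π.m π.s t) (fun z => (Dt π.V π.m π.s π.β)^[k] (H1 π.V π.m π.s) (t, z))
      (C * Nm π.m) ∧
    Dom (mu π.V π.m π.s t) (fun z => (Dt π.V π.m π.s π.β)^[k + 1] (gF π.V π.m π.s) (t, z))
      (C * (π.s * √π.d)) ∧
    Dom (mu π.V π.m π.s t) (fun z => (Dt π.V π.m π.s π.β)^[k] (H2 π.V π.m π.s) (t, z))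
      (C * √π.d) ∧
    Dom (mu π.V π.m π.s t) (fun z => (Dt π.V π.m π.s π.β)^[k] (H3 π.V π.m π.s) (t, z))
      (C * √π.d) := by
  obtain ⟨C₁, p₁, h₁⟩ := (Tm.sc (r := fun π => Nm π.m) 0 fun _ => le_rfl).sC.sC.sC.dom
    (fun π => le_add_of_nonneg_right (norm_nonneg _)) K
  obtain ⟨C₂, p₂, h₂⟩ := (Tm.base_z (r := fun π => √π.d)).dom (fun _ => le_rfl) K
  obtain ⟨C₃, p₃, h₃⟩ := (tm_T (Tm.gv (r := fun π => √π.d) 0)).sC.sC.sC.dom (fun _ => le_rfl) K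
  obtain ⟨C₄, p₄, h₄⟩ := (tm_T (tm_T (Tm.gv (r := fun π => √π.d) 0))).sC.sC.sC.sS.dom
    (fun _ => le_rfl) K
  refine ⟨C₁ + 2 * C₂ + C₃ + C₄, by positivity, fun π k hk t ht => ?_⟩
  have hs := π.hs
  have hN : 0 ≤ Nm π.m := add_nonneg (Real.sqrt_nonneg _) (norm_nonneg _)
  have hd : 0 ≤ √(π.d : ℝ) := Real.sqrt_nonneg _
  have hsd : 0 ≤ π.s * √(π.d : ℝ) := by positivity
  refine ⟨(h₁ k hk π t ht 1 zero_le_one _ fun z => ?_).mono (.of_forall fun _ => le_rfl) ?_,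
    (h₂ k hk π t ht (2 * π.s) (by positivity) _ fun z i => ?_).mono (.of_forall fun _ => le_rfl) ?_,
    (h₃ k hk π t ht 1 zero_le_one _ fun z => ?_).mono (.of_forall fun _ => le_rfl) ?_,
    (h₄ k hk π t ht 1 zero_le_one _ fun z => ?_).mono (.of_forall fun _ => le_rfl) ?_⟩
  · simp only [one_mul]
    refine Dt_iter_coord π (fun z i => ?_) k (t, z)
    simp only [map_mul, ev_CY, ev_gF, H1, PiLp.smul_apply, smul_eq_mul]
    ring
  · change 1 * (C₁ * Nm π.m) ≤ _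
    nlinarith [mul_nonneg p₂ hN, mul_nonneg p₃ hN, mul_nonneg p₄ hN]
  · refine (Dt_iter_coord π (fun z i => (ev_gF π z i).symm) (k + 1) (t, z) i).trans ?_
    rw [DZ_iter_smul, map_smul, Function.iterate_succ_apply]
    rfl
  · change 2 * π.s * (C₂ * √π.d) ≤ _
    nlinarith [mul_nonneg p₁ hsd, mul_nonneg p₃ hsd, mul_nonneg p₄ hsd]
  · simp only [one_mul]
    refine Dt_iter_coord π (fun z i => ?_) k (t, z)
    rw [map_mul, map_mul, map_mul, ev_CY, ← ev_T (v := z.2.2) fun j => (evA_GZ π j z).symm]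
    simp only [H2, PiLp.smul_apply, smul_eq_mul]
    ring
  · change 1 * (C₃ * √π.d) ≤ _
    nlinarith [mul_nonneg p₁ hd, mul_nonneg p₂ hd, mul_nonneg p₄ hd]
  · simp only [one_mul]
    refine Dt_iter_coord π (fun z i => ?_) k (t, z)
    rw [map_mul, map_mul, map_mul, map_mul, ev_CY, ev_SY,
      ← ev_T fun j => ev_T (v := z.2.2) (fun j => (evA_GZ π j z).symm) j]
    simp only [H3, PiLp.smul_apply, smul_eq_mul]
    ring
  · change 1 * (C₄ * √π.d) ≤ _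
    nlinarith [mul_nonneg p₁ hd, mul_nonneg p₂ hd, mul_nonneg p₃ hd]

/-- Dimension-free bounds for all derivatives along the flow. -/
theorem deriv_bounds (K : ℕ) : ∃ C : ℝ, 0 ≤ C ∧ ∀ (d : ℕ) (V : E d → ℝ), InClass V →
    ∀ (m : E d) (s β : ℝ), 0 < s → 2 * s ^ 2 ≤ 1 → 2 * |β| * s ≤ 1 → ∀ k ≤ K,
    ∀ t ∈ Set.Icc (0 : ℝ) (1 / 4),
      Dom (mu V m s t) (fun z => (Dt V m s β)^[k] (H1 V m s) (t, z)) (C * Nm m) ∧
      Dom (mu V m s t) (fun z => (Dt V m s β)^[k + 1] (gF V m s) (t, z)) (C * (s * √d)) ∧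
      Dom (mu V m s t) (fun z => (Dt V m s β)^[k] (H2 V m s) (t, z)) (C * √d) ∧
      Dom (mu V m s t) (fun z => (Dt V m s β)^[k] (H3 V m s) (t, z)) (C * √d) := by
  obtain ⟨C, hC, h⟩ := deriv_aux K
  exact ⟨C, hC, fun d V hV m s β hs hs' hβ => h ⟨d, V, hV, m, s, β, hs, hs', hβ⟩⟩

end Vale.Agent.P347
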