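import Vale.Agent.P347.Pd

namespace Vale.Agent.P347

open scoped ContDiff

noncomputable section

/-! ### the algebra of smooth functions and its derivations -/

section
variable (S : Type) [NormedAddCommGroup S] [NormedSpace ℝ S]

/-- smooth functions as a subalgebra -/
def smAlg : Subalgebra ℝ (S → ℝ) where
  carrier := {F | ContDiff ℝ ∞ F}
  mul_mem' := fun {F G} (h₁ : ContDiff ℝ ∞ F) (h₂ : ContDiff ℝ ∞ G) =>
    (h₁.mul h₂ : ContDiff ℝ ∞ fun x => F x * G x)
  add_mem' := fun {F G} (h₁ : ContDiff ℝ ∞ F) (h₂ : ContDiff ℝ ∞ G) =>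
    (h₁.add h₂ : ContDiff ℝ ∞ fun x => F x + G x)
  algebraMap_mem' := fun c => (contDiff_const : ContDiff ℝ ∞ fun _ : S => c)

/-- smooth functions -/
def SmA : Type := smAlg S

instance : CommRing (SmA S) := inferInstanceAs (CommRing (smAlg S))

instance : Algebra ℝ (SmA S) := inferInstanceAs (Algebra ℝ (smAlg S))

variable {S}

theorem smA_smooth (F : SmA S) : ContDiff ℝ ∞ F.1 := F.2

/-- constructor -/
def mkA (F : S → ℝ) (h : ContDiff ℝ ∞ F) : SmA S := ⟨F, h⟩

/-- directional derivative as a derivation -/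
def der (v : S) : Derivation ℝ (SmA S) (SmA S) :=
  Derivation.mk'
    { toFun := fun F => ⟨dd v F.1, contDiff_dd F.2 v⟩
      map_add' := fun F G => Subtype.ext (dd_add F.2 G.2 v)
      map_smul' := fun c F => Subtype.ext (dd_const_mul F.2 c v) }
    (fun F G => Subtype.ext (by
      funext x
      have := congrFun (dd_mul F.2 G.2 v) x
      change dd v (fun x => F.1 x * G.1 x) x = F.1 x * dd v G.1 x + G.1 x * dd v F.1 x
      rw [this]
      ring))

theorem der_val (v : S) (F : SmA S) : (der v F).1 = dd v F.1 := rfl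

theorem der_comm (v w : S) (F : SmA S) : der v (der w F) = der w (der v F) :=
  Subtype.ext (dd_comm F.2 v w)

/-- evaluation at a point -/
def evA (z : S) : SmA S →ₐ[ℝ] ℝ := (Pi.evalAlgHom ℝ (fun _ : S => ℝ) z).comp (smAlg S).val

theorem evA_apply (z : S) (F : SmA S) : evA z F = F.1 z := rfl

theorem evA_mk (z : S) (F : S → ℝ) (h : ContDiff ℝ ∞ F) : evA z (mkA F h) = F z := rfl

instance : CharZero (SmA S) :=
  charZero_of_injective_algebraMap (R := ℝ) fun a b h => by simpa using congrArg (evA 0) h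

theorem SmA.ext' {F G : SmA S} (h : ∀ z, evA z F = evA z G) : F = G := Subtype.ext (funext h)

/-- pull-back along a smooth map -/
def pullA {S' : Type} [NormedAddCommGroup S'] [NormedSpace ℝ S'] (φ : S' → S)
    (hφ : ContDiff ℝ ∞ φ) : SmA S →ₐ[ℝ] SmA S' where
  toFun F := mkA (fun z => F.1 (φ z)) ((smA_smooth F).comp hφ)
  map_one' := rfl
  map_mul' _ _ := rfl
  map_zero' := rfl
  map_add' _ _ := rfl
  commutes' _ := rfl

theorem evA_pull {S' : Type} [NormedAddCommGroup S'] [NormedSpace ℝ S'] (φ : S' → S)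
    (hφ : ContDiff ℝ ∞ φ) (F : SmA S) (z : S') : evA z (pullA φ hφ F) = evA (φ z) F := rfl

theorem evA_der (z v : S) (F : SmA S) : evA z (der v F) = fderiv ℝ F.1 z v := rfl

theorem evA_der_pull {S' : Type} [NormedAddCommGroup S'] [NormedSpace ℝ S'] (φ : S' → S)
    (hφ : ContDiff ℝ ∞ φ) (F : SmA S) (z v : S') :
    evA z (der v (pullA φ hφ F)) = fderiv ℝ F.1 (φ z) (fderiv ℝ φ z v) := by
  have h := ((smA_smooth F).differentiable (by simp) (φ z)).hasFDerivAt.comp z
    (hφ.differentiable (by simp) z).hasFDerivAt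
  exact congrArg (fun L : S' →L[ℝ] ℝ => L v) h.fderiv

/-- a continuous linear functional as a smooth function -/
def linA (l : S →L[ℝ] ℝ) : SmA S := mkA l l.contDiff

theorem der_linA (l : S →L[ℝ] ℝ) (v : S) : der v (linA l) = algebraMap ℝ _ (l v) := by
  refine SmA.ext' fun z => ?_
  rw [evA_der, AlgHom.commutes]
  change fderiv ℝ l z v = l v
  rw [l.fderiv]

end

/-! ### operator norm bounds for matrices -/

/-- squared operator norm at most `K` -/
def OpC {α β : Type} [Fintype α] [Fintype β] (M : α → β → ℝ) (K : ℝ) : Prop :=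
  ∀ u : β → ℝ, ∑ i, (∑ j, M i j * u j) ^ 2 ≤ K * ∑ j, u j ^ 2

section
variable {α β γ : Type} [Fintype α] [Fintype β] [Fintype γ]

theorem OpC.mono {M : α → β → ℝ} {K K' : ℝ} (h : OpC M K) (hK : K ≤ K') : OpC M K' := fun u =>
  (h u).trans (mul_le_mul_of_nonneg_right hK (Finset.sum_nonneg fun _ _ => sq_nonneg _))

theorem OpC.zero : OpC (fun (_ : α) (_ : β) => (0 : ℝ)) 0 := fun u => by simp

theorem OpC.one [DecidableEq α] : OpC (fun i j : α => if i = j then (1 : ℝ) else 0) 1 :=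
  fun u => by simp

theorem OpC.add {M N : α → β → ℝ} {K K' : ℝ} (h : OpC M K) (h' : OpC N K') :
    OpC (fun i j => M i j + N i j) (2 * K + 2 * K') := fun u => by
  have h1 := h u
  have h2 := h' u
  have : ∑ i, (∑ j, (M i j + N i j) * u j) ^ 2 ≤
      ∑ i, (2 * (∑ j, M i j * u j) ^ 2 + 2 * (∑ j, N i j * u j) ^ 2) := by
    refine Finset.sum_le_sum fun i _ => ?_
    simp only [add_mul, Finset.sum_add_distrib]
    nlinarith [sq_nonneg (∑ j, M i j * u j - ∑ j, N i j * u j)]
  rw [Finset.sum_add_distrib, ← Finset.mul_sum, ← Finset.mul_sum] at this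
  linarith

theorem OpC.smul {M : α → β → ℝ} {K c k : ℝ} (h : OpC M K) (hc : |c| ≤ k) :
    OpC (fun i j => c * M i j) (k ^ 2 * K) := fun u => by
  have h1 := h u
  have h2 : ∑ i, (∑ j, c * M i j * u j) ^ 2 = c ^ 2 * ∑ i, (∑ j, M i j * u j) ^ 2 := by
    rw [Finset.mul_sum]
    refine Finset.sum_congr rfl fun i _ => ?_
    simp only [mul_assoc, ← Finset.mul_sum]
    ring
  have h3 : c ^ 2 ≤ k ^ 2 := by
    rw [← sq_abs c]
    exact pow_le_pow_left₀ (abs_nonneg c) hc 2
  have h4 : 0 ≤ ∑ j, u j ^ 2 := Finset.sum_nonneg fun _ _ => sq_nonneg _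
  rw [h2, mul_assoc]
  exact mul_le_mul h3 h1 (Finset.sum_nonneg fun _ _ => sq_nonneg _) (sq_nonneg _)

theorem OpC.comp {M : α → β → ℝ} {N : β → γ → ℝ} {K K' : ℝ} (h : OpC M K) (h' : OpC N K')
    (hK : 0 ≤ K) : OpC (fun i k => ∑ j, M i j * N j k) (K * K') := fun u => by
  have h2 : ∀ i, ∑ k, (∑ j, M i j * N j k) * u k = ∑ j, M i j * ∑ k, N j k * u k := by
    intro i
    simp only [Finset.sum_mul, Finset.mul_sum, mul_assoc]
    exact Finset.sum_comm
  simp only [h2]
  rw [mul_assoc]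
  exact (h _).trans (mul_le_mul_of_nonneg_left (h' u) hK)

theorem OpC.tens [DecidableEq γ] {M : α → β → ℝ} {K : ℝ} (h : OpC M K) :
    OpC (fun (i : γ × α) (j : γ × β) => if i.1 = j.1 then M i.2 j.2 else 0) K := fun u => by
  simp only [Fintype.sum_prod_type, ite_mul, zero_mul]
  rw [Finset.mul_sum]
  refine Finset.sum_le_sum fun c _ => ?_
  have : ∀ i, (∑ c', ∑ j, if c = c' then M i j * u (c', j) else 0) = ∑ j, M i j * u (c, j) := by
    intro i
    rw [Finset.sum_comm]
    simp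
  simp only [this]
  exact h fun j => u (c, j)

theorem OpC.reidx {α' β' : Type} [Fintype α'] [Fintype β'] {M : α → β → ℝ} {K : ℝ} (h : OpC M K)
    (e₁ : α' ≃ α) (e₂ : β' ≃ β) : OpC (fun i j => M (e₁ i) (e₂ j)) K := fun u => by
  have h1 := h fun j => u (e₂.symm j)
  rw [← e₁.sum_comp, e₂.symm.sum_comp fun j => u j ^ 2] at h1
  refine le_of_eq_of_le (Finset.sum_congr rfl fun i _ => ?_) h1
  rw [← e₂.sum_comp]
  simp

theorem OpC.entry [DecidableEq β] {M : α → β → ℝ} {K : ℝ} (h : OpC M K) (i : α) (j : β) :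
    M i j ^ 2 ≤ K := by
  have h1 := h fun k => if k = j then 1 else 0
  simp only [mul_ite, mul_one, mul_zero, Finset.sum_ite_eq', Finset.mem_univ, if_true, ite_pow,
    one_pow, ne_eq, OfNat.ofNat_ne_zero, not_false_eq_true, zero_pow] at h1
  exact (Finset.single_le_sum (f := fun i => M i j ^ 2) (fun _ _ => sq_nonneg _)
    (Finset.mem_univ i)).trans h1

theorem OpC.quad {M : α → α → ℝ} {K : ℝ} (h : OpC M K) (u : α → ℝ) :
    ∑ i, ∑ j, M i j * u i * u j ≤ (1 + K) * ∑ i, u i ^ 2 := by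
  have h1 := h u
  have h2 : ∑ i, ∑ j, M i j * u i * u j ≤ ∑ i, (u i ^ 2 + (∑ j, M i j * u j) ^ 2) := by
    refine Finset.sum_le_sum fun i _ => ?_
    have : ∑ j, M i j * u i * u j = u i * ∑ j, M i j * u j := by
      rw [Finset.mul_sum]
      exact Finset.sum_congr rfl fun j _ => by ring
    rw [this]
    nlinarith [sq_nonneg (u i - ∑ j, M i j * u j), sq_nonneg (u i), sq_nonneg (∑ j, M i j * u j)]
  rw [Finset.sum_add_distrib] at h2
  linarith

end

/-! ### shapes of index sets -/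

/-- shapes of tensors -/
inductive Sh : Type
  | f : Sh
  | p (a b : Sh) : Sh

/-- the index type of a shape -/
@[reducible] def Sh.T (d : ℕ) : Sh → Type
  | .f => Fin d
  | .p a b => a.T d × b.T d

instance Sh.fintype (d : ℕ) : (a : Sh) → Fintype (a.T d)
  | .f => inferInstanceAs (Fintype (Fin d))
  | .p a b => @instFintypeProd _ _ (Sh.fintype d a) (Sh.fintype d b)

instance Sh.dec (d : ℕ) : (a : Sh) → DecidableEq (a.T d)
  | .f => inferInstanceAs (DecidableEq (Fin d))
  | .p a b => @instDecidableEqProd _ _ (Sh.dec d a) (Sh.dec d b)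

/-- `n + 1` indices -/
@[reducible] def Sh.tup : ℕ → Sh
  | 0 => .f
  | n + 1 => .p .f (Sh.tup n)

/-- the multiset of indices -/
def Sh.ms (d : ℕ) : (n : ℕ) → (Sh.tup n).T d → Multiset (Fin d)
  | 0, i => {i}
  | n + 1, i => i.1 ::ₘ Sh.ms d n i.2

theorem Sh.sum_p {d : ℕ} {a b : Sh} {M : Type*} [AddCommMonoid M] (F : (Sh.p a b).T d → M) :
    ∑ i, F i = ∑ i : a.T d, ∑ j : b.T d, F (i, j) :=
  Fintype.sum_prod_type (α₁ := a.T d) (α₂ := b.T d) F

end

end Vale.Agent.P347
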