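import Mathlib

namespace Vale.Agent.P347

noncomputable section

/-! ### identities in a differential algebra -/

section
variable {R : Type} [CommRing R] [Algebra ℝ R] {ι : Type} [Fintype ι]

theorem der_sum_apply (D : ι → Derivation ℝ R R) (u : R) : (∑ i, D i) u = ∑ i, D i u := by
  have := map_sum Derivation.coeFnAddMonoidHom D Finset.univ
  have h := congrFun this u
  rw [Finset.sum_apply] at h
  exact h

theorem der_mul (D : Derivation ℝ R R) (a b : R) : D (a * b) = D a * b + a * D b := by
  rw [D.leibniz, smul_eq_mul, smul_eq_mul]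
  ring

theorem der_two (D : Derivation ℝ R R) : D 2 = 0 := D.map_natCast 2

theorem der_ite (D : Derivation ℝ R R) (p : Prop) [Decidable p] (a : R) :
    D (if p then a else 0) = if p then D a else 0 := by
  split_ifs <;> simp

/-- the second order operator `L` -/
def gL (dt : Derivation ℝ R R) (nb : ι → Derivation ℝ R R) (a : R) (g : ι → R) : R →ₗ[ℝ] R where
  toFun F := dt F - 2 * a * ∑ c, g c * nb c F + a * ∑ c, nb c (nb c F)
  map_add' F G := by
    simp only [map_add, mul_add, Finset.sum_add_distrib]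
    ring
  map_smul' r F := by
    simp only [Derivation.map_smul, mul_smul_comm, ← Finset.smul_sum, RingHom.id_apply, smul_add,
      smul_sub]

variable {dt : Derivation ℝ R R} {nb : ι → Derivation ℝ R R} {a : R} {g : ι → R}

theorem gL_apply (F : R) :
    gL dt nb a g F = dt F - 2 * a * ∑ c, g c * nb c F + a * ∑ c, nb c (nb c F) := rfl

theorem gL_mul (F G : R) : gL dt nb a g (F * G) =
    gL dt nb a g F * G + F * gL dt nb a g G + 2 * a * ∑ c, nb c F * nb c G := by
  simp only [gL_apply, der_mul, map_add]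
  have h1 : ∑ c, g c * (nb c F * G + F * nb c G) =
      (∑ c, g c * nb c F) * G + F * ∑ c, g c * nb c G := by
    rw [Finset.sum_mul, Finset.mul_sum, ← Finset.sum_add_distrib]
    exact Finset.sum_congr rfl fun c _ => by ring
  have h2 : ∑ c, (nb c (nb c F) * G + nb c F * nb c G + (nb c F * nb c G + F * nb c (nb c G))) =
      (∑ c, nb c (nb c F)) * G + F * (∑ c, nb c (nb c G)) + 2 * ∑ c, nb c F * nb c G := by
    rw [Finset.sum_mul, Finset.mul_sum, Finset.mul_sum, ← Finset.sum_add_distrib,
      ← Finset.sum_add_distrib]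
    exact Finset.sum_congr rfl fun c _ => by ring
  rw [h1, h2]
  ring

theorem gL_time {φ : R} (h : ∀ c, nb c φ = 0) (F : R) :
    gL dt nb a g (φ * F) = dt φ * F + φ * gL dt nb a g F := by
  rw [gL_mul]
  simp [gL_apply, h]

theorem gL_one : gL dt nb a g 1 = 0 := by simp [gL_apply]

theorem gL_nb (hc : ∀ e c F, nb e (nb c F) = nb c (nb e F)) (ht : ∀ e F, nb e (dt F) = dt (nb e F))
    (ha : ∀ e, nb e a = 0) (e : ι) (F : R) :
    gL dt nb a g (nb e F) = nb e (gL dt nb a g F) + 2 * a * ∑ c, nb e (g c) * nb c F := by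
  simp only [gL_apply, map_add, map_sub, der_mul, map_sum, ha, der_two, ht, zero_mul, mul_zero,
    zero_add, hc e, Finset.sum_add_distrib]
  ring

/-- divergence-type operator `w u - D u` -/
def dl (w : R) (D : Derivation ℝ R R) : R →ₗ[ℝ] R where
  toFun u := w * u - D u
  map_add' u v := by
    simp only [map_add]
    ring
  map_smul' r u := by simp only [Derivation.map_smul, mul_smul_comm, RingHom.id_apply, smul_sub]

theorem dl_apply (w : R) (D : Derivation ℝ R R) (u : R) : dl w D u = w * u - D u := rfl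

theorem dl_mul (w : R) (D : Derivation ℝ R R) (F u : R) :
    dl w D F * u = dl w D (F * u) + F * D u := by
  simp only [dl_apply, der_mul]
  ring

theorem dl_mul_const (w : R) {D : Derivation ℝ R R} {φ : R} (h : D φ = 0) (u : R) :
    dl w D (φ * u) = φ * dl w D u := by
  simp only [dl_apply, der_mul, h]
  ring

theorem der_dl (w : R) {D D' : Derivation ℝ R R} {u : R} (h : D' (D u) = D (D' u)) :
    D' (dl w D u) = dl w D (D' u) + D' w * u := by
  simp only [dl_apply, map_sub, der_mul, h]
  ring

/-- the square of a divergence -/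
theorem dl_sq {w : ι → R} {D : ι → Derivation ℝ R R} (hc : ∀ e c F, D e (D c F) = D c (D e F))
    (u : ι → R) :
    (∑ c, dl (w c) (D c) (u c)) ^ 2 =
      ∑ e, dl (w e) (D e) (u e * (∑ c, dl (w c) (D c) (u c)) + ∑ c, u c * D c (u e)) +
        ∑ e, ∑ c, D c (u e) * D e (u c) + ∑ e, ∑ c, D e (w c) * u e * u c := by
  set W := ∑ c, dl (w c) (D c) (u c) with hW
  have h1 : W ^ 2 = ∑ e, (dl (w e) (D e) (u e * W) + u e * D e W) := by
    rw [sq]
    nth_rewrite 1 [hW]
    rw [Finset.sum_mul]
    exact Finset.sum_congr rfl fun e _ => dl_mul _ _ _ _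
  have h2 : ∀ e, u e * D e W = ∑ c, (dl (w c) (D c) (u e * D e (u c)) + D c (u e) * D e (u c) +
      D e (w c) * u e * u c) := by
    intro e
    rw [hW, map_sum, Finset.mul_sum]
    refine Finset.sum_congr rfl fun c _ => ?_
    rw [der_dl _ (hc e c _), mul_add, mul_comm (u e), dl_mul, mul_comm (D e (u c)) (u e)]
    ring
  simp only [h1, h2, Finset.sum_add_distrib, map_add, map_sum]
  rw [Finset.sum_comm (f := fun e c => dl (w c) (D c) (u e * D e (u c)))]
  ring

/-- first order operator `dT - ∑ b c • dx c` -/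
def gV (dT : Derivation ℝ R R) (dx : ι → Derivation ℝ R R) (b : ι → R) : Derivation ℝ R R :=
  dT - ∑ c, b c • dx c

theorem gV_apply (dT : Derivation ℝ R R) (dx : ι → Derivation ℝ R R) (b : ι → R) (u : R) :
    gV dT dx b u = dT u - ∑ c, b c * dx c u := by
  simp [gV, der_sum_apply]

theorem der_gV {dT D : Derivation ℝ R R} {dx : ι → Derivation ℝ R R} {b : ι → R}
    (h1 : ∀ u, D (dT u) = dT (D u)) (h2 : ∀ c u, D (dx c u) = dx c (D u)) (u : R) :
    D (gV dT dx b u) = gV dT dx b (D u) - ∑ c, D (b c) * dx c u := by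
  simp only [gV_apply, map_sub, map_sum, der_mul, h1, h2, Finset.sum_add_distrib]
  ring

/-- commutator of the transport with the divergence -/
theorem gV_dl {dT : Derivation ℝ R R} {dx : ι → Derivation ℝ R R} {b w : ι → R} {B : ι → ι → R}
    (h1 : ∀ c u, dx c (dT u) = dT (dx c u)) (h2 : ∀ e c u, dx e (dx c u) = dx c (dx e u))
    (hb : ∀ c e, dx c (b e) = B e c) (hw : ∀ c, gV dT dx b (w c) = ∑ e, dl (w e) (dx e) (B e c))
    (u : ι → R) :
    gV dT dx b (∑ c, dl (w c) (dx c) (u c)) =
      ∑ e, dl (w e) (dx e) (gV dT dx b (u e) + ∑ c, B e c * u c) := by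
  have h3 : ∀ c, gV dT dx b (dl (w c) (dx c) (u c)) =
      dl (w c) (dx c) (gV dT dx b (u c)) + ∑ e, dl (w e) (dx e) (B e c * u c) := by
    intro c
    have h4 := der_gV (b := b) (h1 c) (h2 c) (u c)
    have h5 : ∀ e, dl (w e) (dx e) (B e c * u c) =
        dl (w e) (dx e) (B e c) * u c - B e c * dx e (u c) := by
      intro e
      rw [dl_mul]
      ring
    simp only [h5, Finset.sum_sub_distrib, ← Finset.sum_mul, ← hw]
    simp only [hb] at h4
    simp only [dl_apply, map_sub, der_mul, h4]
    ring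
  simp only [map_sum, h3, map_add, Finset.sum_add_distrib]
  rw [Finset.sum_comm]

/-- the skew part as a difference of divergences -/
theorem skew_eq {dx dG : ι → Derivation ℝ R R} {w G : ι → R} {B : ι → ι → R}
    (h1 : ∀ i j u, dG j (dx i u) = dx i (dG j u)) (hB : ∀ i j, dG j (B i j) = 0) (u : R) :
    ∑ i, (∑ j, B i j * G j) * dx i u - ∑ j, (∑ i, dl (w i) (dx i) (B i j)) * dG j u =
      ∑ j, dl (G j) (dG j) (∑ i, B i j * dx i u) - ∑ i, dl (w i) (dx i) (∑ j, B i j * dG j u) := by
  simp only [map_sum, Finset.sum_mul]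
  rw [Finset.sum_comm (f := fun j i => dl (w i) (dx i) (B i j) * dG j u),
    Finset.sum_comm (f := fun j i => dl (G j) (dG j) (B i j * dx i u))]
  simp only [← Finset.sum_sub_distrib]
  refine Finset.sum_congr rfl fun i _ => Finset.sum_congr rfl fun j _ => ?_
  simp only [dl_apply, der_mul, hB, h1]
  ring

end

end

end Vale.Agent.P347
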