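import Vale.Agent.P347.Heat1Aux

namespace Vale.Agent.P347

open MeasureTheory ProbabilityTheory
open scoped RealInnerProductSpace NNReal ContDiff

variable {d : ℕ}

variable {V : E d → ℝ}

theorem heat1_integrable (hV : InClass V) {X : Type*} [MeasurableSpace X] [TopologicalSpace X]
    [OpensMeasurableSpace X] {μ : Measure X} [IsFiniteMeasure μ] {f : X → E d}
    (hf : Continuous f) : Integrable (fun x => Real.exp (-V (f x))) μ := by
  have := hV.1.continuous
  refine (integrable_const (1 : ℝ)).mono' (Continuous.aestronglyMeasurable (by fun_prop))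
    (.of_forall fun z => ?_)
  rw [Real.norm_of_nonneg (Real.exp_pos _).le]
  exact Real.exp_le_one_iff.2 (neg_nonpos.2 (hV.nonneg _))

theorem pp_pos (hV : InClass V) (s : ℝ) (y : E d) : 0 < pp V s y :=
  integral_exp_pos (heat1_integrable hV (by fun_prop))

theorem Lam_nonneg (hV : InClass V) (s : ℝ) (y : E d) : 0 ≤ Lam V s y := by
  have h : pp V s y ≤ 1 := by
    calc pp V s y ≤ ∫ _z, (1 : ℝ) ∂gam d :=
          integral_mono (heat1_integrable hV (by fun_prop)) (integrable_const _) fun z =>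
            Real.exp_le_one_iff.2 (neg_nonpos.2 (hV.nonneg _))
      _ = 1 := by simp
  exact neg_nonneg.2 (Real.log_nonpos (pp_pos hV s y).le h)

theorem Lam_zero (V : E d → ℝ) : Lam V 0 = V := by
  funext y
  simp [Lam, pp]

theorem continuous_Lam (hV : InClass V) (s : ℝ) : Continuous (Lam V s) := by
  have hc := hV.1.continuous
  have h : Continuous (pp V s) := by
    refine continuous_of_dominated (bound := fun _ => (1 : ℝ))
      (fun y => Continuous.aestronglyMeasurable (by fun_prop)) (fun y => .of_forall fun z => ?_)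
      (integrable_const _) (.of_forall fun z => by fun_prop)
    rw [Real.norm_of_nonneg (Real.exp_pos _).le]
    exact Real.exp_le_one_iff.2 (neg_nonpos.2 (hV.nonneg _))
  exact (h.log fun y => (pp_pos hV s y).ne').neg

theorem heat1_exp_neg_Lam (hV : InClass V) (s : ℝ) (y : E d) :
    Real.exp (-Lam V s y) = pp V s y := by
  rw [Lam, neg_neg, Real.exp_log (pp_pos hV s y)]

/-- semigroup property -/
theorem integral_exp_neg_Lam (hV : InClass V) (m : E d) (σ s : ℝ) :
    ∫ x, Real.exp (-Lam V s (m + σ • x)) ∂gam d = pp V (√(σ ^ 2 + s ^ 2)) m := by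
  have hc := hV.1.continuous
  simp only [heat1_exp_neg_Lam hV]
  unfold pp
  have h1 := integral_prod (μ := gam d) (ν := gam d)
    (fun p : E d × E d => Real.exp (-V (m + σ • p.1 + s • p.2))) (heat1_integrable hV (by fun_prop))
  rw [← h1]
  have h2 := integral_map (μ := (gam d).prod (gam d)) (φ := fun p => σ • p.1 + s • p.2)
    (f := fun w => Real.exp (-V (m + w))) (Continuous.aemeasurable (by fun_prop))
    (Continuous.aestronglyMeasurable (by fun_prop))
  rw [gam_sum, integral_map (Continuous.aemeasurable (by fun_prop))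
    (Continuous.aestronglyMeasurable (by fun_prop))] at h2
  rw [h2]
  simp only [add_assoc]

theorem isProb_rho (hV : InClass V) (m : E d) (σ s : ℝ) : IsProbabilityMeasure (rho V m σ s) :=
  isProb_tilted (W := fun x => Lam V s (m + σ • x)) ((continuous_Lam hV s).comp (by fun_prop))
    fun _ => Lam_nonneg hV _ _

theorem isProb_rhoY (hV : InClass V) (m : E d) (σ s : ℝ) : IsProbabilityMeasure (rhoY V m σ s) :=
  haveI := isProb_rho hV m σ s
  Measure.isProbabilityMeasure_map (Continuous.aemeasurable (by fun_prop))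

theorem heat1I_pos (hV : InClass V) {s : ℝ} (hs : 0 < s) (y : E d) :
    0 < heat1I (heat1h V) (heat1eta s y) := by
  have h := pp_pos hV s y
  rw [heat1_pp V hs] at h
  exact (mul_pos_iff_of_pos_left (by positivity)).1 h

theorem heat1_Lam (hV : InClass V) {s : ℝ} (hs : 0 < s) (y : E d) :
    Lam V s y = d * Real.log s + ‖y‖ ^ 2 / (2 * s ^ 2) -
      Real.log (heat1I (heat1h V) (heat1eta s y)) := by
  rw [Lam, heat1_pp V hs, Real.log_mul (by positivity) (heat1I_pos hV hs y).ne',
    Real.log_mul (by positivity) (by positivity), Real.log_exp, Real.log_inv, Real.log_pow]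
  ring

theorem heat1_joint (hV : InClass V) {p : ℝ × E d} (hp : 0 < p.1) :
    ContDiffAt ℝ ∞ (fun p : ℝ × E d => Lam V p.1 p.2) p := by
  have hU : IsOpen {η : E d × ℝ | 0 < η.2} := isOpen_lt continuous_const continuous_snd
  have h1 : ContDiffAt ℝ ∞ (heat1I (heat1h V)) (heat1eta p.1 p.2) :=
    ((heat1_good hV).contDiffOn hU heat1Phi_cont.aestronglyMeasurable).contDiffAt
      (hU.mem_nhds (show 0 < (2 * p.1 ^ 2)⁻¹ by positivity))
  have h2 : ContDiffAt ℝ ∞ (fun p : ℝ × E d => heat1eta p.1 p.2) p := by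
    unfold heat1eta
    exact (((contDiffAt_fst.pow 2).inv (by positivity)).smul contDiffAt_snd).prodMk
      ((contDiffAt_const.mul (contDiffAt_fst.pow 2)).inv (by positivity))
  have h12 : ContDiffAt ℝ ∞ (fun p : ℝ × E d => heat1I (heat1h V) (heat1eta p.1 p.2)) p :=
    ContDiffAt.comp (g := heat1I (heat1h V)) p h1 h2
  have h3 : ContDiffAt ℝ ∞ (fun p : ℝ × E d => d * Real.log p.1 + ‖p.2‖ ^ 2 / (2 * p.1 ^ 2) -
      Real.log (heat1I (heat1h V) (heat1eta p.1 p.2))) p :=
    ((contDiffAt_const.mul (contDiffAt_fst.log hp.ne')).add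
      ((contDiffAt_snd.norm_sq ℝ).div (contDiffAt_const.mul (contDiffAt_fst.pow 2))
        (by positivity))).sub (h12.log (heat1I_pos hV hp p.2).ne')
  refine h3.congr_of_eventuallyEq ?_
  filter_upwards [(isOpen_lt continuous_const continuous_fst).mem_nhds hp] with q hq
  exact heat1_Lam hV hq q.2

theorem contDiff_Lam (hV : InClass V) {s : ℝ} (hs : 0 < s) : ContDiff ℝ ∞ (Lam V s) :=
  contDiff_iff_contDiffAt.2 fun y =>
    (heat1_joint hV (p := (s, y)) hs).comp y (contDiffAt_const.prodMk contDiffAt_id)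

theorem contDiff_Lam_time (hV : InClass V) {s : ℝ} (hs : 0 < s) :
    ContDiff ℝ ∞ fun p : ℝ × E d => Lam V (s * Cs p.1) p.2 :=
  contDiff_iff_contDiffAt.2 fun p =>
    ContDiffAt.comp (g := fun p : ℝ × E d => Lam V p.1 p.2)
      (f := fun p : ℝ × E d => (s * Cs p.1, p.2)) p
      (heat1_joint hV (p := (s * Cs p.1, p.2)) (mul_pos hs (Cs_pos _)))
      ((contDiffAt_const.mul (contDiff_Cs.contDiffAt.comp p contDiffAt_fst)).prodMk contDiffAt_snd)

theorem heat1_space {h : E d → ℝ} (hh : ExpGood (gam d) heat1Phi {η : E d × ℝ | 0 < η.2} h)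
    {s : ℝ} (hs : 0 < s) (y : E d) :
    ∃ L : E d →L[ℝ] ℝ, HasFDerivAt (fun y => heat1I h (heat1eta s y)) L y ∧
      ∀ v, L v = (s ^ 2)⁻¹ * heat1I (fun u => h u * heat1Phi u (v, 0)) (heat1eta s y) := by
  have h1 := hh.differentiableAt heat1Phi_cont.aestronglyMeasurable
    (η := heat1eta s y) (show 0 < (2 * s ^ 2)⁻¹ by positivity)
  have h2 : HasFDerivAt (fun y : E d => heat1eta s y)
      (((s ^ 2)⁻¹ • ContinuousLinearMap.id ℝ (E d)).prod 0) y :=
    ((hasFDerivAt_id y).const_smul (s ^ 2)⁻¹).prodMk (hasFDerivAt_const (2 * s ^ 2)⁻¹ y)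
  refine ⟨_, h1.1.hasFDerivAt.comp y h2, fun v => ?_⟩
  rw [ContinuousLinearMap.comp_apply, h1.2, heat1I, ← integral_const_mul]
  refine integral_congr_ae (.of_forall fun u => ?_)
  simp only [ContinuousLinearMap.prod_apply, ContinuousLinearMap.smul_apply,
    ContinuousLinearMap.id_apply, ContinuousLinearMap.zero_apply, heat1Phi_apply, inner_smul_right]
  ring

theorem heat1_dd (hV : InClass V) {s : ℝ} (hs : 0 < s) (v : E d) :
    dd v (Lam V s) = fun y => (s ^ 2)⁻¹ * (⟪v, y⟫ -
      heat1I (fun u => heat1h V u * heat1Phi u (v, 0)) (heat1eta s y) /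
        heat1I (heat1h V) (heat1eta s y)) := by
  funext y
  obtain ⟨L, hL, hLv⟩ := heat1_space (heat1_good hV) hs y
  have e : Lam V s = fun y => d * Real.log s + ‖y‖ ^ 2 * (2 * s ^ 2)⁻¹ -
      Real.log (heat1I (heat1h V) (heat1eta s y)) := funext fun y => heat1_Lam hV hs y
  have h1 := (((hasStrictFDerivAt_norm_sq y).hasFDerivAt.mul_const (2 * s ^ 2)⁻¹).const_add
    (d * Real.log s)).sub (hL.log (heat1I_pos hV hs y).ne')
  rw [dd, e]
  erw [h1.fderiv]
  simp only [ContinuousLinearMap.sub_apply, ContinuousLinearMap.smul_apply, hLv, smul_eq_mul,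
    innerSL_apply_apply, nsmul_eq_mul, Nat.cast_ofNat, real_inner_comm v y]
  field_simp

theorem heat1_dd_dd (hV : InClass V) {s : ℝ} (hs : 0 < s) (v y : E d) :
    dd v (dd v (Lam V s)) y = (s ^ 2)⁻¹ * (‖v‖ ^ 2 - (s ^ 2)⁻¹ *
      (heat1I (fun u => heat1h V u * heat1Phi u (v, 0) * heat1Phi u (v, 0)) (heat1eta s y) /
        heat1I (heat1h V) (heat1eta s y) -
      (heat1I (fun u => heat1h V u * heat1Phi u (v, 0)) (heat1eta s y) /
        heat1I (heat1h V) (heat1eta s y)) ^ 2)) := by
  obtain ⟨L, hL, hLv⟩ := heat1_space (heat1_good hV) hs y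
  obtain ⟨L', hL', hLv'⟩ := heat1_space
    ((heat1_good hV).mul_apply heat1Phi_cont.aestronglyMeasurable (v, 0)) hs y
  have hp := heat1I_pos hV hs y
  have h1 := (((innerSL ℝ v).hasFDerivAt (x := y)).sub
    (hL'.mul ((hasFDerivAt_inv hp.ne').comp y hL))).const_mul (s ^ 2)⁻¹
  rw [heat1_dd hV hs, dd]
  simp only [div_eq_mul_inv]
  erw [h1.fderiv]
  simp only [ContinuousLinearMap.sub_apply, ContinuousLinearMap.smul_apply,
    ContinuousLinearMap.add_apply, ContinuousLinearMap.comp_apply, hLv, hLv', smul_eq_mul,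
    innerSL_apply_apply, real_inner_self_eq_norm_sq, ContinuousLinearMap.toSpanSingleton_apply,
    Function.comp_apply]
  field_simp
  ring

theorem heat1_time (hV : InClass V) {σ : ℝ} (hs : 0 < σ) (y : E d) :
    HasDerivAt (fun σ => Lam V σ y) (σ * (∑ i, dd (ev i) (dd (ev i) (Lam V σ)) y -
      ∑ i, dd (ev i) (Lam V σ) y ^ 2)) σ := by
  have hg := heat1_good hV
  have hm := (heat1Phi_cont (d := d)).aestronglyMeasurable (μ := gam d)
  have hη : heat1eta σ y ∈ {η : E d × ℝ | 0 < η.2} := show 0 < (2 * σ ^ 2)⁻¹ by positivity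
  have h1 := hg.differentiableAt hm hη
  have h0 : HasDerivAt (fun σ : ℝ => (σ ^ 2)⁻¹) (-2 / σ ^ 3) σ := by
    refine ((hasDerivAt_pow 2 σ).fun_inv (by positivity)).congr_deriv ?_
    field_simp
    norm_num [mul_comm]
  have h0' : HasDerivAt (fun σ : ℝ => (2 * σ ^ 2)⁻¹) (-1 / σ ^ 3) σ := by
    simp only [mul_inv]
    exact (h0.const_mul 2⁻¹).congr_deriv (by ring)
  have h2 : HasDerivAt (fun σ => heat1eta σ y) ((-2 / σ ^ 3) • y, -1 / σ ^ 3) σ :=
    (h0.smul_const y).prodMk h0'
  have hp := heat1I_pos hV hs y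
  have h12 : HasDerivAt (fun σ => heat1I (heat1h V) (heat1eta σ y)) _ σ :=
    HasFDerivAt.comp_hasDerivAt (l := heat1I (heat1h V)) σ h1.1.hasFDerivAt h2
  have h3 := (((Real.hasDerivAt_log hs.ne').const_mul (d : ℝ)).add (h0'.const_mul (‖y‖ ^ 2))).sub
    (h12.log hp.ne')
  have hev : (fun σ => Lam V σ y) =ᶠ[nhds σ] fun σ => d * Real.log σ + ‖y‖ ^ 2 * (2 * σ ^ 2)⁻¹ -
      Real.log (heat1I (heat1h V) (heat1eta σ y)) := by
    filter_upwards [Ioi_mem_nhds hs] with τ hτ
    exact heat1_Lam hV hτ y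
  refine HasDerivAt.congr_deriv (HasDerivAt.congr_of_eventuallyEq h3 hev) ?_
  have e1 : fderiv ℝ (fun η => ∫ x, heat1h V x * Real.exp (heat1Phi x η) ∂gam d) (heat1eta σ y)
      ((-2 / σ ^ 3) • y, -1 / σ ^ 3) = ∑ i, (σ ^ 3)⁻¹ *
        (heat1I (fun u => heat1h V u * heat1Phi u (ev i, 0) * heat1Phi u (ev i, 0)) (heat1eta σ y) -
          2 * y i * heat1I (fun u => heat1h V u * heat1Phi u (ev i, 0)) (heat1eta σ y)) := by
    have i1 := fun i => (hg.mul_apply hm (ev i, 0)).integrable hm hη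
    have i2 := fun i => ((hg.mul_apply hm (ev i, 0)).mul_apply hm (ev i, 0)).integrable hm hη
    simp only [heat1I, ← integral_const_mul]
    simp only [← integral_sub (i2 _) ((i1 _).const_mul _), ← integral_const_mul]
    rw [h1.2, ← integral_finset_sum _ fun i _ => by
      exact ((i2 i).sub ((i1 i).const_mul _)).const_mul _]
    refine integral_congr_ae (.of_forall fun u => ?_)
    simp only [heat1Phi_apply u (ev _), heat1Phi_apply u (_ • y), EuclideanSpace.inner_single_right,
      inner_smul_right, mul_zero, sub_zero, one_mul, conj_trivial]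
    rw [EuclideanSpace.real_norm_sq_eq, PiLp.inner_apply]
    simp only [Finset.mul_sum, Finset.sum_mul, ← Finset.sum_sub_distrib, RCLike.inner_apply,
      conj_trivial]
    refine Finset.sum_congr rfl fun i _ => ?_
    field_simp
    ring
  erw [e1]
  simp only [heat1_dd_dd hV hs]
  simp only [heat1_dd hV hs, EuclideanSpace.inner_single_left,
    EuclideanSpace.norm_single, norm_one, one_pow, map_one, one_mul]
  rw [EuclideanSpace.real_norm_sq_eq]
  have e2 : (d : ℝ) * σ⁻¹ = ∑ _i : Fin d, σ⁻¹ := by simp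
  rw [e2]
  simp only [Finset.mul_sum, Finset.sum_mul, Finset.sum_div, ← Finset.sum_sub_distrib,
    ← Finset.sum_add_distrib]
  refine Finset.sum_congr rfl fun i _ => ?_
  change _ - _ / heat1I (heat1h V) (heat1eta σ y) = _
  field_simp
  ring

/-- the Hamilton-Jacobi-Bellman equation in the time variable `t` -/
theorem Lam_pde (hV : InClass V) {s : ℝ} (hs : 0 < s) (t : ℝ) (y : E d) :
    fderiv ℝ (fun p : ℝ × E d => Lam V (s * Cs p.1) p.2) (t, y) (1, 0) =
      -(s ^ 2 * Sn t * Cs t ^ 3) *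
        (∑ i, dd (ev i) (dd (ev i) (Lam V (s * Cs t))) y -
          ∑ i, dd (ev i) (Lam V (s * Cs t)) y ^ 2) := by
  have h1 := ((contDiff_Lam_time hV hs).differentiable (by simp) (t, y)).hasFDerivAt.comp_hasDerivAt
    t ((hasDerivAt_id t).prodMk (hasDerivAt_const t y))
  have h2 := (heat1_time hV (mul_pos hs (Cs_pos t)) y).comp t ((hasDerivAt_Cs t).const_mul s)
  rw [h1.unique h2]
  ring

theorem gg_apply (V : E d → ℝ) (s : ℝ) (y : E d) (i : Fin d) :
    gg V s y i = dd (ev i) (Lam V s) y := by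
  rw [gg, gradient, dd, ← InnerProductSpace.toDual_symm_apply, EuclideanSpace.inner_single_right]
  simp

theorem contDiff_gg (hV : InClass V) {s : ℝ} (hs : 0 < s) : ContDiff ℝ ∞ (gg V s) :=
  contDiff_euclidean.2 fun i => by
    simp only [gg_apply]
    exact contDiff_dd (contDiff_Lam hV hs) _

theorem T2_apply (hV : InClass V) {s : ℝ} (hs : 0 < s) (y v : E d) (i : Fin d) :
    T2 V s y v i = ∑ j, dd (ev j) (dd (ev i) (Lam V s)) y * v j := by
  have h1 := (EuclideanSpace.proj (𝕜 := ℝ) i).hasFDerivAt.comp y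
    ((contDiff_gg hV hs).differentiable (by simp) y).hasFDerivAt
  have e : dd (ev i) (Lam V s) = (EuclideanSpace.proj (𝕜 := ℝ) i) ∘ gg V s :=
    funext fun y => (gg_apply V s y i).symm
  have hv : v = ∑ j, v j • ev j := by
    simpa using ((EuclideanSpace.basisFun (Fin d) ℝ).sum_repr v).symm
  conv_lhs => rw [hv]
  simp only [e, dd, h1.fderiv, T2, map_sum, map_smul, ContinuousLinearMap.comp_apply]
  simp [mul_comm]

theorem T2_symm (hV : InClass V) {s : ℝ} (hs : 0 < s) (y u v : E d) :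
    ⟪T2 V s y u, v⟫ = ⟪u, T2 V s y v⟫ := by
  simp only [PiLp.inner_apply, RCLike.inner_apply, conj_trivial, T2_apply hV hs, Finset.mul_sum,
    Finset.sum_mul]
  rw [Finset.sum_comm]
  refine Finset.sum_congr rfl fun i _ => Finset.sum_congr rfl fun j _ => ?_
  rw [dd_comm (contDiff_Lam hV hs) (ev i) (ev j)]
  ring

end Vale.Agent.P347
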