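import Vale.Agent.P347.CalcA
import Vale.Agent.P347.CalcB
import Vale.Agent.P347.Heat1

namespace Vale.Agent.P347

open scoped ContDiff RealInnerProductSpace

noncomputable section

/-- the parameters of the problem -/
structure Par where
  d : ℕ
  V : E d → ℝ
  hV : InClass V
  m : E d
  s : ℝ
  β : ℝ
  hs : 0 < s
  hs' : 2 * s ^ 2 ≤ 1
  hβ : 2 * |β| * s ≤ 1

/-- smooth functions of `(t, y)` -/
abbrev RY (π : Par) := SmA (ℝ × E π.d)

/-- smooth functions of `(t, x, G)` -/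
abbrev RZ (π : Par) := SmA (ℝ × E π.d × E π.d)

variable (π : Par)

def SY : RY π := mkA (fun z => Sn z.1) (contDiff_Sn.comp contDiff_fst)

def CY : RY π := mkA (fun z => Cs z.1) (contDiff_Cs.comp contDiff_fst)

def LamY : RY π := mkA (fun p => Lam π.V (π.s * Cs p.1) p.2) (contDiff_Lam_time π.hV π.hs)

def dtY : Derivation ℝ (RY π) (RY π) := der (1, 0)

def nb (c : Fin π.d) : Derivation ℝ (RY π) (RY π) := π.s • der ((0 : ℝ), ev c)

theorem nb_apply (c : Fin π.d) (F : RY π) : nb π c F = π.s • der ((0 : ℝ), ev c) F := rfl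

theorem nb_comm (e c : Fin π.d) (F : RY π) : nb π e (nb π c F) = nb π c (nb π e F) := by
  simp only [nb_apply, Derivation.map_smul, der_comm ((0 : ℝ), ev e)]

theorem nb_dt (e : Fin π.d) (F : RY π) : nb π e (dtY π F) = dtY π (nb π e F) := by
  simp only [nb_apply, dtY, Derivation.map_smul, der_comm ((0 : ℝ), ev e)]

theorem der_time {S : Type} [NormedAddCommGroup S] [NormedSpace ℝ S] {φ φ' : ℝ → ℝ}
    (h : ∀ t, HasDerivAt φ (φ' t) t) (hφ : ContDiff ℝ ∞ fun z : ℝ × S => φ z.1) (z v : ℝ × S) :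
    evA z (der v (mkA (fun z : ℝ × S => φ z.1) hφ)) = φ' z.1 * v.1 := by
  rw [evA_der]
  have h1 := (h z.1).hasFDerivAt.comp z (hasFDerivAt_fst (p := z))
  change fderiv ℝ (φ ∘ Prod.fst) z v = _
  rw [h1.fderiv]
  simp [mul_comm]

theorem nb_SY (c : Fin π.d) : nb π c (SY π) = 0 := by
  refine SmA.ext' fun z => ?_
  rw [nb_apply, map_smul, SY, der_time hasDerivAt_Sn]
  simp

theorem nb_CY (c : Fin π.d) : nb π c (CY π) = 0 := by
  refine SmA.ext' fun z => ?_
  rw [nb_apply, map_smul, CY, der_time hasDerivAt_Cs]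
  simp

theorem dt_SY : dtY π (SY π) = CY π * (CY π * (CY π)) := by
  refine SmA.ext' fun z => ?_
  rw [dtY, SY, der_time hasDerivAt_Sn]
  simp only [map_mul, CY, evA_mk]
  ring

theorem dt_CY : dtY π (CY π) = (-1 : ℝ) • (SY π * (CY π * CY π)) := by
  refine SmA.ext' fun z => ?_
  rw [dtY, CY, der_time hasDerivAt_Cs]
  simp only [map_smul, map_mul, SY, evA_mk, smul_eq_mul]
  ring

/-- `S C ^ 3` -/
def aY : RY π := SY π * (CY π * (CY π * CY π))

theorem nb_aY (c : Fin π.d) : nb π c (aY π) = 0 := by simp [aY, nb_SY, nb_CY]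

def gY (c : Fin π.d) : RY π := nb π c (LamY π)

def LL : RY π →ₗ[ℝ] RY π := gL (dtY π) (nb π) (aY π) (gY π)

instance : LeftCommutative (fun (c : Fin π.d) (F : RY π) => nb π c F) :=
  ⟨fun e c F => nb_comm π e c F⟩

/-- normalised derivatives of the potential -/
def Th (M : Multiset (Fin π.d)) : RY π :=
  (2 * π.s ^ 2)⁻¹ • M.foldr (fun c F => nb π c F) (LamY π)

theorem nb_Th (c : Fin π.d) (M : Multiset (Fin π.d)) : nb π c (Th π M) = Th π (c ::ₘ M) := by
  rw [Th, Th, Multiset.foldr_cons, Derivation.map_smul]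

theorem gY_eq (c : Fin π.d) : gY π c = (2 * π.s ^ 2) • Th π {c} := by
  have := π.hs
  rw [Th, Multiset.foldr_singleton, smul_smul, mul_inv_cancel₀ (by positivity), one_smul, gY]

theorem pd_slice {S : Type} [NormedAddCommGroup S] [NormedSpace ℝ S] {F : ℝ × S → ℝ}
    (hF : ContDiff ℝ ∞ F) (t : ℝ) (M : Multiset S) (y : S) :
    pd M (fun y => F (t, y)) y = pd (M.map fun v => ((0 : ℝ), v)) F (t, y) := by
  have h := congrFun (pd_comp_clm hF (ContinuousLinearMap.inr ℝ ℝ S) (t, 0) M) y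
  simp only [ContinuousLinearMap.inr_apply, Prod.mk_add_mk, add_zero, zero_add] at h
  exact h

theorem foldr_val (M : Multiset (Fin π.d)) :
    (M.foldr (fun c F => nb π c F) (LamY π)).1 = fun z => π.s ^ Multiset.card M *
      pd (M.map fun c => ((0 : ℝ), ev c)) (LamY π).1 z := by
  induction M using Multiset.induction_on with
  | empty => simp [pd_zero (smA_smooth (LamY π))]
  | cons c M ih =>
    rw [Multiset.foldr_cons, Multiset.map_cons, pd_cons (smA_smooth (LamY π)), nb_apply]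
    funext z
    change π.s * dd _ _ z = _
    rw [ih, dd_const_mul (contDiff_pd (smA_smooth (LamY π)) _), Multiset.card_cons]
    ring

theorem evA_Th (M : Multiset (Fin π.d)) (z : ℝ × E π.d) :
    evA z (Th π M) = π.s ^ Multiset.card M / (2 * π.s ^ 2) *
      pd (M.map ev) (Lam π.V (π.s * Cs z.1)) z.2 := by
  rw [Th, map_smul, evA_apply, foldr_val]
  have h := pd_slice (smA_smooth (LamY π)) z.1 (M.map ev) z.2
  rw [Multiset.map_map] at h
  change pd (M.map ev) (Lam π.V (π.s * Cs z.1)) z.2 = _ at h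
  rw [h]
  simp only [smul_eq_mul, Function.comp_def]
  ring

theorem sC_pos (t : ℝ) : 0 < π.s * Cs t := mul_pos π.hs (Cs_pos t)

theorem evA_Th1 (c : Fin π.d) (z : ℝ × E π.d) :
    evA z (Th π {c}) = (2 * π.s)⁻¹ * dd (ev c) (Lam π.V (π.s * Cs z.1)) z.2 := by
  have := π.hs
  rw [evA_Th, Multiset.map_singleton, pd_singleton (contDiff_Lam π.hV (sC_pos π _)),
    Multiset.card_singleton]
  congr 1
  field_simp

theorem evA_Th2 (e c : Fin π.d) (z : ℝ × E π.d) :
    evA z (Th π (e ::ₘ {c})) =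
      2⁻¹ * dd (ev e) (dd (ev c) (Lam π.V (π.s * Cs z.1))) z.2 := by
  have := π.hs
  have h := contDiff_Lam π.hV (sC_pos π z.1)
  rw [evA_Th, Multiset.map_cons, Multiset.map_singleton, pd_cons h, pd_singleton h,
    Multiset.card_cons, Multiset.card_singleton]
  congr 1
  field_simp

theorem evA_Th3 (f e c : Fin π.d) (z : ℝ × E π.d) :
    evA z (Th π (f ::ₘ e ::ₘ {c})) =
      π.s / 2 * dd (ev f) (dd (ev e) (dd (ev c) (Lam π.V (π.s * Cs z.1)))) z.2 := by
  have := π.hs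
  have h := contDiff_Lam π.hV (sC_pos π z.1)
  rw [evA_Th, Multiset.map_cons, Multiset.map_cons, Multiset.map_singleton, pd_cons h, pd_cons h,
    pd_singleton h, Multiset.card_cons, Multiset.card_cons, Multiset.card_singleton]
  congr 1
  field_simp

theorem nb_gY (e c : Fin π.d) : nb π e (gY π c) = (2 * π.s ^ 2) • Th π (e ::ₘ {c}) := by
  rw [gY_eq, Derivation.map_smul, nb_Th]

theorem dt_LamY : dtY π (LamY π) =
    -(aY π * ∑ c, nb π c (gY π c)) + aY π * ∑ c, gY π c * gY π c := by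
  refine SmA.ext' fun z => ?_
  have := π.hs
  have h := Lam_pde π.hV π.hs z.1 z.2
  rw [dtY, evA_der]
  change fderiv ℝ (fun p : ℝ × E π.d => Lam π.V (π.s * Cs p.1) p.2) (z.1, z.2) (1, 0) = _
  rw [h]
  simp only [map_add, map_neg, map_mul, map_sum, nb_gY, map_smul, evA_Th2, smul_eq_mul]
  simp only [gY_eq, map_smul, evA_Th1, smul_eq_mul, aY, map_mul, SY, CY, evA_mk, Finset.mul_sum,
    mul_sub, ← Finset.sum_neg_distrib, ← Finset.sum_add_distrib, ← Finset.sum_sub_distrib]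
  refine Finset.sum_congr rfl fun c _ => ?_
  field_simp
  ring

theorem LL_nb (e : Fin π.d) (F : RY π) :
    LL π (nb π e F) = nb π e (LL π F) + 2 * aY π * ∑ c, nb π e (gY π c) * nb π c F :=
  gL_nb (nb_comm π) (nb_dt π) (nb_aY π) e F

theorem LL_gY (e : Fin π.d) : LL π (gY π e) = 0 := by
  have h : LL π (LamY π) = -(aY π * ∑ c, gY π c * gY π c) := by
    rw [LL, gL_apply, dt_LamY]
    simp only [gY]
    ring
  rw [gY, LL_nb, h, map_neg, der_mul, nb_aY, map_sum]
  simp only [der_mul, Finset.sum_add_distrib, mul_comm (gY π _) (nb π e _)]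
  simp only [gY]
  ring

theorem LL_Th1 (e : Fin π.d) : LL π (Th π {e}) = 0 := by
  have := π.hs
  have h := LL_gY π e
  rw [gY_eq, map_smul] at h
  exact (smul_eq_zero.1 h).resolve_left (by positivity)

theorem LL_Th (e : Fin π.d) (M : Multiset (Fin π.d)) :
    LL π (Th π (e ::ₘ M)) = nb π e (LL π (Th π M)) +
      (4 * π.s ^ 2) • (aY π * ∑ c, Th π (e ::ₘ {c}) * Th π (c ::ₘ M)) := by
  rw [← nb_Th, LL_nb]
  simp only [nb_gY, nb_Th, smul_mul_assoc, ← Finset.smul_sum, mul_smul_comm]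
  congr 1
  rw [show (4 : ℝ) * π.s ^ 2 = 2 * π.s ^ 2 * 2 by ring, mul_smul _ (2 : ℝ), two_smul]
  congr 1
  ring

theorem LL_mul (F G : RY π) :
    LL π (F * G) = LL π F * G + F * LL π G + (2 : ℝ) • (aY π * ∑ c, nb π c F * nb π c G) := by
  rw [LL, gL_mul, two_smul]
  ring

theorem LL_one : LL π 1 = 0 := gL_one

theorem LL_SY (F : RY π) : LL π (SY π * F) = CY π * (CY π * (CY π * F)) + SY π * LL π F := by
  rw [LL, gL_time (nb_SY π), dt_SY]
  ring

theorem LL_CY (F : RY π) :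
    LL π (CY π * F) = (-1 : ℝ) • (SY π * (CY π * (CY π * F))) + CY π * LL π F := by
  rw [LL, gL_time (nb_CY π), dt_CY, smul_mul_assoc]
  congr 2
  ring

/-! ### the space of `(t, x, G)` -/

theorem contDiff_py : ContDiff ℝ ∞ fun z : ℝ × E π.d × E π.d => (z.1, yy π.m π.s z) := by
  refine contDiff_fst.prodMk (contDiff_const.add ?_)
  exact (contDiff_const.mul (contDiff_Sn.comp contDiff_fst)).smul (contDiff_fst.comp contDiff_snd)

/-- pull-back along `y = m + s S x` -/
def pb : RY π →ₐ[ℝ] RZ π := pullA (fun z => (z.1, yy π.m π.s z)) (contDiff_py π)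

theorem evA_pb (F : RY π) (z : ℝ × E π.d × E π.d) :
    evA z (pb π F) = evA (z.1, yy π.m π.s z) F := rfl

def xZ (c : Fin π.d) : RZ π := linA (EuclideanSpace.proj c ∘L
  (ContinuousLinearMap.fst ℝ _ _) ∘L ContinuousLinearMap.snd ℝ ℝ (E π.d × E π.d))

def GZ (c : Fin π.d) : RZ π := linA (EuclideanSpace.proj c ∘L
  (ContinuousLinearMap.snd ℝ _ _) ∘L ContinuousLinearMap.snd ℝ ℝ (E π.d × E π.d))

theorem evA_xZ (c : Fin π.d) (z : ℝ × E π.d × E π.d) : evA z (xZ π c) = z.2.1 c := rfl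

theorem evA_GZ (c : Fin π.d) (z : ℝ × E π.d × E π.d) : evA z (GZ π c) = z.2.2 c := rfl

def dT : Derivation ℝ (RZ π) (RZ π) := der (1, 0, 0)

def dx (c : Fin π.d) : Derivation ℝ (RZ π) (RZ π) := der (0, ev c, 0)

def dG (c : Fin π.d) : Derivation ℝ (RZ π) (RZ π) := der (0, 0, ev c)

theorem dx_dx (e c : Fin π.d) (u : RZ π) : dx π e (dx π c u) = dx π c (dx π e u) := der_comm _ _ _

theorem dG_dG (e c : Fin π.d) (u : RZ π) : dG π e (dG π c u) = dG π c (dG π e u) := der_comm _ _ _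

theorem dG_dx (e c : Fin π.d) (u : RZ π) : dG π e (dx π c u) = dx π c (dG π e u) := der_comm _ _ _

theorem dx_dT (e : Fin π.d) (u : RZ π) : dx π e (dT π u) = dT π (dx π e u) := der_comm _ _ _

theorem dG_dT (e : Fin π.d) (u : RZ π) : dG π e (dT π u) = dT π (dG π e u) := der_comm _ _ _

theorem dx_xZ (e c : Fin π.d) : dx π e (xZ π c) = if e = c then 1 else 0 := by
  rw [dx, xZ, der_linA]
  by_cases h : e = c
  · simp [h]
  · simp [h, Ne.symm h]

theorem dG_GZ (e c : Fin π.d) : dG π e (GZ π c) = if e = c then 1 else 0 := by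
  rw [dG, GZ, der_linA]
  by_cases h : e = c
  · simp [h]
  · simp [h, Ne.symm h]

theorem dG_xZ (e c : Fin π.d) : dG π e (xZ π c) = 0 := by
  rw [dG, xZ, der_linA]
  simp

theorem dx_GZ (e c : Fin π.d) : dx π e (GZ π c) = 0 := by
  rw [dx, GZ, der_linA]
  simp

theorem dT_xZ (c : Fin π.d) : dT π (xZ π c) = 0 := by
  rw [dT, xZ, der_linA]
  simp

theorem dT_GZ (c : Fin π.d) : dT π (GZ π c) = 0 := by
  rw [dT, GZ, der_linA]
  simp

theorem fderiv_py (z v : ℝ × E π.d × E π.d) :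
    fderiv ℝ (fun z : ℝ × E π.d × E π.d => (z.1, yy π.m π.s z)) z v =
      (v.1, (π.s * Cs z.1 ^ 3 * v.1) • z.2.1 + (π.s * Sn z.1) • v.2.1) := by
  have h1 : HasFDerivAt (fun z : ℝ × E π.d × E π.d => π.s * Sn z.1) _ z :=
    ((hasDerivAt_Sn z.1).hasFDerivAt.comp z (hasFDerivAt_fst (p := z))).const_mul π.s
  have h2 : HasFDerivAt (fun z : ℝ × E π.d × E π.d => z.2.1) _ z :=
    (hasFDerivAt_fst (𝕜 := ℝ) (p := z.2)).comp z (hasFDerivAt_snd (𝕜 := ℝ) (p := z))
  have h3 := (hasFDerivAt_fst (p := z)).prodMk ((h1.fun_smul h2).const_add π.m)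
  have h4 := h3.fderiv
  change fderiv ℝ (fun z : ℝ × E π.d × E π.d => (z.1, π.m + (π.s * Sn z.1) • z.2.1)) z v = _
  rw [h4]
  simp [add_comm, mul_comm, mul_left_comm]

theorem fderiv_expandY (F : RY π) (p : ℝ × E π.d) (a : ℝ) (v : E π.d) :
    fderiv ℝ F.1 p (a, π.s • v) = a * evA p (dtY π F) + ∑ c, v c * evA p (nb π c F) := by
  have h : ((a, π.s • v) : ℝ × E π.d) =
      a • ((1 : ℝ), (0 : E π.d)) + ∑ c, (v c * π.s) • ((0 : ℝ), ev c) := by
    ext i
    · simp [Prod.fst_sum]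
    · simp [Prod.snd_sum, Pi.single_apply, mul_comm]
  rw [h, map_add, map_sum]
  simp only [map_smul, nb_apply, dtY, evA_der, smul_eq_mul, mul_assoc]

theorem dG_pb (c : Fin π.d) (F : RY π) : dG π c (pb π F) = 0 := by
  refine SmA.ext' fun z => ?_
  rw [dG, pb, evA_der_pull, fderiv_py]
  simp [← Prod.zero_eq_mk]

theorem dx_pb (c : Fin π.d) (F : RY π) : dx π c (pb π F) = pb π (SY π * nb π c F) := by
  refine SmA.ext' fun z => ?_
  rw [dx, pb, evA_der_pull, fderiv_py, evA_pull]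
  simp only [mul_zero, zero_smul, zero_add, mul_smul, fderiv_expandY, zero_mul, map_mul, SY,
    evA_mk]
  rw [Finset.sum_eq_single c]
  · simp
  · intro b _ hb
    simp [hb]
  · simp

theorem dT_pb (F : RY π) : dT π (pb π F) =
    pb π (dtY π F) + pb π (CY π * (CY π * CY π)) * ∑ c, xZ π c * pb π (nb π c F) := by
  refine SmA.ext' fun z => ?_
  rw [dT, pb, evA_der_pull, fderiv_py]
  simp only [mul_one, smul_zero, add_zero, mul_smul, fderiv_expandY, one_mul, map_mul, map_add,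
    map_sum, evA_pull, CY, evA_mk, evA_xZ, Finset.mul_sum, PiLp.smul_apply, smul_eq_mul]
  congr 1
  exact Finset.sum_congr rfl fun c _ => by ring

end

end Vale.Agent.P347
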