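import Vale.Agent.P347.CalcC

namespace Vale.Agent.P347

noncomputable section

/-- families of matrices of smooth functions -/
abbrev Mat (a b : Sh) := (π : Par) → a.T π.d → b.T π.d → RY π

/-- the class of multipliers -/
inductive Ml : (a b : Sh) → Mat a b → Prop
  | flat (p q : ℕ) : Ml (.tup p) (.tup q) fun π I J => Th π (Sh.ms π.d p I + Sh.ms π.d q J)
  | one (a : Sh) : Ml a a fun _ i j => if i = j then 1 else 0
  | zero (a b : Sh) : Ml a b fun _ _ _ => 0
  | add {a b : Sh} {M N : Mat a b} : Ml a b M → Ml a b N → Ml a b fun π i j => M π i j + N π i j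
  | sS {a b : Sh} {M : Mat a b} : Ml a b M → Ml a b fun π i j => SY π * M π i j
  | sC {a b : Sh} {M : Mat a b} : Ml a b M → Ml a b fun π i j => CY π * M π i j
  | sK {a b : Sh} {M : Mat a b} (κ : Par → ℝ) (K : ℝ) (h : ∀ π, |κ π| ≤ K) :
      Ml a b M → Ml a b fun π i j => κ π • M π i j
  | comp {a b c : Sh} {M : Mat a b} {N : Mat b c} :
      Ml a b M → Ml b c N → Ml a c fun π i k => ∑ j, M π i j * N π j k
  | tens {a b : Sh} {M : Mat a b} (c : Sh) :
      Ml a b M → Ml (.p c a) (.p c b) fun π i j => if i.1 = j.1 then M π i.2 j.2 else 0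
  | reidx {a b a' b' : Sh} {M : Mat a b} (e₁ : ∀ d, a'.T d ≃ a.T d) (e₂ : ∀ d, b'.T d ≃ b.T d) :
      Ml a b M → Ml a' b' fun π i j => M π (e₁ π.d i) (e₂ π.d j)

theorem Ml.congr {a b : Sh} {M N : Mat a b} (h : Ml a b M) (e : ∀ π i j, N π i j = M π i j) :
    Ml a b N := by
  have : N = M := by
    funext π i j
    exact e π i j
  rwa [this]

/-- exchange of the first two blocks -/
def Sh.lc (a b c : Sh) (d : ℕ) : (Sh.p a (.p b c)).T d ≃ (Sh.p b (.p a c)).T d where
  toFun i := (i.2.1, i.1, i.2.2)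
  invFun i := (i.2.1, i.1, i.2.2)
  left_inv _ := rfl
  right_inv _ := rfl

def Sh.sw (a b : Sh) (d : ℕ) : (Sh.p a b).T d ≃ (Sh.p b a).T d := Equiv.prodComm _ _

def Sh.cr (a : Sh) {b b' : Sh} (e : ∀ d, b.T d ≃ b'.T d) (d : ℕ) :
    (Sh.p a b).T d ≃ (Sh.p a b').T d := Equiv.prodCongr (Equiv.refl _) (e d)

theorem Ml.tr {a b : Sh} {M : Mat a b} (h : Ml a b M) : Ml b a fun π j i => M π i j := by
  induction h with
  | flat p q => exact (Ml.flat q p).congr fun π I J => by rw [add_comm]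
  | one a => exact (Ml.one a).congr fun π i j => by simp only [eq_comm]
  | zero a b => exact Ml.zero b a
  | add _ _ h₁ h₂ => exact h₁.add h₂
  | sS _ h => exact h.sS
  | sC _ h => exact h.sC
  | sK κ K hK _ h => exact h.sK κ K hK
  | comp _ _ h₁ h₂ => exact (h₂.comp h₁).congr fun π i j => by simp only [mul_comm]
  | tens c _ h => exact (h.tens c).congr fun π i j => by simp only [eq_comm]
  | reidx e₁ e₂ _ h => exact h.reidx e₂ e₁

theorem Ml.tensR {a b : Sh} {M : Mat a b} (h : Ml a b M) (c : Sh) :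
    Ml (.p a c) (.p b c) fun π i j => if i.2 = j.2 then M π i.1 j.1 else 0 :=
  (h.tens c).reidx (Sh.sw a c) (Sh.sw b c)

theorem Ml.sA {a b : Sh} {M : Mat a b} (h : Ml a b M) : Ml a b fun π i j => aY π * M π i j :=
  h.sC.sC.sC.sS.congr fun π i j => by
    rw [aY]
    ring

theorem sum_ite_fst {R : Type} [CommRing R] {d : ℕ} {a b : Sh} (c : a.T d) (F : b.T d → R)
    (G : (Sh.p a b).T d → R) :
    ∑ j : (Sh.p a b).T d, (if c = j.1 then F j.2 else 0) * G j = ∑ j, F j * G (c, j) := by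
  rw [Sh.sum_p, Finset.sum_comm]
  simp

theorem sum_ite_snd {R : Type} [CommRing R] {d : ℕ} {a b : Sh} (c : b.T d) (F : a.T d → R)
    (G : (Sh.p a b).T d → R) :
    ∑ j : (Sh.p a b).T d, (if c = j.2 then F j.1 else 0) * G j = ∑ j, F j * G (j, c) := by
  rw [Sh.sum_p]
  simp

theorem Ml.nbr {a b : Sh} {M : Mat a b} (h : Ml a b M) :
    Ml (.p .f a) b fun π i j => nb π i.1 (M π i.2 j) := by
  induction h with
  | flat p q =>
    exact (Ml.flat (p + 1) q).congr fun π I J =>
      (nb_Th π _ _).trans (congrArg (Th π) (Multiset.cons_add _ _ _).symm)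
  | one a => exact (Ml.zero _ _).congr fun π i j => by rw [der_ite, Derivation.map_one_eq_zero, ite_self]
  | zero a b => exact (Ml.zero _ _).congr fun π i j => map_zero _
  | add _ _ h₁ h₂ => exact (h₁.add h₂).congr fun π i j => map_add _ _ _
  | sS _ h => exact h.sS.congr fun π i j => by rw [der_mul, nb_SY, zero_mul, zero_add]
  | sC _ h => exact h.sC.congr fun π i j => by rw [der_mul, nb_CY, zero_mul, zero_add]
  | sK κ K hK _ h => exact (h.sK κ K hK).congr fun π i j => Derivation.map_smul _ _ _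
  | comp hM hN h₁ h₂ =>
    refine ((h₁.comp hN).add ((hM.tens .f).comp h₂)).congr fun π i j => ?_
    rw [sum_ite_fst, map_sum, ← Finset.sum_add_distrib]
    exact Finset.sum_congr rfl fun k _ => der_mul _ _ _
  | tens c _ h =>
    exact ((h.tens c).reidx (Sh.lc _ _ _) fun _ => Equiv.refl _).congr fun π i j => der_ite _ _ _
  | reidx e₁ e₂ _ h => exact h.reidx (Sh.cr _ e₁) e₂

theorem Ml.nbc {a b : Sh} {M : Mat a b} (h : Ml a b M) :
    Ml a (.p .f b) fun π i j => nb π j.1 (M π i j.2) := h.tr.nbr.tr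

theorem Par.abs_four (π : Par) : |4 * π.s ^ 2| ≤ 2 := by
  have := π.hs'
  rw [abs_of_nonneg (by positivity)]
  linarith

theorem Ml.LL_flat_succ (q : ℕ)
    (h0 : Ml (.tup 0) (.tup q) fun π I J => LL π (Th π (Sh.ms π.d 0 I + Sh.ms π.d q J))) (p : ℕ) :
    Ml (.tup p) (.tup q) fun π I J => LL π (Th π (Sh.ms π.d p I + Sh.ms π.d q J)) := by
  induction p with
  | zero => exact h0
  | succ p ih =>
    refine (ih.nbr.add ((((Ml.flat 0 0).tensR (.tup p)).comp (Ml.flat (p + 1) q)).sA.sK _ 2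
      Par.abs_four)).congr fun π I J => ?_
    have h := LL_Th π I.1 (Sh.ms π.d p I.2 + Sh.ms π.d q J)
    rw [← Multiset.cons_add] at h
    refine h.trans ?_
    congr 3
    refine Eq.trans ?_ (sum_ite_snd (a := .f) (b := .tup p) I.2
      (fun c => Th π (Sh.ms π.d 0 I.1 + Sh.ms π.d 0 c))
      fun j => Th π (Sh.ms π.d (p + 1) j + Sh.ms π.d q J)).symm
    refine Finset.sum_congr rfl fun c _ => ?_
    rw [← Multiset.cons_add]
    rfl

theorem Ml.LL_flat (p q : ℕ) :
    Ml (.tup p) (.tup q) fun π I J => LL π (Th π (Sh.ms π.d p I + Sh.ms π.d q J)) := by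
  have h00 : Ml (.tup 0) (.tup 0) fun π I J => LL π (Th π (Sh.ms π.d 0 I + Sh.ms π.d 0 J)) := by
    refine (((Ml.flat 0 0).comp (Ml.flat 0 0)).sA.sK _ 2 Par.abs_four).congr fun π I J => ?_
    have h := LL_Th π I {J}
    rw [LL_Th1, map_zero, zero_add] at h
    exact h
  refine Ml.LL_flat_succ q ?_ p
  exact (Ml.LL_flat_succ 0 h00 q).tr.congr fun π I J => by rw [add_comm]

theorem Ml.LL {a b : Sh} {M : Mat a b} (h : Ml a b M) : Ml a b fun π i j => LL π (M π i j) := by
  induction h with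
  | flat p q => exact Ml.LL_flat p q
  | one a =>
    refine (Ml.zero _ _).congr fun π i j => ?_
    dsimp only
    split_ifs
    · exact LL_one π
    · exact map_zero _
  | zero a b => exact (Ml.zero _ _).congr fun π i j => map_zero _
  | add _ _ h₁ h₂ => exact (h₁.add h₂).congr fun π i j => map_add _ _ _
  | sS hM h => exact (hM.sC.sC.sC.add h.sS).congr fun π i j => LL_SY _ _
  | sC hM h =>
    exact ((hM.sC.sC.sS.sK (fun _ => -1) 1 fun _ => by simp).add h.sC).congr fun π i j => LL_CY _ _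
  | sK κ K hK _ h => exact (h.sK κ K hK).congr fun π i j => map_smul _ _ _
  | comp hM hN h₁ h₂ =>
    refine (((h₁.comp hN).add (hM.comp h₂)).add
      ((hM.nbc.comp hN.nbr).sA.sK (fun _ => 2) 2 fun _ => by simp)).congr fun π i j => ?_
    rw [map_sum, Sh.sum_p, Finset.sum_comm, Finset.mul_sum, Finset.smul_sum,
      ← Finset.sum_add_distrib, ← Finset.sum_add_distrib]
    exact Finset.sum_congr rfl fun k _ => LL_mul _ _ _
  | tens c _ h =>
    refine (h.tens c).congr fun π i j => ?_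
    dsimp only
    split_ifs
    · rfl
    · exact map_zero _
  | reidx e₁ e₂ _ h => exact h.reidx e₁ e₂

end

end Vale.Agent.P347
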