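import Vale.Agent.P347.CalcD

namespace Vale.Agent.P347

noncomputable section

section
variable (π : Par)

def wZ (c : Fin π.d) : RZ π := xZ π c + pb π (SY π * gY π c)

def dlx (c : Fin π.d) : RZ π →ₗ[ℝ] RZ π := dl (wZ π c) (dx π c)

def dlG (c : Fin π.d) : RZ π →ₗ[ℝ] RZ π := dl (GZ π c) (dG π c)

def bZ (c : Fin π.d) : RZ π := pb π (CY π * (CY π * (CY π * gY π c)))

def Dv : Derivation ℝ (RZ π) (RZ π) := gV (dT π) (dx π) (bZ π)

def BY (i j : Fin π.d) : RY π := (2 * π.β * π.s) • (CY π * (CY π * (CY π * Th π (i ::ₘ {j}))))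

def HY (e c : Fin π.d) : RY π :=
  (if e = c then 1 else 0) + SY π * (SY π * (2 * π.s ^ 2) • Th π (e ::ₘ {c}))

def B1 (e c : Fin π.d) : RY π := aY π * (2 * π.s ^ 2) • Th π (e ::ₘ {c})

/-- the derivative along the flow -/
def DZ (u : RZ π) : RZ π := Dv π u + (∑ i, (∑ j, pb π (BY π i j) * GZ π j) * dx π i u -
  ∑ j, (∑ i, dlx π i (pb π (BY π i j))) * dG π j u)

theorem dx_wZ (e c : Fin π.d) : dx π e (wZ π c) = pb π (HY π e c) := by
  rw [wZ, map_add, dx_xZ, dx_pb, der_mul, nb_SY, zero_mul, zero_add, nb_gY, HY, map_add,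
    apply_ite (pb π), map_one, map_zero]

theorem dG_wZ (e c : Fin π.d) : dG π e (wZ π c) = 0 := by
  rw [wZ, map_add, dG_xZ, dG_pb, add_zero]

theorem Dv_pb (F : RY π) : Dv π (pb π F) =
    ∑ c, dlx π c (pb π (CY π * (CY π * (CY π * nb π c F)))) + pb π (LL π F) := by
  rw [Dv, gV_apply, dT_pb, LL, gL_apply]
  simp only [dlx, dl_apply, dx_pb, der_mul, nb_CY, zero_mul, zero_add, bZ, wZ, aY, map_add, map_sub,
    map_mul, map_sum, map_ofNat, Finset.mul_sum, map_zero, mul_zero]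
  rw [add_sub_assoc, ← Finset.sum_sub_distrib, sub_add, ← Finset.sum_sub_distrib, add_sub_left_comm,
    ← Finset.sum_sub_distrib]
  congr 1
  exact Finset.sum_congr rfl fun c _ => by ring

theorem Dv_GZ (c : Fin π.d) : Dv π (GZ π c) = 0 := by simp [Dv, gV_apply, dT_GZ, dx_GZ]

theorem dx_bZ (c e : Fin π.d) : dx π c (bZ π e) = pb π (B1 π e c) := by
  have h : (e ::ₘ {c} : Multiset (Fin π.d)) = c ::ₘ {e} := Multiset.pair_comm e c
  rw [bZ, dx_pb, B1, aY, h]
  simp only [der_mul, nb_CY, zero_mul, zero_add, nb_gY, mul_assoc]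

theorem Dv_wZ (c : Fin π.d) : Dv π (wZ π c) = ∑ e, dlx π e (pb π (B1 π e c)) := by
  have h : Dv π (xZ π c) = -bZ π c := by simp [Dv, gV_apply, dT_xZ, dx_xZ]
  rw [wZ, map_add, h, Dv_pb, LL_SY, LL_gY, mul_zero, add_zero, bZ, neg_add_cancel_comm_assoc]
  refine Finset.sum_congr rfl fun e _ => ?_
  rw [der_mul, nb_SY, zero_mul, zero_add, nb_gY, B1, aY]
  congr 2
  ring

theorem Dv_dlx (u : Fin π.d → RZ π) : Dv π (∑ c, dlx π c (u c)) =
    ∑ e, dlx π e (Dv π (u e) + ∑ c, pb π (B1 π e c) * u c) :=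
  gV_dl (dx_dT π) (dx_dx π) (dx_bZ π) (Dv_wZ π) u

theorem Dv_dG (c : Fin π.d) (u : RZ π) : Dv π (dG π c u) = dG π c (Dv π u) := by
  rw [Dv, der_gV (dG_dT π c) (dG_dx π c)]
  simp [bZ, dG_pb]

theorem DZ_eq (u : RZ π) : DZ π u = Dv π u + (∑ j, dlG π j (∑ i, pb π (BY π i j) * dx π i u) -
    ∑ i, dlx π i (∑ j, pb π (BY π i j) * dG π j u)) := by
  rw [DZ]
  congr 1
  exact skew_eq (fun i j u => dG_dx π j i u) (fun i j => dG_pb π j _) u

theorem DZ_smul (c : ℝ) (u : RZ π) : DZ π (c • u) = c • DZ π u := by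
  simp only [DZ, Derivation.map_smul, mul_smul_comm, ← Finset.smul_sum, smul_add, smul_sub]

theorem Par.abs_s : |2 * π.s| ≤ 2 := by
  have h1 := π.hs
  have h2 := π.hs'
  rw [abs_of_pos (by positivity)]
  nlinarith

theorem Par.abs_l : |2 * π.s ^ 2| ≤ 1 := by
  rw [abs_of_nonneg (by positivity)]
  exact π.hs'

theorem Par.abs_b : |2 * π.β * π.s| ≤ 1 := by
  rw [abs_mul, abs_mul, abs_of_pos π.hs, abs_two]
  exact π.hβ

end

theorem ml_T : Ml .f .f fun π e c => Th π (e ::ₘ {c}) := Ml.flat 0 0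

theorem ml_B : Ml .f .f BY := ml_T.sC.sC.sC.sK _ 1 Par.abs_b

theorem ml_H : Ml .f .f HY := (Ml.one .f).add (ml_T.sK _ 1 Par.abs_l).sS.sS

theorem ml_B1 : Ml .f .f B1 := (ml_T.sK _ 1 Par.abs_l).sA

/-- families of tensor fields -/
abbrev Fld (a : Sh) := (π : Par) → a.T π.d → RZ π

/-- the class of terms, graded by the number of divergences -/
inductive Tm (r : Par → ℝ) : ℕ → (a : Sh) → Fld a → Prop
  | idt (n : ℕ) : Tm r n (.p .f .f) fun _ i => if i.1 = i.2 then 1 else 0
  | sc (n : ℕ) (h : ∀ π, Nm π.m ≤ r π) : Tm r n .f fun π i => (2 * π.s) • pb π (Th π {i})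
  | add {n : ℕ} {a : Sh} {u v : Fld a} :
      Tm r n a u → Tm r n a v → Tm r n a fun π i => u π i + v π i
  | mul {n : ℕ} {a b : Sh} {M : Mat a b} {u : Fld b} :
      Ml a b M → Tm r n b u → Tm r n a fun π i => ∑ j, pb π (M π i j) * u π j
  | delx {n : ℕ} {a : Sh} {u : Fld (.p .f a)} :
      Tm r n (.p .f a) u → Tm r (n + 1) a fun π i => ∑ c, dlx π c (u π (c, i))
  | delG {n : ℕ} {a : Sh} {u : Fld (.p .f a)} :
      Tm r n (.p .f a) u → Tm r (n + 1) a fun π i => ∑ c, dlG π c (u π (c, i))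
  | succ {n : ℕ} {a : Sh} {u : Fld a} : Tm r n a u → Tm r (n + 1) a u

variable {r : Par → ℝ} {n : ℕ} {a b : Sh}

theorem Tm.congr {u v : Fld a} (h : Tm r n a u) (e : ∀ π i, v π i = u π i) : Tm r n a v := by
  have : v = u := by
    funext π i
    exact e π i
  rwa [this]

theorem Tm.zero (n : ℕ) (a : Sh) : Tm r n a fun _ _ => 0 :=
  (Tm.mul (Ml.zero a _) (Tm.idt n)).congr fun π i => by simp

theorem Tm.reidx {u : Fld a} (h : Tm r n a u) (e : ∀ d, b.T d ≃ a.T d) :
    Tm r n b fun π i => u π (e π.d i) :=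
  (Tm.mul ((Ml.one a).reidx e fun _ => Equiv.refl _) h).congr fun π i => by
    change _ = ∑ j, pb π (if e π.d i = j then 1 else 0) * u π j
    simp [apply_ite (pb π)]

theorem Tm.diag {u : Fld a} (h : Tm r n a u) {φ : (π : Par) → RY π}
    (hφ : Ml a a fun π i j => φ π * if i = j then 1 else 0) :
    Tm r n a fun π i => pb π (φ π) * u π i :=
  (Tm.mul hφ h).congr fun π i => by simp [apply_ite (pb π)]

theorem Tm.sS {u : Fld a} (h : Tm r n a u) : Tm r n a fun π i => pb π (SY π) * u π i :=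
  h.diag (Ml.one a).sS

theorem Tm.sC {u : Fld a} (h : Tm r n a u) : Tm r n a fun π i => pb π (CY π) * u π i :=
  h.diag (Ml.one a).sC

theorem Tm.sK {u : Fld a} (h : Tm r n a u) (κ : Par → ℝ) (K : ℝ) (hK : ∀ π, |κ π| ≤ K) :
    Tm r n a fun π i => κ π • u π i :=
  (Tm.mul ((Ml.one a).sK κ K hK) h).congr fun π i => by simp [apply_ite (pb π)]

theorem Tm.sub {u v : Fld a} (h : Tm r n a u) (h' : Tm r n a v) :
    Tm r n a fun π i => u π i - v π i :=
  (h.add (h'.sK (fun _ => -1) 1 fun _ => by simp)).congr fun π i => by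
    rw [neg_one_smul, sub_eq_add_neg]

theorem Tm.mono {u : Fld a} (h : Tm r n a u) {n' : ℕ} (hn : n ≤ n') : Tm r n' a u := by
  induction hn with
  | refl => exact h
  | step _ ih => exact ih.succ

theorem Tm.mulL {M : Mat a b} (hM : Ml a b M) {c : Sh} {u : Fld (.p c b)} (h : Tm r n (.p c b) u) :
    Tm r n (.p c a) fun π i => ∑ j, pb π (M π i.2 j) * u π (i.1, j) :=
  (Tm.mul (hM.tens c) h).congr fun π i => by
    simp only [apply_ite (pb π), map_zero]
    exact (sum_ite_fst i.1 (fun j => pb π (M π i.2 j)) (u π)).symm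

theorem Tm.mulR {M : Mat a b} (hM : Ml a b M) {c : Sh} {u : Fld (.p b c)} (h : Tm r n (.p b c) u) :
    Tm r n (.p a c) fun π i => ∑ j, pb π (M π i.1 j) * u π (j, i.2) :=
  (Tm.mul (hM.tensR c) h).congr fun π i => by
    simp only [apply_ite (pb π), map_zero]
    exact (sum_ite_snd i.2 (fun j => pb π (M π i.1 j)) (u π)).symm

theorem Tm.vec {M : Mat .f .f} (hM : Ml .f .f M) (n : ℕ) :
    Tm r n (.p .f .f) fun π i => pb π (M π i.1 i.2) :=
  (Tm.mulR hM (Tm.idt n)).congr fun π i => by simp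

theorem Tm.gv (n : ℕ) : Tm r (n + 1) .f GZ :=
  (Tm.idt n).delG.congr fun π i => by
    simp [dlG, dl_apply, der_ite]

theorem Tm.base_x (n : ℕ) : Tm r n (.p .f .f) fun π i => dx π i.1 (pb π (Th π {i.2})) :=
  (Tm.vec ml_T.sS n).congr fun π i => by rw [dx_pb, nb_Th]

theorem Tm.base_v (n : ℕ) : Tm r (n + 1) .f fun π i => Dv π (pb π (Th π {i})) :=
  (Tm.vec ml_T.sC.sC.sC n).delx.congr fun π i => by
    simp only [Dv_pb, LL_Th1, map_zero, add_zero, nb_Th]

theorem Tm.gradx {u : Fld a} (h : Tm r n a u) :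
    Tm r n (.p .f a) fun π i => dx π i.1 (u π i.2) := by
  induction h with
  | idt n => exact (Tm.zero _ _).congr fun π i => by rw [der_ite, Derivation.map_one_eq_zero, ite_self]
  | sc n _ => exact ((Tm.base_x n).sK _ 2 Par.abs_s).congr fun π i => Derivation.map_smul _ _ _
  | add _ _ h₁ h₂ => exact (h₁.add h₂).congr fun π i => map_add _ _ _
  | mul hM hu ih =>
    refine ((Tm.mul hM.nbr.sS hu).add (Tm.mulL hM ih)).congr fun π i => ?_
    rw [map_sum, ← Finset.sum_add_distrib]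
    exact Finset.sum_congr rfl fun j _ => by rw [der_mul, dx_pb]
  | delx hu ih =>
    refine ((ih.reidx (Sh.lc _ _ _)).delx.add (Tm.mulR ml_H hu).succ).congr fun π i => ?_
    rw [map_sum, ← Finset.sum_add_distrib]
    refine Finset.sum_congr rfl fun c _ => ?_
    rw [dlx, der_dl _ (dx_dx π _ _ _), dx_wZ]
    rfl
  | delG hu ih =>
    refine (ih.reidx (Sh.lc _ _ _)).delG.congr fun π i => ?_
    rw [map_sum]
    refine Finset.sum_congr rfl fun c _ => ?_
    rw [dlG, der_dl _ (dG_dx π _ _ _).symm, dx_GZ, zero_mul, add_zero]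
    rfl
  | succ _ ih => exact ih.succ

theorem Tm.gradG {u : Fld a} (h : Tm r n a u) :
    Tm r n (.p .f a) fun π i => dG π i.1 (u π i.2) := by
  induction h with
  | idt n => exact (Tm.zero _ _).congr fun π i => by rw [der_ite, Derivation.map_one_eq_zero, ite_self]
  | sc n _ => exact (Tm.zero _ _).congr fun π i => by rw [Derivation.map_smul, dG_pb, smul_zero]
  | add _ _ h₁ h₂ => exact (h₁.add h₂).congr fun π i => map_add _ _ _
  | mul hM hu ih =>
    refine (Tm.mulL hM ih).congr fun π i => ?_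
    rw [map_sum]
    exact Finset.sum_congr rfl fun j _ => by rw [der_mul, dG_pb, zero_mul, zero_add]
  | delx hu ih =>
    refine (ih.reidx (Sh.lc _ _ _)).delx.congr fun π i => ?_
    rw [map_sum]
    refine Finset.sum_congr rfl fun c _ => ?_
    rw [dlx, der_dl _ (dG_dx π _ _ _), dG_wZ, zero_mul, add_zero]
    rfl
  | delG hu ih =>
    refine ((ih.reidx (Sh.lc _ _ _)).delG.add hu.succ).congr fun π i => ?_
    rw [map_sum]
    simp only [dlG, der_dl _ (dG_dG π _ _ _), dG_GZ, Finset.sum_add_distrib, ite_mul, one_mul,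
      zero_mul, Finset.sum_ite_eq, Finset.mem_univ, if_true]
    rfl
  | succ _ ih => exact ih.succ

theorem Tm.dv {u : Fld a} (h : Tm r n a u) : Tm r (n + 1) a fun π i => Dv π (u π i) := by
  induction h with
  | idt n => exact (Tm.zero _ _).congr fun π i => by rw [der_ite, Derivation.map_one_eq_zero, ite_self]
  | sc n _ => exact ((Tm.base_v n).sK _ 2 Par.abs_s).congr fun π i => Derivation.map_smul _ _ _
  | add _ _ h₁ h₂ => exact (h₁.add h₂).congr fun π i => map_add _ _ _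
  | mul hM hu ih =>
    refine ((((Tm.mul hM.nbr.sC.sC.sC hu).delx.add (Tm.mul hM.nbc.sC.sC.sC hu.gradx).succ).add
      (Tm.mul hM.LL hu).succ).add (Tm.mul hM ih)).congr fun π i => ?_
    rw [Sh.sum_p]
    simp only [map_sum]
    rw [← Finset.sum_add_distrib, Finset.sum_congr rfl fun c _ => Finset.sum_add_distrib.symm,
      Finset.sum_comm, ← Finset.sum_add_distrib, ← Finset.sum_add_distrib]
    refine Finset.sum_congr rfl fun j _ => ?_
    rw [der_mul, Dv_pb, add_mul, Finset.sum_mul]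
    simp only [dlx, dl_mul]
  | delx hu ih =>
    exact (ih.add (Tm.mulR ml_B1 hu).succ).delx.congr fun π i => Dv_dlx π _
  | delG hu ih =>
    refine ih.delG.congr fun π i => ?_
    rw [map_sum]
    refine Finset.sum_congr rfl fun c _ => ?_
    rw [dlG, der_dl _ (Dv_dG π _ _), Dv_GZ, zero_mul, add_zero]
  | succ _ ih => exact ih.succ

theorem Tm.dz_of {u : Fld a} (h1 : Tm r (n + 1) a fun π i => Dv π (u π i))
    (h2 : Tm r n (.p .f a) fun π i => dx π i.1 (u π i.2))
    (h3 : Tm r n (.p .f a) fun π i => dG π i.1 (u π i.2)) :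
    Tm r (n + 1) a fun π i => DZ π (u π i) :=
  (h1.add ((Tm.mulR ml_B.tr h2).delG.sub (Tm.mulR ml_B h3).delx)).congr fun π _ => DZ_eq π _

theorem Tm.dz {u : Fld a} (h : Tm r n a u) : Tm r (n + 1) a fun π i => DZ π (u π i) :=
  Tm.dz_of h.dv h.gradx h.gradG

theorem Tm.dz_iter {u : Fld a} (h : Tm r n a u) (k : ℕ) :
    Tm r (n + k) a fun π i => (DZ π)^[k] (u π i) := by
  induction k with
  | zero => exact h
  | succ k ih => exact ih.dz.congr fun π i => Function.iterate_succ_apply' _ _ _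

theorem Tm.base_z : Tm r 1 .f fun π i => DZ π (pb π (Th π {i})) :=
  Tm.dz_of (Tm.base_v 0) (Tm.base_x 0) ((Tm.zero _ _).congr fun π _ => dG_pb π _ _)

/-- induction principle: a divergence may use the gradient of its argument -/
theorem Tm.ind {P : (a : Sh) → Fld a → Prop}
    (idt : P (.p .f .f) fun _ i => if i.1 = i.2 then 1 else 0)
    (sc : (∀ π, Nm π.m ≤ r π) → P .f fun π i => (2 * π.s) • pb π (Th π {i}))
    (add : ∀ {n a} {u v : Fld a}, Tm r n a u → Tm r n a v → P a u → P a v →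
      P a fun π i => u π i + v π i)
    (mul : ∀ {n a b} {M : Mat a b} {u : Fld b}, Ml a b M → Tm r n b u → P b u →
      P a fun π i => ∑ j, pb π (M π i j) * u π j)
    (delx : ∀ {n a} {u : Fld (.p .f a)}, Tm r n _ u → P _ u →
      P (.p .f (.p .f a)) (fun π i => dx π i.1 (u π i.2)) →
      P a fun π i => ∑ c, dlx π c (u π (c, i)))
    (delG : ∀ {n a} {u : Fld (.p .f a)}, Tm r n _ u → P _ u →
      P (.p .f (.p .f a)) (fun π i => dG π i.1 (u π i.2)) →
      P a fun π i => ∑ c, dlG π c (u π (c, i)))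
    {u : Fld a} (h : Tm r n a u) : P a u := by
  have key : ∀ N, (∀ k < N, ∀ a u, Tm r k a u → P a u) → ∀ n a u, Tm r n a u → n ≤ N → P a u := by
    intro N hN n a u h
    induction h with
    | idt n => exact fun _ => idt
    | sc n h => exact fun _ => sc h
    | add hu hv h₁ h₂ => exact fun hn => add hu hv (h₁ hn) (h₂ hn)
    | mul hM hu ih => exact fun hn => mul hM hu (ih hn)
    | delx hu ih => exact fun hn => delx hu (ih (by omega)) (hN _ hn _ _ hu.gradx)
    | delG hu ih => exact fun hn => delG hu (ih (by omega)) (hN _ hn _ _ hu.gradG)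
    | succ _ ih => exact fun hn => ih (by omega)
  have : ∀ N, ∀ a u, Tm r N a u → P a u := by
    intro N
    induction N using Nat.strong_induction_on with
    | _ N ih => exact fun a u h => key N ih N a u h le_rfl
  exact this n a u h

end

end Vale.Agent.P347
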