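import Vale.Agent.P347.Flat

namespace Vale.Agent.P347

open MeasureTheory ProbabilityTheory
open scoped RealInnerProductSpace NNReal ContDiff

variable {d : ℕ}

variable {V : E d → ℝ}

theorem field_cd_fderiv {X : Type*} [NormedAddCommGroup X] [NormedSpace ℝ X] {F : ℝ → E d → X}
    (hF : ContDiff ℝ ∞ fun p : ℝ × E d => F p.1 p.2) :
    ContDiff ℝ ∞ fun p : ℝ × E d => fderiv ℝ (F p.1) p.2 :=
  ContDiff.fderiv (f := fun (p : ℝ × E d) y => F p.1 y) (m := ∞)
    (hF.comp (contDiff_fst.fst.prodMk contDiff_snd)) contDiff_snd (by simp)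

theorem field_cd_gg (hV : InClass V) {s : ℝ} (hs : 0 < s) :
    ContDiff ℝ ∞ fun p : ℝ × E d => gg V (s * Cs p.1) p.2 :=
  (Pot_riesz d).contDiff.comp
    (field_cd_fderiv (F := fun t => Lam V (s * Cs t)) (contDiff_Lam_time hV hs))

theorem field_cd_T2 (hV : InClass V) {s : ℝ} (hs : 0 < s) :
    ContDiff ℝ ∞ fun p : ℝ × E d => T2 V (s * Cs p.1) p.2 :=
  field_cd_fderiv (F := fun t => gg V (s * Cs t)) (field_cd_gg hV hs)

theorem field_cd_lapg (hV : InClass V) {s : ℝ} (hs : 0 < s) :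
    ContDiff ℝ ∞ fun p : ℝ × E d => lapg V (s * Cs p.1) p.2 :=
  ContDiff.sum fun i _ => (field_cd_fderiv (F := fun t y => T2 V (s * Cs t) y (ev i))
    ((field_cd_T2 hV hs).clm_apply contDiff_const)).clm_apply contDiff_const

theorem field_cd_yy (m : E d) (s : ℝ) :
    ContDiff ℝ ∞ fun z : ℝ × E d × E d => (z.1, yy m s z) :=
  contDiff_fst.prodMk (contDiff_const.add ((contDiff_const.mul (contDiff_Sn.comp contDiff_fst)).smul
    contDiff_snd.fst))

theorem field_cd_T2' (hV : InClass V) {s : ℝ} (hs : 0 < s) : ContDiff ℝ ∞ (T2 V s) :=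
  (contDiff_gg hV hs).fderiv_right (m := ∞) (by simp)

theorem field_lapg (hV : InClass V) {s : ℝ} (hs : 0 < s) (y : E d) :
    lapg V s y = ∑ i, fderiv ℝ (T2 V s) y (ev i) (ev i) := by
  refine Finset.sum_congr rfl fun i _ => ?_
  rw [fderiv_clm_apply ((field_cd_T2' hV hs).differentiable (by simp) y) (differentiableAt_const _)]
  simp

theorem field_T3_symm (hV : InClass V) {s : ℝ} (hs : 0 < s) (y w u v : E d) :
    ⟪fderiv ℝ (T2 V s) y w u, v⟫ = ⟪u, fderiv ℝ (T2 V s) y w v⟫ := by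
  have hT := ((field_cd_T2' hV hs).differentiable (by simp) y).hasFDerivAt
  have h1 := (innerSL ℝ v).hasFDerivAt.comp y (hT.clm_apply (hasFDerivAt_const u y))
  have h2 := (innerSL ℝ u).hasFDerivAt.comp y (hT.clm_apply (hasFDerivAt_const v y))
  have e : (innerSL ℝ v) ∘ (fun y => T2 V s y u) = (innerSL ℝ u) ∘ fun y => T2 V s y v := by
    funext y
    simp only [Function.comp_apply, innerSL_apply_apply]
    rw [real_inner_comm, T2_symm hV hs]
  rw [e] at h1
  have h3 := congrArg (fun L : E d →L[ℝ] ℝ => L w) (h1.unique h2)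
  simp only [ContinuousLinearMap.comp_apply, ContinuousLinearMap.add_apply, map_zero,
    ContinuousLinearMap.zero_apply, ContinuousLinearMap.flip_apply, innerSL_apply_apply,
    zero_add] at h3
  rw [real_inner_comm, h3]

theorem field_T2_ev (hV : InClass V) {s : ℝ} (hs : 0 < s) (y : E d) (i j : Fin d) :
    T2 V s y (ev j) i = dd (ev j) (dd (ev i) (Lam V s)) y := by
  rw [T2_apply hV hs, Finset.sum_eq_single j (fun k _ hk => by simp [hk]) (by simp)]
  simp

theorem field_T3_ev (hV : InClass V) {s : ℝ} (hs : 0 < s) (y : E d) (i j k : Fin d) :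
    fderiv ℝ (T2 V s) y (ev k) (ev j) i = dd (ev k) (dd (ev j) (dd (ev i) (Lam V s))) y := by
  have hT := ((field_cd_T2' hV hs).differentiable (by simp) y).hasFDerivAt
  have h1 := (EuclideanSpace.proj (𝕜 := ℝ) i).hasFDerivAt.comp y
    (hT.clm_apply (hasFDerivAt_const (ev j) y))
  have e : dd (ev j) (dd (ev i) (Lam V s)) =
      (EuclideanSpace.proj (𝕜 := ℝ) i) ∘ fun y => T2 V s y (ev j) :=
    funext fun y => (field_T2_ev hV hs y i j).symm
  rw [e, dd, h1.fderiv]
  simp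

/-- bound for the Laplacian of the score -/
theorem field_lapg_le : ∃ C : ℝ, 0 ≤ C ∧ ∀ (d : ℕ) (V : E d → ℝ), InClass V → ∀ s : ℝ, 0 < s →
    ∀ y : E d, s * ‖lapg V s y‖ ≤ d * C := by
  obtain ⟨C, hC, h⟩ := flat_bound 3
  refine ⟨2 * C, by positivity, fun d V hV s hs y => ?_⟩
  have hL := contDiff_Lam hV hs
  have key : ∀ j, s * ‖fderiv ℝ (T2 V s) y (ev j) (ev j)‖ ≤ 2 * C := by
    intro j
    have h1 := h d V hV s hs y Unit (Fin 2) (by simp) (Pi.single (fun _ => j) 1)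
    have e1 : ∀ I : Unit → Fin d, ∑ J : Fin 2 → Fin d, s ^ 3 / (2 * s ^ 2) *
        pd (dirs I + dirs J) (Lam V s) y * (Pi.single (fun _ => j) 1 : (Fin 2 → Fin d) → ℝ) J =
        s / 2 * fderiv ℝ (T2 V s) y (ev j) (ev j) (I ()) := by
      intro I
      rw [Finset.sum_eq_single (fun _ => j) (fun k _ hk => by simp [hk]) (by simp),
        field_T3_ev hV hs]
      have e2 : dirs I + dirs (fun _ : Fin 2 => j) = ev j ::ₘ ev j ::ₘ {ev (I ())} := by
        rw [add_comm]
        rfl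
      rw [e2, pd_cons hL, pd_cons hL, pd_singleton hL, Pi.single_eq_same]
      field_simp
    simp only [e1] at h1
    rw [← (Equiv.funUnique Unit (Fin d)).symm.sum_comp] at h1
    have e3 : ∑ J : Fin 2 → Fin d, (Pi.single (fun _ => j) 1 : (Fin 2 → Fin d) → ℝ) J ^ 2 = 1 := by
      rw [Finset.sum_eq_single (fun _ => j) (fun k _ hk => by simp [hk]) (by simp)]
      simp
    rw [e3] at h1
    simp only [mul_pow, ← Finset.mul_sum] at h1
    erw [← EuclideanSpace.real_norm_sq_eq] at h1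
    refine (pow_le_pow_iff_left₀ (by positivity) (by positivity) two_ne_zero).1 ?_
    rw [mul_pow]
    linarith
  rw [field_lapg hV hs]
  calc s * ‖∑ j, fderiv ℝ (T2 V s) y (ev j) (ev j)‖
      ≤ ∑ j, s * ‖fderiv ℝ (T2 V s) y (ev j) (ev j)‖ := by
        rw [← Finset.mul_sum]
        exact mul_le_mul_of_nonneg_left (norm_sum_le _ _) hs.le
    _ ≤ ∑ _j : Fin d, 2 * C := Finset.sum_le_sum fun j _ => key j
    _ = _ := by simp

theorem field_trace (f : E d × E d →L[ℝ] E d × E d) :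
    LinearMap.trace ℝ (E d × E d) f.toLinearMap =
      ∑ i, (f (ev i, 0)).1 i + ∑ i, (f (0, ev i)).2 i := by
  rw [LinearMap.trace_eq_matrix_trace ℝ ((EuclideanSpace.basisFun (Fin d) ℝ).toBasis.prod
    (EuclideanSpace.basisFun (Fin d) ℝ).toBasis), Matrix.trace, Fintype.sum_sum_type]
  simp [LinearMap.toMatrix_apply]

/-- time derivative of the score -/
theorem field_dt_gg (hV : InClass V) {s : ℝ} (hs : 0 < s) (t : ℝ) (y : E d) :
    fderiv ℝ (fun p : ℝ × E d => gg V (s * Cs p.1) p.2) (t, y) (1, 0) =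
      -(s ^ 2 * Sn t * Cs t ^ 3) • (lapg V (s * Cs t) y -
        (2 : ℝ) • T2 V (s * Cs t) y (gg V (s * Cs t) y)) := by
  have hσ := mul_pos hs (Cs_pos t)
  have hL := contDiff_Lam_time hV hs
  have hL' := contDiff_Lam hV hσ
  have slice : ∀ {F : ℝ × E d → ℝ}, ContDiff ℝ ∞ F → ∀ (t : ℝ) (v y : E d),
      dd (0, v) F (t, y) = dd v (fun y => F (t, y)) y := by
    intro F hF t v y
    have := congrFun (dd_comp_clm hF (ContinuousLinearMap.inr ℝ ℝ (E d)) (t, 0) v) y
    simpa using this.symm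
  ext i
  have h1 := (EuclideanSpace.proj (𝕜 := ℝ) i).hasFDerivAt.comp (t, y)
    ((field_cd_gg hV hs).differentiable (by simp) (t, y)).hasFDerivAt
  have e : (EuclideanSpace.proj (𝕜 := ℝ) i) ∘ (fun p : ℝ × E d => gg V (s * Cs p.1) p.2) =
      dd (0, ev i) fun p : ℝ × E d => Lam V (s * Cs p.1) p.2 := by
    funext p
    rw [slice hL p.1 (ev i) p.2]
    exact gg_apply V _ _ i
  rw [e] at h1
  have h2 := congrArg (fun L : ℝ × E d →L[ℝ] ℝ => L (1, 0)) h1.fderiv
  have h3 := congrFun (dd_comm hL (1, 0) (0, ev i)) (t, y)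
  rw [slice (contDiff_dd hL _)] at h3
  have e2 : (fun y => dd ((1 : ℝ), (0 : E d)) (fun p : ℝ × E d => Lam V (s * Cs p.1) p.2) (t, y)) =
      fun y => -(s ^ 2 * Sn t * Cs t ^ 3) * (∑ j, dd (ev j) (dd (ev j) (Lam V (s * Cs t))) y +
        -1 * ∑ j, dd (ev j) (Lam V (s * Cs t)) y * dd (ev j) (Lam V (s * Cs t)) y) := by
    funext y
    rw [dd, Lam_pde hV hs]
    simp only [sq]
    ring
  have c1 := fun j => contDiff_dd hL' (ev j)
  have c2 := fun j => contDiff_dd (c1 j) (ev j)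
  have c3 : ContDiff ℝ ∞ fun y => ∑ j, dd (ev j) (dd (ev j) (Lam V (s * Cs t))) y :=
    ContDiff.sum fun j _ => c2 j
  have c4 : ContDiff ℝ ∞ fun y => ∑ j, dd (ev j) (Lam V (s * Cs t)) y *
    dd (ev j) (Lam V (s * Cs t)) y := ContDiff.sum fun j _ => (c1 j).mul (c1 j)
  rw [e2, dd_const_mul (c3.add (contDiff_const.mul c4)), dd_add c3 (contDiff_const.mul c4),
    dd_const_mul c4, dd_sum _ fun j _ => c2 j, dd_sum _ fun j _ => (c1 j).mul (c1 j)] at h3
  simp only [dd_mul (c1 _) (c1 _)] at h3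
  refine (h2.symm.trans h3).trans ?_
  rw [field_lapg hV hσ]
  simp only [PiLp.smul_apply, PiLp.sub_apply, smul_eq_mul, WithLp.ofLp_sum, Finset.sum_apply,
    field_T3_ev hV hσ, T2_apply hV hσ, gg_apply, Finset.mul_sum]
  congr 1
  rw [← Finset.sum_add_distrib, ← Finset.sum_sub_distrib]
  refine Finset.sum_congr rfl fun j _ => ?_
  rw [dd_comm hL' (ev j) (ev i), dd_comm (c1 j) (ev j) (ev i)]
  ring

end Vale.Agent.P347
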