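import Vale.Agent.P347.CalcE
import Vale.Agent.P347.FieldAux

namespace Vale.Agent.P347

open scoped ContDiff RealInnerProductSpace

noncomputable section

/-- tuples as functions -/
def tupE (d : ℕ) : (n : ℕ) → (Sh.tup n).T d ≃ (Fin (n + 1) → Fin d)
  | 0 => (Equiv.funUnique (Fin 1) (Fin d)).symm
  | n + 1 => (Equiv.prodCongr (Equiv.refl _) (tupE d n)).trans (Fin.consEquiv fun _ => Fin d)

theorem ms_dirs (d : ℕ) : (n : ℕ) → (I : (Sh.tup n).T d) →
    (Sh.ms d n I).map ev = dirs (tupE d n I)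
  | 0, I => by simp [Sh.ms, dirs, tupE]
  | n + 1, I => by
    have h := ms_dirs d n I.2
    rw [Sh.ms, Multiset.map_cons, h, dirs, dirs, Fin.univ_val_map, Fin.univ_val_map,
      List.ofFn_succ (n := n + 1), Multiset.cons_coe]
    rfl

theorem ms_card (d : ℕ) : (n : ℕ) → (I : (Sh.tup n).T d) → Multiset.card (Sh.ms d n I) = n + 1
  | 0, I => by simp [Sh.ms]
  | n + 1, I => by rw [Sh.ms, Multiset.card_cons, ms_card d n]

theorem abs_Sn_le (t : ℝ) : |Sn t| ≤ 1 := by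
  have h := Sn_sq_add t
  rw [← sq_le_one_iff_abs_le_one]
  nlinarith [sq_nonneg (Cs t)]

theorem Ml.bound {a b : Sh} {M : Mat a b} (h : Ml a b M) : ∃ K, 0 ≤ K ∧ ∀ (π : Par)
    (z : ℝ × E π.d), z.1 ∈ Set.Icc (0 : ℝ) (1 / 4) → OpC (fun i j => evA z (M π i j)) K := by
  induction h with
  | flat p q =>
    obtain ⟨C, hC, H⟩ := flat_bound (p + 1 + (q + 1))
    refine ⟨((4 / 3) ^ (p + q)) ^ 2 * C ^ 2, by positivity, fun π z hz => ?_⟩
    have hc := Cs_pos z.1
    have hs := π.hs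
    have h34 : 3 / 4 ≤ Cs z.1 := Cs_ge (by rw [abs_of_nonneg hz.1]; linarith [hz.2])
    have h1 : OpC (fun (I : Fin (p + 1) → Fin π.d) (J : Fin (q + 1) → Fin π.d) =>
        (π.s * Cs z.1) ^ (p + 1 + (q + 1)) / (2 * (π.s * Cs z.1) ^ 2) *
          pd (dirs I + dirs J) (Lam π.V (π.s * Cs z.1)) z.2) (C ^ 2) :=
      H π.d π.V π.hV _ (sC_pos π z.1) z.2 _ _ (by simp)
    have h2 : |(Cs z.1)⁻¹ ^ (p + q)| ≤ (4 / 3) ^ (p + q) := by
      rw [abs_of_nonneg (by positivity)]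
      refine pow_le_pow_left₀ (by positivity) ?_ _
      rw [inv_le_comm₀ hc (by norm_num)]
      linarith
    have h3 := (h1.reidx (tupE π.d p) (tupE π.d q)).smul h2
    convert h3 using 3 with I J
    rw [evA_Th, Multiset.map_add, ms_dirs, ms_dirs, Multiset.card_add, ms_card, ms_card,
      ← mul_assoc]
    congr 1
    rw [inv_pow]
    field_simp
    ring
  | one a =>
    refine ⟨1, zero_le_one, fun π z _ => ?_⟩
    simp only [apply_ite (evA z), map_one, map_zero]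
    exact OpC.one
  | zero a b => exact ⟨0, le_rfl, fun π z _ => by simpa using OpC.zero⟩
  | add _ _ h₁ h₂ =>
    obtain ⟨K₁, h0, h₁⟩ := h₁
    obtain ⟨K₂, h0', h₂⟩ := h₂
    exact ⟨2 * K₁ + 2 * K₂, by positivity, fun π z hz => by
      simpa only [map_add] using (h₁ π z hz).add (h₂ π z hz)⟩
  | sS _ h =>
    obtain ⟨K, h0, h⟩ := h
    exact ⟨1 ^ 2 * K, by positivity, fun π z hz => by
      simpa only [map_mul, SY, evA_mk] using (h π z hz).smul (abs_Sn_le z.1)⟩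
  | sC _ h =>
    obtain ⟨K, h0, h⟩ := h
    exact ⟨1 ^ 2 * K, by positivity, fun π z hz => by
      simpa only [map_mul, CY, evA_mk] using
        (h π z hz).smul ((abs_of_pos (Cs_pos z.1)).le.trans (Cs_le_one z.1))⟩
  | sK κ k hk _ h =>
    obtain ⟨K, h0, h⟩ := h
    exact ⟨k ^ 2 * K, by positivity, fun π z hz => by
      simpa only [map_smul, smul_eq_mul] using (h π z hz).smul (hk π)⟩
  | comp _ _ h₁ h₂ =>
    obtain ⟨K₁, h0, h₁⟩ := h₁
    obtain ⟨K₂, h0', h₂⟩ := h₂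
    exact ⟨K₁ * K₂, by positivity, fun π z hz => by
      simpa only [map_sum, map_mul] using (h₁ π z hz).comp (h₂ π z hz) h0⟩
  | tens c _ h =>
    obtain ⟨K, h0, h⟩ := h
    refine ⟨K, h0, fun π z hz => ?_⟩
    simp only [apply_ite (evA z), map_zero]
    exact (h π z hz).tens
  | reidx e₁ e₂ _ h =>
    obtain ⟨K, h0, h⟩ := h
    exact ⟨K, h0, fun π z hz => (h π z hz).reidx _ _⟩

/-! ### the link with the vector valued definitions -/

variable (π : Par)

theorem ev_gF (z : ℝ × E π.d × E π.d) (i : Fin π.d) :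
    evA z ((2 * π.s) • pb π (Th π {i})) = gF π.V π.m π.s z i := by
  have := π.hs
  rw [map_smul, evA_pb, evA_Th1, gF, gg_apply, smul_eq_mul, ← mul_assoc,
    mul_inv_cancel₀ (by positivity), one_mul]

theorem ev_gY (z : ℝ × E π.d × E π.d) (i : Fin π.d) :
    evA z (pb π (gY π i)) = π.s * gF π.V π.m π.s z i := by
  rw [← ev_gF, gY_eq]
  simp only [map_smul, smul_eq_mul]
  ring

theorem ev_SY (z : ℝ × E π.d × E π.d) : evA z (pb π (SY π)) = Sn z.1 := rfl

theorem ev_CY (z : ℝ × E π.d × E π.d) : evA z (pb π (CY π)) = Cs z.1 := rfl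

theorem ev_wZ (z : ℝ × E π.d × E π.d) (i : Fin π.d) : evA z (wZ π i) = om π.V π.m π.s z i := by
  simp only [wZ, map_add, map_mul, evA_xZ, ev_gY, ev_SY, om, PiLp.add_apply, PiLp.smul_apply,
    smul_eq_mul]
  ring

theorem ev_TF (z : ℝ × E π.d × E π.d) (v : E π.d) (i : Fin π.d) :
    TF π.V π.m π.s z v i = 2 * ∑ j, evA z (pb π (Th π (j ::ₘ {i}))) * v j := by
  rw [TF, T2_apply π.hV (sC_pos π _), Finset.mul_sum]
  refine Finset.sum_congr rfl fun j _ => ?_
  rw [evA_pb, evA_Th2]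
  ring

theorem Th_swap (i j : Fin π.d) : Th π (i ::ₘ {j}) = Th π (j ::ₘ {i}) :=
  congrArg (Th π) (Multiset.pair_comm i j)

theorem ev_lapg (z : ℝ × E π.d × E π.d) (i : Fin π.d) :
    π.s * lapg π.V (π.s * Cs z.1) (yy π.m π.s z) i =
      2 * ∑ j, evA z (pb π (Th π (j ::ₘ j ::ₘ {i}))) := by
  rw [field_lapg π.hV (sC_pos π _), Finset.mul_sum]
  simp only [WithLp.ofLp_sum, Finset.sum_apply, Finset.mul_sum]
  refine Finset.sum_congr rfl fun j _ => ?_
  rw [field_T3_ev π.hV (sC_pos π _), evA_pb, evA_Th3]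
  ring

theorem ev_fld1 (z : ℝ × E π.d × E π.d) (i : Fin π.d) : (fld π.V π.m π.s π.β z).1 i =
    -evA z (bZ π i) + evA z (∑ j, pb π (BY π i j) * GZ π j) := by
  simp only [fld, PiLp.add_apply, PiLp.neg_apply, PiLp.smul_apply, smul_eq_mul, ev_TF, bZ, BY,
    map_mul, map_sum, map_smul, ev_CY, ev_gY, evA_GZ, Th_swap π i, Finset.mul_sum]
  congr 1
  · ring
  · exact Finset.sum_congr rfl fun j _ => by ring

theorem ev_fld2 (z : ℝ × E π.d × E π.d) (j : Fin π.d) : (fld π.V π.m π.s π.β z).2 j =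
    -evA z (∑ i, dlx π i (pb π (BY π i j))) := by
  have h := ev_lapg π z j
  have h2 : π.s * Sn z.1 * lapg π.V (π.s * Cs z.1) (yy π.m π.s z) j =
      Sn z.1 * (π.s * lapg π.V (π.s * Cs z.1) (yy π.m π.s z) j) := by ring
  have h3 : ∀ i, nb π i (BY π i j) =
      (2 * π.β * π.s) • (CY π * (CY π * (CY π * Th π (i ::ₘ i ::ₘ {j})))) := fun i => by
    simp only [BY, Derivation.map_smul, der_mul, nb_CY, zero_mul, zero_add, nb_Th]
  simp only [dlx, dl_apply, dx_pb, h3]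
  simp only [fld, dA, PiLp.neg_apply, PiLp.smul_apply, PiLp.sub_apply, smul_eq_mul, ev_TF, h2, h,
    BY, map_mul, map_sum, map_smul, map_sub, ev_CY, ev_SY, ev_wZ, Finset.mul_sum,
    ← Finset.sum_sub_distrib]
  congr 1
  exact Finset.sum_congr rfl fun i _ => by ring

theorem fderiv_expandZ (u : RZ π) (z : ℝ × E π.d × E π.d) (v w : E π.d) :
    fderiv ℝ u.1 z (1, v, w) =
      evA z (dT π u) + ∑ c, v c * evA z (dx π c u) + ∑ c, w c * evA z (dG π c u) := by
  have h : (((1 : ℝ), v, w) : ℝ × E π.d × E π.d) = ((1 : ℝ), (0 : E π.d), (0 : E π.d)) +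
      ∑ c, v c • ((0 : ℝ), ev c, (0 : E π.d)) + ∑ c, w c • ((0 : ℝ), (0 : E π.d), ev c) := by
    ext i
    · simp [Prod.fst_sum]
    · simp [Prod.snd_sum, Prod.fst_sum, Pi.single_apply]
    · simp [Prod.snd_sum, Pi.single_apply]
  rw [h, map_add, map_add, map_sum, map_sum]
  simp only [map_smul, dT, dx, dG, evA_der, smul_eq_mul]

theorem ev_DZ (u : RZ π) (z : ℝ × E π.d × E π.d) :
    evA z (DZ π u) = fderiv ℝ u.1 z (1, fld π.V π.m π.s π.β z) := by
  have h := fderiv_expandZ π u z (fld π.V π.m π.s π.β z).1 (fld π.V π.m π.s π.β z).2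
  rw [h, DZ, Dv, gV_apply]
  simp only [ev_fld1, ev_fld2, map_add, map_sub, map_sum (evA z) (fun i => _ * _), map_mul, add_mul,
    neg_mul, Finset.sum_add_distrib, Finset.sum_neg_distrib]
  ring

theorem Dt_coord {H : ℝ × E π.d × E π.d → E π.d} {u : Fin π.d → RZ π}
    (h : ∀ z i, H z i = evA z (u i)) (z : ℝ × E π.d × E π.d) (i : Fin π.d) :
    Dt π.V π.m π.s π.β H z i = evA z (DZ π (u i)) := by
  have h1 : ∀ i, (fun z => H z i) = (u i).1 := fun i => funext fun z => h z i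
  have h2 : ContDiff ℝ ∞ H := contDiff_euclidean.2 fun i => (h1 i).symm ▸ smA_smooth (u i)
  have h3 := (EuclideanSpace.proj (𝕜 := ℝ) i).hasFDerivAt.comp z
    (h2.differentiable (by simp) z).hasFDerivAt
  rw [ev_DZ, ← h1 i, Dt]
  exact (congrArg (fun L : _ →L[ℝ] ℝ => L (1, fld π.V π.m π.s π.β z)) h3.fderiv).symm

theorem Dt_iter_coord {H : ℝ × E π.d × E π.d → E π.d} {u : Fin π.d → RZ π}
    (h : ∀ z i, H z i = evA z (u i)) (k : ℕ) (z : ℝ × E π.d × E π.d) (i : Fin π.d) :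
    (Dt π.V π.m π.s π.β)^[k] H z i = evA z ((DZ π)^[k] (u i)) := by
  induction k generalizing z i with
  | zero => exact h z i
  | succ k ih =>
    rw [Function.iterate_succ_apply', Function.iterate_succ_apply']
    exact Dt_coord π (u := fun i => (DZ π)^[k] (u i)) ih z i

end

end Vale.Agent.P347
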