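import Vale.Agent.P347.Model

namespace Vale.Agent.P347

open MeasureTheory ProbabilityTheory Polynomial
open scoped RealInnerProductSpace NNReal

noncomputable section

variable {d : ℕ}

/-- standard Gaussian -/
abbrev gam (d : ℕ) : Measure (E d) := stdGaussian (E d)

/-- basis vector -/
abbrev ev (i : Fin d) : E d := EuclideanSpace.single i (1 : ℝ)

/-- polynomial growth -/
def PolyG {X : Type*} [Norm X] (F : X → ℝ) : Prop :=
  ∃ (C : ℝ) (k : ℕ), ∀ x, |F x| ≤ C * (1 + ‖x‖) ^ k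

/-- `‖F‖` has an integrable majorant of integral at most `c`. -/
def Dom {Ω X : Type*} [MeasurableSpace Ω] [Norm X] (μ : Measure Ω) (F : Ω → X) (c : ℝ) : Prop :=
  ∃ r : Ω → ℝ, Integrable r μ ∧ ∫ ω, r ω ∂μ ≤ c ∧ ∀ᵐ ω ∂μ, ‖F ω‖ ≤ r ω

/-! ### heat-smoothed potential -/

def pp (V : E d → ℝ) (s : ℝ) (y : E d) : ℝ := ∫ z, Real.exp (-V (y + s • z)) ∂gam d

def Lam (V : E d → ℝ) (s : ℝ) (y : E d) : ℝ := -Real.log (pp V s y)

def gg (V : E d → ℝ) (s : ℝ) (y : E d) : E d := gradient (Lam V s) y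

def T2 (V : E d → ℝ) (s : ℝ) (y : E d) : E d →L[ℝ] E d := fderiv ℝ (gg V s) y

/-- law of the normalised displacement `x`: level `√(σ²+s²)` at `m` to level `s` at `m + σ x`. -/
def rho (V : E d → ℝ) (m : E d) (σ s : ℝ) : Measure (E d) :=
  (gam d).tilted fun x => -Lam V s (m + σ • x)

/-- law of the new point `m + σ x` -/
def rhoY (V : E d → ℝ) (m : E d) (σ s : ℝ) : Measure (E d) :=
  (rho V m σ s).map fun x => m + σ • x

/-- Gibbs law convolved with `N(0, s²)` -/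
def gibbsS (V : E d → ℝ) (s : ℝ) : Measure (E d) :=
  ((gibbs V).prod (gam d)).map fun p => p.1 + s • p.2

def Sn (t : ℝ) : ℝ := t / √(1 + t ^ 2)

def Cs (t : ℝ) : ℝ := 1 / √(1 + t ^ 2)

def Nm (y : E d) : ℝ := √d + ‖y‖

/-! ### the flow -/

def yy (m : E d) (s : ℝ) (z : ℝ × E d × E d) : E d := m + (s * Sn z.1) • z.2.1

def gF (V : E d → ℝ) (m : E d) (s : ℝ) (z : ℝ × E d × E d) : E d := gg V (s * Cs z.1) (yy m s z)

def TF (V : E d → ℝ) (m : E d) (s : ℝ) (z : ℝ × E d × E d) : E d →L[ℝ] E d :=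
  T2 V (s * Cs z.1) (yy m s z)

def om (V : E d → ℝ) (m : E d) (s : ℝ) (z : ℝ × E d × E d) : E d :=
  z.2.1 + (s * Sn z.1) • gF V m s z

def lapg (V : E d → ℝ) (s : ℝ) (y : E d) : E d :=
  ∑ i, fderiv ℝ (fun y' => T2 V s y' (ev i)) y (ev i)

def dA (V : E d → ℝ) (m : E d) (s : ℝ) (z : ℝ × E d × E d) : E d :=
  (s * Cs z.1 ^ 3) • (TF V m s z (om V m s z) - (s * Sn z.1) • lapg V (s * Cs z.1) (yy m s z))

def fld (V : E d → ℝ) (m : E d) (s β : ℝ) (z : ℝ × E d × E d) : E d × E d :=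
  (-((s * Cs z.1 ^ 3) • gF V m s z) + (β * s * Cs z.1 ^ 3) • TF V m s z z.2.2, -(β • dA V m s z))

/-- derivative along the flow -/
def Dt (V : E d → ℝ) (m : E d) (s β : ℝ) (H : ℝ × E d × E d → E d) (z : ℝ × E d × E d) : E d :=
  fderiv ℝ H z (1, fld V m s β z)

def mu (V : E d → ℝ) (m : E d) (s t : ℝ) : Measure (E d × E d) :=
  (rho V m (s * Sn t) (s * Cs t)).prod (gam d)

def H1 (V : E d → ℝ) (m : E d) (s : ℝ) (z : ℝ × E d × E d) : E d := (Cs z.1 ^ 3) • gF V m s z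

def H2 (V : E d → ℝ) (m : E d) (s : ℝ) (z : ℝ × E d × E d) : E d :=
  (Cs z.1 ^ 3) • TF V m s z z.2.2

def H3 (V : E d → ℝ) (m : E d) (s : ℝ) (z : ℝ × E d × E d) : E d :=
  (Sn z.1 * Cs z.1 ^ 3) • TF V m s z (TF V m s z z.2.2)

/-! ### interpolation weights on the nodes `0, 1, ..., K` -/

def lag (K : ℕ) (i : Fin (K + 1)) : ℝ[X] :=
  Lagrange.basis Finset.univ (fun j : Fin (K + 1) => ((j : ℕ) : ℝ)) i

def wI (K : ℕ) (a b i : Fin (K + 1)) : ℝ := ∫ x in ((a : ℕ) : ℝ)..((b : ℕ) : ℝ), (lag K i).eval x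

def wD (K : ℕ) (i : Fin (K + 1)) : ℝ := (derivative (lag K i)).eval 0

/-- node values of `Sn`, `Cs` -/
def Sj {K : ℕ} (h : ℝ) (j : Fin (K + 1)) : ℝ := Sn ((j : ℕ) * h)

def Cj {K : ℕ} (h : ℝ) (j : Fin (K + 1)) : ℝ := Cs ((j : ℕ) * h)

/-! ### templates (Picard iterates of the node equations) -/

def vY (K : ℕ) (h : ℝ) (V : E d → ℝ) (s : ℝ) (m p : E d) : ℕ → Fin (K + 1) → E d
  | 0 => fun j => m + (s * Sj h j) • p
  | k + 1 => fun j => m + (s * Sj h j) • p -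
      ∑ i, (s * Sj h j * h * s * wI K 0 j i * Cj h i ^ 3) • gg V (s * Cj h i) (vY K h V s m p k i)

def Gam (K : ℕ) (h : ℝ) (k : ℕ) (V : E d → ℝ) (s : ℝ) (m p : E d) : E d :=
  ∑ j, (wD K j / (s * h)) • gg V (s * Cj h j) (vY K h V s m p k j)

def rot (K : ℕ) (h : ℝ) (k : ℕ) (τ : ℝ) (V : E d → ℝ) (s : ℝ) (m G u : E d) :
    ℕ → Fin (K + 1) → E d × E d
  | 0 => fun _ => (u, G)
  | l + 1 => fun j =>
      (u + ∑ i, (τ * wI K 0 j i / 2) • Gam K h k V s m (rot K h k τ V s m G u l i).2,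
       G - ∑ i, (τ * wI K 0 j i / 2) • Gam K h k V s m (rot K h k τ V s m G u l i).1)

def Gam2 (K : ℕ) (h : ℝ) (k : ℕ) (τ : ℝ) (V : E d → ℝ) (s : ℝ) (m G u : E d) : E d :=
  ∑ j, (2 * wD K j / τ) • Gam K h k V s m (rot K h k τ V s m G u k j).1

def key (K : ℕ) (h : ℝ) (k : ℕ) (τ β : ℝ) (V : E d → ℝ) (s : ℝ) (m y G u : E d) :
    ℕ → Fin (K + 1) → E d × E d
  | 0 => fun j => (m + (Sj h j / Sj h (Fin.last K)) • (y - m), G)
  | l + 1 => fun j =>
      (m + (Sj h j / Sj h (Fin.last K)) • (y - m) +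
        ∑ i, (s * Sj h j * h * wI K (Fin.last K) j i) •
          (-((s * Cj h i ^ 3) • gg V (s * Cj h i) (key K h k τ β V s m y G u l i).1) +
            (β * s * Cj h i ^ 3) • Gam K h k V (s * Cj h i) (key K h k τ β V s m y G u l i).1
              (key K h k τ β V s m y G u l i).2),
       G + β • (gg V (s * Cj h (Fin.last K)) y - gg V (s * Cj h j) (key K h k τ β V s m y G u l j).1) +
        ∑ i, (h * wI K (Fin.last K) j i * (β ^ 2 * s ^ 2 * (Sj h i * Cj h i ^ 3))) •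
          Gam2 K h k τ V (s * Cj h i) (key K h k τ β V s m y G u l i).1
            (key K h k τ β V s m y G u l i).2 u)

def keyQ (K : ℕ) (h : ℝ) (k : ℕ) (τ β : ℝ) (V : E d → ℝ) (s : ℝ) (m y G u : E d) : E d :=
  ∑ i, (h * wI K (Fin.last K) 0 i * (β * s ^ 2 * (Sj h i * Cj h i ^ 3))) •
    Gam2 K h k τ V (s * Cj h i) (key K h k τ β V s m y G u k i).1
      (key K h k τ β V s m y G u k i).2 u

/-- bridge coefficient and bridge noise for the descent step (angles `K h` and `2 K h`) -/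
def brA (T : ℝ) : ℝ := Sn T ^ 2 / Sn (2 * T) ^ 2

def brB (T : ℝ) : ℝ := √(Sn T ^ 2 * (1 - brA T))

def descY (K : ℕ) (h : ℝ) (k : ℕ) (V : E d → ℝ) (s : ℝ) (m p : E d) : E d :=
  m + brA (K * h) • (vY K (2 * h) V s m p k (Fin.last K) - m)

/-! ### query programs -/

/-- `F` is computed from the gradient oracle with at most `q` adaptive queries. -/
inductive Det (d : ℕ) : ℕ → (Ω : Type) → MeasurableSpace Ω → ((E d → E d) → Ω → E d) → Prop
  | stop (q : ℕ) (Ω : Type) (mΩ : MeasurableSpace Ω) (out : Ω → E d) (h : Measurable out) :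
      Det d q Ω mΩ (fun _ => out)
  | ask (q : ℕ) (Ω : Type) (mΩ : MeasurableSpace Ω) (x : Ω → E d) (h : Measurable x)
      (F : (E d → E d) → Ω × E d → E d) (hF : Det d q (Ω × E d) inferInstance F) :
      Det d (q + 1) Ω mΩ (fun O ω => F O (ω, O (x ω)))

def Seed (R : Type) [MeasurableSpace R] (P : Measure R) : Prop :=
  ∃ (N : ℕ) (ψ : (Fin N → ℝ) → R),
    MeasurePreserving ψ (Measure.pi fun _ : Fin N => gaussianReal 0 1) P

/-- With `q` queries and fresh randomness one outputs a vector whose law is within `e` of the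
functional `T` on Lipschitz test functions. -/
def Approx (Ω : Type) [MeasurableSpace Ω] (T : (E d → ℝ) → Ω → (E d → ℝ) → ℝ)
    (e : (E d → ℝ) → Ω → ℝ) (q : ℕ) : Prop :=
  ∃ (R : Type) (_ : MeasurableSpace R) (P : Measure R), Seed R P ∧
    ∃ F : (E d → E d) → Ω × R → E d, Det d q (Ω × R) inferInstance F ∧
      ∀ V, InClass V → ∀ ω, Integrable (fun r => F (gradient V) (ω, r)) P ∧
        ∀ (f : E d → ℝ) (L : ℝ≥0), LipschitzWith L f →
          |∫ r, f (F (gradient V) (ω, r)) ∂P - T V ω f| ≤ L * e V ω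

/-- `u + t Z` can be sampled. -/
def Samp (Ω : Type) [MeasurableSpace Ω] (u : (E d → ℝ) → Ω → E d) (t : ℝ)
    (e : (E d → ℝ) → Ω → ℝ) (q : ℕ) : Prop :=
  Approx Ω (fun V ω f => ∫ z, f (u V ω + t • z) ∂gam d) e q

/-- Nested expressions: coefficient `a` on `m`, a known part of norm `≤ b * B`, outer weights
`≤ W`, inner weights `≤ wb`, at most `n` calls of `gg`, nesting depth at most `p`. -/
inductive Rep {Ω : Type} [MeasurableSpace Ω] (m : (E d → ℝ) → Ω → E d) (B : Ω → ℝ) (s wb : ℝ) :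
    ℝ → ℝ → ℝ → ℕ → ℕ → ((E d → ℝ) → Ω → E d) → Prop
  | base (a W b : ℝ) (n p : ℕ) (φ : Ω → E d) (hφ : Measurable φ) (hb : ∀ ω, ‖φ ω‖ ≤ b * B ω) :
      Rep m B s wb a W b n p (fun V ω => a • m V ω + φ ω)
  | step (a W b : ℝ) (n p : ℕ) (u₀ : (E d → ℝ) → Ω → E d) (a₁ : ℝ) (n₁ : ℕ)
      (u₁ : (E d → ℝ) → Ω → E d) (w s₁ : ℝ) (n' : ℕ)
      (h₀ : Rep m B s wb a W b n (p + 1) u₀) (h₁ : Rep m B s wb a₁ wb 4 n₁ p u₁)
      (ha : |a₁| ≤ 1) (hw : |w| ≤ W) (hs : s / 2 ≤ s₁) (hs' : s₁ ≤ s) (hn : n + n₁ + 1 ≤ n') :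
      Rep m B s wb a W b n' (p + 1) (fun V ω => u₀ V ω + w • gg V s₁ (u₁ V ω))

/-- The inductive claim: `w • gg s m` is sampleable at noise `t` when `2 |w| s ≤ R t`. -/
def Claim (d : ℕ) (h s₀ c R ε Λ : ℝ) (Bq : ℕ) : Prop :=
  ∀ (Ω : Type) [MeasurableSpace Ω] (m : (E d → ℝ) → Ω → E d) (s w t : ℝ)
    (e : (E d → ℝ) → Ω → ℝ) (q : ℕ), 0 < s → s ≤ s₀ → 0 < t → 2 * |w| * s ≤ R * t →
    Samp Ω m (c * s * h) e q →
    Samp Ω (fun V ω => w • gg V s (m V ω)) t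
      (fun V ω => Λ * R * t / s * e V ω + ε * t * Nm (m V ω)) (Bq * (q + 1))

end

end Vale.Agent.P347
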