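import Vale.Agent.P347.FlowAuxB

/-! One Euler step changes the density only to second order. -/

namespace Vale.Agent.P347

open Set Metric MeasureTheory
open scoped NNReal

theorem flow_real {D τ ρ ρ' e a b c m : ℝ} (hD : 0 ≤ D) (he : |e| ≤ 1)
    (h1 : |D - 1 - e * τ| ≤ a * e ^ 2) (h2 : |ρ' - ρ - e * -(ρ * τ)| ≤ b * e ^ 2) (h3 : |τ| ≤ c)
    (h4 : |ρ| ≤ m) (h5 : |ρ'| ≤ m) : |(|D| * ρ' - ρ)| ≤ (a * m + (1 + c) * b + m * c ^ 2) * e ^ 2 := by
  have e1 : |D| * ρ' - ρ = (D - 1 - e * τ) * ρ' + (1 + e * τ) * (ρ' - ρ - e * -(ρ * τ)) +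
      -(e ^ 2 * (ρ * τ ^ 2)) := by rw [abs_of_nonneg hD]; ring
  have a1 : |(D - 1 - e * τ) * ρ'| ≤ a * e ^ 2 * m := by
    rw [abs_mul]; exact mul_le_mul h1 h5 (abs_nonneg _) ((abs_nonneg _).trans h1)
  have a2 : |1 + e * τ| ≤ 1 + c := by
    refine (abs_add_le _ _).trans ?_
    rw [abs_one, abs_mul]
    have := mul_le_mul he h3 (abs_nonneg _) zero_le_one
    linarith
  have a3 : |(1 + e * τ) * (ρ' - ρ - e * -(ρ * τ))| ≤ (1 + c) * (b * e ^ 2) := by
    rw [abs_mul]; exact mul_le_mul a2 h2 (abs_nonneg _) ((abs_nonneg _).trans a2)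
  have a4 : |(-(e ^ 2 * (ρ * τ ^ 2)))| ≤ e ^ 2 * (m * c ^ 2) := by
    rw [abs_neg, abs_mul, abs_mul, abs_sq, abs_pow]
    exact mul_le_mul_of_nonneg_left (mul_le_mul h4 (pow_le_pow_left₀ (abs_nonneg _) h3 2)
      (by positivity) ((abs_nonneg _).trans h4)) (sq_nonneg _)
  rw [e1]
  refine (abs_add_three _ _ _).trans ?_
  linarith

variable {S : Type*} [NormedAddCommGroup S] [NormedSpace ℝ S] [FiniteDimensional ℝ S]
  {X : ℝ × S → S} {T : ℝ}

theorem flow_bddA (hX : ContDiff ℝ 1 X) (T R : ℝ) : ∃ M : ℝ, 0 ≤ M ∧ ∀ r ∈ Icc 0 T, ∀ z : S,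
    ‖z‖ ≤ R → ‖fderiv ℝ (fun z => X (r, z)) z‖ ≤ M := by
  obtain ⟨M, hM, h⟩ := flow_bdd (hX.continuous_fderiv one_ne_zero) (max T R)
  refine ⟨M, hM, fun r hr z hz => ?_⟩
  have d1 : HasFDerivAt (fun z => X (r, z)) _ z :=
    (hX.differentiable one_ne_zero (r, z)).hasFDerivAt.comp z (hasFDerivAt_prodMk_right r z)
  rw [d1.fderiv]
  refine (ContinuousLinearMap.opNorm_comp_le _ _).trans ?_
  exact (mul_le_mul (h _ (flow_norm_pair hr hz)) (ContinuousLinearMap.norm_inr_le_one ℝ ℝ S)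
    (norm_nonneg _) hM).trans_eq (mul_one M)

theorem flow_dens {ρ : ℝ × S → ℝ} (hX : ContDiff ℝ 1 X) (hρ : ContDiff ℝ 2 ρ)
    (hcont : ∀ t ∈ Icc 0 T, ∀ z, fderiv ℝ ρ (t, z) (1, X (t, z)) +
      ρ (t, z) * LinearMap.trace ℝ S (fderiv ℝ (fun z => X (t, z)) z).toLinearMap = 0) (R : ℝ) :
    ∃ M δ : ℝ, 0 ≤ M ∧ 0 < δ ∧ ∀ r ∈ Icc 0 T, ∀ e : ℝ, |e| ≤ δ → ∀ z : S, ‖z‖ ≤ R →
      |(|(1 + e • fderiv ℝ (fun z => X (r, z)) z).det| * ρ (r + e, z + e • X (r, z)) - ρ (r, z))| ≤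
        M * e ^ 2 := by
  obtain ⟨MA, hMA, hA⟩ := flow_bddA hX T R
  obtain ⟨M1, hM1, h1⟩ := flow_bdd (f := fun p : ℝ × S => ((1 : ℝ), X p))
    (continuous_const.prodMk hX.continuous) (max T R)
  obtain ⟨Md, hMd, hd⟩ := flow_det (V := S)
  obtain ⟨Mt, hMt, ht⟩ := flow_taylor hρ (max T R)
  obtain ⟨m, hm, hb⟩ := flow_bdd hρ.continuous (max T R + 1)
  set c := ‖fderiv ℝ (fun A : S →L[ℝ] S => A.det) 1‖ * MA with hc
  have hc0 : 0 ≤ c := by positivity
  set N := 1 + MA + M1 + c + Md * MA ^ 2 with hN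
  have hN0 : 0 < N := by positivity
  have hq : 0 ≤ Md * MA ^ 2 := by positivity
  refine ⟨Md * MA ^ 2 * m + (1 + c) * (Mt * M1 ^ 2) + m * c ^ 2, 1 / N, by positivity,
    by positivity, fun r hr e he z hz => ?_⟩
  rw [le_div_iff₀ hN0] at he
  have he0 := abs_nonneg e
  have b1 : ∀ x, 0 ≤ x → x ≤ N → |e| * x ≤ 1 := fun x _ hx =>
    (mul_le_mul_of_nonneg_left hx he0).trans he
  have he1 : |e| ≤ 1 := by simpa using b1 1 zero_le_one (by linarith)
  set A := fderiv ℝ (fun z => X (r, z)) z with hA'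
  set τ := LinearMap.trace ℝ S A.toLinearMap with hτ
  have a0 := hA r hr z hz
  have a1 : |τ| ≤ c := by
    rw [hτ, ← flow_fderiv_det]
    exact ((fderiv ℝ (fun A : S →L[ℝ] S => A.det) 1).le_opNorm A).trans
      (mul_le_mul_of_nonneg_left a0 (norm_nonneg (fderiv ℝ (fun A : S →L[ℝ] S => A.det) 1)))
  have a2 : ‖e • A‖ ≤ |e| * MA := by
    rw [norm_smul]; exact mul_le_mul_of_nonneg_left a0 he0
  have a3 : |(1 + e • A).det - 1 - e * τ| ≤ Md * MA ^ 2 * e ^ 2 := by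
    have := hd (e • A) (a2.trans (b1 MA hMA (by linarith)))
    rw [ContinuousLinearMap.toLinearMap_smul, map_smul, smul_eq_mul] at this
    refine this.trans ?_
    have := mul_le_mul_of_nonneg_left (pow_le_pow_left₀ (norm_nonneg _) a2 2) hMd
    rw [mul_pow, sq_abs] at this
    linarith
  have a4 : 0 ≤ (1 + e • A).det := by
    have c1 := (abs_le.1 a3).1
    have c2 : |e * τ| ≤ |e| * c := by rw [abs_mul]; exact mul_le_mul_of_nonneg_left a1 he0
    have c3 := (abs_le.1 c2).1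
    have c4 : e ^ 2 ≤ |e| := by rw [← sq_abs]; nlinarith
    have c5 := mul_le_mul_of_nonneg_left c4 hq
    have c6 := b1 (c + Md * MA ^ 2) (by positivity) (by linarith)
    linarith
  have hp := flow_norm_pair hr hz
  have a5 : ‖e • (((1 : ℝ), X (r, z)) : ℝ × S)‖ ≤ |e| * M1 := by
    rw [norm_smul]; exact mul_le_mul_of_nonneg_left (h1 _ hp) he0
  have a6 := a5.trans (b1 M1 hM1 (by linarith))
  have e1 : ((r, z) : ℝ × S) + e • (((1 : ℝ), X (r, z)) : ℝ × S) = (r + e, z + e • X (r, z)) := by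
    simp
  have a7 : |ρ (r + e, z + e • X (r, z)) - ρ (r, z) - e * -(ρ (r, z) * τ)| ≤
      Mt * M1 ^ 2 * e ^ 2 := by
    have := ht (r, z) _ hp a6
    rw [e1, map_smul, smul_eq_mul, eq_neg_of_add_eq_zero_left (hcont r hr z)] at this
    refine this.trans ?_
    have := mul_le_mul_of_nonneg_left (pow_le_pow_left₀ (norm_nonneg _) a5 2) hMt
    rw [mul_pow, sq_abs] at this
    linarith
  refine flow_real a4 he1 a3 a7 a1 (hb _ (by linarith)) (hb _ ?_)
  rw [← e1]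
  exact (norm_add_le _ _).trans (add_le_add hp a6)

/-- change of variables along one Euler step -/
theorem flow_cov [MeasurableSpace S] [BorelSpace S] (μ : Measure S) [μ.IsAddHaarMeasure]
    {Y : S → S} (hY : Differentiable ℝ Y) {e L R₁ R₂ : ℝ} (hR : 0 ≤ R₂)
    (hL : ∀ x y, ‖x‖ ≤ R₂ → ‖y‖ ≤ R₂ → ‖Y x - Y y‖ ≤ L * ‖x - y‖) (he : |e| * L ≤ 1 / 2)
    (hR' : R₁ + |e| * ‖Y 0‖ ≤ R₂ / 2) {g : S → ℝ} (hg : ∀ y, R₁ < ‖y‖ → g y = 0) :
    ∫ y, g y ∂μ = ∫ z in closedBall 0 R₂, |(1 + e • fderiv ℝ Y z).det| * g (z + e • Y z) ∂μ := by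
  have : CompleteSpace S := FiniteDimensional.complete ℝ S
  have hap : ApproximatesLinearOn (fun z => z + e • Y z) (ContinuousLinearMap.id ℝ S)
      (closedBall 0 R₂) (1 / 2) := by
    intro x hx y hy
    have e1 : x + e • Y x - (y + e • Y y) - (ContinuousLinearMap.id ℝ S) (x - y) =
        e • (Y x - Y y) := by
      rw [ContinuousLinearMap.id_apply, smul_sub]; abel
    rw [e1, norm_smul, Real.norm_eq_abs]
    refine (mul_le_mul_of_nonneg_left (hL x y (mem_closedBall_zero_iff.1 hx)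
      (mem_closedBall_zero_iff.1 hy)) (abs_nonneg _)).trans ?_
    rw [← mul_assoc]
    exact mul_le_mul_of_nonneg_right (by simpa using he) (norm_nonneg _)
  have hinj : InjOn (fun z => z + e • Y z) (closedBall 0 R₂) := by
    intro x hx y hy hxy
    have := hap x hx y hy
    simp only [] at hxy
    simp only [hxy, sub_self, zero_sub, norm_neg, ContinuousLinearMap.id_apply] at this
    push_cast at this
    have h0 : ‖x - y‖ ≤ 0 := by linarith
    exact sub_eq_zero.1 (norm_le_zero_iff.1 h0)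
  have hsurj := hap.surjOn_closedBall_of_nonlinearRightInverse
    ⟨id, 1, fun y => by simp, fun y => rfl⟩ hR Subset.rfl
  have hder : ∀ z ∈ closedBall (0 : S) R₂, HasFDerivWithinAt (fun z => z + e • Y z)
      (1 + e • fderiv ℝ Y z) (closedBall 0 R₂) z := fun z _ =>
    ((hasFDerivAt_id z).fun_add ((hY z).hasFDerivAt.fun_const_smul e)).hasFDerivWithinAt
  have key := integral_image_eq_integral_abs_det_fderiv_smul μ measurableSet_closedBall hder hinj g
  rw [setIntegral_eq_integral_of_forall_compl_eq_zero] at key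
  · exact key
  · intro y hy
    apply hg
    by_contra hc
    apply hy (hsurj _)
    rw [mem_closedBall_iff_norm]
    refine (norm_sub_le _ _).trans ?_
    rw [zero_add, norm_smul, Real.norm_eq_abs]
    push_cast
    linarith [not_lt.1 hc]

end Vale.Agent.P347
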