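import Vale.Agent.P347.Core
import Vale.Agent.P347.FlowAuxC

namespace Vale.Agent.P347

open MeasureTheory ProbabilityTheory
open scoped RealInnerProductSpace NNReal ContDiff

variable {d : ℕ}

section
open Set Metric

variable {S : Type*} [NormedAddCommGroup S] [NormedSpace ℝ S] [FiniteDimensional ℝ S]
  [MeasurableSpace S] [BorelSpace S] {X : ℝ × S → S} {T : ℝ} {fl : ℝ → S → ℝ → S}

theorem IsFl.step (h : IsFl X T fl) (μ : Measure S) [μ.IsAddHaarMeasure] {ρ : ℝ × S → ℝ}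
    (hX : ContDiff ℝ 1 X) (hρ : ContDiff ℝ 2 ρ)
    (hcont : ∀ t ∈ Icc 0 T, ∀ z, fderiv ℝ ρ (t, z) (1, X (t, z)) +
      ρ (t, z) * LinearMap.trace ℝ S (fderiv ℝ (fun z => X (t, z)) z).toLinearMap = 0)
    {φ : S → ℝ} {Lφ : ℝ≥0} (hφ : LipschitzWith Lφ φ) (hφ1 : ∀ y, |φ y| ≤ 1) {R₀ : ℝ}
    (hφ0 : ∀ y, R₀ < ‖y‖ → φ y = 0) {t : ℝ} (ht : t ∈ Icc 0 T) :
    ∃ M δ : ℝ, 0 < δ ∧ ∀ r ∈ Icc 0 T, ∀ r' ∈ Icc 0 T, |r' - r| ≤ δ →
      |∫ z, φ (fl r' z t) * ρ (r', z) ∂μ - ∫ z, φ (fl r z t) * ρ (r, z) ∂μ| ≤ M * (r' - r) ^ 2 := by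
  have : ProperSpace S := FiniteDimensional.proper_real S
  obtain ⟨R₁, _, hR₁⟩ := h.bound R₀
  have hsupp : ∀ r ∈ Icc 0 T, ∀ z, R₁ < ‖z‖ → φ (fl r z t) = 0 := by
    intro r hr z hz
    apply hφ0
    by_contra hc
    have := hR₁ t ht r hr _ (not_lt.1 hc)
    rw [h.cocycle hX hr ht hr, h.init r hr] at this
    linarith
  set R₂ := 2 * (|R₁| + 1) with hR₂
  have hR₂0 : 0 ≤ R₂ := by positivity
  have hR12 : R₁ < R₂ := by linarith [le_abs_self R₁, abs_nonneg R₁]
  obtain ⟨L, hL, hlip⟩ := flow_lipX hX T R₂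
  obtain ⟨MX, hMX, hbX⟩ := flow_bdd hX.continuous (max T R₂)
  obtain ⟨M, δ, hM, hδ, hdens⟩ := flow_dens hX hρ hcont R₂
  obtain ⟨ME, hME, heul⟩ := h.euler hX R₂
  obtain ⟨R₃, hR₃, hb₃⟩ := h.bound R₂
  obtain ⟨K, hK, hKl⟩ := h.lip hX (R₃ + 1)
  obtain ⟨m, hm, hbρ⟩ := flow_bdd hρ.continuous (max T R₂)
  have hN : 0 < 1 + 2 * L + MX := by positivity
  refine ⟨(M + Lφ * (K * ME) * m) * μ.real (closedBall 0 R₂), min δ (1 / (1 + 2 * L + MX)),
    lt_min hδ (by positivity), fun r hr r' hr' he => ?_⟩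
  have he1 := he.trans (min_le_left _ _)
  have he2 := he.trans (min_le_right _ _)
  rw [le_div_iff₀ hN] at he2
  set e := r' - r with he'
  have he0 := abs_nonneg e
  have c1 : |e| * L ≤ 1 / 2 := by nlinarith
  have c2 : |e| * MX ≤ 1 := by nlinarith
  have hY : ContDiff ℝ 1 fun z => X (r, z) := hX.comp (contDiff_const.prodMk contDiff_id)
  have hYb : ∀ z, ‖z‖ ≤ R₂ → |e| * ‖X (r, z)‖ ≤ 1 := fun z hz =>
    (mul_le_mul_of_nonneg_left (hbX _ (flow_norm_pair hr hz)) he0).trans c2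
  have hu : Continuous fun z => φ (fl r' z t) := hφ.continuous.comp (h.continuous hX hr' ht)
  have hρc : ∀ s, Continuous fun z => ρ (s, z) := fun s =>
    hρ.continuous.comp (continuous_const.prodMk continuous_id)
  have hΨ : Continuous fun z => z + e • X (r, z) := continuous_id.add (hY.continuous.const_smul e)
  have k1 := flow_cov μ (hY.differentiable one_ne_zero) (R₁ := R₁) hR₂0 (hlip r hr) c1
    (by have := hYb 0 (by simpa using hR₂0); linarith [le_abs_self R₁])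
    (g := fun z => φ (fl r' z t) * ρ (r', z)) (fun y hy => by rw [hsupp r' hr' y hy, zero_mul])
  have k2 : ∫ z, φ (fl r z t) * ρ (r, z) ∂μ =
      ∫ z in closedBall 0 R₂, φ (fl r z t) * ρ (r, z) ∂μ := by
    refine (setIntegral_eq_integral_of_forall_compl_eq_zero fun z hz => ?_).symm
    rw [hsupp r hr z (hR12.trans (not_le.1 fun hc => hz (mem_closedBall_zero_iff.2 hc))), zero_mul]
  have i1 : Continuous fun z => |(1 + e • fderiv ℝ (fun z => X (r, z)) z).det| *
      (φ (fl r' (z + e • X (r, z)) t) * ρ (r', z + e • X (r, z))) :=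
    (ContinuousLinearMap.continuous_det.comp (continuous_const.add
      ((hY.continuous_fderiv one_ne_zero).const_smul e))).abs.mul
      ((hu.comp hΨ).mul ((hρc r').comp hΨ))
  have i2 : Continuous fun z => φ (fl r z t) * ρ (r, z) :=
    (hφ.continuous.comp (h.continuous hX hr ht)).mul (hρc r)
  rw [k1, k2, ← integral_sub (i1.continuousOn.integrableOn_compact (isCompact_closedBall _ _))
    (i2.continuousOn.integrableOn_compact (isCompact_closedBall _ _)), mul_right_comm]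
  rw [← Real.norm_eq_abs]
  refine norm_setIntegral_le_of_norm_le_const (μ := μ)
    (isCompact_closedBall (0 : S) R₂).measure_lt_top fun z hz => ?_
  have hz' := mem_closedBall_zero_iff.1 hz
  have d1 := hdens r hr e he1 z hz'
  rw [he', add_sub_cancel, ← he'] at d1
  have d2 := heul r hr r' hr' z hz'
  have d3 : ‖z + e • X (r, z)‖ ≤ R₃ + 1 := by
    refine (norm_add_le _ _).trans ?_
    rw [norm_smul, Real.norm_eq_abs]
    linarith [hYb z hz']
  have d4 := hKl r' hr' t ht _ _ ((hb₃ r hr r' hr' z hz').trans (le_add_of_nonneg_right zero_le_one))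
    d3
  rw [h.cocycle hX hr hr' ht] at d4
  have d5 : |φ (fl r' (z + e • X (r, z)) t) - φ (fl r z t)| ≤ Lφ * (K * (ME * e ^ 2)) := by
    have := hφ.dist_le_mul (fl r z t) (fl r' (z + e • X (r, z)) t)
    rw [Real.dist_eq, dist_eq_norm, abs_sub_comm] at this
    exact this.trans (mul_le_mul_of_nonneg_left (d4.trans (mul_le_mul_of_nonneg_left d2 hK)) Lφ.2)
  have d6 : |ρ (r, z)| ≤ m := hbρ _ (flow_norm_pair hr hz')
  have d7 := hφ1 (fl r' (z + e • X (r, z)) t)
  generalize φ (fl r' (z + e • X (r, z)) t) = u' at d5 d7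
  generalize |(1 + e • fderiv ℝ (fun z => X (r, z)) z).det| = D at d1
  have e1 : D * (u' * ρ (r', z + e • X (r, z))) - φ (fl r z t) * ρ (r, z) =
      u' * (D * ρ (r', z + e • X (r, z)) - ρ (r, z)) + (u' - φ (fl r z t)) * ρ (r, z) := by ring
  rw [Real.norm_eq_abs, e1]
  refine (abs_add_le _ _).trans ?_
  rw [abs_mul, abs_mul]
  have d8 := mul_le_mul d7 d1 (abs_nonneg _) zero_le_one
  have d9 := mul_le_mul d5 d6 (abs_nonneg _) ((abs_nonneg _).trans d5)
  linarith

omit [NormedSpace ℝ S] [FiniteDimensional ℝ S] in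
theorem flow_ext [ProperSpace S] {ν ν' : Measure S} [IsFiniteMeasure ν] [IsFiniteMeasure ν']
    (h : ∀ (φ : S → ℝ) (L : ℝ≥0) (R : ℝ), LipschitzWith L φ → (∀ y, |φ y| ≤ 1) →
      (∀ y, R < ‖y‖ → φ y = 0) → ∫ y, φ y ∂ν = ∫ y, φ y ∂ν') : ν = ν' := by
  have key : ∀ K : Set S, IsCompact K → ν K = ν' K := by
    intro K hK
    obtain ⟨R, hR⟩ := hK.isBounded.exists_norm_le
    have hp : ∀ n : ℕ, (0 : ℝ) < 1 / ((n : ℝ) + 1) := fun n => by positivity
    have l1 := tendsto_integral_thickenedIndicator_of_isClosed ν hK.isClosed hp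
      tendsto_one_div_add_atTop_nhds_zero_nat
    have l2 := tendsto_integral_thickenedIndicator_of_isClosed ν' hK.isClosed hp
      tendsto_one_div_add_atTop_nhds_zero_nat
    have e : ∀ n, ∫ y, (thickenedIndicator (hp n) K y : ℝ) ∂ν =
        ∫ y, (thickenedIndicator (hp n) K y : ℝ) ∂ν' := by
      intro n
      refine h _ _ (R + 1) (isometry_subtype_coe.lipschitz.comp
        (lipschitzWith_thickenedIndicator (hp n) K)) (fun y => ?_) fun y hy => ?_
      · rw [NNReal.abs_eq]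
        exact thickenedIndicator_le_one (hp n) K y
      · rw [thickenedIndicator_zero (hp n) K, NNReal.coe_zero]
        intro hc
        obtain ⟨x, hx, hd⟩ := mem_thickening_iff.1 hc
        have a1 : 1 / ((n : ℝ) + 1) ≤ 1 := by
          rw [div_le_one (by positivity)]; linarith [Nat.cast_nonneg (α := ℝ) n]
        have a2 := norm_add_le x (y - x)
        rw [add_sub_cancel, ← dist_eq_norm] at a2
        linarith [hR x hx]
    simp only [e] at l1
    exact (measureReal_eq_measureReal_iff (measure_ne_top _ _) (measure_ne_top _ _)).1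
      (tendsto_nhds_unique l1 l2)
  ext s hs
  rw [hs.measure_eq_iSup_isCompact, hs.measure_eq_iSup_isCompact]
  exact iSup_congr fun K => iSup_congr fun _ => iSup_congr fun hK => key K hK

omit [NormedSpace ℝ S] [FiniteDimensional ℝ S] in
theorem flow_integral_dens (μ : Measure S) {f : S → ℝ} (hf : Continuous f) (h0 : ∀ z, 0 ≤ f z)
    (g : S → ℝ) : ∫ z, g z ∂(μ.withDensity fun z => ENNReal.ofReal (f z)) = ∫ z, g z * f z ∂μ := by
  rw [integral_withDensity_eq_integral_toReal_smul hf.measurable.ennreal_ofReal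
    (Filter.Eventually.of_forall fun _ => ENNReal.ofReal_lt_top)]
  congr 1
  funext z
  rw [ENNReal.toReal_ofReal (h0 z), smul_eq_mul, mul_comm]

end

theorem flow_transport {S : Type*} [NormedAddCommGroup S] [NormedSpace ℝ S] [FiniteDimensional ℝ S]
    [MeasurableSpace S] [BorelSpace S] (μ : Measure S) [μ.IsAddHaarMeasure] (X : ℝ × S → S)
    (hX : ContDiff ℝ 2 X) (ρ : ℝ × S → ℝ) (hρ : ContDiff ℝ 2 ρ) (hρ0 : ∀ z, 0 ≤ ρ z)
    {T C₀ C₁ : ℝ} (hT : 0 < T) (hC₁ : 0 ≤ C₁) (hCT : C₁ * T < 1)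
    (hgrow : ∀ t ∈ Set.Icc 0 T, ∀ z, ‖X (t, z)‖ ≤ C₀ + C₁ * ‖z‖)
    (hcont : ∀ t ∈ Set.Icc 0 T, ∀ z, fderiv ℝ ρ (t, z) (1, X (t, z)) +
      ρ (t, z) * LinearMap.trace ℝ S (fderiv ℝ (fun z => X (t, z)) z).toLinearMap = 0)
    (hfin : ∀ t ∈ Set.Icc 0 T, Integrable (fun z => ρ (t, z)) μ)
    {t₀ : ℝ} (ht₀ : t₀ ∈ Set.Icc 0 T) :
    ∃ Φ : ℝ → S → S, Measurable (Function.uncurry Φ) ∧ (∀ z, Φ t₀ z = z) ∧
      (∀ z, ∀ t ∈ Set.Icc 0 T, HasDerivWithinAt (fun t => Φ t z) (X (t, Φ t z)) (Set.Icc 0 T) t) ∧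
      ∀ t ∈ Set.Icc 0 T, Measure.map (Φ t) (μ.withDensity fun z => ENNReal.ofReal (ρ (t₀, z))) =
        μ.withDensity fun z => ENNReal.ofReal (ρ (t, z)) := by
  have : ProperSpace S := FiniteDimensional.proper_real S
  have hX1 : ContDiff ℝ 1 X := hX.of_le (by norm_num)
  obtain ⟨fl, h⟩ := flow_exists_fl hX1 hT hC₁ hCT hgrow
  have hpr : ∀ t ∈ Set.Icc 0 T, ((Set.projIcc 0 T hT.le t : Set.Icc 0 T) : ℝ) = t := fun t ht => by
    rw [Set.projIcc_of_mem hT.le ht]
  have hρc : ∀ s, Continuous fun z => ρ (s, z) := fun s =>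
    hρ.continuous.comp (continuous_const.prodMk continuous_id)
  refine ⟨fun t z => fl t₀ z (Set.projIcc 0 T hT.le t), ?_, fun z => ?_, fun z t ht => ?_,
    fun t ht => ?_⟩
  · refine measurable_uncurry_of_continuous_of_measurable (fun z => ?_) fun t => ?_
    · have hc : ContinuousOn (fl t₀ z) (Set.Icc 0 T) := fun s hs =>
        (h.ode t₀ ht₀ z s hs).continuousWithinAt
      exact hc.comp_continuous (continuous_subtype_val.comp continuous_projIcc)
        fun s => (Set.projIcc 0 T hT.le s).2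
    · exact (h.continuous hX1 ht₀ (Set.projIcc 0 T hT.le t).2).measurable
  · simp only [hpr t₀ ht₀, h.init t₀ ht₀]
  · simp only [hpr t ht]
    exact (h.ode t₀ ht₀ z t ht).congr_of_mem (fun s hs => by rw [hpr s hs]) ht
  · simp only [hpr t ht]
    have := isFiniteMeasure_withDensity_ofReal (hfin t₀ ht₀).2
    have := isFiniteMeasure_withDensity_ofReal (hfin t ht).2
    have hc := h.continuous hX1 ht₀ ht
    refine flow_ext fun φ L R h1 h2 h3 => ?_
    rw [integral_map hc.measurable.aemeasurable h1.continuous.aestronglyMeasurable,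
      flow_integral_dens μ (hρc t₀) (fun _ => hρ0 _), flow_integral_dens μ (hρc t) (fun _ => hρ0 _)]
    obtain ⟨M, δ, hδ, hs⟩ := h.step μ hX1 hρ hcont h1 h2 h3 ht
    have key := flow_const (F := fun r => ∫ z, φ (fl r z t) * ρ (r, z) ∂μ) hδ hs ht ht₀
    simp only [h.init t ht] at key
    exact key

end Vale.Agent.P347
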