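import Vale.Agent.P347.FieldAux
import Vale.Agent.P347.Flow

namespace Vale.Agent.P347

open MeasureTheory ProbabilityTheory
open scoped RealInnerProductSpace NNReal ContDiff

variable {d : ℕ}

variable {V : E d → ℝ}

theorem field_comp {X : Type*} [NormedAddCommGroup X] [NormedSpace ℝ X] (F : ℝ → E d → X)
    (m : E d) {s : ℝ} (hF : ContDiff ℝ ∞ fun p : ℝ × E d => F (s * Cs p.1) p.2) :
    ContDiff ℝ ∞ fun z : ℝ × E d × E d => F (s * Cs z.1) (yy m s z) :=
  hF.comp (field_cd_yy m s)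

theorem contDiff_gF (hV : InClass V) (m : E d) {s : ℝ} (hs : 0 < s) : ContDiff ℝ ∞ (gF V m s) :=
  field_comp (gg V) m (field_cd_gg hV hs)

theorem contDiff_TF (hV : InClass V) (m : E d) {s : ℝ} (hs : 0 < s) : ContDiff ℝ ∞ (TF V m s) :=
  field_comp (T2 V) m (field_cd_T2 hV hs)

theorem field_cd_dA (hV : InClass V) (m : E d) {s : ℝ} (hs : 0 < s) :
    ContDiff ℝ ∞ (dA V m s) := by
  have hS : ContDiff ℝ ∞ fun z : ℝ × E d × E d => s * Sn z.1 :=
    contDiff_const.mul (contDiff_Sn.comp contDiff_fst)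
  have hC : ContDiff ℝ ∞ fun z : ℝ × E d × E d => s * Cs z.1 ^ 3 :=
    contDiff_const.mul ((contDiff_Cs.comp contDiff_fst).pow 3)
  exact hC.smul (((contDiff_TF hV m hs).clm_apply
    (contDiff_snd.fst.add (hS.smul (contDiff_gF hV m hs)))).sub
    (hS.smul (field_comp (lapg V) m (field_cd_lapg hV hs))))

theorem contDiff_fld (hV : InClass V) (m : E d) {s : ℝ} (hs : 0 < s) (β : ℝ) :
    ContDiff ℝ ∞ (fld V m s β) := by
  have hC : ∀ c : ℝ, ContDiff ℝ ∞ fun z : ℝ × E d × E d => c * Cs z.1 ^ 3 := fun c =>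
    contDiff_const.mul ((contDiff_Cs.comp contDiff_fst).pow 3)
  exact (((hC s).smul (contDiff_gF hV m hs)).neg.add ((hC (β * s)).smul
    ((contDiff_TF hV m hs).clm_apply contDiff_snd.snd))).prodMk
    ((field_cd_dA hV m hs).const_smul β).neg

theorem contDiff_Dt_iter (hV : InClass V) (m : E d) {s : ℝ} (hs : 0 < s) (β : ℝ)
    {H : ℝ × E d × E d → E d} (hH : ContDiff ℝ ∞ H) (k : ℕ) :
    ContDiff ℝ ∞ ((Dt V m s β)^[k] H) := by
  induction k with
  | zero => exact hH
  | succ k ih =>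
    rw [Function.iterate_succ_apply']
    exact (ih.fderiv_right (m := ∞) (by simp)).clm_apply
      (contDiff_const.prodMk (contDiff_fld hV m hs β))

theorem field_chain {X : Type*} [NormedAddCommGroup X] [NormedSpace ℝ X] {F : ℝ × E d → X}
    (hF : ContDiff ℝ ∞ F) (m : E d) (s : ℝ) (z : ℝ × E d × E d) (w : E d × E d) :
    fderiv ℝ (fun z : ℝ × E d × E d => F (z.1, yy m s z)) z (1, w) =
      fderiv ℝ F (z.1, yy m s z) (1, 0) + fderiv ℝ (fun y => F (z.1, y)) (yy m s z)
        ((s * Cs z.1 ^ 3) • z.2.1 + (s * Sn z.1) • w.1) := by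
  have hF' := (hF.differentiable (by simp) (z.1, yy m s z)).hasFDerivAt
  have h1 : HasFDerivAt (fun z : ℝ × E d × E d => s * Sn z.1) _ z :=
    ((hasDerivAt_Sn z.1).hasFDerivAt.comp z hasFDerivAt_fst).const_mul s
  have h2 : HasFDerivAt (fun z : ℝ × E d × E d => (z.1, yy m s z)) _ z :=
    hasFDerivAt_fst.prodMk ((h1.smul (hasFDerivAt_fst.comp z hasFDerivAt_snd)).const_add m)
  have h3 : HasFDerivAt (fun y => F (z.1, y)) _ (yy m s z) :=
    hF'.comp (yy m s z) ((hasFDerivAt_const z.1 _).prodMk (hasFDerivAt_id _))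
  have h4 : HasFDerivAt (fun z : ℝ × E d × E d => F (z.1, yy m s z)) _ z := hF'.comp z h2
  rw [h3.fderiv, h4.fderiv, ContinuousLinearMap.comp_apply, ContinuousLinearMap.comp_apply,
    ← map_add]
  congr 1
  simp [add_comm]

/-- the martingale identity for the score along the flow -/
theorem Dt_gF (hV : InClass V) (m : E d) {s : ℝ} (hs : 0 < s) (β : ℝ) (z : ℝ × E d × E d) :
    Dt V m s β (gF V m s) z = dA V m s z + (β * s ^ 2) • H3 V m s z := by
  have h := field_chain (field_cd_gg hV hs) m s z (fld V m s β z)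
  rw [field_dt_gg hV hs] at h
  refine h.trans ?_
  change _ + T2 V (s * Cs z.1) (yy m s z) _ = _
  simp only [dA, H3, fld, om, TF, gF, map_add, map_smul, map_neg]
  module

/-- the exponent of the density -/
noncomputable def fieldU (V : E d → ℝ) (m : E d) (s : ℝ) (z : ℝ × E d × E d) : ℝ :=
  (-‖z.2.1‖ ^ 2 / 2 - Lam V (s * Cs z.1) (yy m s z)) + -‖z.2.2‖ ^ 2 / 2

theorem field_cd_U (hV : InClass V) (m : E d) {s : ℝ} (hs : 0 < s) :
    ContDiff ℝ ∞ (fieldU V m s) :=
  (((contDiff_snd.fst.norm_sq ℝ).neg.div_const 2).sub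
    ((contDiff_Lam_time hV hs).comp (field_cd_yy m s))).add
    ((contDiff_snd.snd.norm_sq ℝ).neg.div_const 2)

theorem field_dU (hV : InClass V) (m : E d) {s : ℝ} (hs : 0 < s) (z : ℝ × E d × E d)
    (w : E d × E d) : fderiv ℝ (fieldU V m s) z (1, w) =
      -⟪om V m s z, w.1⟫ - ⟪z.2.2, w.2⟫ - s * Cs z.1 ^ 3 * ⟪gF V m s z, z.2.1⟫ +
        s ^ 2 * Sn z.1 * Cs z.1 ^ 3 * (∑ i, TF V m s z (ev i) i - ‖gF V m s z‖ ^ 2) := by
  have h := field_chain (contDiff_Lam_time hV hs) m s z w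
  rw [Lam_pde hV hs, ← Pot_inner_grad] at h
  have h1 := (((contDiff_Lam_time hV hs).comp (field_cd_yy m s)).differentiable (by simp)
    z).hasFDerivAt
  have h2 := (hasFDerivAt_fst.comp z hasFDerivAt_snd : HasFDerivAt
    (fun z : ℝ × E d × E d => z.2.1) _ z).norm_sq.neg.mul_const (2 : ℝ)⁻¹
  have h3 := (hasFDerivAt_snd.comp z hasFDerivAt_snd : HasFDerivAt
    (fun z : ℝ × E d × E d => z.2.2) _ z).norm_sq.neg.mul_const (2 : ℝ)⁻¹
  have h4 := (h2.sub h1).add h3
  erw [h4.fderiv]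
  simp only [ContinuousLinearMap.add_apply, ContinuousLinearMap.sub_apply]
  erw [h]
  simp only [TF, field_T2_ev hV (mul_pos hs (Cs_pos _)), EuclideanSpace.real_norm_sq_eq, gF,
    gg_apply, om, inner_add_left, inner_add_right, inner_smul_left, inner_smul_right]
  simp [gg]
  ring

theorem field_div (hV : InClass V) (m : E d) {s : ℝ} (hs : 0 < s) (β t : ℝ) (z : E d × E d) :
    LinearMap.trace ℝ (E d × E d) (fderiv ℝ (fun z => fld V m s β (t, z)) z).toLinearMap =
      -(s ^ 2 * Sn t * Cs t ^ 3) * ∑ i, TF V m s (t, z) (ev i) i +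
        β * s ^ 2 * Sn t * Cs t ^ 3 * ⟪lapg V (s * Cs t) (yy m s (t, z)), z.2⟫ := by
  have hσ := mul_pos hs (Cs_pos t)
  have hy : HasFDerivAt (fun z : E d × E d => yy m s (t, z))
      ((s * Sn t) • ContinuousLinearMap.fst ℝ (E d) (E d)) z := by
    have := ((hasFDerivAt_fst (𝕜 := ℝ) (p := z)).const_smul (s * Sn t)).const_add m
    exact this
  have hg : HasFDerivAt (fun z : E d × E d => gF V m s (t, z)) _ z :=
    ((contDiff_gg hV hσ).differentiable (by simp) _).hasFDerivAt.comp z hy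
  have hT : HasFDerivAt (fun z : E d × E d => TF V m s (t, z)) _ z :=
    ((field_cd_T2' hV hσ).differentiable (by simp) _).hasFDerivAt.comp z hy
  have hA : HasFDerivAt (fun z : E d × E d => dA V m s (t, z)) _ z :=
    (((field_cd_dA hV m hs).comp (contDiff_const.prodMk (contDiff_id.prodMk contDiff_const)) :
      ContDiff ℝ ∞ fun x : E d => dA V m s (t, x, 0)).differentiable (by simp)
      z.1).hasFDerivAt.comp z hasFDerivAt_fst
  have h : HasFDerivAt (fun z : E d × E d => fld V m s β (t, z)) _ z :=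
    ((hg.const_smul (s * Cs t ^ 3)).neg.add ((hT.clm_apply hasFDerivAt_snd).const_smul
      (β * s * Cs t ^ 3))).prodMk (hA.const_smul β).neg
  rw [h.fderiv, field_trace, field_lapg hV hσ, sum_inner]
  simp only [field_T3_symm hV hσ, EuclideanSpace.inner_single_left]
  simp [TF, T2, Finset.mul_sum, ← Finset.sum_add_distrib, ← Finset.sum_neg_distrib]
  refine Finset.sum_congr rfl fun i _ => ?_
  ring

theorem field_mu (hV : InClass V) (m : E d) {s : ℝ} (hs : 0 < s) (t : ℝ) :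
    mu V m s t = ((volume : Measure (E d)).prod volume).withDensity fun z => ENNReal.ofReal
      (((2 * Real.pi) ^ (-(d : ℝ) / 2)) ^ 2 / pp V s m * Real.exp (fieldU V m s (t, z))) := by
  have hc := continuous_Lam hV (s * Cs t)
  have hp := pp_pos hV s m
  have e : √((s * Sn t) ^ 2 + (s * Cs t) ^ 2) = s := by
    rw [mul_pow, mul_pow, ← mul_add, Sn_sq_add, mul_one, Real.sqrt_sq hs.le]
  rw [mu, rho, Measure.tilted, integral_exp_neg_Lam hV, e, gam_eq_withDensity,
    ← withDensity_mul _ (by fun_prop) (by fun_prop), prod_withDensity (by fun_prop) (by fun_prop)]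
  congr 1
  funext z
  rw [Pi.mul_apply, ← ENNReal.ofReal_mul (by positivity), ← ENNReal.ofReal_mul (by positivity)]
  congr 1
  simp only [fieldU, yy, sub_eq_add_neg, Real.exp_add]
  ring

theorem field_grow (hV : InClass V) (m : E d) {s β : ℝ} (hs : 0 < s) (hs' : 2 * s ^ 2 ≤ 1)
    (hβ : 2 * |β| * s ≤ 1) : ∃ C₀ : ℝ, ∀ t ∈ Set.Icc (0 : ℝ) (1 / 4), ∀ z,
      ‖fld V m s β (t, z)‖ ≤ C₀ + 2 * ‖z‖ := by
  obtain ⟨C, hC, hl⟩ := field_lapg_le
  have hN : 0 ≤ Nm m := by unfold Nm; positivity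
  refine ⟨4 * Nm m + d * C, fun t ht z => ?_⟩
  have c0 := Cs_pos t
  have c1 := Cs_le_one t
  have hσ := mul_pos hs c0
  have s1 : s ≤ 1 := by nlinarith
  have S0 : 0 ≤ s * Sn t := by rw [Sn_eq]; exact mul_nonneg hs.le (mul_nonneg ht.1 c0.le)
  have S1 : Sn t ≤ 1 / 4 := by rw [Sn_eq]; nlinarith [ht.1, ht.2]
  have S2 : s * Sn t ≤ 1 / 4 := by nlinarith
  have c3 : Cs t ^ 3 ≤ 1 := pow_le_one₀ c0.le c1
  have c2 : Cs t ^ 2 ≤ 1 := pow_le_one₀ c0.le c1
  have x1 := norm_fst_le z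
  have x2 := norm_snd_le z
  have x0 := norm_nonneg z
  have dC : 0 ≤ d * C := by positivity
  have hg : ‖gF V m s (t, z)‖ ≤ 4 * Nm m + ‖z‖ / 2 := by
    have h1 := norm_gg_le hV hσ.le (by rw [mul_pow]; nlinarith [sq_nonneg s]) m
    have h2 := (lip_gg hV hσ).dist_le_mul (m + (s * Sn t) • z.1) m
    rw [dist_eq_norm, dist_eq_norm, add_sub_cancel_left, norm_smul, Real.norm_of_nonneg S0,
      NNReal.coe_ofNat] at h2
    have h3 := norm_le_norm_sub_add (gg V (s * Cs t) (m + (s * Sn t) • z.1)) (gg V (s * Cs t) m)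
    have h4 := mul_le_mul S2 x1 (norm_nonneg _) (by norm_num)
    change ‖gg V (s * Cs t) (m + (s * Sn t) • z.1)‖ ≤ _
    linarith
  have hT : ∀ v, ‖TF V m s (t, z) v‖ ≤ 2 * ‖v‖ := fun v =>
    (TF V m s (t, z)).le_of_opNorm_le (norm_T2_le hV hσ _) v
  have b1 : |β * s * Cs t ^ 3| ≤ 1 / 2 := by
    rw [abs_mul, abs_mul, abs_of_pos hs, abs_of_pos (pow_pos c0 3)]
    nlinarith [mul_nonneg (abs_nonneg β) hs.le]
  refine (norm_prod_le_iff (E := E d) (F := E d)).2 ⟨?_, ?_⟩
  · refine (norm_add_le _ _).trans ?_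
    rw [norm_neg, norm_smul, norm_smul, Real.norm_of_nonneg (by positivity), Real.norm_eq_abs]
    have h1 := mul_le_mul (mul_le_one₀ s1 (by positivity) c3) hg (norm_nonneg _) zero_le_one
    have h2 := mul_le_mul b1 (hT z.2) (norm_nonneg _) (by norm_num)
    linarith
  · have h0 : ‖om V m s (t, z)‖ ≤ Nm m + 2 * ‖z‖ := by
      refine (norm_add_le _ _).trans ?_
      rw [norm_smul, Real.norm_of_nonneg S0]
      have h1 := mul_le_mul S2 hg (norm_nonneg _) (by norm_num)
      linarith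
    have e : (fld V m s β (t, z)).2 = -((β * s * Cs t ^ 3) • TF V m s (t, z) (om V m s (t, z))) +
        (β * s * Cs t ^ 2 * Sn t) • (s * Cs t) • lapg V (s * Cs t) (yy m s (t, z)) := by
      simp only [fld, dA]
      module
    rw [e]
    refine (norm_add_le _ _).trans ?_
    rw [norm_neg, norm_smul, norm_smul, norm_smul, Real.norm_of_nonneg hσ.le, Real.norm_eq_abs,
      Real.norm_eq_abs]
    have h2 := mul_le_mul b1 (hT (om V m s (t, z))) (norm_nonneg _) (by norm_num)
    have b2 : |β * s * Cs t ^ 2 * Sn t| ≤ 1 := by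
      rw [mul_assoc, abs_mul, abs_mul β, abs_of_pos hs, abs_of_nonneg (mul_nonneg (by positivity)
        (nonneg_of_mul_nonneg_right S0 hs))]
      exact mul_le_one₀ (by linarith) (mul_nonneg (by positivity)
        (nonneg_of_mul_nonneg_right S0 hs)) (mul_le_one₀ c2 (nonneg_of_mul_nonneg_right S0 hs)
        (by linarith))
    have h3 := mul_le_mul b2 (hl d V hV _ hσ (yy m s (t, z))) (by positivity) zero_le_one
    linarith

theorem flow_exists (hV : InClass V) (m : E d) {s β T t₀ : ℝ} (hs : 0 < s) (hs' : 2 * s ^ 2 ≤ 1)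
    (hβ : 2 * |β| * s ≤ 1) (hT : 0 < T) (hT' : T ≤ 1 / 4) (ht₀ : t₀ ∈ Set.Icc 0 T) :
    ∃ Φ : ℝ → E d × E d → E d × E d, Measurable (Function.uncurry Φ) ∧ (∀ z, Φ t₀ z = z) ∧
      (∀ z, ∀ t ∈ Set.Icc 0 T,
        HasDerivWithinAt (fun t => Φ t z) (fld V m s β (t, Φ t z)) (Set.Icc 0 T) t) ∧
      ∀ t ∈ Set.Icc 0 T, MeasurePreserving (Φ t) (mu V m s t₀) (mu V m s t) := by
  obtain ⟨C₀, hC⟩ := field_grow hV m hs hs' hβ
  have hp := pp_pos hV s m
  set c := ((2 * Real.pi) ^ (-(d : ℝ) / 2)) ^ 2 / pp V s m with hc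
  have hU := field_cd_U hV m hs
  have hcont : ∀ t z, fderiv ℝ (fun z => c * Real.exp (fieldU V m s z)) (t, z)
      (1, fld V m s β (t, z)) + c * Real.exp (fieldU V m s (t, z)) *
      LinearMap.trace ℝ (E d × E d) (fderiv ℝ (fun z => fld V m s β (t, z)) z).toLinearMap = 0 := by
    intro t z
    have h := ((hU.differentiable (by simp) (t, z)).hasFDerivAt.exp.const_mul c).fderiv
    rw [h, field_div hV m hs]
    simp only [ContinuousLinearMap.smul_apply, field_dU hV m hs, smul_eq_mul]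
    have e := T2_symm hV (mul_pos hs (Cs_pos t)) (yy m s (t, z)) (om V m s (t, z)) z.2
    rw [real_inner_comm] at e
    rw [← real_inner_comm (lapg _ _ _)]
    simp only [fld, dA, TF, inner_add_right, inner_neg_right, inner_smul_right, inner_sub_right, e]
    simp only [om, inner_add_left, inner_smul_left, real_inner_self_eq_norm_sq, conj_trivial,
      real_inner_comm z.1]
    ring
  have hfin : ∀ t, Integrable (fun z => c * Real.exp (fieldU V m s (t, z)))
      ((volume : Measure (E d)).prod volume) := by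
    intro t
    refine Integrable.const_mul ?_ c
    simp only [fieldU, Real.exp_add]
    exact (Gauss_int_tilt (W := fun x => Lam V (s * Cs t) (m + (s * Sn t) • x))
      ((continuous_Lam hV _).comp (by fun_prop)) fun _ => Lam_nonneg hV _ _).mul_prod Gauss_int_sq
  obtain ⟨Φ, h1, h2, h3, h4⟩ := flow_transport ((volume : Measure (E d)).prod volume) (fld V m s β)
    (contDiff_infty.1 (contDiff_fld hV m hs β) 2) (fun z => c * Real.exp (fieldU V m s z))
    (contDiff_const.mul (contDiff_infty.1 hU 2).exp) (fun z => by positivity) (C₀ := C₀) hT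
    zero_le_two (by linarith) (fun t ht => hC t ⟨ht.1, ht.2.trans hT'⟩) (fun t _ => hcont t)
    (fun t _ => hfin t) ht₀
  refine ⟨Φ, h1, h2, h3, fun t ht => ⟨h1.of_uncurry_left, ?_⟩⟩
  rw [field_mu hV m hs, field_mu hV m hs]
  exact h4 t ht

end Vale.Agent.P347
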