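import Vale.Agent.P347.FlatAuxC

/-! The two-variable identity and the recursion for all flattenings. -/

namespace Vale.Agent.P347

open MeasureTheory ProbabilityTheory
open scoped RealInnerProductSpace ContDiff

noncomputable section

variable {d : ℕ} {ν : Measure (E d)} {f m : Fin d → E d → ℝ}

/-- directions in the two blocks of the doubled space -/
def bi (M N : Multiset (E d)) : Multiset (E d × E d) :=
  M.map (fun v => ((v, 0) : E d × E d)) + N.map (fun v => ((0, v) : E d × E d))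

theorem flat_pd_mul2 {S ι κ : Type*} [NormedAddCommGroup S] [NormedSpace ℝ S] [DecidableEq ι]
    [DecidableEq κ] {F G : S → ℝ} (hF : ContDiff ℝ ∞ F) (hG : ContDiff ℝ ∞ G) (v : ι → S)
    (v' : κ → S) (s : Finset ι) (t : Finset κ) (x : S) :
    pd (s.val.map v + t.val.map v') (fun x => F x * G x) x =
      ∑ k ∈ s.powerset ×ˢ t.powerset, pd (k.1.val.map v + k.2.val.map v') F x *
        pd ((s \ k.1).val.map v + (t \ k.2).val.map v') G x := by
  rw [pd_add (hF.mul hG), pd_mul hF hG v' t,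
    pd_sum _ fun T _ => (contDiff_pd hF _).mul (contDiff_pd hG _), Finset.sum_product_right]
  refine Finset.sum_congr rfl fun T _ => ?_
  rw [pd_mul (contDiff_pd hF _) (contDiff_pd hG _) v s]
  refine Finset.sum_congr rfl fun S _ => ?_
  rw [pd_add hF, pd_add hG]

theorem Nice.ex2 (hν : Nice ν) {h w₁ w₂ : E d → ℝ} (hc : Continuous h) (hp : PolyG h)
    (h₁ : ContDiff ℝ ∞ w₁) (h₂ : ContDiff ℝ ∞ w₂) (M N : Multiset (E d)) :
    pd (bi M N) (fun p => w₁ p.1 * w₂ p.2 * Lp ν h (p.1 + p.2)) 0 =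
      ∫ x, h x * (Qw w₁ M x * Qw w₂ N x) ∂ν := by
  have key := (flat_ex (flat_cont_phi (ContinuousLinearMap.fst ℝ (E d) (E d) +
    ContinuousLinearMap.snd ℝ (E d) (E d))).aestronglyMeasurable (bi M N)
    (w := fun p : E d × E d => w₁ p.1 * w₂ p.2) ((h₁.comp contDiff_fst).mul (h₂.comp contDiff_snd))
    (hν.expGood _ hc hp) 0).2
  refine Eq.trans key ?_
  congr 1
  funext x
  congr 1
  have e : (fun η : E d × E d => w₁ η.1 * w₂ η.2 * Real.exp (((innerSL ℝ x).comp
      (ContinuousLinearMap.fst ℝ (E d) (E d) + ContinuousLinearMap.snd ℝ (E d) (E d))) η)) =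
      fun η => (w₁ η.1 * Real.exp (innerSL ℝ x η.1)) * (w₂ η.2 * Real.exp (innerSL ℝ x η.2)) := by
    funext η
    have : ((innerSL ℝ x).comp (ContinuousLinearMap.fst ℝ (E d) (E d) +
        ContinuousLinearMap.snd ℝ (E d) (E d))) η = innerSL ℝ x η.1 + innerSL ℝ x η.2 :=
      map_add (innerSL ℝ x) η.1 η.2
    rw [this, Real.exp_add]; ring
  rw [e]
  exact congrFun (flat_pd_sep (F := fun θ => w₁ θ * Real.exp (innerSL ℝ x θ))
    (G := fun θ => w₂ θ * Real.exp (innerSL ℝ x θ)) (h₁.mul (flat_contDiff_exp _))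
    (h₂.mul (flat_contDiff_exp _)) M N) 0

/-- mixed derivatives of the increment -/
def Dm (m : E d → ℝ) (M N : Multiset (E d)) : ℝ :=
  pd (bi M N) (fun p => m (p.1 + p.2) - m p.1) 0

def Bm (ν : Measure (E d)) (M N : Multiset (E d)) : ℝ := ∫ x, Qw (zf ν) M x * Qw (zf ν) N x ∂ν

theorem flat_pd_sub {S : Type*} [NormedAddCommGroup S] [NormedSpace ℝ S] {F G : S → ℝ}
    (hF : ContDiff ℝ ∞ F) (hG : ContDiff ℝ ∞ G) (M : Multiset S) (x : S) :
    pd M (fun x => F x - G x) x = pd M F x - pd M G x := by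
  have e : (fun x => F x - G x) = fun x => F x + -1 * G x := by funext x; ring
  rw [e, pd_fun_add hF (contDiff_const.mul hG), pd_const_mul hG]
  ring

theorem Dm_eq {m : E d → ℝ} (hm : ContDiff ℝ ∞ m) (M : Multiset (E d)) {N : Multiset (E d)}
    (hN : N ≠ 0) : Dm m M N = pd (M + N) m 0 := by
  unfold Dm
  rw [flat_pd_sub (F := fun p : E d × E d => m (p.1 + p.2)) (G := fun p : E d × E d => m p.1)
    (hm.comp (contDiff_fst.add contDiff_snd)) (hm.comp contDiff_fst)]
  have h1 := congrFun (flat_pd_sep hm (contDiff_const (c := (1 : ℝ))) M N) 0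
  simp only [mul_one, pd_const 1 hN, mul_zero] at h1
  have h2 := congrFun (pd_comp_clm hm (ContinuousLinearMap.fst ℝ (E d) (E d) +
    ContinuousLinearMap.snd ℝ (E d) (E d)) 0 (bi M N)) 0
  have e : (bi M N).map (ContinuousLinearMap.fst ℝ (E d) (E d) +
      ContinuousLinearMap.snd ℝ (E d) (E d)) = M + N := by
    simp [bi, Multiset.map_map]
  rw [e] at h2
  simp only [zero_add, map_zero] at h2
  unfold bi
  rw [h1, sub_zero]
  exact h2

theorem Dat.identity (h : Dat ν f m) (hν : Nice ν) {ι κ : Type} [Fintype ι] [Fintype κ]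
    [DecidableEq ι] [DecidableEq κ] (i : Fin d) (I : ι → Fin d) (J : κ → Fin d) :
    ∑ k ∈ (Finset.univ : Finset ι).powerset ×ˢ (Finset.univ : Finset κ).powerset,
      Dm (m i) (k.1.val.map fun a => ev (I a)) (k.2.val.map fun b => ev (J b)) *
        Bm ν ((Finset.univ \ k.1).val.map fun a => ev (I a))
          ((Finset.univ \ k.2).val.map fun b => ev (J b)) =
      ∫ x, Yw ν (f i) (m i) (dirs I) x * Qw (zf ν) (dirs J) x ∂ν := by
  have hz := hν.contDiff_zf
  have hL1 := hν.contDiff_Lp continuous_const (PolyG.const 1)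
  have hLf := hν.contDiff_Lp (h.f1 i).continuous (h.f2 i)
  have hadd : ContDiff ℝ ∞ fun p : E d × E d => p.1 + p.2 := contDiff_fst.add contDiff_snd
  have hD : ContDiff ℝ ∞ fun p : E d × E d => m i (p.1 + p.2) - m i p.1 :=
    ((h.m1 i).comp hadd).sub ((h.m1 i).comp contDiff_fst)
  have hB : ContDiff ℝ ∞ fun p : E d × E d => zf ν p.1 * zf ν p.2 * Lp ν (fun _ => 1) (p.1 + p.2) :=
    ((hz.comp contDiff_fst).mul (hz.comp contDiff_snd)).mul (hL1.comp hadd)
  have key := flat_pd_mul2 hD hB (fun a => ((ev (I a), 0) : E d × E d))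
    (fun b => ((0, ev (J b)) : E d × E d)) Finset.univ Finset.univ 0
  have eb : ∀ (S : Finset ι) (T : Finset κ),
      S.val.map (fun a => ((ev (I a), 0) : E d × E d)) +
        T.val.map (fun b => ((0, ev (J b)) : E d × E d)) =
      bi (S.val.map fun a => ev (I a)) (T.val.map fun b => ev (J b)) := by
    intro S T
    unfold bi
    rw [Multiset.map_map, Multiset.map_map]
    rfl
  simp only [eb, hν.ex2 continuous_const (PolyG.const 1) hz hz, one_mul] at key
  refine key.symm.trans ?_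
  have e : (fun p : E d × E d => (m i (p.1 + p.2) - m i p.1) *
      (zf ν p.1 * zf ν p.2 * Lp ν (fun _ => 1) (p.1 + p.2))) = fun p =>
      zf ν p.1 * zf ν p.2 * Lp ν (f i) (p.1 + p.2) -
        (m i p.1 * zf ν p.1) * zf ν p.2 * Lp ν (fun _ => 1) (p.1 + p.2) := by
    funext p; rw [← h.m2]; ring
  have hmz := (h.m1 i).mul hz
  have s1 : ContDiff ℝ ∞ fun p : E d × E d => zf ν p.1 * zf ν p.2 * Lp ν (f i) (p.1 + p.2) :=
    ((hz.comp contDiff_fst).mul (hz.comp contDiff_snd)).mul (hLf.comp hadd)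
  have s2 : ContDiff ℝ ∞ fun p : E d × E d =>
      (m i p.1 * zf ν p.1) * zf ν p.2 * Lp ν (fun _ => 1) (p.1 + p.2) :=
    ((hmz.comp contDiff_fst).mul (hz.comp contDiff_snd)).mul (hL1.comp hadd)
  rw [e, flat_pd_sub s1 s2]
  have a1 := hν.ex2 (h.f1 i).continuous (h.f2 i) hz hz (dirs I) (dirs J)
  have a2 := hν.ex2 continuous_const (PolyG.const 1) hmz hz (dirs I) (dirs J)
  have c1 := fun M => (contDiff_Qw M hz).continuous
  have i1 := hν.integrable ((h.f1 i).continuous.fun_mul ((c1 (dirs I)).fun_mul (c1 (dirs J))))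
    ((h.f2 i).mul ((polyG_Qw _ hz).mul (polyG_Qw _ hz)))
  have i2 := hν.integrable ((continuous_const (y := (1 : ℝ))).fun_mul
    ((contDiff_Qw (dirs I) hmz).continuous.fun_mul (c1 (dirs J))))
    ((PolyG.const 1).mul ((polyG_Qw _ hmz).mul (polyG_Qw _ hz)))
  refine (congrArg₂ (· - ·) a1 a2).trans ?_
  refine (integral_sub i1 i2).symm.trans ?_
  congr 1
  funext x
  unfold Yw
  ring

/-- splitting rows along a set of positions -/
def flatRows {ι : Type} [DecidableEq ι] (S : Finset ι) (α β : Type) :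
    α × (ι → β) ≃ (α × ({a // a ∈ S} → β)) × ({a // ¬ a ∈ S} → β) :=
  ((Equiv.refl α).prodCongr (Equiv.piEquivPiSubtypeProd (fun a => a ∈ S) fun _ => β)).trans
    (Equiv.prodAssoc _ _ _).symm

theorem flat_D (n : ℕ) : ∃ C : ℝ, 0 ≤ C ∧ ∀ (d : ℕ) (ν : Measure (E d)) (f m : Fin d → E d → ℝ),
    Nice ν → Dat ν f m → ∀ (ι κ : Type) [Fintype ι] [Fintype κ] [DecidableEq ι] [DecidableEq κ],
      Fintype.card ι + Fintype.card κ < n →
      OpB (fun (r : Fin d × (ι → Fin d)) (J : κ → Fin d) => Dm (m r.1) (dirs r.2) (dirs J)) C := by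
  induction n with
  | zero => exact ⟨0, le_rfl, fun _ _ _ _ _ _ _ _ _ _ _ _ hι => absurd hι (Nat.not_lt_zero _)⟩
  | succ n ih =>
    obtain ⟨C, hC, ih⟩ := ih
    obtain ⟨A, hA, hP⟩ := gram_P n
    obtain ⟨A', hA', hY⟩ := gram_Y (n + 1)
    refine ⟨2 * (A' * A) + 2 * (((2 : ℝ) ^ n) ^ 2 * (C * (A * A))), by positivity,
      fun d ν f m hν h ι κ _ _ _ _ hn => ?_⟩
    have hz := hν.contDiff_zf
    have c1 := fun M => (contDiff_Qw M hz).continuous
    have p1 := fun M => polyG_Qw M hz
    have hN := hν.opB (fun (p : Fin d × (ι → Fin d)) => (h.contDiff_Y hν p.1 (dirs p.2)).continuous)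
      (fun p => h.polyG_Y hν _ _) (fun J : κ → Fin d => c1 (dirs J)) (fun J => p1 _) hA'
      (hY d ν f m hν h ι (by omega)) (hP d ν hν κ (by omega))
    set K := ((Finset.univ : Finset ι).powerset ×ˢ (Finset.univ : Finset κ).powerset).erase
      (Finset.univ, Finset.univ) with hK
    have hT : ∀ k ∈ K, OpB (fun (r : Fin d × (ι → Fin d)) (J : κ → Fin d) =>
        Dm (m r.1) (k.1.val.map fun a => ev (r.2 a)) (k.2.val.map fun b => ev (J b)) *
          Bm ν ((Finset.univ \ k.1).val.map fun a => ev (r.2 a))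
            ((Finset.univ \ k.2).val.map fun b => ev (J b))) (C * (A * A)) := by
      intro k hk
      have hne := (Finset.mem_erase.1 hk).1
      have l1 := Finset.card_le_univ k.1
      have l2 := Finset.card_le_univ k.2
      have l3 : k.1.card + k.2.card < n := by
        by_contra hc
        exact hne (Prod.ext (Finset.eq_univ_of_card _ (by omega))
          (Finset.eq_univ_of_card _ (by omega)))
      have l4 := Fintype.card_subtype_le (fun a => ¬ a ∈ k.1)
      have l5 := Fintype.card_subtype_le (fun a => ¬ a ∈ k.2)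
      refine OpB.kron (ih d ν f m hν h {a // a ∈ k.1} {a // a ∈ k.2} ?_)
        (hν.opB (fun I : {a // ¬ a ∈ k.1} → Fin d => c1 (dirs I)) (fun _ => p1 _)
          (fun J : {a // ¬ a ∈ k.2} → Fin d => c1 (dirs J)) (fun _ => p1 _) hA
          (hP d ν hν _ (by omega)) (hP d ν hν _ (by omega))) hC (flatRows k.1 (Fin d) (Fin d))
        (Equiv.piEquivPiSubtypeProd (fun a => a ∈ k.2) fun _ => Fin d) fun r J => ?_
      · rw [Fintype.card_coe, Fintype.card_coe]; omega
      · rw [← flat_dirs_mem, ← flat_dirs_mem, ← flat_dirs_notMem, ← flat_dirs_notMem]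
        rfl
    have hcard : (K.card : ℝ) ≤ 2 ^ n := by
      have : K.card ≤ 2 ^ n := by
        refine Finset.card_erase_le.trans ?_
        rw [Finset.card_product, Finset.card_powerset, Finset.card_powerset, ← pow_add,
          Finset.card_univ, Finset.card_univ]
        exact Nat.pow_le_pow_right (by norm_num) (by omega)
      exact_mod_cast this
    have hS := (OpB.sum K hT).mono (mul_le_mul_of_nonneg_right
      (pow_le_pow_left₀ (Nat.cast_nonneg _) hcard 2) (by positivity))
    have hfin := hN.sub hS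
    intro u
    refine le_trans (le_of_eq ?_) (hfin u)
    refine Finset.sum_congr rfl fun r _ => ?_
    congr 1
    refine Finset.sum_congr rfl fun J _ => ?_
    congr 1
    have := hν.prob
    beta_reduce
    rw [← h.identity hν r.1 r.2 J, ← Finset.add_sum_erase _ _
      (show (Finset.univ, Finset.univ) ∈ _ by simp), add_sub_cancel_right]
    simp [Bm, Qw_zero hz, hν.zf_zero, dirs]

end

end Vale.Agent.P347
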