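import Vale.Agent.P347.Heat2
import Vale.Agent.P347.FlatAuxD

namespace Vale.Agent.P347

open MeasureTheory ProbabilityTheory
open scoped RealInnerProductSpace NNReal ContDiff

variable {d : ℕ}

theorem flat_nice {V : E d → ℝ} (hV : InClass V) (s : ℝ) (y : E d) : Nice (rho V y s 0) := by
  have hc : Continuous fun x : E d => V (y + s • x) :=
    hV.1.continuous.comp (continuous_const.add (continuous_id.const_smul s))
  have h0 : ∀ x : E d, 0 ≤ V (y + s • x) := fun x => hV.nonneg _
  have e : rho V y s 0 = (gam d).tilted fun x => -V (y + s • x) := by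
    unfold rho; rw [Lam_zero]
  refine ⟨isProb_rho hV y s 0, fun R => ?_, fun F h1 h2 h3 => ?_⟩
  · rw [e]; exact integrable_exp_norm_tilted hc h0 R
  · rw [e]
    have := poincare hc h0 (κ := 0) le_rfl (fun x x' => by
      have h := hV.mid (y + s • x) (y + s • x')
      have e2 : (1 / 2 : ℝ) • (y + s • x + (y + s • x')) = y + s • (1 / 2 : ℝ) • (x + x') := by
        module
      rw [e2] at h
      have : 0 ≤ ‖y + s • x - (y + s • x')‖ ^ 2 / 8 := by positivity
      linarith) h1 h2 h3
    simpa using this

theorem flat_dat {V : E d → ℝ} (hV : InClass V) {s : ℝ} (hs : 0 < s) (y : E d) :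
    Dat (rho V y s 0) (fun i x => 1 / (2 * s) * gradient V (y + s • x) i)
      (fun i θ => 1 / (2 * s) * dd (ev i) (Lam V s) (y + s • θ)) := by
  have hν := flat_nice hV s y
  have haff : ContDiff ℝ ∞ fun x : E d => y + s • x := contDiff_const.add (contDiff_id.const_smul s)
  have hg : ContDiff ℝ 1 fun x : E d => gradient V (y + s • x) :=
    hV.contDiff_grad.comp (haff.of_le (by simp))
  have hgi : ∀ i, ContDiff ℝ 1 fun x : E d => gradient V (y + s • x) i := fun i =>
    (EuclideanSpace.proj i : E d →L[ℝ] ℝ).contDiff.comp hg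
  have hp : ∀ i, PolyG fun x : E d => gradient V (y + s • x) i := by
    intro i
    refine PolyG.of_linear (a := 2 * ‖y‖) (b := 2 * s) fun x => ?_
    have a1 : |gradient V (y + s • x) i| ≤ ‖gradient V (y + s • x)‖ :=
      PiLp.norm_apply_le (gradient V (y + s • x)) i
    have a2 := hV.norm_grad (y + s • x)
    have a3 := norm_add_le y (s • x)
    rw [norm_smul, Real.norm_eq_abs, abs_of_pos hs] at a3
    linarith
  refine ⟨fun i => contDiff_const.mul (hgi i), fun i => (PolyG.const _).mul (hp i), ?_,
    fun i => contDiff_const.mul ((contDiff_dd (contDiff_Lam hV hs) _).comp haff), ?_⟩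
  · intro x w
    set A := fderiv ℝ (gradient V) (y + s • x) with hA
    have d1 : HasFDerivAt (gradient V) A (y + s • x) :=
      (hV.contDiff_grad.differentiable (by simp) _).hasFDerivAt
    have d2 : HasFDerivAt (fun x : E d => y + s • x) (s • ContinuousLinearMap.id ℝ (E d)) x :=
      ((hasFDerivAt_id x).const_smul s).const_add y
    have d3 : ∀ i c, fderiv ℝ (fun x => 1 / (2 * s) * gradient V (y + s • x) i) x (ev c) =
        1 / 2 * A (ev c) i := by
      intro i c
      have d4 : HasFDerivAt (fun x => 1 / (2 * s) * gradient V (y + s • x) i) _ x :=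
        (((EuclideanSpace.proj i : E d →L[ℝ] ℝ).hasFDerivAt).comp x (d1.comp x d2)).const_mul
          (1 / (2 * s))
      rw [d4.fderiv]
      simp
      field_simp
    simp only [d3]
    set W : E d := WithLp.toLp 2 w with hW
    have e1 : ∀ c, ∑ i, w i * (1 / 2 * A (ev c) i) =
        1 / 2 * (ContinuousLinearMap.adjoint A W) c := by
      intro c
      have a1 : (ContinuousLinearMap.adjoint A W) c = ⟪ContinuousLinearMap.adjoint A W, ev c⟫ := by
        rw [EuclideanSpace.inner_single_right]; simp
      rw [a1, ContinuousLinearMap.adjoint_inner_left, PiLp.inner_apply, Finset.mul_sum]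
      refine Finset.sum_congr rfl fun i _ => ?_
      simp [hW]
      ring
    have e2 : ‖ContinuousLinearMap.adjoint A W‖ ≤ 2 * ‖W‖ := by
      refine (ContinuousLinearMap.le_opNorm _ _).trans ?_
      rw [LinearIsometryEquiv.norm_map]
      exact mul_le_mul_of_nonneg_right (hV.norm_fderiv_grad _) (norm_nonneg _)
    have e3 := pow_le_pow_left₀ (norm_nonneg _) e2 2
    rw [mul_pow, EuclideanSpace.real_norm_sq_eq, EuclideanSpace.real_norm_sq_eq] at e3
    simp only [e1, mul_pow]
    rw [← Finset.mul_sum]
    have e4 : ∑ i, W i ^ 2 = ∑ i, w i ^ 2 := rfl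
    linarith
  · intro i θ
    have hi : ∀ i, Integrable (fun x => (Real.exp ⟪θ, x⟫ • gradient V (y + s • x)) i)
        (rho V y s 0) := by
      intro i
      have := (hν.expGood (ContinuousLinearMap.id ℝ (E d)) (hgi i).continuous (hp i)).integrable
        (flat_cont_phi _).aestronglyMeasurable (Set.mem_univ θ)
      refine this.congr (Filter.Eventually.of_forall fun x => ?_)
      simp only [PiLp.smul_apply, smul_eq_mul]
      rw [mul_comm, real_inner_comm]
      rfl
    have h1 := congrArg (fun v : E d => v i) (gg_tilt hV s y θ)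
    simp only [] at h1
    rw [eval_integral_piLp hi, PiLp.smul_apply, smul_eq_mul, gg_apply] at h1
    unfold Lp
    simp only [one_mul, mul_assoc, real_inner_comm θ]
    rw [integral_const_mul, mul_comm (dd _ _ _), h1]
    congr 2
    funext x
    simp only [PiLp.smul_apply, smul_eq_mul]
    rw [mul_comm]

/-- Every flattening of the normalised derivative tensors of `Lam` has bounded operator norm. -/
theorem flat_bound (j : ℕ) : ∃ C : ℝ, 0 ≤ C ∧ ∀ (d : ℕ) (V : E d → ℝ), InClass V → ∀ s : ℝ, 0 < s →
    ∀ (y : E d) (ι κ : Type) [Fintype ι] [Fintype κ] [DecidableEq ι] [DecidableEq κ] [Nonempty ι]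
      [Nonempty κ], Fintype.card ι + Fintype.card κ = j → ∀ u : (κ → Fin d) → ℝ,
      ∑ I : ι → Fin d, (∑ J : κ → Fin d,
        s ^ j / (2 * s ^ 2) * pd (dirs I + dirs J) (Lam V s) y * u J) ^ 2 ≤
        C ^ 2 * ∑ J, u J ^ 2 := by
  obtain ⟨C, hC, h⟩ := flat_D j
  refine ⟨√C, Real.sqrt_nonneg _, fun d V hV s hs y ι κ _ _ _ _ hι hκ hj u => ?_⟩
  obtain ⟨a⟩ := hι
  have hcard : Fintype.card {b // b ≠ a} + 1 = Fintype.card ι := by
    rw [Fintype.card_subtype_compl, Fintype.card_subtype_eq]
    have : 0 < Fintype.card ι := Fintype.card_pos_iff.2 ⟨a⟩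
    omega
  have key := h d _ _ _ (flat_nice hV s y) (flat_dat hV hs y) {b // b ≠ a} κ (by omega) u
  rw [Real.sq_sqrt hC]
  refine le_trans (le_of_eq ?_) key
  rw [← (Equiv.funSplitAt a (Fin d)).sum_comp]
  refine Finset.sum_congr rfl fun I _ => ?_
  congr 1
  refine Finset.sum_congr rfl fun J _ => ?_
  congr 1
  have hL := contDiff_Lam hV hs
  have hd := contDiff_dd hL (ev (I a))
  have hJ : dirs J ≠ 0 := by
    intro h0
    have := flat_card_dirs J
    rw [h0] at this
    exact absurd this.symm Fintype.card_ne_zero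
  have haff : ContDiff ℝ ∞ fun θ : E d => dd (ev (I a)) (Lam V s) (y + s • θ) :=
    hd.comp (contDiff_const.add (contDiff_id.const_smul s))
  refine Eq.trans ?_ (Dm_eq (contDiff_const.mul haff) (dirs fun b : {b // b ≠ a} => I b) hJ).symm
  set M := (dirs fun b : {b // b ≠ a} => I b) + dirs J with hM
  have e1 := congrFun (pd_comp_clm hd (s • ContinuousLinearMap.id ℝ (E d)) y M) 0
  have e2 := congrFun (pd_map_smul hd s M) y
  have e3 : Multiset.card M + 1 = j := by
    rw [hM, Multiset.card_add, flat_card_dirs, flat_card_dirs]; omega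
  rw [map_zero, add_zero] at e1
  rw [pd_const_mul haff, flat_dirs_split a I, Multiset.cons_add, pd_cons' hL, ← hM, ← e3]
  refine Eq.trans ?_ (congrArg (1 / (2 * s) * ·) (e1.trans e2)).symm
  field_simp
  ring

end Vale.Agent.P347
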