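import Vale.Agent.P347.Pd

/-! Operator bounds for flattenings, and the polynomials attached to a smooth weight. -/

namespace Vale.Agent.P347

open scoped RealInnerProductSpace ContDiff

noncomputable section

/-- squared operator norm bound for a finite matrix -/
def OpB {α β : Type*} [Fintype α] [Fintype β] (M : α → β → ℝ) (c : ℝ) : Prop :=
  ∀ u : β → ℝ, ∑ a, (∑ b, M a b * u b) ^ 2 ≤ c * ∑ b, u b ^ 2

section
variable {α β : Type*} [Fintype α] [Fintype β]

theorem OpB.mono {M : α → β → ℝ} {c c' : ℝ} (h : OpB M c) (hc : c ≤ c') : OpB M c' := fun u =>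
  (h u).trans (mul_le_mul_of_nonneg_right hc (Finset.sum_nonneg fun _ _ => sq_nonneg _))

theorem OpB.sum {γ : Type*} (s : Finset γ) {M : γ → α → β → ℝ} {c : ℝ}
    (h : ∀ k ∈ s, OpB (M k) c) : OpB (fun a b => ∑ k ∈ s, M k a b) ((s.card : ℝ) ^ 2 * c) := by
  intro u
  have h1 : ∀ a, (∑ b, (∑ k ∈ s, M k a b) * u b) ^ 2 ≤
      s.card * ∑ k ∈ s, (∑ b, M k a b * u b) ^ 2 := by
    intro a
    simp only [Finset.sum_mul]
    rw [Finset.sum_comm]
    exact sq_sum_le_card_mul_sum_sq
  refine (Finset.sum_le_sum fun a _ => h1 a).trans ?_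
  rw [← Finset.mul_sum, Finset.sum_comm]
  have h2 : ∑ k ∈ s, ∑ a, (∑ b, M k a b * u b) ^ 2 ≤ s.card * (c * ∑ b, u b ^ 2) := by
    refine (Finset.sum_le_sum fun k hk => h k hk u).trans (le_of_eq ?_)
    rw [Finset.sum_const, nsmul_eq_mul]
  refine (mul_le_mul_of_nonneg_left h2 (Nat.cast_nonneg _)).trans (le_of_eq ?_)
  ring

theorem OpB.sub {M N : α → β → ℝ} {c c' : ℝ} (h : OpB M c) (h' : OpB N c') :
    OpB (fun a b => M a b - N a b) (2 * c + 2 * c') := by
  intro u
  have h1 : ∀ a, (∑ b, (M a b - N a b) * u b) ^ 2 ≤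
      2 * (∑ b, M a b * u b) ^ 2 + 2 * (∑ b, N a b * u b) ^ 2 := by
    intro a
    simp only [sub_mul, Finset.sum_sub_distrib]
    nlinarith [sq_nonneg (∑ b, M a b * u b + ∑ b, N a b * u b)]
  refine (Finset.sum_le_sum fun a _ => h1 a).trans ?_
  rw [Finset.sum_add_distrib, ← Finset.mul_sum, ← Finset.mul_sum]
  linarith [h u, h' u]

theorem OpB.kron {α₁ α₂ β₁ β₂ : Type*} [Fintype α₁] [Fintype α₂] [Fintype β₁] [Fintype β₂]
    {M₁ : α₁ → β₁ → ℝ} {M₂ : α₂ → β₂ → ℝ} {c₁ c₂ : ℝ} (h₁ : OpB M₁ c₁) (h₂ : OpB M₂ c₂)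
    (hc : 0 ≤ c₁) (e : α ≃ α₁ × α₂) (e' : β ≃ β₁ × β₂) {M : α → β → ℝ}
    (hM : ∀ a b, M a b = M₁ (e a).1 (e' b).1 * M₂ (e a).2 (e' b).2) : OpB M (c₁ * c₂) := by
  intro u
  have e1 : ∑ a, (∑ b, M a b * u b) ^ 2 = ∑ a₂, ∑ a₁,
      (∑ b₁, M₁ a₁ b₁ * ∑ b₂, M₂ a₂ b₂ * u (e'.symm (b₁, b₂))) ^ 2 := by
    rw [← e.symm.sum_comp, Fintype.sum_prod_type, Finset.sum_comm]
    refine Finset.sum_congr rfl fun a₂ _ => Finset.sum_congr rfl fun a₁ _ => ?_
    congr 1
    rw [← e'.symm.sum_comp, Fintype.sum_prod_type]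
    refine Finset.sum_congr rfl fun b₁ _ => ?_
    rw [Finset.mul_sum]
    refine Finset.sum_congr rfl fun b₂ _ => ?_
    rw [hM, e.apply_symm_apply, e'.apply_symm_apply, mul_assoc]
  have e2 : ∑ b, u b ^ 2 = ∑ b₁, ∑ b₂, u (e'.symm (b₁, b₂)) ^ 2 := by
    rw [← e'.symm.sum_comp, Fintype.sum_prod_type]
  rw [e1, e2]
  refine (Finset.sum_le_sum fun a₂ _ => h₁ _).trans ?_
  rw [← Finset.mul_sum, Finset.sum_comm, mul_assoc, Finset.mul_sum (a := c₂)]
  exact mul_le_mul_of_nonneg_left (Finset.sum_le_sum fun b₁ _ => h₂ _) hc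

end

variable {d : ℕ}

theorem flat_dirs_sub {ι : Type} [Fintype ι] (p : ι → Prop) [DecidablePred p]
    [Fintype {a // p a}] (I : ι → Fin d) :
    dirs (fun a : {a // p a} => I a) = (Finset.univ.filter p).val.map fun a => ev (I a) := by
  unfold dirs
  rw [← Finset.univ_map_subtype, Finset.map_val, Multiset.map_map]
  rfl

theorem flat_dirs_mem {ι : Type} [Fintype ι] [DecidableEq ι] (S : Finset ι) (I : ι → Fin d) :
    dirs (fun a : {a // a ∈ S} => I a) = S.val.map fun a => ev (I a) := by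
  rw [flat_dirs_sub (fun a => a ∈ S) I, Finset.filter_mem_eq_inter, Finset.univ_inter]

theorem flat_dirs_notMem {ι : Type} [Fintype ι] [DecidableEq ι] (S : Finset ι) (I : ι → Fin d) :
    dirs (fun a : {a // ¬ a ∈ S} => I a) = (Finset.univ \ S).val.map fun a => ev (I a) := by
  rw [flat_dirs_sub (fun a => ¬ a ∈ S) I, Finset.filter_not, Finset.filter_mem_eq_inter,
    Finset.univ_inter]

theorem flat_dirs_ne {ι : Type} [Fintype ι] [DecidableEq ι] (a₀ : ι) (I : ι → Fin d) :
    dirs (fun a : {a // a ≠ a₀} => I a) = (Finset.univ.erase a₀).val.map fun a => ev (I a) := by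
  rw [flat_dirs_sub (fun a => a ≠ a₀) I, Finset.filter_ne']

theorem flat_dirs_split {ι : Type} [Fintype ι] [DecidableEq ι] (a₀ : ι) (I : ι → Fin d) :
    dirs I = ev (I a₀) ::ₘ dirs (fun a : {a // a ≠ a₀} => I a) := by
  rw [flat_dirs_ne, ← Multiset.map_cons (fun a => ev (I a)), Finset.erase_val,
    Multiset.cons_erase (Finset.mem_univ_val a₀)]
  rfl

theorem flat_card_dirs {ι : Type} [Fintype ι] (I : ι → Fin d) :
    Multiset.card (dirs I) = Fintype.card ι := by
  unfold dirs
  rw [Multiset.card_map]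
  rfl

/-- products of functions of separate variables -/
theorem flat_pd_sep {S : Type*} [NormedAddCommGroup S] [NormedSpace ℝ S] {F G : S → ℝ}
    (hF : ContDiff ℝ ∞ F) (hG : ContDiff ℝ ∞ G) (M N : Multiset S) :
    pd (M.map (fun v => ((v, 0) : S × S)) + N.map (fun v => ((0, v) : S × S)))
      (fun p => F p.1 * G p.2) = fun p => pd M F p.1 * pd N G p.2 := by
  have key : ∀ {F G : S → ℝ}, ContDiff ℝ ∞ F → ContDiff ℝ ∞ G → ∀ v w : S,
      dd ((v, w) : S × S) (fun p => F p.1 * G p.2) =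
        fun p => dd v F p.1 * G p.2 + F p.1 * dd w G p.2 := by
    intro F G hF hG v w
    have h1 := dd_comp_clm hF (ContinuousLinearMap.fst ℝ S S) 0 (v, w)
    have h2 := dd_comp_clm hG (ContinuousLinearMap.snd ℝ S S) 0 (v, w)
    simp only [zero_add, ContinuousLinearMap.coe_fst', ContinuousLinearMap.coe_snd'] at h1 h2
    rw [dd_mul (F := fun p : S × S => F p.1) (G := fun p : S × S => G p.2)
      (hF.comp contDiff_fst) (hG.comp contDiff_snd), h1, h2]
  have hz : ∀ F : S → ℝ, dd (0 : S) F = fun _ => 0 := fun F => by funext x; simp [dd]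
  have hs : ContDiff ℝ ∞ (fun p : S × S => F p.1 * G p.2) :=
    (hF.comp contDiff_fst).mul (hG.comp contDiff_snd)
  have h2 : pd (N.map (fun v => ((0, v) : S × S))) (fun p => F p.1 * G p.2) =
      fun p => F p.1 * pd N G p.2 := by
    induction N using Multiset.induction_on with
    | empty => rw [Multiset.map_zero, pd_zero hs, pd_zero hG]
    | cons v N ih =>
      rw [Multiset.map_cons, pd_cons hs, ih, key hF (contDiff_pd hG N), hz, pd_cons hG]
      funext p
      simp
  rw [pd_add hs, h2]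
  have hs' : ContDiff ℝ ∞ (fun p : S × S => F p.1 * pd N G p.2) :=
    (hF.comp contDiff_fst).mul ((contDiff_pd hG N).comp contDiff_snd)
  induction M using Multiset.induction_on with
  | empty => rw [Multiset.map_zero, pd_zero hs', pd_zero hF]
  | cons v M ih =>
    rw [Multiset.map_cons, pd_cons hs', ih, key (contDiff_pd hF M) (contDiff_pd hG N), hz,
      pd_cons hF]
    funext p
    simp

theorem flat_contDiff_exp {P : Type*} [NormedAddCommGroup P] [NormedSpace ℝ P] (l : P →L[ℝ] ℝ) :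
    ContDiff ℝ ∞ fun η => Real.exp (l η) := Real.contDiff_exp.comp l.contDiff

theorem flat_dd_exp {P : Type*} [NormedAddCommGroup P] [NormedSpace ℝ P] (l : P →L[ℝ] ℝ) (v : P) :
    dd v (fun η => Real.exp (l η)) = fun η => l v * Real.exp (l η) := by
  funext η
  unfold dd
  rw [(l.hasFDerivAt.exp).fderiv]
  simp [mul_comm]

/-- one step of the recursion for derivatives of a weighted exponential -/
theorem flat_pd_exp_cons {P : Type*} [NormedAddCommGroup P] [NormedSpace ℝ P] (l : P →L[ℝ] ℝ)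
    {w : P → ℝ} (hw : ContDiff ℝ ∞ w) (v : P) (M : Multiset P) (η : P) :
    pd (v ::ₘ M) (fun η => w η * Real.exp (l η)) η =
      pd M (fun η => dd v w η * Real.exp (l η)) η + l v * pd M (fun η => w η * Real.exp (l η)) η := by
  have he := flat_contDiff_exp l
  rw [pd_cons' (hw.mul he), dd_mul hw he, flat_dd_exp]
  have e : (fun η => dd v w η * Real.exp (l η) + w η * (l v * Real.exp (l η))) =
      fun η => dd v w η * Real.exp (l η) + l v * (w η * Real.exp (l η)) := by
    funext η; ring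
  rw [e, pd_fun_add ((contDiff_dd hw v).mul he) (contDiff_const.mul (hw.mul he)),
    pd_const_mul (hw.mul he)]

/-- the polynomial attached to a weight and a multiset of directions -/
def Qw (w : E d → ℝ) (M : Multiset (E d)) (x : E d) : ℝ :=
  pd M (fun θ => w θ * Real.exp (innerSL ℝ x θ)) 0

theorem Qw_zero {w : E d → ℝ} (hw : ContDiff ℝ ∞ w) (x : E d) : Qw w 0 x = w 0 := by
  unfold Qw
  rw [pd_zero (hw.mul (flat_contDiff_exp _))]
  simp

theorem Qw_cons {w : E d → ℝ} (hw : ContDiff ℝ ∞ w) (v : E d) (M : Multiset (E d)) :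
    Qw w (v ::ₘ M) = fun x => Qw (dd v w) M x + ⟪x, v⟫ * Qw w M x := by
  funext x
  exact flat_pd_exp_cons (innerSL ℝ x) hw v M 0

theorem contDiff_Qw (M : Multiset (E d)) {w : E d → ℝ} (hw : ContDiff ℝ ∞ w) :
    ContDiff ℝ 1 (Qw w M) := by
  induction M using Multiset.induction_on generalizing w with
  | empty =>
    have : Qw w 0 = fun _ => w 0 := funext (Qw_zero hw)
    rw [this]; exact contDiff_const
  | cons v M ih =>
    rw [Qw_cons hw]
    exact (ih (contDiff_dd hw v)).add ((contDiff_id.inner ℝ contDiff_const).mul (ih hw))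

theorem fderiv_Qw {ι : Type*} [DecidableEq ι] (v : ι → E d) (S : Finset ι) {w : E d → ℝ}
    (hw : ContDiff ℝ ∞ w) (x u : E d) :
    fderiv ℝ (Qw w (S.val.map v)) x u = ∑ a ∈ S, ⟪u, v a⟫ * Qw w ((S.erase a).val.map v) x := by
  induction S using Finset.induction_on generalizing w with
  | empty =>
    have : Qw w 0 = fun _ => w 0 := funext (Qw_zero hw)
    simp [this]
  | insert a S ha ih =>
    have d1 := ((contDiff_Qw (S.val.map v) (contDiff_dd hw (v a))).differentiable (by simp) x).hasFDerivAt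
    have d2 := ((contDiff_Qw (S.val.map v) hw).differentiable (by simp) x).hasFDerivAt
    have d3 : HasFDerivAt (fun x : E d => ⟪x, v a⟫) (innerSL ℝ (v a)) x := by
      have := (innerSL ℝ (v a)).hasFDerivAt (x := x)
      refine this.congr_of_eventuallyEq (Filter.Eventually.of_forall fun y => ?_)
      exact real_inner_comm _ _
    rw [Finset.insert_val_of_notMem ha, Multiset.map_cons, Qw_cons hw,
      (d1.fun_add (d3.fun_mul d2)).fderiv, Finset.sum_insert ha, Finset.erase_insert ha]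
    simp only [add_apply, smul_apply, smul_eq_mul, innerSL_apply_apply]
    rw [ih (contDiff_dd hw (v a)), ih hw, Finset.mul_sum, ← add_assoc, ← Finset.sum_add_distrib,
      add_comm, real_inner_comm u (v a), mul_comm]
    congr 1
    refine Finset.sum_congr rfl fun b hb => ?_
    have hab : a ≠ b := fun h => ha (h ▸ hb)
    rw [Finset.erase_insert_of_ne hab,
      Finset.insert_val_of_notMem (fun h => ha (Finset.mem_of_mem_erase h)), Multiset.map_cons,
      Qw_cons hw]
    ring

end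

end Vale.Agent.P347
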