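import Vale.Agent.P347.Core

namespace Vale.Agent.P347

open MeasureTheory ProbabilityTheory
open scoped RealInnerProductSpace NNReal ContDiff

variable {d : ℕ}

theorem Gauss_int_sq : Integrable fun x : E d => Real.exp (-‖x‖ ^ 2 / 2) := by
  have h := (GaussianFourier.integrable_cexp_neg_mul_sq_norm_add (V := E d) (b := 1 / 2)
    (by norm_num) 0 0).norm
  refine h.congr (Filter.Eventually.of_forall fun x => ?_)
  have e : (-(1 / 2 : ℂ) * (‖x‖ : ℂ) ^ 2 + 0 * (⟪(0 : E d), x⟫ : ℝ)) = ((-‖x‖ ^ 2 / 2 : ℝ) : ℂ) := by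
    push_cast; ring
  simp only [e, Complex.norm_exp_ofReal]

theorem Gauss_integral_sq :
    ∫ x : E d, Real.exp (-‖x‖ ^ 2 / 2) = (2 * Real.pi) ^ ((d : ℝ) / 2) := by
  have h := GaussianFourier.integral_rexp_neg_mul_sq_norm (V := E d) (b := 1 / 2) (by norm_num)
  rw [finrank_euclideanSpace_fin, show Real.pi / (1 / 2) = 2 * Real.pi by ring] at h
  rw [← h]
  exact integral_congr_ae (Filter.Eventually.of_forall fun x => by simp only; congr 1; ring)

theorem Gauss_const_mul :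
    (2 * Real.pi) ^ (-(d : ℝ) / 2) * (2 * Real.pi) ^ ((d : ℝ) / 2) = 1 := by
  rw [← Real.rpow_add (by positivity), show -(d : ℝ) / 2 + d / 2 = 0 by ring, Real.rpow_zero]

theorem Gauss_eq_tilted :
    gam d = (volume : Measure (E d)).tilted fun x => -‖x‖ ^ 2 / 2 := by
  have := isProbabilityMeasure_tilted (μ := (volume : Measure (E d)))
    (f := fun x => -‖x‖ ^ 2 / 2) Gauss_int_sq
  refine Measure.ext_of_charFun (funext fun t => ?_)
  rw [charFun_stdGaussian, charFun_apply, integral_tilted, Gauss_integral_sq]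
  have h := GaussianFourier.integral_cexp_neg_mul_sq_norm_add (V := E d) (b := 1 / 2)
    (by norm_num) Complex.I t
  have hp : (0 : ℝ) < (2 * Real.pi) ^ ((d : ℝ) / 2) := by positivity
  have e1 : ((Real.pi : ℂ) / (1 / 2)) ^ ((Module.finrank ℝ (E d) : ℂ) / 2) =
      (((2 * Real.pi) ^ ((d : ℝ) / 2) : ℝ) : ℂ) := by
    rw [finrank_euclideanSpace_fin, Complex.ofReal_cpow (by positivity)]
    push_cast
    congr 1; ring
  have e2 : ∀ x : E d, (Real.exp (-‖x‖ ^ 2 / 2) / (2 * Real.pi) ^ ((d : ℝ) / 2)) •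
      Complex.exp (⟪x, t⟫ * Complex.I) = (((2 * Real.pi) ^ ((d : ℝ) / 2) : ℝ) : ℂ)⁻¹ *
        Complex.exp (-(1 / 2 : ℂ) * (‖x‖ : ℂ) ^ 2 + Complex.I * (⟪t, x⟫ : ℝ)) := by
    intro x
    rw [Complex.exp_add, Complex.real_smul, real_inner_comm, Complex.ofReal_div, Complex.ofReal_exp,
      show ((-‖x‖ ^ 2 / 2 : ℝ) : ℂ) = -(1 / 2 : ℂ) * (‖x‖ : ℂ) ^ 2 by push_cast; ring,
      mul_comm Complex.I]
    ring
  simp only [e2]
  rw [integral_const_mul, h, e1, ← mul_assoc, inv_mul_cancel₀ (by exact_mod_cast hp.ne'), one_mul,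
    Complex.I_sq]
  congr 1; ring

theorem gam_eq_withDensity : gam d = (volume : Measure (E d)).withDensity fun x =>
    ENNReal.ofReal ((2 * Real.pi) ^ (-(d : ℝ) / 2) * Real.exp (-‖x‖ ^ 2 / 2)) := by
  rw [Gauss_eq_tilted, Measure.tilted, Gauss_integral_sq]
  congr 1
  funext x
  congr 1
  rw [neg_div (2 : ℝ) (d : ℝ), Real.rpow_neg (by positivity)]
  ring

theorem Gauss_char_pair (a b : E d) :
    ∫ p : E d × E d, Complex.exp (((⟪p.1, a⟫ + ⟪p.2, b⟫ : ℝ) : ℂ) * Complex.I) ∂(gam d).prod (gam d) =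
      Complex.exp (-((‖a‖ ^ 2 + ‖b‖ ^ 2 : ℝ) : ℂ) / 2) := by
  simp only [Complex.ofReal_add, add_mul, Complex.exp_add]
  rw [integral_prod_mul (fun x : E d => Complex.exp (⟪x, a⟫ * Complex.I))
    (fun x : E d => Complex.exp (⟪x, b⟫ * Complex.I)), ← charFun_apply, ← charFun_apply,
    charFun_stdGaussian, charFun_stdGaussian, ← Complex.exp_add]
  congr 1; push_cast; ring

theorem gam_pair (A B : E d →L[ℝ] E d)
    (h : ∀ ξ, ‖ContinuousLinearMap.adjoint A ξ‖ ^ 2 + ‖ContinuousLinearMap.adjoint B ξ‖ ^ 2 = ‖ξ‖ ^ 2) :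
    MeasurePreserving (fun p : E d × E d => A p.1 + B p.2) ((gam d).prod (gam d)) (gam d) := by
  have hm : Measurable fun p : E d × E d => A p.1 + B p.2 := by fun_prop
  refine ⟨hm, ?_⟩
  have := Measure.isProbabilityMeasure_map (μ := (gam d).prod (gam d)) hm.aemeasurable
  refine Measure.ext_of_charFun (funext fun t => ?_)
  rw [charFun_apply, integral_map hm.aemeasurable (by fun_prop), charFun_stdGaussian]
  simp only [inner_add_left, ← ContinuousLinearMap.adjoint_inner_right]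
  rw [Gauss_char_pair, h]
  push_cast; rfl

theorem gam_rot {c s : ℝ} (h : c ^ 2 + s ^ 2 = 1) :
    MeasurePreserving (fun p : E d × E d => (c • p.1 + s • p.2, s • p.1 - c • p.2))
      ((gam d).prod (gam d)) ((gam d).prod (gam d)) := by
  have hm : Measurable fun p : E d × E d => (c • p.1 + s • p.2, s • p.1 - c • p.2) := by fun_prop
  refine ⟨hm, ?_⟩
  have := Measure.isProbabilityMeasure_map (μ := (gam d).prod (gam d)) hm.aemeasurable
  refine Measure.ext_of_charFunDual (funext fun L => ?_)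
  obtain ⟨a, b, hL⟩ : ∃ a b : E d, ∀ p : E d × E d, L p = ⟪p.1, a⟫ + ⟪p.2, b⟫ := by
    refine ⟨(InnerProductSpace.toDual ℝ (E d)).symm (L.comp (.inl ℝ _ _)),
      (InnerProductSpace.toDual ℝ (E d)).symm (L.comp (.inr ℝ _ _)), fun p => ?_⟩
    rw [real_inner_comm, real_inner_comm _ p.2, InnerProductSpace.toDual_symm_apply,
      InnerProductSpace.toDual_symm_apply, ContinuousLinearMap.comp_inl_add_comp_inr]
  rw [charFunDual_apply, charFunDual_apply, integral_map hm.aemeasurable (by fun_prop)]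
  have e : ∀ p : E d × E d, L (c • p.1 + s • p.2, s • p.1 - c • p.2) =
      ⟪p.1, c • a + s • b⟫ + ⟪p.2, s • a - c • b⟫ := by
    intro p
    rw [hL]
    simp only [inner_add_left, inner_sub_left, inner_add_right, inner_sub_right,
      real_inner_smul_left, real_inner_smul_right]
    ring
  simp only [e]
  simp only [hL]
  rw [Gauss_char_pair, Gauss_char_pair]
  have e2 : ‖c • a + s • b‖ ^ 2 + ‖s • a - c • b‖ ^ 2 = ‖a‖ ^ 2 + ‖b‖ ^ 2 := by
    rw [norm_add_sq_real, norm_sub_sq_real]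
    simp only [norm_smul, mul_pow, Real.norm_eq_abs, sq_abs, real_inner_smul_left,
      real_inner_smul_right]
    linear_combination (‖a‖ ^ 2 + ‖b‖ ^ 2) * h
  rw [e2]

theorem gam_sum (a b : ℝ) : ((gam d).prod (gam d)).map (fun p => a • p.1 + b • p.2) =
    (gam d).map fun z => √(a ^ 2 + b ^ 2) • z := by
  have hm : Measurable fun p : E d × E d => a • p.1 + b • p.2 := by fun_prop
  have hm' : Measurable fun z : E d => √(a ^ 2 + b ^ 2) • z := by fun_prop
  have := Measure.isProbabilityMeasure_map (μ := (gam d).prod (gam d)) hm.aemeasurable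
  have := Measure.isProbabilityMeasure_map (μ := gam d) hm'.aemeasurable
  refine Measure.ext_of_charFun (funext fun t => ?_)
  rw [charFun_map_smul, charFun_stdGaussian, charFun_apply,
    integral_map hm.aemeasurable (by fun_prop)]
  simp only [inner_add_left, real_inner_smul_left, ← real_inner_smul_right]
  rw [Gauss_char_pair]
  have e : ‖a • t‖ ^ 2 + ‖b • t‖ ^ 2 = ‖√(a ^ 2 + b ^ 2) • t‖ ^ 2 := by
    simp only [norm_smul, mul_pow, Real.norm_eq_abs, sq_abs]
    rw [Real.sq_sqrt (by positivity)]; ring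
  rw [e]
  push_cast; rfl

theorem gam_neg : MeasurePreserving (fun z : E d => -z) (gam d) (gam d) :=
  ⟨measurable_neg, stdGaussian_map (LinearIsometryEquiv.neg ℝ)⟩

theorem gam_shift (θ : E d) {X : Type*} [NormedAddCommGroup X] [NormedSpace ℝ X] (f : E d → X) :
    ∫ z, f (z + θ) ∂gam d = ∫ z, Real.exp (⟪θ, z⟫ - ‖θ‖ ^ 2 / 2) • f z ∂gam d := by
  rw [Gauss_eq_tilted, integral_tilted, integral_tilted]
  generalize (∫ x : E d, Real.exp (-‖x‖ ^ 2 / 2)) = Z
  rw [← integral_add_right_eq_self (μ := volume) (fun z => (Real.exp (-‖z‖ ^ 2 / 2) / Z) •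
    Real.exp (⟪θ, z⟫ - ‖θ‖ ^ 2 / 2) • f z) θ]
  refine integral_congr_ae (Filter.Eventually.of_forall fun z => ?_)
  simp only [smul_smul]
  congr 1
  rw [div_mul_eq_mul_div, ← Real.exp_add, norm_add_sq_real, inner_add_right,
    real_inner_self_eq_norm_sq, real_inner_comm]
  congr 2; ring

theorem integrable_exp_norm (R : ℝ) :
    Integrable (fun z : E d => Real.exp (R * ‖z‖)) (gam d) := by
  obtain ⟨C, hC, hi⟩ := IsGaussian.exists_integrable_exp_sq (gam d)
  refine (hi.const_mul (Real.exp (R ^ 2 / (4 * C)))).mono' (by fun_prop)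
    (Filter.Eventually.of_forall fun z => ?_)
  rw [Real.norm_eq_abs, abs_of_pos (Real.exp_pos _), ← Real.exp_add]
  refine Real.exp_le_exp.2 ?_
  have h0 : 0 ≤ (R - 2 * C * ‖z‖) ^ 2 / (4 * C) := by positivity
  have e : (R - 2 * C * ‖z‖) ^ 2 / (4 * C) = R ^ 2 / (4 * C) + C * ‖z‖ ^ 2 - R * ‖z‖ := by
    field_simp; ring
  linarith

theorem integral_norm_sq_gam : ∫ z, ‖z‖ ^ 2 ∂gam d = d := by
  have h1 : ∀ i : Fin d, ∫ z : E d, (innerSL ℝ (ev i) z) ^ 2 ∂gam d = 1 := by
    intro i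
    rw [← variance_of_integral_eq_zero (innerSL ℝ (ev i)).continuous.aemeasurable
      (integral_strongDual_stdGaussian _), variance_dual_stdGaussian, innerSL_apply_norm]
    simp
  have h2 : ∀ i : Fin d, Integrable (fun z : E d => (innerSL ℝ (ev i) z) ^ 2) (gam d) :=
    fun i => (IsGaussian.memLp_dual (gam d) (innerSL ℝ (ev i)) 2 (by simp)).integrable_sq
  have e : ∀ z : E d, ‖z‖ ^ 2 = ∑ i, (innerSL ℝ (ev i) z) ^ 2 := by
    intro z
    rw [EuclideanSpace.real_norm_sq_eq]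
    refine Finset.sum_congr rfl fun i _ => ?_
    simp [EuclideanSpace.inner_single_left]
  simp only [e]
  rw [integral_finsetSum _ fun i _ => h2 i]
  simp only [h1]
  simp

theorem integral_norm_gam_le : ∫ z, ‖z‖ ∂gam d ≤ √d := by
  have hm : MemLp (fun z : E d => ‖z‖) 2 (gam d) := (IsGaussian.memLp_two_id (μ := gam d)).norm
  have h1 := variance_nonneg (fun z : E d => ‖z‖) (gam d)
  rw [variance_eq_sub hm] at h1
  refine Real.le_sqrt_of_sq_le ?_
  rw [← integral_norm_sq_gam]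
  exact sub_nonneg.1 h1

theorem PolyG.exists_nonneg {X : Type*} [SeminormedAddCommGroup X] {F : X → ℝ} (h : PolyG F) :
    ∃ (C : ℝ) (k : ℕ), 0 ≤ C ∧ ∀ x, |F x| ≤ C * (1 + ‖x‖) ^ k := by
  obtain ⟨C, k, h⟩ := h
  refine ⟨C, k, ?_, h⟩
  have := (abs_nonneg _).trans (h 0)
  simpa using this

theorem PolyG.le_exp {X : Type*} [SeminormedAddCommGroup X] {F : X → ℝ} (h : PolyG F) :
    ∃ C R : ℝ, 0 ≤ C ∧ ∀ x, |F x| ≤ C * Real.exp (R * ‖x‖) := by
  obtain ⟨C, k, hC, h⟩ := h.exists_nonneg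
  refine ⟨C, k, hC, fun x => (h x).trans (mul_le_mul_of_nonneg_left ?_ hC)⟩
  rw [Real.exp_nat_mul]
  exact pow_le_pow_left₀ (by positivity) (by linarith [Real.add_one_le_exp ‖x‖]) k

theorem PolyG.integrable_gam {F : E d → ℝ} (h : PolyG F) (hm : AEStronglyMeasurable F (gam d)) :
    Integrable F (gam d) := by
  obtain ⟨C, R, -, h⟩ := h.le_exp
  exact ((integrable_exp_norm R).const_mul C).mono' hm (Filter.Eventually.of_forall h)

theorem Gauss_int_exp_neg {W : E d → ℝ} (hc : Continuous W) (h0 : ∀ x, 0 ≤ W x) :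
    Integrable (fun x => Real.exp (-W x)) (gam d) :=
  Integrable.of_bound (by fun_prop) 1 (Filter.Eventually.of_forall fun x => by
    rw [Real.norm_eq_abs, abs_of_pos (Real.exp_pos _)]
    exact Real.exp_le_one_iff.2 (neg_nonpos.2 (h0 x)))

theorem isProb_tilted {W : E d → ℝ} (hc : Continuous W) (h0 : ∀ x, 0 ≤ W x) :
    IsProbabilityMeasure ((gam d).tilted fun x => -W x) :=
  isProbabilityMeasure_tilted (Gauss_int_exp_neg hc h0)

theorem integrable_exp_norm_tilted {W : E d → ℝ} (hc : Continuous W) (h0 : ∀ x, 0 ≤ W x) (R : ℝ) :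
    Integrable (fun z : E d => Real.exp (R * ‖z‖)) ((gam d).tilted fun x => -W x) := by
  rw [integrable_tilted_iff (Gauss_int_exp_neg hc h0)]
  exact (integrable_exp_norm R).bdd_mul (c := 1) (by fun_prop)
    (Filter.Eventually.of_forall fun x => by
      rw [Real.norm_eq_abs, abs_of_pos (Real.exp_pos _)]
      exact Real.exp_le_one_iff.2 (neg_nonpos.2 (h0 x)))

theorem PolyG.integrable_tilted {W F : E d → ℝ} (hc : Continuous W) (h0 : ∀ x, 0 ≤ W x)
    (h : PolyG F) (hm : Continuous F) : Integrable F ((gam d).tilted fun x => -W x) := by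
  obtain ⟨C, R, -, h⟩ := h.le_exp
  exact ((integrable_exp_norm_tilted hc h0 R).const_mul C).mono' hm.aestronglyMeasurable
    (Filter.Eventually.of_forall h)

theorem PolyG.add {X : Type*} [SeminormedAddCommGroup X] {F G : X → ℝ} (hF : PolyG F)
    (hG : PolyG G) : PolyG fun x => F x + G x := by
  obtain ⟨C, k, hC, h⟩ := hF.exists_nonneg
  obtain ⟨C', k', hC', h'⟩ := hG.exists_nonneg
  refine ⟨C + C', k + k', fun x => (abs_add_le _ _).trans ?_⟩
  have h1 : 1 ≤ 1 + ‖x‖ := by linarith [norm_nonneg x]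
  rw [add_mul]
  exact add_le_add
    ((h x).trans (mul_le_mul_of_nonneg_left (pow_le_pow_right₀ h1 (Nat.le_add_right _ _)) hC))
    ((h' x).trans (mul_le_mul_of_nonneg_left (pow_le_pow_right₀ h1 (Nat.le_add_left _ _)) hC'))

theorem PolyG.mul {X : Type*} [SeminormedAddCommGroup X] {F G : X → ℝ} (hF : PolyG F)
    (hG : PolyG G) : PolyG fun x => F x * G x := by
  obtain ⟨C, k, h⟩ := hF
  obtain ⟨C', k', h'⟩ := hG
  refine ⟨C * C', k + k', fun x => ?_⟩
  rw [abs_mul, pow_add, mul_mul_mul_comm]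
  exact mul_le_mul (h x) (h' x) (abs_nonneg _) ((abs_nonneg _).trans (h x))

theorem PolyG.of_le {X : Type*} [SeminormedAddCommGroup X] {F G : X → ℝ} (hG : PolyG G)
    (h : ∀ x, |F x| ≤ |G x|) : PolyG F := by
  obtain ⟨C, k, h'⟩ := hG
  exact ⟨C, k, fun x => (h x).trans (h' x)⟩

theorem PolyG.const {X : Type*} [SeminormedAddCommGroup X] (c : ℝ) : PolyG fun _ : X => c :=
  ⟨|c|, 0, fun x => by simp⟩

theorem PolyG.sum {X ι : Type*} [SeminormedAddCommGroup X] (s : Finset ι) {F : ι → X → ℝ}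
    (h : ∀ i ∈ s, PolyG (F i)) : PolyG fun x => ∑ i ∈ s, F i x := by
  classical
  induction s using Finset.induction_on with
  | empty => simpa using PolyG.const (X := X) 0
  | insert a s ha ih =>
    simp only [Finset.sum_insert ha]
    exact (h a (Finset.mem_insert_self _ _)).add
      (ih fun i hi => h i (Finset.mem_insert_of_mem hi))

theorem PolyG.of_linear {X : Type*} [SeminormedAddCommGroup X] {F : X → ℝ} {a b : ℝ}
    (h : ∀ x, |F x| ≤ a + b * ‖x‖) : PolyG F := by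
  refine ⟨|a| + |b|, 1, fun x => (h x).trans ?_⟩
  have h1 := mul_le_mul_of_nonneg_right (le_abs_self b) (norm_nonneg x)
  have h2 := mul_nonneg (abs_nonneg a) (norm_nonneg x)
  have h3 := le_abs_self a
  have h4 := abs_nonneg b
  rw [pow_one]
  nlinarith

/-- The tilted Gaussian as a tilt of Lebesgue measure. -/
theorem Gauss_tilted_eq (W : E d → ℝ) : ((gam d).tilted fun x => -W x) =
    (volume : Measure (E d)).tilted fun x => -‖x‖ ^ 2 / 2 - W x := by
  rw [Gauss_eq_tilted, tilted_tilted Gauss_int_sq]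
  rfl

theorem Gauss_int_tilt {W : E d → ℝ} (hc : Continuous W) (h0 : ∀ x, 0 ≤ W x) :
    Integrable fun x : E d => Real.exp (-‖x‖ ^ 2 / 2 - W x) := by
  refine Gauss_int_sq.mono' (by fun_prop) (Filter.Eventually.of_forall fun x => ?_)
  rw [Real.norm_eq_abs, abs_of_pos (Real.exp_pos _)]
  exact Real.exp_le_exp.2 (by linarith [h0 x])

/-- integration by parts against a tilted Gaussian -/
theorem ibp_tilted {W F : E d → ℝ} (hW : ContDiff ℝ 1 W) (h0 : ∀ x, 0 ≤ W x) (v : E d)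
    (hW' : PolyG fun x => fderiv ℝ W x v) (hF : ContDiff ℝ 1 F) (h1 : PolyG F)
    (h2 : PolyG fun x => fderiv ℝ F x v) :
    ∫ x, fderiv ℝ F x v ∂((gam d).tilted fun x => -W x) =
      ∫ x, F x * (⟪x, v⟫ + fderiv ℝ W x v) ∂((gam d).tilted fun x => -W x) := by
  have hc := hW.continuous
  have cF : Continuous fun x => fderiv ℝ F x v :=
    (hF.continuous_fderiv (by simp)).clm_apply continuous_const
  have cW : Continuous fun x => fderiv ℝ W x v :=
    (hW.continuous_fderiv (by simp)).clm_apply continuous_const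
  have pv : PolyG fun x : E d => ⟪x, v⟫ := PolyG.of_linear (a := 0) (b := ‖v‖) fun x => by
    rw [zero_add, mul_comm]; exact abs_real_inner_le_norm x v
  have i1 := h1.integrable_tilted hc h0 hF.continuous
  have i2 := h2.integrable_tilted hc h0 cF
  have i3 := (h1.mul (pv.add hW')).integrable_tilted hc h0
    (hF.continuous.mul ((continuous_id.inner continuous_const).add cW))
  rw [Gauss_tilted_eq, integrable_tilted_iff (Gauss_int_tilt hc h0)] at i1 i2 i3
  rw [Gauss_tilted_eq, integral_tilted, integral_tilted]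
  generalize (∫ x : E d, Real.exp (-‖x‖ ^ 2 / 2 - W x)) = Z
  have hd : ∀ x : E d, HasFDerivAt (fun x : E d => Real.exp (-‖x‖ ^ 2 / 2 - W x))
      (Real.exp (-‖x‖ ^ 2 / 2 - W x) • (-(innerSL ℝ x) - fderiv ℝ W x)) x := by
    intro x
    have a1 : HasFDerivAt (fun x : E d => -‖x‖ ^ 2 / 2) (-(innerSL ℝ x)) x := by
      have a2 := (hasStrictFDerivAt_norm_sq x).hasFDerivAt.const_mul (-(1 / 2) : ℝ)
      have e1 : (fun x : E d => -‖x‖ ^ 2 / 2) = fun y => -(1 / 2) * ‖y‖ ^ 2 := by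
        funext y; ring
      have e2 : -(innerSL ℝ x) = (-(1 / 2) : ℝ) • (2 • innerSL ℝ x) := by
        ext y; simp
      rw [e1, e2]; exact a2
    exact (a1.sub (hW.differentiable (by simp) x).hasFDerivAt).exp
  have hd' : ∀ x : E d, fderiv ℝ (fun x : E d => Real.exp (-‖x‖ ^ 2 / 2 - W x)) x v =
      -(Real.exp (-‖x‖ ^ 2 / 2 - W x) * (⟪x, v⟫ + fderiv ℝ W x v)) := by
    intro x
    rw [(hd x).fderiv]
    simp only [smul_apply, sub_apply, neg_apply, innerSL_apply_apply, smul_eq_mul]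
    ring
  have key := integral_mul_fderiv_eq_neg_fderiv_mul_of_integrable (μ := volume) (f := F)
    (g := fun x : E d => Real.exp (-‖x‖ ^ 2 / 2 - W x)) (v := v)
    (i2.congr (Filter.Eventually.of_forall fun x => by simp only [smul_eq_mul]; ring))
    (i3.neg.congr (Filter.Eventually.of_forall fun x => by
      simp only [hd', smul_eq_mul, Pi.neg_apply]; ring))
    (i1.congr (Filter.Eventually.of_forall fun x => by simp only [smul_eq_mul]; ring))
    (fun x _ => hF.differentiable (by simp) x) (fun x _ => (hd x).differentiableAt)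
  simp only [hd', mul_neg, integral_neg, neg_inj] at key
  have e1 : ∀ x : E d, (Real.exp (-‖x‖ ^ 2 / 2 - W x) / Z) • fderiv ℝ F x v =
      Z⁻¹ * (fderiv ℝ F x v * Real.exp (-‖x‖ ^ 2 / 2 - W x)) := fun x => by
    rw [smul_eq_mul]; ring
  have e2 : ∀ x : E d, (Real.exp (-‖x‖ ^ 2 / 2 - W x) / Z) • (F x * (⟪x, v⟫ + fderiv ℝ W x v)) =
      Z⁻¹ * (F x * (Real.exp (-‖x‖ ^ 2 / 2 - W x) * (⟪x, v⟫ + fderiv ℝ W x v))) := fun x => by
    rw [smul_eq_mul]; ring
  simp only [e1, e2, integral_const_mul, key]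

theorem Gauss_int_dens (θ : E d) :
    Integrable (fun z : E d => Real.exp (⟪θ, z⟫ - ‖θ‖ ^ 2 / 2)) (gam d) := by
  refine (integrable_exp_norm ‖θ‖).mono' (by fun_prop) (Filter.Eventually.of_forall fun z => ?_)
  rw [Real.norm_eq_abs, abs_of_pos (Real.exp_pos _)]
  exact Real.exp_le_exp.2 (by linarith [real_inner_le_norm θ z, sq_nonneg ‖θ‖])

theorem Gauss_integral_dens (θ : E d) :
    ∫ z, Real.exp (⟪θ, z⟫ - ‖θ‖ ^ 2 / 2) ∂gam d = 1 := by
  have := gam_shift θ (fun _ => (1 : ℝ))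
  simpa using this.symm

theorem Gauss_dens_l1 (θ : E d) (h : ‖θ‖ ≤ 1 / 2) :
    ∫ z, |Real.exp (⟪θ, z⟫ - ‖θ‖ ^ 2 / 2) - 1| ∂gam d ≤ 2 * ‖θ‖ := by
  rcases (norm_nonneg θ).eq_or_lt with h0 | h0
  · have : θ = 0 := norm_eq_zero.1 h0.symm
    subst this; simp
  have e : ∀ z : E d, Real.exp (⟪θ, z⟫ - ‖θ‖ ^ 2 / 2) ^ 2 =
      Real.exp (‖θ‖ ^ 2) * Real.exp (⟪(2 : ℝ) • θ, z⟫ - ‖(2 : ℝ) • θ‖ ^ 2 / 2) := by
    intro z
    rw [← Real.exp_add, sq, ← Real.exp_add, norm_smul, real_inner_smul_left]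
    congr 1
    simp only [Real.norm_ofNat]; ring
  have i1 := Gauss_int_dens θ
  have i2 := (Gauss_int_dens ((2 : ℝ) • θ)).const_mul (Real.exp (‖θ‖ ^ 2))
  have i3 := (i2.sub' (i1.const_mul 2)).const_mul (2 * ‖θ‖)⁻¹
  have key : ∫ z, |Real.exp (⟪θ, z⟫ - ‖θ‖ ^ 2 / 2) - 1| ∂gam d ≤
      ∫ z, ((2 * ‖θ‖)⁻¹ * (Real.exp (‖θ‖ ^ 2) *
        Real.exp (⟪(2 : ℝ) • θ, z⟫ - ‖(2 : ℝ) • θ‖ ^ 2 / 2) -
          2 * Real.exp (⟪θ, z⟫ - ‖θ‖ ^ 2 / 2)) + ((2 * ‖θ‖)⁻¹ + ‖θ‖ / 2)) ∂gam d := by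
    refine integral_mono (i1.sub' (integrable_const _)).abs (i3.fun_add (integrable_const _))
      fun z => ?_
    simp only [← e]
    generalize Real.exp (⟪θ, z⟫ - ‖θ‖ ^ 2 / 2) = M
    have h1 : 0 ≤ (|M - 1| - ‖θ‖) ^ 2 / (2 * ‖θ‖) := by positivity
    have h2 : (|M - 1| - ‖θ‖) ^ 2 / (2 * ‖θ‖) =
        (2 * ‖θ‖)⁻¹ * (M ^ 2 - 2 * M) + ((2 * ‖θ‖)⁻¹ + ‖θ‖ / 2) - |M - 1| := by
      rw [sub_sq, sq_abs]; field_simp; ring
    linarith
  rw [integral_add i3 (integrable_const _), integral_const_mul, integral_sub i2 (i1.const_mul 2),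
    integral_const_mul, integral_const_mul, Gauss_integral_dens, Gauss_integral_dens] at key
  simp only [integral_const, probReal_univ, smul_eq_mul, one_mul, mul_one] at key
  have h3 := Real.abs_exp_sub_one_le (x := ‖θ‖ ^ 2)
    (by rw [abs_of_nonneg (sq_nonneg _)]; nlinarith)
  rw [abs_of_nonneg (sq_nonneg ‖θ‖)] at h3
  have h4 : (2 * ‖θ‖)⁻¹ * (Real.exp (‖θ‖ ^ 2) - 1) ≤ (2 * ‖θ‖)⁻¹ * (2 * ‖θ‖ ^ 2) :=
    mul_le_mul_of_nonneg_left ((le_abs_self _).trans h3) (by positivity)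
  have h5 : (2 * ‖θ‖)⁻¹ * (2 * ‖θ‖ ^ 2) = ‖θ‖ := by field_simp
  linarith

/-- Gaussian smoothing of an indicator is Lipschitz. -/
theorem lip_noise {s : ℝ} (hs : 0 < s) {B : Set (E d)} (hB : MeasurableSet B) (y y' : E d) :
    |(gam d).real {z | y + s • z ∈ B} - (gam d).real {z | y' + s • z ∈ B}| ≤ 2 / s * ‖y - y'‖ := by
  set θ : E d := s⁻¹ • (y - y') with hθ
  have hn : 2 / s * ‖y - y'‖ = 2 * ‖θ‖ := by
    rw [hθ, norm_smul, Real.norm_eq_abs, abs_of_pos (inv_pos.2 hs)]; ring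
  rw [hn]
  rcases le_total ‖θ‖ (1 / 2) with h | h
  · have hm : ∀ y : E d, MeasurableSet {z : E d | y + s • z ∈ B} := fun y =>
      (show Measurable fun z : E d => y + s • z by fun_prop) hB
    have e1 : (gam d).real {z | y + s • z ∈ B} =
        ∫ z, {z : E d | y' + s • z ∈ B}.indicator (fun _ => (1 : ℝ)) (z + θ) ∂gam d := by
      rw [← integral_indicator_one (hm y)]
      refine integral_congr_ae (Filter.Eventually.of_forall fun z => ?_)
      have e : y' + s • (z + θ) = y + s • z := by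
        rw [hθ, smul_add, smul_inv_smul₀ hs.ne']; abel
      by_cases hz : y + s • z ∈ B
      · have hz' : z + θ ∈ {z : E d | y' + s • z ∈ B} := by
          show y' + s • (z + θ) ∈ B
          rwa [e]
        simp only [Set.indicator_of_mem hz',
          Set.indicator_of_mem (show z ∈ {z : E d | y + s • z ∈ B} from hz), Pi.one_apply]
      · have hz' : z + θ ∉ {z : E d | y' + s • z ∈ B} := by
          show ¬ y' + s • (z + θ) ∈ B
          rwa [e]
        simp only [Set.indicator_of_notMem hz',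
          Set.indicator_of_notMem (show z ∉ {z : E d | y + s • z ∈ B} from hz)]
    have i0 : Integrable ({z : E d | y' + s • z ∈ B}.indicator fun _ => (1 : ℝ)) (gam d) :=
      (integrable_const _).indicator (hm y')
    have hb : ∀ z, |{z : E d | y' + s • z ∈ B}.indicator (fun _ => (1 : ℝ)) z| ≤ 1 := by
      intro z
      by_cases hz : z ∈ {z : E d | y' + s • z ∈ B}
      · simp [Set.indicator_of_mem hz]
      · simp [Set.indicator_of_notMem hz]
    have i1 : Integrable (fun z => Real.exp (⟪θ, z⟫ - ‖θ‖ ^ 2 / 2) •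
        {z : E d | y' + s • z ∈ B}.indicator (fun _ => (1 : ℝ)) z) (gam d) :=
      (Gauss_int_dens θ).mul_bdd i0.aestronglyMeasurable (Filter.Eventually.of_forall hb)
    have e2 : (gam d).real {z | y' + s • z ∈ B} =
        ∫ z, {z : E d | y' + s • z ∈ B}.indicator (fun _ => (1 : ℝ)) z ∂gam d :=
      (integral_indicator_one (hm y')).symm
    rw [e1, gam_shift, e2, ← integral_sub i1 i0]
    refine (abs_integral_le_integral_abs.trans ?_).trans (Gauss_dens_l1 θ h)
    refine integral_mono (i1.sub' i0).abs ((Gauss_int_dens θ).sub' (integrable_const _)).abs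
      fun z => ?_
    simp only [smul_eq_mul]
    rw [← sub_one_mul, abs_mul]
    exact mul_le_of_le_one_right (abs_nonneg _) (hb z)
  · have h1 := measureReal_le_one (μ := gam d) (s := {z | y + s • z ∈ B})
    have h2 := measureReal_le_one (μ := gam d) (s := {z | y' + s • z ∈ B})
    have h3 := measureReal_nonneg (μ := gam d) (s := {z | y + s • z ∈ B})
    have h4 := measureReal_nonneg (μ := gam d) (s := {z | y' + s • z ∈ B})
    rw [abs_le]; constructor <;> linarith

end Vale.Agent.P347
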