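import Vale.Agent.P347.Pd

namespace Vale.Agent.P347

open MeasureTheory ProbabilityTheory
open scoped RealInnerProductSpace NNReal ContDiff

variable {d : ℕ}

section
variable {X P : Type*} [MeasurableSpace X] [NormedAddCommGroup P] [NormedSpace ℝ P]

/-- `h` has exponential moments near every point of `U`. -/
def ExpGood (μ : Measure X) (Φ : X → P →L[ℝ] ℝ) (U : Set P) (h : X → ℝ) : Prop :=
  AEStronglyMeasurable h μ ∧
    ∀ η ∈ U, ∃ ε > 0, Integrable (fun x => |h x| * Real.exp (Φ x η + ε * ‖Φ x‖)) μ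

theorem Laplace_meas_apply {μ : Measure X} {Φ : X → P →L[ℝ] ℝ} (hΦ : AEStronglyMeasurable Φ μ)
    (v : P) : AEStronglyMeasurable (fun x => Φ x v) μ :=
  (ContinuousLinearMap.apply ℝ ℝ v).continuous.comp_aestronglyMeasurable hΦ

theorem Laplace_le_exp {ε : ℝ} (hε : 0 < ε) (a : ℝ) : a ≤ 2 / ε * Real.exp (ε / 2 * a) := by
  have h := Real.add_one_le_exp (ε / 2 * a)
  have h2 : a = 2 / ε * (ε / 2 * a) := by field_simp
  have h3 : 0 < 2 / ε := by positivity
  calc a = 2 / ε * (ε / 2 * a) := h2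
    _ ≤ 2 / ε * Real.exp (ε / 2 * a) := mul_le_mul_of_nonneg_left (by linarith) h3.le

theorem ExpGood.mul_apply {μ : Measure X} {Φ : X → P →L[ℝ] ℝ} {U : Set P} {h : X → ℝ}
    (hΦ : AEStronglyMeasurable Φ μ) (hh : ExpGood μ Φ U h) (v : P) :
    ExpGood μ Φ U fun x => h x * Φ x v := by
  refine ⟨hh.1.mul (Laplace_meas_apply hΦ v), fun η hη => ?_⟩
  obtain ⟨ε, hε, hi⟩ := hh.2 η hη
  refine ⟨ε / 2, half_pos hε, (hi.const_mul (2 / ε * ‖v‖)).mono' ?_ (.of_forall fun x => ?_)⟩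
  · exact (continuous_abs.comp_aestronglyMeasurable (hh.1.mul (Laplace_meas_apply hΦ v))).mul
      (Real.continuous_exp.comp_aestronglyMeasurable
        ((Laplace_meas_apply hΦ η).add (hΦ.norm.const_mul _)))
  · rw [Real.norm_of_nonneg (by positivity), abs_mul]
    have h1 : |Φ x v| ≤ 2 / ε * Real.exp (ε / 2 * ‖Φ x‖) * ‖v‖ :=
      ((Φ x).le_opNorm v).trans
        (mul_le_mul_of_nonneg_right (Laplace_le_exp hε _) (norm_nonneg v))
    have h2 : Real.exp (Φ x η + ε * ‖Φ x‖) =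
        Real.exp (ε / 2 * ‖Φ x‖) * Real.exp (Φ x η + ε / 2 * ‖Φ x‖) := by
      rw [← Real.exp_add]; congr 1; ring
    calc |h x| * |Φ x v| * Real.exp (Φ x η + ε / 2 * ‖Φ x‖)
        ≤ |h x| * (2 / ε * Real.exp (ε / 2 * ‖Φ x‖) * ‖v‖) *
          Real.exp (Φ x η + ε / 2 * ‖Φ x‖) := by gcongr
      _ = _ := by rw [h2]; ring

theorem ExpGood.integrable {μ : Measure X} {Φ : X → P →L[ℝ] ℝ} {U : Set P} {h : X → ℝ}
    (hΦ : AEStronglyMeasurable Φ μ) (hh : ExpGood μ Φ U h) {η : P} (hη : η ∈ U) :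
    Integrable (fun x => h x * Real.exp (Φ x η)) μ := by
  obtain ⟨ε, hε, hi⟩ := hh.2 η hη
  refine hi.mono' (hh.1.mul (Real.continuous_exp.comp_aestronglyMeasurable
    (Laplace_meas_apply hΦ η))) (.of_forall fun x => ?_)
  rw [norm_mul, Real.norm_eq_abs, Real.norm_of_nonneg (Real.exp_pos _).le]
  gcongr
  exact le_add_of_nonneg_right (by positivity)

theorem ExpGood.differentiableAt {μ : Measure X} {Φ : X → P →L[ℝ] ℝ} {U : Set P} {h : X → ℝ}
    (hΦ : AEStronglyMeasurable Φ μ) (hh : ExpGood μ Φ U h) {η : P} (hη : η ∈ U) :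
    DifferentiableAt ℝ (fun η => ∫ x, h x * Real.exp (Φ x η) ∂μ) η ∧
      ∀ v, fderiv ℝ (fun η => ∫ x, h x * Real.exp (Φ x η) ∂μ) η v =
        ∫ x, h x * Φ x v * Real.exp (Φ x η) ∂μ := by
  obtain ⟨ε, hε, hi⟩ := hh.2 η hη
  have hm : ∀ ξ : P, AEStronglyMeasurable (fun x => h x * Real.exp (Φ x ξ)) μ := fun ξ =>
    hh.1.mul (Real.continuous_exp.comp_aestronglyMeasurable (Laplace_meas_apply hΦ ξ))
  have hb : ∀ x, ∀ ξ ∈ Metric.ball η (ε / 2), ‖(h x * Real.exp (Φ x ξ)) • Φ x‖ ≤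
      2 / ε * (|h x| * Real.exp (Φ x η + ε * ‖Φ x‖)) := by
    intro x ξ hξ
    have h1 : Φ x ξ ≤ Φ x η + ε / 2 * ‖Φ x‖ := by
      have h2 : Φ x (ξ - η) ≤ ‖Φ x‖ * (ε / 2) := (le_abs_self _).trans (((Φ x).le_opNorm _).trans
        (mul_le_mul_of_nonneg_left (mem_ball_iff_norm.1 hξ).le (norm_nonneg _)))
      rw [map_sub] at h2
      linarith
    have h2 : Real.exp (Φ x η + ε * ‖Φ x‖) =
        Real.exp (ε / 2 * ‖Φ x‖) * Real.exp (Φ x η + ε / 2 * ‖Φ x‖) := by
      rw [← Real.exp_add]; congr 1; ring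
    rw [norm_smul, norm_mul, Real.norm_eq_abs, Real.norm_of_nonneg (Real.exp_pos _).le]
    calc |h x| * Real.exp (Φ x ξ) * ‖Φ x‖
        ≤ |h x| * Real.exp (Φ x η + ε / 2 * ‖Φ x‖) * (2 / ε * Real.exp (ε / 2 * ‖Φ x‖)) := by
          gcongr
          exact Laplace_le_exp hε _
      _ = _ := by rw [h2]; ring
  have hm' : AEStronglyMeasurable (fun x => (h x * Real.exp (Φ x η)) • Φ x) μ := (hm η).smul hΦ
  have key := hasFDerivAt_integral_of_dominated_of_fderiv_le (μ := μ)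
    (F := fun ξ x => h x * Real.exp (Φ x ξ)) (F' := fun ξ x => (h x * Real.exp (Φ x ξ)) • Φ x)
    (x₀ := η) (Metric.ball_mem_nhds η (half_pos hε)) (.of_forall hm) (hh.integrable hΦ hη) hm'
    (.of_forall hb) (hi.const_mul (2 / ε)) (.of_forall fun x ξ _ => by
      have := ((Φ x).hasFDerivAt (x := ξ)).exp.const_mul (h x)
      rwa [smul_smul] at this)
  refine ⟨key.differentiableAt, fun v => ?_⟩
  rw [key.fderiv, ContinuousLinearMap.integral_apply
    ((hi.const_mul (2 / ε)).mono' hm' (.of_forall fun x => hb x η (Metric.mem_ball_self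
      (half_pos hε))))]
  refine integral_congr_ae (.of_forall fun x => ?_)
  simp only [ContinuousLinearMap.smul_apply, smul_eq_mul]
  ring

theorem ExpGood.contDiffOn [FiniteDimensional ℝ P] {μ : Measure X} {Φ : X → P →L[ℝ] ℝ} {U : Set P}
    (hU : IsOpen U) {h : X → ℝ} (hΦ : AEStronglyMeasurable Φ μ) (hh : ExpGood μ Φ U h) :
    ContDiffOn ℝ ∞ (fun η => ∫ x, h x * Real.exp (Φ x η) ∂μ) U := by
  rw [contDiffOn_infty]
  intro n
  induction n generalizing h with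
  | zero =>
    exact contDiffOn_zero.2 fun η hη =>
      (hh.differentiableAt hΦ hη).1.continuousAt.continuousWithinAt
  | succ n ih =>
    rw [Nat.cast_succ, contDiffOn_succ_iff_fderiv_of_isOpen hU]
    refine ⟨fun η hη => (hh.differentiableAt hΦ hη).1.differentiableWithinAt, by simp, ?_⟩
    rw [contDiffOn_clm_apply]
    intro v
    exact (ih (hh.mul_apply hΦ v)).congr fun η hη => (hh.differentiableAt hΦ hη).2 v

end

end Vale.Agent.P347
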