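import Vale.Agent.P347.FlatAuxA
import Vale.Agent.P347.Gauss
import Vale.Agent.P347.Laplace

/-! Derivatives under the integral and Gram bounds from the Poincare inequality. -/

namespace Vale.Agent.P347

open MeasureTheory ProbabilityTheory
open scoped RealInnerProductSpace ContDiff

noncomputable section

theorem flat_ex {X P : Type*} [MeasurableSpace X] [NormedAddCommGroup P] [NormedSpace ℝ P]
    [FiniteDimensional ℝ P] {μ : Measure X} {Φ : X → P →L[ℝ] ℝ} (hΦ : AEStronglyMeasurable Φ μ)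
    (M : Multiset P) {w : P → ℝ} (hw : ContDiff ℝ ∞ w) {h : X → ℝ}
    (hh : ExpGood μ Φ Set.univ h) (η₀ : P) :
    Integrable (fun x => h x * pd M (fun η => w η * Real.exp (Φ x η)) η₀) μ ∧
      pd M (fun η => w η * ∫ x, h x * Real.exp (Φ x η) ∂μ) η₀ =
        ∫ x, h x * pd M (fun η => w η * Real.exp (Φ x η)) η₀ ∂μ := by
  have hI : ∀ {h : X → ℝ}, ExpGood μ Φ Set.univ h →
      ContDiff ℝ ∞ (fun η => ∫ x, h x * Real.exp (Φ x η) ∂μ) := fun hh =>
    contDiffOn_univ.1 (hh.contDiffOn isOpen_univ hΦ)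
  induction M using Multiset.induction_on generalizing w h with
  | empty =>
    have e : ∀ x, h x * pd 0 (fun η => w η * Real.exp (Φ x η)) η₀ =
        w η₀ * (h x * Real.exp (Φ x η₀)) := by
      intro x
      rw [pd_zero (hw.mul (flat_contDiff_exp _))]
      ring
    simp only [e]
    refine ⟨(hh.integrable hΦ (Set.mem_univ _)).const_mul _, ?_⟩
    rw [pd_zero (hw.mul (hI hh)), integral_const_mul]
  | cons v M ih =>
    obtain ⟨a1, a2⟩ := ih (contDiff_dd hw v) hh
    obtain ⟨b1, b2⟩ := ih hw (hh.mul_apply hΦ v)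
    have e : ∀ x, h x * pd (v ::ₘ M) (fun η => w η * Real.exp (Φ x η)) η₀ =
        h x * pd M (fun η => dd v w η * Real.exp (Φ x η)) η₀ +
          h x * Φ x v * pd M (fun η => w η * Real.exp (Φ x η)) η₀ := by
      intro x
      rw [flat_pd_exp_cons _ hw]
      ring
    simp only [e]
    refine ⟨a1.add b1, ?_⟩
    have e2 : dd v (fun η => ∫ x, h x * Real.exp (Φ x η) ∂μ) =
        fun η => ∫ x, h x * Φ x v * Real.exp (Φ x η) ∂μ := by
      funext η
      exact (hh.differentiableAt hΦ (Set.mem_univ η)).2 v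
    rw [pd_cons' (hw.mul (hI hh)), dd_mul hw (hI hh), e2,
      pd_fun_add ((contDiff_dd hw v).mul (hI hh)) (hw.mul (hI (hh.mul_apply hΦ v))),
      integral_add a1 b1]
    exact congrArg₂ (· + ·) a2 b2

variable {d : ℕ}

/-- probability measures with exponential moments and Poincare constant one -/
structure Nice (ν : Measure (E d)) : Prop where
  prob : IsProbabilityMeasure ν
  expm : ∀ R : ℝ, Integrable (fun z : E d => Real.exp (R * ‖z‖)) ν
  poinc : ∀ F : E d → ℝ, ContDiff ℝ 1 F → PolyG F → (PolyG fun x => ‖fderiv ℝ F x‖) →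
    Var[F; ν] ≤ ∫ x, ‖fderiv ℝ F x‖ ^ 2 ∂ν

theorem flat_polyG_exp {h : E d → ℝ} (hp : PolyG h) :
    ∃ C R : ℝ, 0 ≤ C ∧ ∀ x, |h x| ≤ C * Real.exp (R * ‖x‖) := by
  obtain ⟨C, k, hC⟩ := hp
  refine ⟨|C|, k, abs_nonneg _, fun x => (hC x).trans ?_⟩
  have h1 : (1 + ‖x‖) ^ k ≤ Real.exp (k * ‖x‖) := by
    rw [Real.exp_nat_mul]
    exact pow_le_pow_left₀ (by positivity) (by linarith [Real.add_one_le_exp ‖x‖]) k
  exact mul_le_mul (le_abs_self C) h1 (by positivity) (abs_nonneg _)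

variable {ν : Measure (E d)}

theorem Nice.integrable (hν : Nice ν) {h : E d → ℝ} (hc : Continuous h) (hp : PolyG h) :
    Integrable h ν := by
  obtain ⟨C, R, _, hC⟩ := flat_polyG_exp hp
  exact ((hν.expm R).const_mul C).mono' hc.aestronglyMeasurable (Filter.Eventually.of_forall hC)

theorem flat_cont_phi {P : Type*} [NormedAddCommGroup P] [NormedSpace ℝ P] (l : P →L[ℝ] E d) :
    Continuous fun x : E d => (innerSL ℝ x).comp l :=
  (innerSL ℝ (E := E d)).continuous.clm_comp continuous_const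

theorem Nice.expGood (hν : Nice ν) {P : Type*} [NormedAddCommGroup P] [NormedSpace ℝ P]
    (l : P →L[ℝ] E d) {h : E d → ℝ} (hc : Continuous h) (hp : PolyG h) :
    ExpGood ν (fun x => (innerSL ℝ x).comp l) Set.univ h := by
  refine ⟨hc.aestronglyMeasurable, fun η _ => ⟨1, one_pos, ?_⟩⟩
  obtain ⟨C, R, hC0, hC⟩ := flat_polyG_exp hp
  refine ((hν.expm (R + (‖l η‖ + ‖l‖))).const_mul C).mono' ?_ (Filter.Eventually.of_forall ?_)
  · apply Continuous.aestronglyMeasurable
    apply hc.abs.mul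
    apply Real.continuous_exp.comp
    exact ((flat_cont_phi l).clm_apply continuous_const).add
      (continuous_const.mul (flat_cont_phi l).norm)
  · intro x
    rw [Real.norm_eq_abs, abs_of_nonneg (by positivity), add_mul, Real.exp_add (R * ‖x‖),
      ← mul_assoc]
    apply mul_le_mul (hC x) _ (Real.exp_pos _).le (by positivity)
    apply Real.exp_le_exp.2
    have h1 : ((innerSL ℝ x).comp l) η ≤ ‖x‖ * ‖l η‖ := real_inner_le_norm x (l η)
    have h2 : ‖(innerSL ℝ x).comp l‖ ≤ ‖x‖ * ‖l‖ := by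
      refine (ContinuousLinearMap.opNorm_comp_le _ _).trans (le_of_eq ?_)
      rw [innerSL_apply_norm]
    linarith

theorem flat_norm_sq_le (L : E d →L[ℝ] ℝ) : ‖L‖ ^ 2 ≤ ∑ c, L (ev c) ^ 2 := by
  have h0 : 0 ≤ ∑ c, L (ev c) ^ 2 := Finset.sum_nonneg fun _ _ => sq_nonneg _
  rw [← Real.le_sqrt (norm_nonneg _) h0]
  apply ContinuousLinearMap.opNorm_le_bound _ (Real.sqrt_nonneg _)
  intro v
  have e : L v = ∑ c, L (ev c) * v c := by
    conv_lhs => rw [← (EuclideanSpace.basisFun (Fin d) ℝ).sum_repr v]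
    rw [map_sum]
    refine Finset.sum_congr rfl fun c _ => ?_
    rw [map_smul, smul_eq_mul, mul_comm]
    simp
  rw [Real.norm_eq_abs, e, EuclideanSpace.norm_eq, ← Real.sqrt_mul h0]
  apply Real.abs_le_sqrt
  simp only [Real.norm_eq_abs, sq_abs]
  exact Finset.sum_mul_sq_le_sq_mul_sq _ _ _

theorem flat_polyG_sq {F : E d → ℝ} (h : PolyG F) : PolyG fun x => F x ^ 2 := by
  simp only [sq]
  exact h.mul h

/-- Poincare inequality in coordinates for centred functions -/
theorem Nice.poinc' (hν : Nice ν) {F : E d → ℝ} (hF : ContDiff ℝ 1 F) (h1 : PolyG F)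
    (h2 : ∀ c, PolyG fun x => fderiv ℝ F x (ev c)) (h0 : ∫ x, F x ∂ν = 0) :
    ∫ x, F x ^ 2 ∂ν ≤ ∫ x, ∑ c, fderiv ℝ F x (ev c) ^ 2 ∂ν := by
  have hs : PolyG fun x => ∑ c, fderiv ℝ F x (ev c) ^ 2 :=
    PolyG.sum _ fun c _ => flat_polyG_sq (h2 c)
  have hn : PolyG fun x => ‖fderiv ℝ F x‖ := by
    refine PolyG.of_le ((PolyG.const 1).add hs) fun x => ?_
    have a1 := flat_norm_sq_le (fderiv ℝ F x)
    have a2 : 0 ≤ ∑ c, fderiv ℝ F x (ev c) ^ 2 := Finset.sum_nonneg fun _ _ => sq_nonneg _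
    rw [abs_norm, abs_of_nonneg (by positivity)]
    nlinarith [sq_nonneg (‖fderiv ℝ F x‖ - 1)]
  have hc : Continuous (fderiv ℝ F) := hF.continuous_fderiv (by simp)
  rw [← variance_of_integral_eq_zero hF.continuous.measurable.aemeasurable h0]
  refine (hν.poinc F hF h1 hn).trans ?_
  apply integral_mono (hν.integrable (hc.norm.fun_pow 2) (flat_polyG_sq hn))
    (hν.integrable (continuous_finsetSum _ fun c _ => (hc.clm_apply continuous_const).fun_pow 2) hs)
  intro x
  exact flat_norm_sq_le _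

/-- Gram bound of a finite family -/
def Gram (ν : Measure (E d)) {α : Type*} [Fintype α] (g : α → E d → ℝ) (c : ℝ) : Prop :=
  ∀ u : α → ℝ, ∫ x, (∑ a, u a * g a x) ^ 2 ∂ν ≤ c * ∑ a, u a ^ 2

theorem Gram.mono {α : Type*} [Fintype α] {g : α → E d → ℝ} {c c' : ℝ} (h : Gram ν g c)
    (hc : c ≤ c') : Gram ν g c' := fun u =>
  (h u).trans (mul_le_mul_of_nonneg_right hc (Finset.sum_nonneg fun _ _ => sq_nonneg _))

theorem flat_comb {α : Type*} [Fintype α] {g : α → E d → ℝ} (hc : ∀ a, Continuous (g a))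
    (hp : ∀ a, PolyG (g a)) (u : α → ℝ) :
    (Continuous fun x => ∑ a, u a * g a x) ∧ PolyG fun x => ∑ a, u a * g a x :=
  ⟨continuous_finsetSum _ fun a _ => continuous_const.mul (hc a),
    PolyG.sum _ fun a _ => (PolyG.const _).mul (hp a)⟩

theorem Nice.opB (hν : Nice ν) {α β : Type*} [Fintype α] [Fintype β] {g : α → E d → ℝ}
    {h : β → E d → ℝ} (hg : ∀ a, Continuous (g a)) (hg' : ∀ a, PolyG (g a))
    (hh : ∀ a, Continuous (h a)) (hh' : ∀ a, PolyG (h a)) {c c' : ℝ} (hc : 0 ≤ c)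
    (h1 : Gram ν g c) (h2 : Gram ν h c') : OpB (fun a b => ∫ x, g a x * h b x ∂ν) (c * c') := by
  intro u
  obtain ⟨H1, H2⟩ := flat_comb hh hh' u
  set H : E d → ℝ := fun x => ∑ b, u b * h b x with hH
  set t : α → ℝ := fun a => ∫ x, g a x * H x ∂ν with ht
  obtain ⟨G1, G2⟩ := flat_comb hg hg' t
  have e1 : ∀ a, ∑ b, (∫ x, g a x * h b x ∂ν) * u b = t a := by
    intro a
    simp only [ht, hH, Finset.mul_sum]
    rw [integral_finsetSum _ fun b _ => hν.integrable
      ((hg a).fun_mul (continuous_const.fun_mul (hh b)))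
      ((hg' a).mul ((PolyG.const _).mul (hh' b)))]
    refine Finset.sum_congr rfl fun b _ => ?_
    rw [← integral_mul_const]
    congr 1; funext x; ring
  simp only [e1]
  have e2 : ∑ a, t a ^ 2 = ∫ x, (∑ a, t a * g a x) * H x ∂ν := by
    simp only [Finset.sum_mul]
    rw [integral_finsetSum _ fun a _ => hν.integrable
      ((continuous_const.fun_mul (hg a)).fun_mul H1)
      (((PolyG.const _).mul (hg' a)).mul H2)]
    refine Finset.sum_congr rfl fun a _ => ?_
    simp only [mul_assoc]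
    rw [integral_const_mul, sq]
  have hT : 0 ≤ ∑ a, t a ^ 2 := Finset.sum_nonneg fun _ _ => sq_nonneg _
  have hA := h1 t
  have hB := h2 u
  have hB0 : 0 ≤ ∫ x, H x ^ 2 ∂ν := integral_nonneg fun _ => sq_nonneg _
  have key : ∀ s : ℝ, 2 * s * ∑ a, t a ^ 2 ≤
      ∫ x, (∑ a, t a * g a x) ^ 2 ∂ν + s ^ 2 * ∫ x, H x ^ 2 ∂ν := by
    intro s
    have i1 := hν.integrable (G1.fun_pow 2) (flat_polyG_sq G2)
    have i2 := (hν.integrable (H1.fun_pow 2) (flat_polyG_sq H2)).const_mul (s ^ 2)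
    rw [e2, ← integral_const_mul, ← integral_const_mul, ← integral_add i1 i2]
    apply integral_mono ((hν.integrable (G1.fun_mul H1) (G2.mul H2)).const_mul _) (i1.add i2)
    intro x
    simp only [Pi.add_apply]
    nlinarith [sq_nonneg (∑ a, t a * g a x - s * H x)]
  rcases hc.eq_or_lt with h0 | h0
  · have hz : ∑ a, t a ^ 2 ≤ 0 := by
      by_contra hneg
      have hpos := not_le.1 hneg
      have k1 := key ((∑ a, t a ^ 2) / (∫ x, H x ^ 2 ∂ν + 1))
      rw [← h0, zero_mul] at hA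
      have hs : 0 < (∑ a, t a ^ 2) / (∫ x, H x ^ 2 ∂ν + 1) := by positivity
      have hs2 : (∑ a, t a ^ 2) / (∫ x, H x ^ 2 ∂ν + 1) * (∫ x, H x ^ 2 ∂ν + 1) = ∑ a, t a ^ 2 :=
        div_mul_cancel₀ _ (by positivity)
      nlinarith [mul_pos hs hpos]
    rw [← h0, zero_mul, zero_mul]; exact hz
  · have k1 := key c
    have k2 : c * ∑ a, t a ^ 2 ≤ c * (c * ∫ x, H x ^ 2 ∂ν) := by nlinarith
    have k3 := le_of_mul_le_mul_left k2 h0
    refine k3.trans ?_
    rw [mul_assoc]
    exact mul_le_mul_of_nonneg_left hB hc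

/-- one step of the Gram recursion -/
theorem Nice.gram_step (hν : Nice ν) {γ ι : Type*} [Fintype γ] [Fintype ι] {β : ι → Type*}
    [∀ a, Fintype (β a)] (σ : ∀ a, γ ≃ Fin d × β a) {G : γ → E d → ℝ} {H : ∀ a, β a → E d → ℝ}
    {e : γ → Fin d → E d → ℝ} (hG : ∀ p, ContDiff ℝ 1 (G p)) (hG' : ∀ p, PolyG (G p))
    (hH : ∀ a b, Continuous (H a b)) (hH' : ∀ a b, PolyG (H a b))
    (he : ∀ p c, Continuous (e p c)) (he' : ∀ p c, PolyG (e p c))
    (hder : ∀ p c x, fderiv ℝ (G p) x (ev c) =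
      e p c x + ∑ a, if (σ a p).1 = c then H a (σ a p).2 x else 0)
    (hmean : ∀ p, ∫ x, G p x ∂ν = 0) {c₀ A : ℝ}
    (hE : ∀ u : γ → ℝ, ∑ c, ∫ x, (∑ p, u p * e p c x) ^ 2 ∂ν ≤ c₀ * ∑ p, u p ^ 2)
    (hA : ∀ a, Gram ν (H a) A) : Gram ν G (2 * c₀ + 2 * (Fintype.card ι : ℝ) ^ 2 * A) := by
  intro u
  have hF : ContDiff ℝ 1 fun x => ∑ p, u p * G p x :=
    ContDiff.sum fun p _ => contDiff_const.mul (hG p)
  have hD : ∀ c x, fderiv ℝ (fun x => ∑ p, u p * G p x) x (ev c) =
      ∑ p, u p * e p c x + ∑ a, ∑ b, u ((σ a).symm (c, b)) * H a b x := by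
    intro c x
    rw [fderiv_fun_sum fun p _ => ((contDiff_const.mul (hG p)).differentiable (by simp) x),
      sum_apply]
    have e1 : ∀ p, fderiv ℝ (fun x => u p * G p x) x (ev c) =
        u p * e p c x + ∑ a, u p * if (σ a p).1 = c then H a (σ a p).2 x else 0 := by
      intro p
      rw [fderiv_const_mul ((hG p).differentiable (by simp) x), ← Finset.mul_sum, ← mul_add,
        ← hder]
      rfl
    simp only [e1]
    rw [Finset.sum_add_distrib, Finset.sum_comm]
    congr 1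
    refine Finset.sum_congr rfl fun a _ => ?_
    rw [← (σ a).symm.sum_comp, Fintype.sum_prod_type, Finset.sum_eq_single c]
    · simp
    · intro c' _ hc'
      simp [hc']
    · simp
  have hT := fun a c => flat_comb (hH a) (hH' a) fun b => u ((σ a).symm (c, b))
  have hE' := fun c => flat_comb (fun p => he p c) (fun p => he' p c) u
  have h0 : ∫ x, ∑ p, u p * G p x ∂ν = 0 := by
    rw [integral_finsetSum _ fun p _ => (hν.integrable (hG p).continuous (hG' p)).const_mul _]
    exact Finset.sum_eq_zero fun p _ => by rw [integral_const_mul, hmean, mul_zero]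
  have h2 : ∀ c, PolyG fun x => fderiv ℝ (fun x => ∑ p, u p * G p x) x (ev c) := by
    intro c
    simp only [hD]
    exact (hE' c).2.add (PolyG.sum _ fun a _ => (hT a c).2)
  refine (hν.poinc' hF (flat_comb (fun p => (hG p).continuous) hG' u).2 h2 h0).trans ?_
  have iE := fun c => hν.integrable ((hE' c).1.fun_pow 2) (flat_polyG_sq (hE' c).2)
  have iT := fun a c => hν.integrable ((hT a c).1.fun_pow 2) (flat_polyG_sq (hT a c).2)
  have hc : Continuous (fderiv ℝ fun x => ∑ p, u p * G p x) := hF.continuous_fderiv (by simp)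
  rw [integral_finsetSum _ fun c _ =>
    hν.integrable ((hc.clm_apply continuous_const).fun_pow 2) (flat_polyG_sq (h2 c))]
  have h3 : ∀ c, ∫ x, fderiv ℝ (fun x => ∑ p, u p * G p x) x (ev c) ^ 2 ∂ν ≤
      2 * ∫ x, (∑ p, u p * e p c x) ^ 2 ∂ν +
        2 * (Fintype.card ι : ℝ) * ∑ a, A * ∑ b, u ((σ a).symm (c, b)) ^ 2 := by
    intro c
    have i1 := (iE c).const_mul 2
    have i2 := (integrable_finsetSum Finset.univ fun a _ => iT a c).const_mul
      (2 * (Fintype.card ι : ℝ))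
    refine (integral_mono (hν.integrable ((hc.clm_apply continuous_const).fun_pow 2)
      (flat_polyG_sq (h2 c))) (i1.add i2) fun x => ?_).trans ?_
    · simp only [hD, Pi.add_apply]
      have := sq_sum_le_card_mul_sum_sq (s := (Finset.univ : Finset ι))
        (f := fun a => ∑ b, u ((σ a).symm (c, b)) * H a b x)
      rw [Finset.card_univ] at this
      nlinarith [sq_nonneg (∑ p, u p * e p c x - ∑ a, ∑ b, u ((σ a).symm (c, b)) * H a b x)]
    · rw [integral_add' i1 i2, integral_const_mul, integral_const_mul,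
        integral_finsetSum _ fun a _ => iT a c]
      exact add_le_add le_rfl (mul_le_mul_of_nonneg_left
        (Finset.sum_le_sum fun a _ => hA a _) (by positivity))
  refine (Finset.sum_le_sum fun c _ => h3 c).trans ?_
  rw [Finset.sum_add_distrib, ← Finset.mul_sum, ← Finset.mul_sum, Finset.sum_comm]
  have e4 : ∀ a, ∑ c, A * ∑ b, u ((σ a).symm (c, b)) ^ 2 = A * ∑ p, u p ^ 2 := by
    intro a
    rw [← Finset.mul_sum, ← (σ a).symm.sum_comp (fun p => u p ^ 2), Fintype.sum_prod_type]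
  simp only [e4]
  rw [Finset.sum_const, Finset.card_univ, nsmul_eq_mul]
  nlinarith [hE u]

end

end Vale.Agent.P347
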