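import Vale.Agent.P347.FlatAuxB

/-! Gram bounds for the Appell polynomials and their centred products. -/

namespace Vale.Agent.P347

open MeasureTheory ProbabilityTheory
open scoped RealInnerProductSpace ContDiff

noncomputable section

variable {d : ℕ} {ν : Measure (E d)}

theorem polyG_Qw (M : Multiset (E d)) {w : E d → ℝ} (hw : ContDiff ℝ ∞ w) : PolyG (Qw w M) := by
  induction M using Multiset.induction_on generalizing w with
  | empty =>
    have : Qw w 0 = fun _ => w 0 := funext (Qw_zero hw)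
    rw [this]; exact PolyG.const _
  | cons v M ih =>
    rw [Qw_cons hw]
    refine (ih (contDiff_dd hw v)).add (PolyG.mul ?_ (ih hw))
    refine PolyG.of_linear (a := 0) (b := ‖v‖) fun x => ?_
    rw [zero_add, mul_comm]
    exact abs_real_inner_le_norm x v

theorem fderiv_Qw_dirs {ι : Type} [Fintype ι] [DecidableEq ι] (I : ι → Fin d) {w : E d → ℝ}
    (hw : ContDiff ℝ ∞ w) (x : E d) (c : Fin d) :
    fderiv ℝ (Qw w (dirs I)) x (ev c) =
      ∑ a, if I a = c then Qw w (dirs fun b : {b // b ≠ a} => I b) x else 0 := by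
  refine (fderiv_Qw (fun a => ev (I a)) Finset.univ hw x (ev c)).trans ?_
  refine Finset.sum_congr rfl fun a _ => ?_
  rw [flat_dirs_ne, EuclideanSpace.inner_single_left]
  by_cases h : I a = c
  · simp [h]
  · simp [h, Ne.symm h]

/-- Laplace transform of a weight -/
def Lp (ν : Measure (E d)) (h : E d → ℝ) (θ : E d) : ℝ := ∫ x, h x * Real.exp ⟪x, θ⟫ ∂ν

/-- inverse of the partition function -/
def zf (ν : Measure (E d)) (θ : E d) : ℝ := (Lp ν (fun _ => 1) θ)⁻¹

theorem Nice.contDiff_Lp (hν : Nice ν) {h : E d → ℝ} (hc : Continuous h) (hp : PolyG h) :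
    ContDiff ℝ ∞ (Lp ν h) :=
  contDiffOn_univ.1 ((hν.expGood (ContinuousLinearMap.id ℝ (E d)) hc hp).contDiffOn isOpen_univ
    (flat_cont_phi _).aestronglyMeasurable)

theorem Nice.Lp_pos (hν : Nice ν) (θ : E d) : 0 < Lp ν (fun _ => 1) θ := by
  have := hν.prob
  have hi := (hν.expGood (ContinuousLinearMap.id ℝ (E d)) continuous_const
    (PolyG.const 1)).integrable (flat_cont_phi _).aestronglyMeasurable (Set.mem_univ θ)
  unfold Lp
  simp only [one_mul] at hi ⊢
  exact integral_exp_pos hi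

theorem Nice.contDiff_zf (hν : Nice ν) : ContDiff ℝ ∞ (zf ν) :=
  (hν.contDiff_Lp continuous_const (PolyG.const 1)).inv fun θ => (hν.Lp_pos θ).ne'

theorem Nice.zf_zero (hν : Nice ν) : zf ν 0 = 1 := by
  have := hν.prob
  simp [zf, Lp]

theorem Nice.zf_mul (hν : Nice ν) (θ : E d) : zf ν θ * Lp ν (fun _ => 1) θ = 1 :=
  inv_mul_cancel₀ (hν.Lp_pos θ).ne'

theorem Nice.ex1 (hν : Nice ν) {h w : E d → ℝ} (hc : Continuous h) (hp : PolyG h)
    (hw : ContDiff ℝ ∞ w) (M : Multiset (E d)) :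
    pd M (fun θ => w θ * Lp ν h θ) 0 = ∫ x, h x * Qw w M x ∂ν :=
  (flat_ex (flat_cont_phi (ContinuousLinearMap.id ℝ (E d))).aestronglyMeasurable M hw
    (hν.expGood _ hc hp) 0).2

theorem Nice.mean_P (hν : Nice ν) {M : Multiset (E d)} (hM : M ≠ 0) :
    ∫ x, Qw (zf ν) M x ∂ν = 0 := by
  have h := hν.ex1 continuous_const (PolyG.const 1) hν.contDiff_zf M
  simp only [hν.zf_mul, one_mul] at h
  rw [← h, pd_const 1 hM]

theorem gram_P (n : ℕ) : ∃ A : ℝ, 0 ≤ A ∧ ∀ (d : ℕ) (ν : Measure (E d)), Nice ν →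
    ∀ (ι : Type) [Fintype ι] [DecidableEq ι], Fintype.card ι ≤ n →
      Gram ν (fun I : ι → Fin d => Qw (zf ν) (dirs I)) A := by
  induction n with
  | zero =>
    refine ⟨1, zero_le_one, fun d ν hν ι _ _ hι u => ?_⟩
    have := hν.prob
    have : IsEmpty ι := Fintype.card_eq_zero_iff.1 (Nat.le_zero.1 hι)
    have e : ∀ I : ι → Fin d, dirs I = 0 := fun I => by simp [dirs]
    simp only [e, Qw_zero hν.contDiff_zf, hν.zf_zero, Fintype.sum_unique]
    simp
  | succ n ih =>
    obtain ⟨A, hA, ih⟩ := ih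
    refine ⟨A + 2 * ((n + 1 : ℕ) : ℝ) ^ 2 * A, by positivity, fun d ν hν ι _ _ hι => ?_⟩
    rcases Nat.lt_or_eq_of_le hι with h | h
    · exact (ih d ν hν ι (by omega)).mono (le_add_of_nonneg_right (by positivity))
    have hz := hν.contDiff_zf
    have key := hν.gram_step (fun a : ι => Equiv.funSplitAt a (Fin d))
      (G := fun I : ι → Fin d => Qw (zf ν) (dirs I))
      (H := fun a (I : {b // b ≠ a} → Fin d) => Qw (zf ν) (dirs I)) (e := fun _ _ _ => 0)
      (fun _ => contDiff_Qw _ hz) (fun _ => polyG_Qw _ hz)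
      (fun _ _ => (contDiff_Qw _ hz).continuous) (fun _ _ => polyG_Qw _ hz)
      (fun _ _ => continuous_const) (fun _ _ => PolyG.const 0)
      (fun I c x => by rw [zero_add]; exact fderiv_Qw_dirs I hz x c)
      (fun I => hν.mean_P (by
        intro h0
        have := flat_card_dirs I
        rw [h0, h] at this
        simp at this)) (c₀ := 0) (A := A) (fun u => by simp)
      (fun a => ih d ν hν _ (by
        have := Fintype.card_subtype_lt (p := fun b => b ≠ a) (x := a) (by simp)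
        omega))
    refine key.mono ?_
    rw [h]; linarith

/-- a one-Lipschitz vector function and its tilted means -/
structure Dat (ν : Measure (E d)) (f m : Fin d → E d → ℝ) : Prop where
  f1 : ∀ i, ContDiff ℝ 1 (f i)
  f2 : ∀ i, PolyG (f i)
  jac : ∀ (x : E d) (w : Fin d → ℝ),
    ∑ c, (∑ i, w i * fderiv ℝ (f i) x (ev c)) ^ 2 ≤ ∑ i, w i ^ 2
  m1 : ∀ i, ContDiff ℝ ∞ (m i)
  m2 : ∀ i θ, m i θ * Lp ν (fun _ => 1) θ = Lp ν (f i) θ

/-- centred products -/
def Yw (ν : Measure (E d)) (f m : E d → ℝ) (M : Multiset (E d)) (x : E d) : ℝ :=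
  f x * Qw (zf ν) M x - Qw (fun θ => m θ * zf ν θ) M x

variable {f m : Fin d → E d → ℝ}

theorem Dat.polyG_der (h : Dat ν f m) (i c : Fin d) : PolyG fun x => fderiv ℝ (f i) x (ev c) := by
  refine PolyG.of_le (PolyG.const 1) fun x => ?_
  have h1 := h.jac x (Pi.single i 1)
  simp only [Pi.single_apply, ite_mul, one_mul, zero_mul, Finset.sum_ite_eq', Finset.mem_univ,
    if_true, ite_pow, one_pow, ne_eq, OfNat.ofNat_ne_zero, not_false_eq_true, zero_pow] at h1
  have h2 := (Finset.single_le_sum (f := fun c => fderiv ℝ (f i) x (ev c) ^ 2)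
    (fun _ _ => sq_nonneg _) (Finset.mem_univ c)).trans h1
  rw [abs_one]
  exact abs_le_one_iff_mul_self_le_one.2 (by rw [← sq]; exact h2)

theorem Dat.contDiff_Y (h : Dat ν f m) (hν : Nice ν) (i : Fin d) (M : Multiset (E d)) :
    ContDiff ℝ 1 (Yw ν (f i) (m i) M) :=
  ((h.f1 i).mul (contDiff_Qw M hν.contDiff_zf)).sub
    (contDiff_Qw M ((h.m1 i).mul hν.contDiff_zf))

theorem Dat.polyG_Y (h : Dat ν f m) (hν : Nice ν) (i : Fin d) (M : Multiset (E d)) :
    PolyG (Yw ν (f i) (m i) M) := by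
  have := ((h.f2 i).mul (polyG_Qw M hν.contDiff_zf)).add
    ((PolyG.const (-1)).mul (polyG_Qw M ((h.m1 i).mul hν.contDiff_zf)))
  refine this.of_le fun x => le_of_eq ?_
  unfold Yw
  congr 1; ring

theorem Dat.mean_Y (h : Dat ν f m) (hν : Nice ν) (i : Fin d) (M : Multiset (E d)) :
    ∫ x, Yw ν (f i) (m i) M x ∂ν = 0 := by
  have hz := hν.contDiff_zf
  have h1 := hν.ex1 (h.f1 i).continuous (h.f2 i) hz M
  have h2 := hν.ex1 continuous_const (PolyG.const 1) ((h.m1 i).mul hz) M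
  simp only [one_mul] at h2
  have e : (fun θ => zf ν θ * Lp ν (f i) θ) = fun θ => m i θ * zf ν θ * Lp ν (fun _ => 1) θ := by
    funext θ; rw [← h.m2]; ring
  unfold Yw
  rw [integral_sub (hν.integrable ((h.f1 i).continuous.fun_mul (contDiff_Qw M hz).continuous)
    ((h.f2 i).mul (polyG_Qw M hz))) (hν.integrable (contDiff_Qw M ((h.m1 i).mul hz)).continuous
      (polyG_Qw M ((h.m1 i).mul hz))), ← h1, ← h2, e, sub_self]

theorem Dat.fderiv_Y (h : Dat ν f m) (hν : Nice ν) {ι : Type} [Fintype ι] [DecidableEq ι]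
    (i : Fin d) (I : ι → Fin d) (x : E d) (c : Fin d) :
    fderiv ℝ (Yw ν (f i) (m i) (dirs I)) x (ev c) =
      fderiv ℝ (f i) x (ev c) * Qw (zf ν) (dirs I) x +
        ∑ a, if I a = c then Yw ν (f i) (m i) (dirs fun b : {b // b ≠ a} => I b) x else 0 := by
  have hz := hν.contDiff_zf
  have d1 := ((h.f1 i).differentiable (by simp) x).hasFDerivAt
  have d2 := ((contDiff_Qw (dirs I) hz).differentiable (by simp) x).hasFDerivAt
  have d3 := ((contDiff_Qw (dirs I) ((h.m1 i).mul hz)).differentiable (by simp) x).hasFDerivAt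
  have d4 : HasFDerivAt (Yw ν (f i) (m i) (dirs I)) _ x := (d1.fun_mul d2).fun_sub d3
  rw [d4.fderiv]
  simp only [sub_apply, add_apply, smul_apply, smul_eq_mul]
  rw [fderiv_Qw_dirs I hz, fderiv_Qw_dirs I ((h.m1 i).mul hz), Finset.mul_sum, add_comm,
    add_sub_assoc, ← Finset.sum_sub_distrib, mul_comm]
  congr 1
  refine Finset.sum_congr rfl fun a _ => ?_
  split_ifs
  · rfl
  · simp

/-- moving the split coordinate to the front -/
def flatSplit {ι : Type} [DecidableEq ι] (a : ι) (α β : Type) :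
    α × (ι → β) ≃ β × (α × ({b // b ≠ a} → β)) :=
  ((Equiv.refl α).prodCongr (Equiv.funSplitAt a β)).trans
    ⟨fun p => (p.2.1, p.1, p.2.2), fun p => (p.2.1, p.1, p.2.2), fun _ => rfl, fun _ => rfl⟩

theorem Dat.gram_Y_step (h : Dat ν f m) (hν : Nice ν) {ι : Type} [Fintype ι] [DecidableEq ι]
    {A₀ A : ℝ} (hP : Gram ν (fun I : ι → Fin d => Qw (zf ν) (dirs I)) A₀)
    (hA : ∀ a : ι, Gram ν (fun p : Fin d × ({b // b ≠ a} → Fin d) =>
      Yw ν (f p.1) (m p.1) (dirs p.2)) A) :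
    Gram ν (fun p : Fin d × (ι → Fin d) => Yw ν (f p.1) (m p.1) (dirs p.2))
      (2 * A₀ + 2 * (Fintype.card ι : ℝ) ^ 2 * A) := by
  have hz := hν.contDiff_zf
  have he : ∀ (p : Fin d × (ι → Fin d)) (c : Fin d),
      Continuous fun x => fderiv ℝ (f p.1) x (ev c) * Qw (zf ν) (dirs p.2) x := fun p c =>
    (((h.f1 p.1).continuous_fderiv (by simp)).clm_apply continuous_const).mul
      (contDiff_Qw _ hz).continuous
  have he' : ∀ (p : Fin d × (ι → Fin d)) (c : Fin d),
      PolyG fun x => fderiv ℝ (f p.1) x (ev c) * Qw (zf ν) (dirs p.2) x := fun p c =>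
    (h.polyG_der p.1 c).mul (polyG_Qw _ hz)
  refine hν.gram_step (fun a : ι => flatSplit a (Fin d) (Fin d))
    (H := fun a (p : Fin d × ({b // b ≠ a} → Fin d)) => Yw ν (f p.1) (m p.1) (dirs p.2))
    (e := fun p c x => fderiv ℝ (f p.1) x (ev c) * Qw (zf ν) (dirs p.2) x)
    (fun _ => h.contDiff_Y hν _ _) (fun _ => h.polyG_Y hν _ _)
    (fun _ _ => (h.contDiff_Y hν _ _).continuous) (fun _ _ => h.polyG_Y hν _ _) he he'
    (fun p c x => h.fderiv_Y hν p.1 p.2 x c) (fun p => h.mean_Y hν _ _) ?_ hA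
  intro u
  have hW := fun i => flat_comb (g := fun I : ι → Fin d => Qw (zf ν) (dirs I))
    (fun _ => (contDiff_Qw _ hz).continuous) (fun _ => polyG_Qw _ hz) fun I => u (i, I)
  have iW := fun i => hν.integrable ((hW i).1.fun_pow 2) (flat_polyG_sq (hW i).2)
  have hE := fun c => flat_comb (fun p => he p c) (fun p => he' p c) u
  have iE := fun c => hν.integrable ((hE c).1.fun_pow 2) (flat_polyG_sq (hE c).2)
  rw [← integral_finsetSum _ fun c _ => iE c]
  refine (integral_mono (integrable_finsetSum _ fun c _ => iE c)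
    (integrable_finsetSum Finset.univ fun i _ => iW i) fun x => ?_).trans ?_
  · refine le_trans (le_of_eq ?_) (h.jac x fun i => ∑ I, u (i, I) * Qw (zf ν) (dirs I) x)
    refine Finset.sum_congr rfl fun c _ => ?_
    rw [Fintype.sum_prod_type]
    congr 1
    refine Finset.sum_congr rfl fun i _ => ?_
    rw [Finset.sum_mul]
    exact Finset.sum_congr rfl fun I _ => by ring
  · rw [integral_finsetSum _ fun i _ => iW i, Fintype.sum_prod_type, Finset.mul_sum]
    exact Finset.sum_le_sum fun i _ => hP _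

theorem gram_Y (n : ℕ) : ∃ A : ℝ, 0 ≤ A ∧ ∀ (d : ℕ) (ν : Measure (E d)) (f m : Fin d → E d → ℝ),
    Nice ν → Dat ν f m → ∀ (ι : Type) [Fintype ι] [DecidableEq ι], Fintype.card ι < n →
      Gram ν (fun p : Fin d × (ι → Fin d) => Yw ν (f p.1) (m p.1) (dirs p.2)) A := by
  induction n with
  | zero => exact ⟨0, le_rfl, fun _ _ _ _ _ _ _ _ _ hι => absurd hι (Nat.not_lt_zero _)⟩
  | succ n ih =>
    obtain ⟨A, hA, ih⟩ := ih
    obtain ⟨A₀, hA₀, hP⟩ := gram_P n
    refine ⟨2 * A₀ + 2 * (n : ℝ) ^ 2 * A, by positivity, fun d ν f m hν h ι _ _ hι => ?_⟩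
    refine (h.gram_Y_step hν (hP d ν hν ι (by omega)) fun a => ih d ν f m hν h _ ?_).mono ?_
    · have := Fintype.card_subtype_lt (p := fun b => b ≠ a) (x := a) (by simp)
      omega
    · have : (Fintype.card ι : ℝ) ≤ n := by exact_mod_cast Nat.le_of_lt_succ hι
      gcongr

end

end Vale.Agent.P347
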