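import Mathlib

/-! Calculus tools for the transport theorem. -/

namespace Vale.Agent.P347

open Set Metric
open scoped NNReal

section
variable {V W : Type*} [NormedAddCommGroup V] [NormedSpace ℝ V] [FiniteDimensional ℝ V]
  [NormedAddCommGroup W] [NormedSpace ℝ W]

theorem flow_lip {f : V → W} (hf : ContDiff ℝ 1 f) (R : ℝ) :
    ∃ L : ℝ, 0 ≤ L ∧ ∀ x y, ‖x‖ ≤ R → ‖y‖ ≤ R → ‖f x - f y‖ ≤ L * ‖x - y‖ := by
  have : ProperSpace V := FiniteDimensional.proper_real V
  obtain ⟨K, hK⟩ := (hf.contDiffOn (s := closedBall 0 R)).exists_lipschitzOnWith one_ne_zero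
    (convex_closedBall 0 R) (isCompact_closedBall 0 R)
  refine ⟨K, K.2, fun x y hx hy => ?_⟩
  have := hK.dist_le_mul x (mem_closedBall_zero_iff.2 hx) y (mem_closedBall_zero_iff.2 hy)
  rwa [dist_eq_norm, dist_eq_norm] at this

omit [NormedSpace ℝ W] in
theorem flow_bdd {f : V → W} (hf : Continuous f) (R : ℝ) :
    ∃ M : ℝ, 0 ≤ M ∧ ∀ x, ‖x‖ ≤ R → ‖f x‖ ≤ M := by
  have : ProperSpace V := FiniteDimensional.proper_real V
  obtain ⟨M, hM⟩ := (isCompact_closedBall (0 : V) R).exists_bound_of_continuousOn hf.continuousOn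
  exact ⟨max M 0, le_max_right _ _,
    fun x hx => (hM x (mem_closedBall_zero_iff.2 hx)).trans (le_max_left _ _)⟩

theorem flow_taylor {f : V → W} (hf : ContDiff ℝ 2 f) (R : ℝ) :
    ∃ M : ℝ, 0 ≤ M ∧ ∀ p h, ‖p‖ ≤ R → ‖h‖ ≤ 1 →
      ‖f (p + h) - f p - fderiv ℝ f p h‖ ≤ M * ‖h‖ ^ 2 := by
  obtain ⟨L, hL, h1⟩ := flow_lip (hf.fderiv_right (m := 1) (by norm_num)) (R + 1)
  refine ⟨L, hL, fun p h hp hh => ?_⟩
  have key := Convex.norm_image_sub_le_of_norm_fderiv_le' (𝕜 := ℝ) (f := f)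
    (s := closedBall p ‖h‖) (C := L * ‖h‖) (φ := fderiv ℝ f p) (x := p) (y := p + h)
    (fun x _ => hf.differentiable (by norm_num) x) (fun x hx => by
      have a1 : ‖x - p‖ ≤ ‖h‖ := mem_closedBall_iff_norm.1 hx
      have a2 : ‖x‖ ≤ R + 1 := by
        have := norm_add_le p (x - p)
        rw [add_sub_cancel] at this
        linarith
      exact (h1 x p a2 (by linarith)).trans (mul_le_mul_of_nonneg_left a1 hL))
    (convex_closedBall _ _) (mem_closedBall_self (norm_nonneg _))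
    (by rw [mem_closedBall_iff_norm, add_sub_cancel_left])
  rw [add_sub_cancel_left] at key
  rwa [sq, ← mul_assoc]

theorem flow_contDiff_det : ContDiff ℝ 2 fun A : V →L[ℝ] V => A.det := by
  let b := Module.finBasis ℝ V
  have e : (fun A : V →L[ℝ] V => A.det) = fun A => ∑ σ : Equiv.Perm (Fin (Module.finrank ℝ V)),
      ((Equiv.Perm.sign σ : ℤ) : ℝ) * ∏ i, b.repr (A (b i)) (σ i) := by
    funext A
    rw [ContinuousLinearMap.det, ← LinearMap.det_toMatrix b, Matrix.det_apply']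
    simp only [LinearMap.toMatrix_apply, ContinuousLinearMap.coe_coe]
  rw [e]
  refine ContDiff.sum fun σ _ => contDiff_const.mul (contDiff_prod fun i _ => ?_)
  exact (LinearMap.toContinuousLinearMap (b.coord (σ i))).contDiff.comp
    (contDiff_id.clm_apply contDiff_const)

theorem flow_fderiv_det (B : V →L[ℝ] V) :
    fderiv ℝ (fun A : V →L[ℝ] V => A.det) 1 B = LinearMap.trace ℝ V B.toLinearMap := by
  let b := Module.finBasis ℝ V
  have h1 : HasDerivAt (fun e : ℝ => (1 : V →L[ℝ] V) + e • B) B 0 := by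
    simpa using ((hasDerivAt_id (0 : ℝ)).smul_const B).const_add (1 : V →L[ℝ] V)
  have h2 : HasFDerivAt (fun A : V →L[ℝ] V => A.det) (fderiv ℝ (fun A : V →L[ℝ] V => A.det) 1)
      ((1 : V →L[ℝ] V) + (0 : ℝ) • B) := by
    rw [zero_smul, add_zero]
    exact (flow_contDiff_det.differentiable (by norm_num) _).hasFDerivAt
  have h3 := h2.comp_hasDerivAt 0 h1
  set M := LinearMap.toMatrix b b B.toLinearMap with hM
  set P := (Matrix.det (1 + (Polynomial.X : Polynomial ℝ) • M.map Polynomial.C)).divX.divX with hP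
  have e : ((fun A : V →L[ℝ] V => A.det) ∘ fun e : ℝ => (1 : V →L[ℝ] V) + e • B) =
      fun e => 1 + M.trace * e + P.eval e * e ^ 2 := by
    funext e
    rw [Function.comp_apply, ContinuousLinearMap.det, ← LinearMap.det_toMatrix b, hP,
      ← Matrix.det_one_add_smul, hM]
    congr 1
    rw [← LinearMap.toMatrix_one b, ← map_smul, ← map_add]
    rfl
  rw [e] at h3
  have h4 := (((hasDerivAt_id (0 : ℝ)).const_mul M.trace).const_add 1).fun_add
    ((P.hasDerivAt 0).fun_mul (hasDerivAt_pow 2 (0 : ℝ)))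
  have h5 := h3.unique h4
  rw [h5, LinearMap.trace_eq_matrix_trace ℝ b]
  simp [hM]

theorem flow_det : ∃ M : ℝ, 0 ≤ M ∧ ∀ B : V →L[ℝ] V, ‖B‖ ≤ 1 →
    |(1 + B).det - 1 - LinearMap.trace ℝ V B.toLinearMap| ≤ M * ‖B‖ ^ 2 := by
  obtain ⟨M, hM, h⟩ := flow_taylor (flow_contDiff_det (V := V)) ‖(1 : V →L[ℝ] V)‖
  refine ⟨M, hM, fun B hB => ?_⟩
  have := h 1 B le_rfl hB
  rw [flow_fderiv_det, Real.norm_eq_abs] at this
  have e : (1 : V →L[ℝ] V).det = 1 := LinearMap.det_id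
  rwa [e] at this

end

section
variable {W : Type*} [NormedAddCommGroup W] [NormedSpace ℝ W]

theorem flow_gron_right {w w' : ℝ → W} {a b L : ℝ} (hL : 0 ≤ L)
    (hw : ∀ t ∈ Icc a b, HasDerivWithinAt w (w' t) (Icc a b) t)
    (hb : ∀ t ∈ Icc a b, ‖w' t‖ ≤ L * ‖w t‖) {r t : ℝ} (hr : r ∈ Icc a b) (ht : t ∈ Icc a b)
    (hrt : r ≤ t) : ‖w t‖ ≤ ‖w r‖ * Real.exp (L * (b - a)) := by
  have hsub : Icc r b ⊆ Icc a b := Icc_subset_Icc_left hr.1
  have key := norm_le_gronwallBound_of_norm_deriv_right_le (f := w) (f' := w') (δ := ‖w r‖)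
    (K := L) (ε := 0) (a := r) (b := b)
    (fun x hx => ((hw x (hsub hx)).continuousWithinAt).mono hsub)
    (fun x hx => (hw x (hsub (Ico_subset_Icc_self hx))).mono_of_mem_nhdsWithin
      (Icc_mem_nhdsGE_of_mem ⟨hr.1.trans hx.1, hx.2⟩)) le_rfl
    (fun x hx => by rw [add_zero]; exact hb x (hsub (Ico_subset_Icc_self hx))) t ⟨hrt, ht.2⟩
  rw [gronwallBound_ε0] at key
  refine key.trans (mul_le_mul_of_nonneg_left (Real.exp_le_exp.2 ?_) (norm_nonneg _))
  exact mul_le_mul_of_nonneg_left (by linarith [ht.2, hr.1]) hL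

theorem flow_gron {w w' : ℝ → W} {a b L : ℝ} (hL : 0 ≤ L)
    (hw : ∀ t ∈ Icc a b, HasDerivWithinAt w (w' t) (Icc a b) t)
    (hb : ∀ t ∈ Icc a b, ‖w' t‖ ≤ L * ‖w t‖) {r t : ℝ} (hr : r ∈ Icc a b) (ht : t ∈ Icc a b) :
    ‖w t‖ ≤ ‖w r‖ * Real.exp (L * (b - a)) := by
  rcases le_total r t with h | h
  · exact flow_gron_right hL hw hb hr ht h
  · have hm : ∀ s ∈ Icc a b, a + b - s ∈ Icc a b := fun s hs =>
      ⟨by linarith [hs.2], by linarith [hs.1]⟩
    have key := flow_gron_right (w := fun s => w (a + b - s))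
      (w' := fun s => (-1 : ℝ) • w' (a + b - s)) hL (fun s hs => by
        have h1 : HasDerivWithinAt (fun s => a + b - s) (-1) (Icc a b) s := by
          simpa using ((hasDerivAt_id s).const_sub (a + b)).hasDerivWithinAt
        exact (hw _ (hm s hs)).scomp s h1 hm)
      (fun s hs => by rw [neg_one_smul, norm_neg]; exact hb _ (hm s hs)) (hm r hr) (hm t ht)
      (by linarith)
    simpa using key

end

/-- a function with quadratically small increments is constant -/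
theorem flow_const {F : ℝ → ℝ} {a b M δ : ℝ} (hδ : 0 < δ)
    (h : ∀ r ∈ Icc a b, ∀ r' ∈ Icc a b, |r' - r| ≤ δ → |F r' - F r| ≤ M * (r' - r) ^ 2)
    {r t : ℝ} (hr : r ∈ Icc a b) (ht : t ∈ Icc a b) : F t = F r := by
  have hd : ∀ x ∈ Icc a b, HasDerivWithinAt F 0 (Icc a b) x := by
    intro x hx
    rw [hasDerivWithinAt_iff_isLittleO]
    simp only [smul_zero, sub_zero]
    refine Asymptotics.IsBigO.trans_isLittleO (g := fun y => ‖y - x‖ ^ 2) ?_
      ((Asymptotics.isLittleO_pow_sub_sub x one_lt_two).mono nhdsWithin_le_nhds)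
    refine Asymptotics.IsBigO.of_bound M ?_
    filter_upwards [self_mem_nhdsWithin,
      mem_nhdsWithin_of_mem_nhds (closedBall_mem_nhds x hδ)] with y hy hy'
    rw [Real.norm_eq_abs, Real.norm_eq_abs, Real.norm_eq_abs, sq_abs, abs_sq]
    exact h x hx y hy (mem_closedBall_iff_norm.1 hy')
  have := Convex.norm_image_sub_le_of_norm_hasDerivWithin_le (C := 0) hd
    (fun _ _ => by simp) (convex_Icc a b) hr ht
  rw [zero_mul, norm_le_zero_iff, sub_eq_zero] at this
  exact this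

end Vale.Agent.P347
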