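import Vale.Agent.P347.FlowAuxA

/-! Existence and elementary properties of the flow of a field of linear growth. -/

namespace Vale.Agent.P347

open Set Metric
open scoped NNReal

variable {S : Type*} [NormedAddCommGroup S] [NormedSpace ℝ S] [FiniteDimensional ℝ S]
  {X : ℝ × S → S} {T : ℝ}

/-- a family of solutions on the time interval, with all starting times -/
structure IsFl (X : ℝ × S → S) (T : ℝ) (fl : ℝ → S → ℝ → S) : Prop where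
  init : ∀ r ∈ Icc 0 T, ∀ z, fl r z r = z
  ode : ∀ r ∈ Icc 0 T, ∀ z, ∀ t ∈ Icc 0 T, HasDerivWithinAt (fl r z) (X (t, fl r z t)) (Icc 0 T) t
  bound : ∀ R : ℝ, ∃ R' : ℝ, R ≤ R' ∧ ∀ r ∈ Icc 0 T, ∀ t ∈ Icc 0 T, ∀ z, ‖z‖ ≤ R → ‖fl r z t‖ ≤ R'

omit [NormedSpace ℝ S] [FiniteDimensional ℝ S] in
theorem flow_norm_pair {t R : ℝ} (ht : t ∈ Icc 0 T) {z : S} (hz : ‖z‖ ≤ R) :
    ‖((t, z) : ℝ × S)‖ ≤ max T R := by
  rw [Prod.norm_def]
  exact max_le_max (by rw [Real.norm_eq_abs, abs_of_nonneg ht.1]; exact ht.2) hz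

theorem flow_lipX (hX : ContDiff ℝ 1 X) (T R : ℝ) : ∃ L : ℝ, 0 ≤ L ∧ ∀ t ∈ Icc 0 T, ∀ x y : S,
    ‖x‖ ≤ R → ‖y‖ ≤ R → ‖X (t, x) - X (t, y)‖ ≤ L * ‖x - y‖ := by
  obtain ⟨L, hL, h⟩ := flow_lip hX (max T R)
  refine ⟨L, hL, fun t ht x y hx hy => ?_⟩
  have := h (t, x) (t, y) (flow_norm_pair ht hx) (flow_norm_pair ht hy)
  simpa [Prod.norm_def] using this

theorem flow_abs_sub {r t : ℝ} (hr : r ∈ Icc 0 T) (ht : t ∈ Icc 0 T) : |t - r| ≤ T := by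
  rw [abs_le]; constructor <;> linarith [hr.1, hr.2, ht.1, ht.2]

theorem flow_exists_sol (hX : ContDiff ℝ 1 X) {C₀ C₁ : ℝ} (hT : 0 < T) (hC₁ : 0 ≤ C₁)
    (hCT : C₁ * T < 1) (hgrow : ∀ t ∈ Icc 0 T, ∀ z, ‖X (t, z)‖ ≤ C₀ + C₁ * ‖z‖) {r : ℝ}
    (hr : r ∈ Icc 0 T) (z : S) : ∃ α : ℝ → S, α r = z ∧
      ∀ t ∈ Icc 0 T, HasDerivWithinAt α (X (t, α t)) (Icc 0 T) t := by
  have : CompleteSpace S := FiniteDimensional.complete ℝ S
  have hC₀ : 0 ≤ C₀ := by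
    have := hgrow 0 ⟨le_rfl, hT.le⟩ 0
    rw [norm_zero, mul_zero, add_zero] at this
    exact (norm_nonneg _).trans this
  have h1 : 0 < 1 - C₁ * T := by linarith
  set a : ℝ := T * (C₀ + C₁ * ‖z‖) / (1 - C₁ * T) with ha
  have ha0 : 0 ≤ a := by positivity
  have ha1 : a * (1 - C₁ * T) = T * (C₀ + C₁ * ‖z‖) := div_mul_cancel₀ _ h1.ne'
  obtain ⟨K, hK, hlip⟩ := flow_lipX hX T (‖z‖ + a)
  have hball : ∀ x ∈ closedBall z a, ‖x‖ ≤ ‖z‖ + a := fun x hx => by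
    have a1 : ‖x - z‖ ≤ a := mem_closedBall_iff_norm.1 hx
    have := norm_add_le z (x - z)
    rw [add_sub_cancel] at this
    linarith
  have hPL : IsPicardLindelof (fun t x => X (t, x)) (⟨r, hr⟩ : Icc 0 T) z ⟨a, ha0⟩ 0
      ⟨C₀ + C₁ * (‖z‖ + a), by positivity⟩ ⟨K, hK⟩ := by
    refine ⟨fun t ht => ?_, fun x _ => ?_, fun t ht x hx => ?_, ?_⟩
    · apply LipschitzOnWith.of_dist_le_mul
      intro x hx y hy
      rw [dist_eq_norm, dist_eq_norm]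
      exact hlip t ht x y (hball x hx) (hball y hy)
    · exact (hX.continuous.comp (continuous_id.prodMk continuous_const)).continuousOn
    · exact (hgrow t ht x).trans (add_le_add le_rfl (mul_le_mul_of_nonneg_left (hball x hx) hC₁))
    · have h2 : max (T - r) (r - 0) ≤ T := max_le (by linarith [hr.1]) (by linarith [hr.2])
      have h3 := mul_le_mul_of_nonneg_left h2 (by positivity : 0 ≤ C₀ + C₁ * (‖z‖ + a))
      show (C₀ + C₁ * (‖z‖ + a)) * max (T - r) (r - 0) ≤ a - ((0 : ℝ≥0) : ℝ)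
      rw [NNReal.coe_zero]
      linarith
  exact hPL.exists_eq_forall_mem_Icc_hasDerivWithinAt₀

omit [FiniteDimensional ℝ S] in
theorem flow_apriori {C₀ C₁ : ℝ} (hC₁ : 0 ≤ C₁) (hCT : C₁ * T < 1)
    (hgrow : ∀ t ∈ Icc 0 T, ∀ z, ‖X (t, z)‖ ≤ C₀ + C₁ * ‖z‖) {α : ℝ → S}
    (hα : ∀ t ∈ Icc 0 T, HasDerivWithinAt α (X (t, α t)) (Icc 0 T) t) {r t : ℝ}
    (hr : r ∈ Icc 0 T) (ht : t ∈ Icc 0 T) :
    ‖α t - α r‖ ≤ T * (C₀ + C₁ * ‖α r‖) / (1 - C₁ * T) := by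
  have hc : ContinuousOn (fun s => ‖α s - α r‖) (Icc 0 T) :=
    (ContinuousOn.sub (fun s hs => (hα s hs).continuousWithinAt) continuousOn_const).norm
  obtain ⟨s, hs, hmax⟩ := isCompact_Icc.exists_isMaxOn ⟨r, hr⟩ hc
  have h1 : ∀ u ∈ Icc 0 T, ‖X (u, α u)‖ ≤ C₀ + C₁ * (‖α r‖ + ‖α s - α r‖) := by
    intro u hu
    have a1 : ‖α u - α r‖ ≤ ‖α s - α r‖ := hmax hu
    have a2 := norm_add_le (α r) (α u - α r)
    rw [add_sub_cancel] at a2
    exact (hgrow u hu _).trans (add_le_add le_rfl (mul_le_mul_of_nonneg_left (by linarith) hC₁))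
  have h2 := Convex.norm_image_sub_le_of_norm_hasDerivWithin_le hα h1 (convex_Icc 0 T) hr hs
  have h3 := mul_le_mul_of_nonneg_left (flow_abs_sub hr hs) ((norm_nonneg _).trans (h1 r hr))
  rw [Real.norm_eq_abs] at h2
  refine le_trans (hmax ht) ?_
  rw [le_div_iff₀ (by linarith)]
  linarith

theorem flow_exists_fl (hX : ContDiff ℝ 1 X) {C₀ C₁ : ℝ} (hT : 0 < T) (hC₁ : 0 ≤ C₁)
    (hCT : C₁ * T < 1) (hgrow : ∀ t ∈ Icc 0 T, ∀ z, ‖X (t, z)‖ ≤ C₀ + C₁ * ‖z‖) :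
    ∃ fl : ℝ → S → ℝ → S, IsFl X T fl := by
  have h : ∀ (r : ℝ) (z : S), ∃ α : ℝ → S, r ∈ Icc 0 T → α r = z ∧
      ∀ t ∈ Icc 0 T, HasDerivWithinAt α (X (t, α t)) (Icc 0 T) t := by
    intro r z
    by_cases hr : r ∈ Icc 0 T
    · obtain ⟨α, h⟩ := flow_exists_sol hX hT hC₁ hCT hgrow hr z
      exact ⟨α, fun _ => h⟩
    · exact ⟨fun _ => z, fun h => absurd h hr⟩
  choose fl hfl using h
  have hC₀ : 0 ≤ C₀ := by
    have := hgrow 0 ⟨le_rfl, hT.le⟩ 0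
    rw [norm_zero, mul_zero, add_zero] at this
    exact (norm_nonneg _).trans this
  have h1 : 0 < 1 - C₁ * T := by linarith
  refine ⟨fl, fun r hr z => (hfl r z hr).1, fun r hr z => (hfl r z hr).2, fun R =>
    ⟨R + T * (C₀ + C₁ * |R|) / (1 - C₁ * T), le_add_of_nonneg_right (by positivity),
      fun r hr t ht z hz => ?_⟩⟩
  have a1 := flow_apriori hC₁ hCT hgrow (hfl r z hr).2 hr ht
  rw [(hfl r z hr).1] at a1
  have a2 := norm_add_le z (fl r z t - z)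
  rw [add_sub_cancel] at a2
  have a3 : T * (C₀ + C₁ * ‖z‖) / (1 - C₁ * T) ≤ T * (C₀ + C₁ * |R|) / (1 - C₁ * T) := by
    have := hz.trans (le_abs_self R)
    gcongr
  linarith

theorem flow_sol_close (hX : ContDiff ℝ 1 X) (T R : ℝ) : ∃ K : ℝ, 0 ≤ K ∧ ∀ α β : ℝ → S,
    (∀ t ∈ Icc 0 T, HasDerivWithinAt α (X (t, α t)) (Icc 0 T) t) →
    (∀ t ∈ Icc 0 T, HasDerivWithinAt β (X (t, β t)) (Icc 0 T) t) →
    (∀ t ∈ Icc 0 T, ‖α t‖ ≤ R) → (∀ t ∈ Icc 0 T, ‖β t‖ ≤ R) →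
    ∀ r ∈ Icc 0 T, ∀ t ∈ Icc 0 T, ‖α t - β t‖ ≤ K * ‖α r - β r‖ := by
  obtain ⟨L, hL, h⟩ := flow_lipX hX T R
  refine ⟨Real.exp (L * (T - 0)), (Real.exp_pos _).le, fun α β hα hβ h1 h2 r hr t ht => ?_⟩
  rw [mul_comm]
  exact flow_gron (w := fun t => α t - β t) hL (fun t ht => (hα t ht).sub (hβ t ht))
    (fun t ht => h t ht _ _ (h1 t ht) (h2 t ht)) hr ht

variable {fl : ℝ → S → ℝ → S}

theorem IsFl.lip (h : IsFl X T fl) (hX : ContDiff ℝ 1 X) (R : ℝ) : ∃ K : ℝ, 0 ≤ K ∧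
    ∀ r ∈ Icc 0 T, ∀ t ∈ Icc 0 T, ∀ z z', ‖z‖ ≤ R → ‖z'‖ ≤ R →
      ‖fl r z t - fl r z' t‖ ≤ K * ‖z - z'‖ := by
  obtain ⟨R', _, hR⟩ := h.bound R
  obtain ⟨K, hK, hc⟩ := flow_sol_close hX T R'
  refine ⟨K, hK, fun r hr t ht z z' hz hz' => ?_⟩
  have := hc _ _ (h.ode r hr z) (h.ode r hr z') (fun t ht => hR r hr t ht z hz)
    (fun t ht => hR r hr t ht z' hz') r hr t ht
  rwa [h.init r hr, h.init r hr] at this

theorem IsFl.cocycle (h : IsFl X T fl) (hX : ContDiff ℝ 1 X) {r s t : ℝ} (hr : r ∈ Icc 0 T)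
    (hs : s ∈ Icc 0 T) (ht : t ∈ Icc 0 T) (z : S) : fl s (fl r z s) t = fl r z t := by
  obtain ⟨R', _, hR⟩ := h.bound ‖z‖
  obtain ⟨R'', h1, hR'⟩ := h.bound R'
  obtain ⟨K, _, hc⟩ := flow_sol_close hX T R''
  have := hc _ _ (h.ode s hs (fl r z s)) (h.ode r hr z)
    (fun t ht => hR' s hs t ht _ (hR r hr s hs z le_rfl))
    (fun t ht => (hR r hr t ht z le_rfl).trans h1) s hs t ht
  rwa [h.init s hs, sub_self, norm_zero, mul_zero, norm_le_zero_iff, sub_eq_zero] at this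

theorem IsFl.continuous (h : IsFl X T fl) (hX : ContDiff ℝ 1 X) {r t : ℝ} (hr : r ∈ Icc 0 T)
    (ht : t ∈ Icc 0 T) : Continuous fun z => fl r z t := by
  rw [continuous_iff_continuousAt]
  intro z
  obtain ⟨K, hK, hl⟩ := h.lip hX (‖z‖ + 1)
  have : LipschitzOnWith ⟨K, hK⟩ (fun z => fl r z t) (closedBall 0 (‖z‖ + 1)) := by
    apply LipschitzOnWith.of_dist_le_mul
    intro x hx y hy
    rw [dist_eq_norm, dist_eq_norm]
    exact hl r hr t ht x y (mem_closedBall_zero_iff.1 hx) (mem_closedBall_zero_iff.1 hy)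
  exact this.continuousOn.continuousAt (closedBall_mem_nhds_of_mem (by simp))

theorem IsFl.euler (h : IsFl X T fl) (hX : ContDiff ℝ 1 X) (R : ℝ) : ∃ M : ℝ, 0 ≤ M ∧
    ∀ r ∈ Icc 0 T, ∀ r' ∈ Icc 0 T, ∀ z, ‖z‖ ≤ R →
      ‖fl r z r' - (z + (r' - r) • X (r, z))‖ ≤ M * (r' - r) ^ 2 := by
  obtain ⟨R', hR1, hR⟩ := h.bound R
  obtain ⟨L, hL, hl⟩ := flow_lip hX (max T R')
  obtain ⟨M, hM, hb⟩ := flow_bdd hX.continuous (max T R')
  refine ⟨L * (1 + M), by positivity, fun r hr r' hr' z hz => ?_⟩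
  have hsub : uIcc r r' ⊆ Icc 0 T := uIcc_subset_Icc hr hr'
  have a1 : ∀ t ∈ Icc 0 T, ‖fl r z t - z‖ ≤ M * ‖t - r‖ := by
    intro t ht
    have := Convex.norm_image_sub_le_of_norm_hasDerivWithin_le (h.ode r hr z)
      (fun u hu => hb _ (flow_norm_pair hu (hR r hr u hu z hz))) (convex_Icc 0 T) hr ht
    rwa [h.init r hr] at this
  have key := Convex.norm_image_sub_le_of_norm_hasDerivWithin_le
    (f := fun t => fl r z t - t • X (r, z)) (f' := fun t => X (t, fl r z t) - X (r, z))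
    (C := L * (1 + M) * |r' - r|) (s := uIcc r r') (x := r) (y := r')
    (fun t ht => ((h.ode r hr z t (hsub ht)).mono hsub).sub (by
      simpa using ((hasDerivAt_id t).smul_const (X (r, z))).hasDerivWithinAt))
    (fun t ht => by
      have b1 := hl (t, fl r z t) (r, z) (flow_norm_pair (hsub ht) (hR r hr t (hsub ht) z hz))
        (flow_norm_pair hr (hz.trans hR1))
      have b2 : |t - r| ≤ |r' - r| := abs_sub_left_of_mem_uIcc ht
      have b3 := a1 t (hsub ht)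
      rw [Real.norm_eq_abs] at b3
      have b4 := mul_le_mul_of_nonneg_left b2 hM
      have b5 := mul_nonneg hM (abs_nonneg (r' - r))
      refine b1.trans ?_
      rw [mul_assoc]
      apply mul_le_mul_of_nonneg_left _ hL
      rw [Prod.mk_sub_mk, Prod.norm_def]
      apply max_le
      · show |t - r| ≤ _
        linarith
      · show ‖fl r z t - z‖ ≤ _
        linarith [abs_nonneg (r' - r)])
    (convex_uIcc r r') left_mem_uIcc right_mem_uIcc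
  rw [h.init r hr, Real.norm_eq_abs, mul_assoc, abs_mul_abs_self, ← sq] at key
  refine le_trans (le_of_eq ?_) key
  congr 1
  rw [sub_smul]
  abel

end Vale.Agent.P347
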