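import Vale.Agent.P347.Gauss
import Vale.Agent.P347.Pot
import Vale.Agent.P347.Laplace

namespace Vale.Agent.P347

open MeasureTheory ProbabilityTheory
open scoped RealInnerProductSpace NNReal ContDiff

variable {d : ℕ} {V : E d → ℝ}

/-- the exponent, linear in the parameter `(θ, b)` -/
noncomputable def heat1Phi (u : E d) : E d × ℝ →L[ℝ] ℝ :=
  (innerSL ℝ u).comp (ContinuousLinearMap.fst ℝ (E d) ℝ) -
    (‖u‖ ^ 2) • ContinuousLinearMap.snd ℝ (E d) ℝ

theorem heat1Phi_apply (u θ : E d) (b : ℝ) : heat1Phi u (θ, b) = ⟪u, θ⟫ - ‖u‖ ^ 2 * b := by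
  simp [heat1Phi]

theorem heat1Phi_cont : Continuous (heat1Phi (d := d)) := by
  unfold heat1Phi
  exact ((innerSL ℝ (E := E d)).continuous.clm_comp continuous_const).sub
    ((continuous_norm.pow 2).smul continuous_const)

theorem heat1Phi_norm (u : E d) : ‖heat1Phi u‖ ≤ ‖u‖ + ‖u‖ ^ 2 := by
  refine ContinuousLinearMap.opNorm_le_bound _ (by positivity) fun p => ?_
  obtain ⟨θ, b⟩ := p
  rw [heat1Phi_apply]
  have h1 : |⟪u, θ⟫| ≤ ‖u‖ * ‖(θ, b)‖ :=
    (abs_real_inner_le_norm u θ).trans (mul_le_mul_of_nonneg_left (norm_fst_le (θ, b))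
      (norm_nonneg _))
  have h2 : |‖u‖ ^ 2 * b| ≤ ‖u‖ ^ 2 * ‖(θ, b)‖ := by
    rw [abs_mul, abs_of_nonneg (by positivity)]
    exact mul_le_mul_of_nonneg_left (norm_snd_le (θ, b)) (by positivity)
  calc ‖⟪u, θ⟫ - ‖u‖ ^ 2 * b‖ ≤ |⟪u, θ⟫| + |‖u‖ ^ 2 * b| := abs_sub _ _
    _ ≤ _ := by linarith

/-- the weight -/
noncomputable def heat1h (V : E d → ℝ) (u : E d) : ℝ := Real.exp (-V u + ‖u‖ ^ 2 / 2)

theorem heat1_good (hV : InClass V) :
    ExpGood (gam d) heat1Phi {η : E d × ℝ | 0 < η.2} (heat1h V) := by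
  have hc : Continuous (heat1h V) := by
    have := hV.1.continuous
    unfold heat1h
    fun_prop
  refine ⟨hc.aestronglyMeasurable, fun η hη => ⟨η.2, hη, ?_⟩⟩
  obtain ⟨θ, b⟩ := η
  have hb : 0 < b := hη
  refine (integrable_exp_norm (‖θ‖ + b)).mono' (Continuous.aestronglyMeasurable ?_)
    (.of_forall fun u => ?_)
  · exact hc.abs.mul (Real.continuous_exp.comp ((heat1Phi_cont.clm_apply continuous_const).add
      (continuous_const.mul heat1Phi_cont.norm)))
  · rw [Real.norm_of_nonneg (by positivity), heat1h, abs_of_pos (Real.exp_pos _), ← Real.exp_add,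
      heat1Phi_apply]
    apply Real.exp_le_exp.2
    have h1 := hV.lower u
    have h2 := real_inner_le_norm u θ
    have h3 := mul_le_mul_of_nonneg_left (heat1Phi_norm u) hb.le
    dsimp only
    nlinarith

/-- the parameter map -/
noncomputable def heat1eta (s : ℝ) (y : E d) : E d × ℝ := ((s ^ 2)⁻¹ • y, (2 * s ^ 2)⁻¹)

/-- Laplace-type integrals -/
noncomputable def heat1I (h : E d → ℝ) (η : E d × ℝ) : ℝ :=
  ∫ u, h u * Real.exp (heat1Phi u η) ∂gam d

theorem heat1_pp (V : E d → ℝ) {s : ℝ} (hs : 0 < s) (y : E d) :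
    pp V s y = (s ^ d)⁻¹ * Real.exp (-(‖y‖ ^ 2 / (2 * s ^ 2))) *
      heat1I (heat1h V) (heat1eta s y) := by
  have hm : Measurable fun x : E d =>
      ((2 * Real.pi) ^ (-(d : ℝ) / 2) * Real.exp (-‖x‖ ^ 2 / 2)).toNNReal := by fun_prop
  have key : ∀ f : E d → ℝ, ∫ z, f z ∂gam d =
      ∫ z, (2 * Real.pi) ^ (-(d : ℝ) / 2) * Real.exp (-‖z‖ ^ 2 / 2) * f z := by
    intro f
    rw [gam_eq_withDensity]
    erw [integral_withDensity_eq_integral_smul hm]
    refine integral_congr_ae (.of_forall fun z => ?_)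
    dsimp only
    rw [NNReal.smul_def, Real.coe_toNNReal _ (by positivity), smul_eq_mul]
  unfold pp heat1I
  rw [key, key]
  set c := (2 * Real.pi) ^ (-(d : ℝ) / 2)
  have h1 := Measure.integral_comp_smul (volume : Measure (E d))
    (fun w => c * Real.exp (-‖s⁻¹ • w‖ ^ 2 / 2) * Real.exp (-V (y + w))) s
  simp only [smul_smul, inv_mul_cancel₀ hs.ne', one_smul, finrank_euclideanSpace,
    Fintype.card_fin] at h1
  rw [h1, abs_of_pos (by positivity), smul_eq_mul, mul_assoc]
  congr 1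
  rw [← integral_const_mul, ← integral_add_left_eq_self (μ := (volume : Measure (E d)))
    (fun w => c * Real.exp (-‖s⁻¹ • w‖ ^ 2 / 2) * Real.exp (-V (y + w))) (-y)]
  refine integral_congr_ae (.of_forall fun u => ?_)
  dsimp only
  rw [heat1eta, heat1Phi_apply, heat1h, add_neg_cancel_left, norm_smul, mul_pow,
    show -y + u = u - y by abel, norm_sub_sq_real, inner_smul_right, Real.norm_eq_abs, sq_abs]
  have e : ∀ a b a' b' c' d' : ℝ, a + b = a' + (b' + (c' + d')) →
      c * Real.exp a * Real.exp b =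
        Real.exp a' * (c * Real.exp b' * (Real.exp c' * Real.exp d')) := by
    intro a b a' b' c' d' h
    rw [mul_assoc, ← Real.exp_add, h]
    simp only [Real.exp_add]
    ring
  apply e
  field_simp
  ring

end Vale.Agent.P347
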