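import Vale.Agent.P347.Gauss
import Vale.Agent.Lib.PrekopaLeindler

namespace Vale.Agent.P347

open MeasureTheory ProbabilityTheory Filter Topology
open scoped RealInnerProductSpace NNReal ContDiff

variable {d : ℕ}

/-- Property (tau) from the Prekopa-Leindler inequality. -/
theorem Poincare_tau {W : E d → ℝ} (hc : Continuous W) (h0 : ∀ x, 0 ≤ W x) {κ : ℝ}
    (hmid : ∀ x y, W ((1 / 2 : ℝ) • (x + y)) ≤ (W x + W y) / 2 - κ * ‖x - y‖ ^ 2 / 8)
    {a f : E d → ℝ} (ha : Measurable a) (hf : Measurable f)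
    (ia : Integrable (fun x => Real.exp (a x)) ((gam d).tilted fun x => -W x))
    (ib : Integrable (fun x => Real.exp (-f x)) ((gam d).tilted fun x => -W x))
    (h : ∀ x y, a x ≤ f y + (1 + κ) * ‖x - y‖ ^ 2 / 4) :
    (∫ x, Real.exp (a x) ∂((gam d).tilted fun x => -W x)) *
      ∫ x, Real.exp (-f x) ∂((gam d).tilted fun x => -W x) ≤ 1 := by
  have iw := Gauss_int_tilt hc h0
  rw [Gauss_tilted_eq, integrable_tilted_iff iw] at ia ib
  rw [Gauss_tilted_eq, integral_tilted, integral_tilted]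
  have hZ : 0 < ∫ x : E d, Real.exp (-‖x‖ ^ 2 / 2 - W x) := integral_exp_pos iw
  have mw : Measurable fun x : E d => Real.exp (-‖x‖ ^ 2 / 2 - W x) := by fun_prop
  simp only [smul_eq_mul] at ia ib ⊢
  have key := Vale.Agent.Lib.PL.prekopa_leindler (volume : Measure (E d)) (a := 1 / 2) (b := 1 / 2)
    (by norm_num) (by norm_num) (by norm_num)
    (f := fun x => ENNReal.ofReal (Real.exp (-‖x‖ ^ 2 / 2 - W x) * Real.exp (a x)))
    (g := fun x => ENNReal.ofReal (Real.exp (-‖x‖ ^ 2 / 2 - W x) * Real.exp (-f x)))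
    (h := fun x => ENNReal.ofReal (Real.exp (-‖x‖ ^ 2 / 2 - W x)))
    (mw.fun_mul ha.exp).ennreal_ofReal (mw.fun_mul hf.neg.exp).ennreal_ofReal mw.ennreal_ofReal
    (fun x y => by
      rw [ENNReal.ofReal_rpow_of_nonneg (by positivity) (by norm_num),
        ENNReal.ofReal_rpow_of_nonneg (by positivity) (by norm_num),
        ← ENNReal.ofReal_mul (by positivity), ← Real.exp_add, ← Real.exp_add, ← Real.exp_mul,
        ← Real.exp_mul, ← Real.exp_add, ← smul_add]
      refine ENNReal.ofReal_le_ofReal (Real.exp_le_exp.2 ?_)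
      have e : ‖(1 / 2 : ℝ) • (x + y)‖ ^ 2 = (‖x‖ ^ 2 + ‖y‖ ^ 2) / 2 - ‖x - y‖ ^ 2 / 4 := by
        rw [norm_smul, mul_pow, norm_add_sq_real, norm_sub_sq_real, Real.norm_eq_abs, sq_abs]
        ring
      rw [e]
      linarith [h x y, hmid x y])
  rw [← ofReal_integral_eq_lintegral_ofReal ia (Eventually.of_forall fun x => by positivity),
    ← ofReal_integral_eq_lintegral_ofReal ib (Eventually.of_forall fun x => by positivity),
    ← ofReal_integral_eq_lintegral_ofReal iw (Eventually.of_forall fun x => by positivity)] at key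
  have p1 : 0 ≤ ∫ x : E d, Real.exp (-‖x‖ ^ 2 / 2 - W x) * Real.exp (a x) :=
    integral_nonneg fun x => by positivity
  have p2 : 0 ≤ ∫ x : E d, Real.exp (-‖x‖ ^ 2 / 2 - W x) * Real.exp (-f x) :=
    integral_nonneg fun x => by positivity
  rw [ENNReal.ofReal_rpow_of_nonneg p1 (by norm_num), ENNReal.ofReal_rpow_of_nonneg p2 (by norm_num),
    ← ENNReal.ofReal_mul (by positivity), ENNReal.ofReal_le_ofReal_iff hZ.le,
    ← Real.mul_rpow p1 p2, ← Real.sqrt_eq_rpow, Real.sqrt_le_left hZ.le] at key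
  simp only [div_mul_eq_mul_div, integral_div]
  rw [← mul_div_assoc, div_div, div_le_one (by positivity), ← sq]
  exact key

theorem Poincare_exp_lower {t : ℝ} (h : |t| ≤ 1) : 1 + t + t ^ 2 / 2 - |t| ^ 3 ≤ Real.exp t := by
  have h1 := Real.exp_bound h (n := 3) (by norm_num)
  simp only [Finset.sum_range_succ, Finset.sum_range_zero, Nat.factorial] at h1
  norm_num at h1
  have h2 := (abs_le.1 h1).1
  have h3 : 0 ≤ |t| ^ 3 := by positivity
  linarith

theorem Poincare_arith {a b C : ℝ} (h : ∀ᶠ ε in 𝓝[>] (0 : ℝ), ∃ P Q : ℝ,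
    1 + a * ε ^ 2 - C * ε ^ 3 ≤ P ∧ 1 + b * ε ^ 2 - C * ε ^ 3 ≤ Q ∧ P * Q ≤ 1) : a + b ≤ 0 := by
  have c1 : Tendsto (fun ε : ℝ => 1 + a * ε ^ 2 - C * ε ^ 3) (𝓝[>] 0) (𝓝 1) := by
    have : Continuous fun ε : ℝ => 1 + a * ε ^ 2 - C * ε ^ 3 := by fun_prop
    simpa using (this.tendsto 0).mono_left (nhdsWithin_le_nhds (s := Set.Ioi 0))
  have c2 : Tendsto (fun ε : ℝ => 1 + b * ε ^ 2 - C * ε ^ 3) (𝓝[>] 0) (𝓝 1) := by
    have : Continuous fun ε : ℝ => 1 + b * ε ^ 2 - C * ε ^ 3 := by fun_prop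
    simpa using (this.tendsto 0).mono_left (nhdsWithin_le_nhds (s := Set.Ioi 0))
  have c3 : Tendsto (fun ε : ℝ => (a - C * ε) + (b - C * ε) + ε ^ 2 * ((a - C * ε) * (b - C * ε)))
      (𝓝[>] 0) (𝓝 (a + b)) := by
    have : Continuous fun ε : ℝ =>
      (a - C * ε) + (b - C * ε) + ε ^ 2 * ((a - C * ε) * (b - C * ε)) := by fun_prop
    simpa using (this.tendsto 0).mono_left (nhdsWithin_le_nhds (s := Set.Ioi 0))
  refine le_of_tendsto c3 ?_
  filter_upwards [h, c1.eventually (lt_mem_nhds zero_lt_one), c2.eventually (lt_mem_nhds zero_lt_one),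
    self_mem_nhdsWithin] with ε ⟨P, Q, h1, h2, h3⟩ p1 p2 hε
  have hε' : 0 < ε := hε
  have h4 := (mul_le_mul h1 h2 p2.le (p1.le.trans h1)).trans h3
  have h5 : ε ^ 2 * ((a - C * ε) + (b - C * ε) + ε ^ 2 * ((a - C * ε) * (b - C * ε))) ≤
      ε ^ 2 * 0 := by linarith
  exact le_of_mul_le_mul_left h5 (by positivity)

theorem Poincare_expand {Ω : Type*} [MeasurableSpace Ω] {μ : Measure Ω} [IsProbabilityMeasure μ]
    {F H : Ω → ℝ} (hF : Measurable F) (hH : Measurable H) {M : ℝ} (bF : ∀ x, |F x| ≤ M)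
    (bH : ∀ x, |H x| ≤ M) (hm : ∫ x, F x ∂μ = 0) {ε : ℝ} (h0 : 0 < ε) (h1 : ε ≤ 1)
    (h2 : 2 * M * ε ≤ 1) :
    Integrable (fun x => Real.exp (ε * F x - ε ^ 2 * H x)) μ ∧
      1 + ((∫ x, F x ^ 2 ∂μ) / 2 - ∫ x, H x ∂μ) * ε ^ 2 - (M ^ 2 + 8 * M ^ 3) * ε ^ 3 ≤
        ∫ x, Real.exp (ε * F x - ε ^ 2 * H x) ∂μ := by
  have ht : ∀ x, |ε * F x - ε ^ 2 * H x| ≤ 2 * M * ε := by
    intro x
    refine (abs_sub _ _).trans ?_
    rw [abs_mul, abs_mul, abs_of_pos h0, abs_of_pos (pow_pos h0 2)]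
    have a1 := mul_le_mul_of_nonneg_left (bF x) h0.le
    have a2 : ε ^ 2 * |H x| ≤ ε * M :=
      mul_le_mul (by nlinarith) (bH x) (abs_nonneg _) h0.le
    linarith
  have i0 : Integrable (fun x => Real.exp (ε * F x - ε ^ 2 * H x)) μ :=
    Integrable.of_bound (by fun_prop) (Real.exp 1) (Eventually.of_forall fun x => by
      rw [Real.norm_eq_abs, abs_of_pos (Real.exp_pos _)]
      exact Real.exp_le_exp.2 ((le_abs_self _).trans ((ht x).trans h2)))
  refine ⟨i0, ?_⟩
  have iF : Integrable F μ := Integrable.of_bound hF.aestronglyMeasurable M (Eventually.of_forall bF)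
  have iH : Integrable H μ := Integrable.of_bound hH.aestronglyMeasurable M (Eventually.of_forall bH)
  have iF2 : Integrable (fun x => F x ^ 2) μ :=
    Integrable.of_bound (by fun_prop) (M ^ 2) (Eventually.of_forall fun x => by
      rw [norm_pow]; exact pow_le_pow_left₀ (norm_nonneg _) (bF x) 2)
  have j1 := (iF.const_mul ε).sub' (iH.const_mul (ε ^ 2))
  have j2 := j1.fun_add (iF2.const_mul (ε ^ 2 / 2))
  have key : ∫ x, (ε * F x - ε ^ 2 * H x + ε ^ 2 / 2 * F x ^ 2 +
      (1 - (M ^ 2 + 8 * M ^ 3) * ε ^ 3)) ∂μ ≤ ∫ x, Real.exp (ε * F x - ε ^ 2 * H x) ∂μ := by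
    refine integral_mono (j2.fun_add (integrable_const _)) i0 fun x => ?_
    refine le_trans ?_ (Poincare_exp_lower ((ht x).trans h2))
    have a1 := pow_le_pow_left₀ (abs_nonneg _) (ht x) 3
    have a2 : F x * H x ≤ M ^ 2 := by
      refine (le_abs_self _).trans ?_
      rw [abs_mul, sq]
      exact mul_le_mul (bF x) (bH x) (abs_nonneg _) ((abs_nonneg _).trans (bF x))
    have a3 := mul_le_mul_of_nonneg_left a2 (pow_pos h0 3).le
    have a4 : 0 ≤ (ε ^ 2 * H x) ^ 2 := sq_nonneg _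
    linarith
  rw [integral_add j2 (integrable_const _), integral_add j1 (iF2.const_mul _),
    integral_sub (iF.const_mul _) (iH.const_mul _), integral_const_mul, integral_const_mul,
    integral_const_mul, hm] at key
  simp only [integral_const, probReal_univ, smul_eq_mul, one_mul] at key
  linarith

/-- Poincare inequality for bounded functions with a uniform local slope bound. -/
theorem Poincare_core {W F G : E d → ℝ} (hc : Continuous W) (h0 : ∀ x, 0 ≤ W x) {κ : ℝ}
    (hκ : 0 ≤ κ)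
    (hmid : ∀ x y, W ((1 / 2 : ℝ) • (x + y)) ≤ (W x + W y) / 2 - κ * ‖x - y‖ ^ 2 / 8)
    (hF : Measurable F) (hG : Measurable G) {M : ℝ} (bF : ∀ x, |F x| ≤ M) (bG : ∀ x, |G x| ≤ M)
    {δ : ℝ} (hδ : 0 < δ) (h : ∀ x y, ‖x - y‖ ≤ δ → F x - F y ≤ G x * ‖x - y‖) :
    Var[F; (gam d).tilted fun x => -W x] ≤
      1 / (1 + κ) * ∫ x, G x ^ 2 ∂((gam d).tilted fun x => -W x) := by
  have := isProb_tilted hc h0
  set ν := (gam d).tilted fun x => -W x with hν
  have hM : 0 ≤ M := (abs_nonneg _).trans (bF 0)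
  have hk : 0 < 1 + κ := by linarith
  have iF : Integrable F ν := Integrable.of_bound hF.aestronglyMeasurable M (Eventually.of_forall bF)
  set m := ∫ x, F x ∂ν with hm
  have bm : |m| ≤ M := by
    have := norm_integral_le_of_norm_le_const (μ := ν) (f := F) (C := M) (Eventually.of_forall bF)
    simpa using this
  have b1 : ∀ x, |F x - m| ≤ 2 * M + M ^ 2 := fun x =>
    (abs_sub _ _).trans (by linarith [bF x, sq_nonneg M])
  have b1' : ∀ x, |-(F x - m)| ≤ 2 * M + M ^ 2 := fun x => by rw [abs_neg]; exact b1 x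
  have b2 : ∀ x, |1 / (1 + κ) * G x ^ 2| ≤ 2 * M + M ^ 2 := by
    intro x
    have a1 := pow_le_pow_left₀ (abs_nonneg _) (bG x) 2
    rw [sq_abs] at a1
    rw [abs_of_nonneg (by positivity)]
    have a2 : 1 / (1 + κ) * G x ^ 2 ≤ 1 * G x ^ 2 :=
      mul_le_mul_of_nonneg_right ((div_le_one hk).2 (by linarith)) (sq_nonneg _)
    linarith
  have b3 : ∀ _x : E d, |(0 : ℝ)| ≤ 2 * M + M ^ 2 := fun _ => by rw [abs_zero]; positivity
  have m1 : ∫ x, (F x - m) ∂ν = 0 := by
    rw [integral_sub iF (integrable_const _)]; simp [hm]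
  have m2 : ∫ x, -(F x - m) ∂ν = 0 := by rw [integral_neg, m1, neg_zero]
  rw [variance_eq_integral hF.aemeasurable, ← integral_const_mul]
  have key := Poincare_arith (a := (∫ x, (F x - m) ^ 2 ∂ν) / 2 - ∫ x, 1 / (1 + κ) * G x ^ 2 ∂ν)
    (b := (∫ x, (-(F x - m)) ^ 2 ∂ν) / 2 - ∫ _x, 0 ∂ν)
    (C := (2 * M + M ^ 2) ^ 2 + 8 * (2 * M + M ^ 2) ^ 3) (by
      have t1 : Tendsto (fun ε : ℝ => 2 * (2 * M + M ^ 2) * ε) (𝓝[>] 0) (𝓝 0) := by
        have : Continuous fun ε : ℝ => 2 * (2 * M + M ^ 2) * ε := by fun_prop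
        simpa using (this.tendsto 0).mono_left (nhdsWithin_le_nhds (s := Set.Ioi 0))
      filter_upwards [Ioc_mem_nhdsGT (show (0 : ℝ) < 1 by norm_num),
        t1.eventually (gt_mem_nhds zero_lt_one),
        t1.eventually (gt_mem_nhds (show 0 < δ ^ 2 / 4 by positivity))] with ε hε p1 p2
      obtain ⟨i1, e1⟩ := Poincare_expand (μ := ν) (hF.sub_const m)
        ((hG.pow_const 2).const_mul (1 / (1 + κ))) b1 b2 m1 hε.1 hε.2 p1.le
      obtain ⟨i2, e2⟩ := Poincare_expand (μ := ν) (hF.sub_const m).fun_neg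
        (measurable_const (a := (0 : ℝ))) b1' b3 m2 hε.1 hε.2 p1.le
      refine ⟨_, _, e1, e2, ?_⟩
      have e3 : ∀ x, ε * -(F x - m) - ε ^ 2 * 0 = -(ε * (F x - m)) := fun x => by ring
      simp only [e3] at i2 ⊢
      refine Poincare_tau hc h0 hmid (by fun_prop) (by fun_prop) i1 i2 fun x y => ?_
      rcases le_total ‖x - y‖ δ with hxy | hxy
      · have a1 := mul_le_mul_of_nonneg_left (h x y hxy) hε.1.le
        have a2 : 0 ≤ (ε * G x - (1 + κ) * ‖x - y‖ / 2) ^ 2 / (1 + κ) := by positivity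
        have a3 : (ε * G x - (1 + κ) * ‖x - y‖ / 2) ^ 2 / (1 + κ) =
            ε ^ 2 * (1 / (1 + κ) * G x ^ 2) + (1 + κ) * ‖x - y‖ ^ 2 / 4 -
              ε * (G x * ‖x - y‖) := by field_simp; ring
        linarith
      · have a1 : F x - F y ≤ 2 * M := by
          linarith [(abs_le.1 (bF x)).2, (abs_le.1 (bF y)).1]
        have a2 := mul_le_mul_of_nonneg_left a1 hε.1.le
        have a3 := pow_le_pow_left₀ hδ.le hxy 2
        have a4 : 0 ≤ ε ^ 2 * (1 / (1 + κ) * G x ^ 2) := by positivity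
        have a5 := mul_nonneg hκ (sq_nonneg ‖x - y‖)
        have a6 := mul_nonneg hM hε.1.le
        have a7 := mul_nonneg (sq_nonneg M) hε.1.le
        linarith)
  simp only [neg_sq, integral_zero] at key
  linarith

theorem Poincare_var_lim {Ω : Type*} [MeasurableSpace Ω] {μ : Measure Ω} [IsProbabilityMeasure μ]
    {F : Ω → ℝ} {Fn : ℕ → Ω → ℝ} (hF : Measurable F) (hn : ∀ n, Measurable (Fn n))
    (i2 : Integrable (fun x => F x ^ 2) μ) (hb : ∀ n x, |Fn n x| ≤ |F x|)
    (hl : ∀ x, Tendsto (fun n => Fn n x) atTop (𝓝 (F x))) :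
    Tendsto (fun n => Var[Fn n; μ]) atTop (𝓝 Var[F; μ]) := by
  have hm : MemLp F 2 μ := (memLp_two_iff_integrable_sq hF.aestronglyMeasurable).2 i2
  have hmn : ∀ n, MemLp (Fn n) 2 μ := fun n =>
    hm.of_le (hn n).aestronglyMeasurable (Eventually.of_forall (hb n))
  simp only [variance_eq_sub hm, variance_eq_sub (hmn _)]
  refine Tendsto.sub ?_ (Tendsto.pow ?_ 2)
  · exact tendsto_integral_of_dominated_convergence (fun x => F x ^ 2)
      (fun n => ((hn n).pow_const 2).aestronglyMeasurable) i2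
      (fun n => Eventually.of_forall fun x => by
        rw [Pi.pow_apply, norm_pow, ← sq_abs (F x)]
        exact pow_le_pow_left₀ (norm_nonneg _) (hb n x) 2)
      (Eventually.of_forall fun x => (hl x).pow 2)
  · exact tendsto_integral_of_dominated_convergence (fun x => |F x|)
      (fun n => (hn n).aestronglyMeasurable) (hm.integrable one_le_two).abs
      (fun n => Eventually.of_forall (hb n)) (Eventually.of_forall hl)

theorem Poincare_pert {Ω : Type*} [MeasurableSpace Ω] {μ : Measure Ω} {A B : Ω → ℝ}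
    (i1 : Integrable (fun x => A x * A x) μ) (i2 : Integrable (fun x => A x * B x) μ)
    (i3 : Integrable (fun x => B x * B x) μ) :
    (∀ t : ℝ, Integrable (fun x => (A x + t * B x) ^ 2) μ) ∧
      Tendsto (fun t : ℝ => ∫ x, (A x + t * B x) ^ 2 ∂μ) (𝓝 0) (𝓝 (∫ x, A x ^ 2 ∂μ)) := by
  have e : ∀ t : ℝ, (fun x => (A x + t * B x) ^ 2) =
      fun x => A x * A x + 2 * t * (A x * B x) + t ^ 2 * (B x * B x) := fun t => by
    funext x; ring
  refine ⟨fun t => by rw [e]; exact (i1.fun_add (i2.const_mul _)).fun_add (i3.const_mul _), ?_⟩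
  have e2 : ∀ t : ℝ, ∫ x, (A x + t * B x) ^ 2 ∂μ =
      ∫ x, A x ^ 2 ∂μ + 2 * t * ∫ x, A x * B x ∂μ + t ^ 2 * ∫ x, B x * B x ∂μ := fun t => by
    rw [e, integral_add (i1.fun_add (i2.const_mul _)) (i3.const_mul _),
      integral_add i1 (i2.const_mul _), integral_const_mul, integral_const_mul]
    simp only [sq]
  simp only [e2]
  have : Continuous fun t : ℝ =>
      ∫ x, A x ^ 2 ∂μ + 2 * t * ∫ x, A x * B x ∂μ + t ^ 2 * ∫ x, B x * B x ∂μ := by fun_prop
  simpa using this.tendsto 0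

theorem Poincare_c1c {W F : E d → ℝ} (hc : Continuous W) (h0 : ∀ x, 0 ≤ W x) {κ : ℝ}
    (hκ : 0 ≤ κ)
    (hmid : ∀ x y, W ((1 / 2 : ℝ) • (x + y)) ≤ (W x + W y) / 2 - κ * ‖x - y‖ ^ 2 / 8)
    (hF : ContDiff ℝ 1 F) (hs : HasCompactSupport F) :
    Var[F; (gam d).tilted fun x => -W x] ≤
      1 / (1 + κ) * ∫ x, ‖fderiv ℝ F x‖ ^ 2 ∂((gam d).tilted fun x => -W x) := by
  have := isProb_tilted hc h0
  have cD : Continuous (fderiv ℝ F) := hF.continuous_fderiv (by simp)
  have sD : HasCompactSupport (fderiv ℝ F) := hs.fderiv ℝ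
  obtain ⟨M₁, hM₁⟩ := hF.continuous.bounded_above_of_compact_support hs
  obtain ⟨M₂, hM₂⟩ := cD.bounded_above_of_compact_support sD
  have uD := Metric.uniformContinuous_iff_le.1 (sD.uniformContinuous_of_continuous cD)
  have iD : Integrable (fun x => ‖fderiv ℝ F x‖) ((gam d).tilted fun x => -W x) :=
    Integrable.of_bound cD.norm.aestronglyMeasurable M₂
      (Eventually.of_forall fun x => by rw [norm_norm]; exact hM₂ x)
  have ht := (Poincare_pert (μ := (gam d).tilted fun x => -W x) (A := fun x => ‖fderiv ℝ F x‖)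
    (B := fun _ => 1) (iD.mul_bdd cD.norm.aestronglyMeasurable
      (Eventually.of_forall fun x => by rw [norm_norm]; exact hM₂ x))
    (iD.mul_const _) (integrable_const _)).2
  refine ge_of_tendsto ((ht.const_mul (1 / (1 + κ))).mono_left
    (nhdsWithin_le_nhds (s := Set.Ioi 0))) ?_
  filter_upwards [Ioc_mem_nhdsGT (show (0 : ℝ) < 1 by norm_num)] with η hη
  obtain ⟨δ, hδ, hδ'⟩ := uD η hη.1
  refine Poincare_core hc h0 hκ hmid hF.continuous.measurable
    (G := fun x => ‖fderiv ℝ F x‖ + η * 1) (by fun_prop) (M := max M₁ (M₂ + 1))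
    (fun x => (hM₁ x).trans (le_max_left _ _)) (fun x => ?_) hδ fun x y hxy => ?_
  · refine le_trans ?_ (le_max_right _ _)
    rw [abs_of_nonneg (by have := hη.1; positivity)]
    linarith [hM₂ x, hη.2]
  · refine (le_abs_self _).trans ?_
    refine (convex_closedBall x δ).norm_image_sub_le_of_norm_fderiv_le (𝕜 := ℝ)
      (fun z _ => hF.differentiable (by simp) z) (fun z hz => ?_)
      (by rw [Metric.mem_closedBall, dist_comm, dist_eq_norm]; exact hxy)
      (Metric.mem_closedBall_self hδ.le)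
    have h1 := hδ' (Metric.mem_closedBall.1 hz)
    rw [dist_eq_norm] at h1
    have h2 := norm_le_insert' (fderiv ℝ F z) (fderiv ℝ F x)
    linarith

/-- A cutoff sequence. -/
theorem Poincare_cutoff : ∃ (χ : ℕ → E d → ℝ) (K : ℝ), (∀ n, ContDiff ℝ 1 (χ n)) ∧
    (∀ n, HasCompactSupport (χ n)) ∧ (∀ n x, |χ n x| ≤ 1) ∧
    (∀ x, ∀ᶠ n in atTop, χ n x = 1) ∧ ∀ n x, ‖fderiv ℝ (χ n) x‖ ≤ K * ((n : ℝ) + 1)⁻¹ := by
  let b : ContDiffBump (0 : E d) := ⟨1, 2, one_pos, one_lt_two⟩
  have hb : ContDiff ℝ 1 b := b.contDiff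
  obtain ⟨K, hK⟩ := (hb.continuous_fderiv (by simp)).bounded_above_of_compact_support
    (b.hasCompactSupport.fderiv ℝ)
  refine ⟨fun n x => b (((n : ℝ) + 1)⁻¹ • x), K, fun n => hb.comp (contDiff_const_smul _),
    fun n => ?_, fun n x => ?_, fun x => ?_, fun n x => ?_⟩
  · exact b.hasCompactSupport.comp_homeomorph
      (Homeomorph.smulOfNeZero ((n : ℝ) + 1)⁻¹ (by positivity))
  · rw [abs_of_nonneg b.nonneg]; exact b.le_one
  · filter_upwards [eventually_ge_atTop ⌈‖x‖⌉₊] with n hn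
    refine b.one_of_mem_closedBall ?_
    rw [mem_closedBall_zero_iff, norm_smul, Real.norm_eq_abs, abs_of_pos (by positivity)]
    have h1 : ‖x‖ ≤ n := (Nat.le_ceil _).trans (by exact_mod_cast hn)
    show _ ≤ (1 : ℝ)
    rw [inv_mul_le_iff₀ (by positivity)]
    linarith
  · have h1 := (hb.differentiable (by simp) (((n : ℝ) + 1)⁻¹ • x)).hasFDerivAt.comp x
      ((hasFDerivAt_id x).const_smul ((n : ℝ) + 1)⁻¹)
    have h2 : fderiv ℝ (fun x => b (((n : ℝ) + 1)⁻¹ • x)) x = _ := h1.fderiv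
    rw [h2]
    refine (ContinuousLinearMap.opNorm_comp_le _ _).trans
      (mul_le_mul (hK _) ?_ (norm_nonneg _) ((norm_nonneg _).trans (hK 0)))
    rw [norm_smul, Real.norm_eq_abs, abs_of_pos (by positivity)]
    exact mul_le_of_le_one_right (by positivity) ContinuousLinearMap.norm_id_le

/-- Poincare inequality with the sharp constant for a strongly log-concave tilt of the Gaussian. -/
theorem poincare {W F : E d → ℝ} (hc : Continuous W) (h0 : ∀ x, 0 ≤ W x) {κ : ℝ} (hκ : 0 ≤ κ)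
    (hmid : ∀ x y, W ((1 / 2 : ℝ) • (x + y)) ≤ (W x + W y) / 2 - κ * ‖x - y‖ ^ 2 / 8)
    (hF : ContDiff ℝ 1 F) (h1 : PolyG F) (h2 : PolyG fun x => ‖fderiv ℝ F x‖) :
    Var[F; (gam d).tilted fun x => -W x] ≤
      1 / (1 + κ) * ∫ x, ‖fderiv ℝ F x‖ ^ 2 ∂((gam d).tilted fun x => -W x) := by
  have := isProb_tilted hc h0
  obtain ⟨χ, K, c1, c2, c3, c4, c5⟩ := Poincare_cutoff (d := d)
  have cF := hF.continuous
  have cD : Continuous fun x => ‖fderiv ℝ F x‖ := (hF.continuous_fderiv (by simp)).norm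
  have h1' : PolyG fun x => |F x| := h1.of_le fun x => by rw [abs_abs]
  obtain ⟨it, ht⟩ := Poincare_pert (μ := (gam d).tilted fun x => -W x)
    (A := fun x => ‖fderiv ℝ F x‖) (B := fun x => |F x|)
    ((h2.mul h2).integrable_tilted hc h0 (cD.mul cD))
    ((h2.mul h1').integrable_tilted hc h0 (cD.mul cF.abs))
    ((h1'.mul h1').integrable_tilted hc h0 (cF.abs.mul cF.abs))
  have t0 : Tendsto (fun n : ℕ => K * ((n : ℝ) + 1)⁻¹) atTop (𝓝 0) := by
    simpa using (tendsto_one_div_add_atTop_nhds_zero_nat (𝕜 := ℝ)).const_mul K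
  have tv := Poincare_var_lim (μ := (gam d).tilted fun x => -W x) (Fn := fun n x => χ n x * F x)
    cF.measurable (fun n => ((c1 n).continuous.mul cF).measurable)
    (by simpa only [sq] using (h1.mul h1).integrable_tilted hc h0 (cF.mul cF))
    (fun n x => by rw [abs_mul]; exact mul_le_of_le_one_left (abs_nonneg _) (c3 n x))
    (fun x => tendsto_const_nhds.congr' ((c4 x).mono fun n hn => by simp only [hn, one_mul]))
  refine le_of_tendsto_of_tendsto' tv ((ht.comp t0).const_mul (1 / (1 + κ))) fun n => ?_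
  refine (Poincare_c1c hc h0 hκ hmid ((c1 n).mul hF) (c2 n).mul_right).trans
    (mul_le_mul_of_nonneg_left ?_ (by positivity))
  refine integral_mono_of_nonneg (Eventually.of_forall fun x => sq_nonneg _) (it _)
    (Eventually.of_forall fun x => pow_le_pow_left₀ (norm_nonneg _) ?_ 2)
  rw [fderiv_fun_mul ((c1 n).differentiable (by simp) x) (hF.differentiable (by simp) x)]
  refine (norm_add_le _ _).trans (add_le_add ?_ ?_)
  · rw [norm_smul]
    exact mul_le_of_le_one_left (norm_nonneg _) (c3 n x)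
  · rw [norm_smul, mul_comm]
    exact mul_le_mul_of_nonneg_right (c5 n x) (norm_nonneg _)

theorem poincare_lip {W F : E d → ℝ} (hc : Continuous W) (h0 : ∀ x, 0 ≤ W x) {κ : ℝ} (hκ : 0 ≤ κ)
    (hmid : ∀ x y, W ((1 / 2 : ℝ) • (x + y)) ≤ (W x + W y) / 2 - κ * ‖x - y‖ ^ 2 / 8)
    {L : ℝ≥0} (hF : LipschitzWith L F) :
    Var[F; (gam d).tilted fun x => -W x] ≤ L ^ 2 / (1 + κ) := by
  have := isProb_tilted hc h0
  have cF := hF.continuous
  have h1 : PolyG F := PolyG.of_linear (a := |F 0|) (b := L) fun x => by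
    have a1 := hF.dist_le_mul x 0
    rw [Real.dist_eq, dist_zero_right] at a1
    linarith [abs_sub_abs_le_abs_sub (F x) (F 0)]
  have hL : ∀ n : ℕ, LipschitzWith L fun x => max (-(n : ℝ)) (min (n : ℝ) (F x)) :=
    fun n => (hF.const_min _).const_max _
  have tv := Poincare_var_lim (μ := (gam d).tilted fun x => -W x)
    (Fn := fun n x => max (-(n : ℝ)) (min (n : ℝ) (F x)))
    cF.measurable (fun n => (hL n).continuous.measurable)
    (by simpa only [sq] using (h1.mul h1).integrable_tilted hc h0 (cF.mul cF))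
    (fun n x => by
      have a0 : (0 : ℝ) ≤ n := Nat.cast_nonneg n
      have a1 := le_abs_self (F x)
      have a2 := neg_abs_le (F x)
      have a3 := abs_nonneg (F x)
      rw [abs_le]
      exact ⟨le_max_of_le_right (le_min (by linarith) a2),
        max_le (by linarith) ((min_le_right _ _).trans a1)⟩)
    (fun x => tendsto_const_nhds.congr' (by
      filter_upwards [eventually_ge_atTop ⌈|F x|⌉₊] with n hn
      have a1 : |F x| ≤ n := (Nat.le_ceil _).trans (by exact_mod_cast hn)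
      rw [min_eq_right (abs_le.1 a1).2, max_eq_right (abs_le.1 a1).1]))
  refine le_of_tendsto' tv fun n => ?_
  have key := Poincare_core hc h0 hκ hmid (hL n).continuous.measurable (G := fun _ => (L : ℝ))
    measurable_const (M := max (n : ℝ) L) (fun x => by
      have a0 : (0 : ℝ) ≤ n := Nat.cast_nonneg n
      refine le_trans ?_ (le_max_left _ _)
      rw [abs_le]
      exact ⟨le_max_left _ _, max_le (by linarith) (min_le_left _ _)⟩)
    (fun _ => by rw [abs_of_nonneg L.coe_nonneg]; exact le_max_right _ _) one_pos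
    (fun x y _ => by
      have a1 := (hL n).dist_le_mul x y
      rw [Real.dist_eq, dist_eq_norm] at a1
      exact (le_abs_self _).trans a1)
  simp only [integral_const, probReal_univ, smul_eq_mul, one_mul] at key
  refine key.trans (le_of_eq ?_)
  ring

end Vale.Agent.P347
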