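import Vale.Agent.P347.Heat1
import Vale.Agent.P347.Poincare

namespace Vale.Agent.P347

open MeasureTheory ProbabilityTheory
open scoped RealInnerProductSpace NNReal ContDiff

variable {d : ℕ}

variable {V : E d → ℝ}

theorem heat2_rho (V : E d → ℝ) (s : ℝ) (y : E d) :
    rho V y s 0 = (gam d).tilted fun x => -V (y + s • x) := by
  rw [rho, Lam_zero]

theorem heat2_integral (V : E d → ℝ) (s : ℝ) (y : E d) {X : Type*} [NormedAddCommGroup X]
    [NormedSpace ℝ X] (g : E d → X) :
    ∫ x, g x ∂rho V y s 0 = (pp V s y)⁻¹ • ∫ x, Real.exp (-V (y + s • x)) • g x ∂gam d := by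
  rw [heat2_rho, integral_tilted, ← integral_smul]
  refine integral_congr_ae (.of_forall fun x => ?_)
  simp only [smul_smul, pp, div_eq_inv_mul]

theorem heat2_cont (hV : InClass V) (s : ℝ) (y : E d) : Continuous fun x : E d => V (y + s • x) :=
  hV.1.continuous.comp (by fun_prop)

theorem heat2_cont_grad (hV : InClass V) (s : ℝ) (y : E d) :
    Continuous fun x : E d => gradient V (y + s • x) :=
  hV.lip_grad.continuous.comp (by fun_prop)

theorem heat2_grad_le (hV : InClass V) (s : ℝ) (y x : E d) :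
    ‖gradient V (y + s • x)‖ ≤ 2 * ‖y‖ + 2 * |s| * ‖x‖ := by
  have h1 := hV.norm_grad (y + s • x)
  have h2 := norm_add_le y (s • x)
  rw [norm_smul, Real.norm_eq_abs] at h2
  linarith

theorem heat2_poly_int (hV : InClass V) (s : ℝ) (y : E d) {F : E d → ℝ} (h : PolyG F)
    (hc : Continuous F) : Integrable F (rho V y s 0) := by
  rw [heat2_rho]
  exact h.integrable_tilted (heat2_cont hV s y) (fun _ => hV.nonneg _) hc

theorem heat2_int_grad (hV : InClass V) (s : ℝ) (y : E d) :
    Integrable (fun x => gradient V (y + s • x)) (rho V y s 0) :=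
  (integrable_norm_iff (heat2_cont_grad hV s y).aestronglyMeasurable).1
    (heat2_poly_int hV s y (PolyG.of_linear fun x => by
      rw [abs_norm]; exact heat2_grad_le hV s y x) (heat2_cont_grad hV s y).norm)

theorem heat2_pp_deriv (hV : InClass V) (s : ℝ) (y : E d) :
    HasFDerivAt (pp V s)
      (∫ z, -(Real.exp (-V (y + s • z)) • fderiv ℝ V (y + s • z)) ∂gam d) y ∧
      Integrable (fun z => Real.exp (-V (y + s • z)) • fderiv ℝ V (y + s • z)) (gam d) := by
  have hc := hV.1.continuous
  have hc' := hV.Pot_cd.continuous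
  have hb : ∀ z : E d, ∀ y' ∈ Metric.ball y 1,
      ‖-(Real.exp (-V (y' + s • z)) • fderiv ℝ V (y' + s • z))‖ ≤
        2 * (‖y‖ + 1) + 2 * |s| * ‖z‖ := by
    intro z y' hy'
    have h1 : ‖fderiv ℝ V (y' + s • z)‖ = ‖gradient V (y' + s • z)‖ := by
      rw [gradient, LinearIsometryEquiv.norm_map]
    have h2 := heat2_grad_le hV s y' z
    have h3 : ‖y'‖ ≤ ‖y‖ + 1 := norm_le_norm_add_const_of_dist_le (Metric.mem_ball.1 hy').le
    have h4 : Real.exp (-V (y' + s • z)) ≤ 1 :=
      Real.exp_le_one_iff.2 (neg_nonpos.2 (hV.nonneg _))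
    rw [norm_neg, norm_smul, Real.norm_of_nonneg (Real.exp_pos _).le, h1]
    exact (mul_le_of_le_one_left (norm_nonneg _) h4).trans (by linarith)
  have hi : Integrable (fun z : E d => 2 * (‖y‖ + 1) + 2 * |s| * ‖z‖) (gam d) :=
    (integrable_const _).add ((IsGaussian.integrable_id (μ := gam d)).norm.const_mul _)
  have hm : AEStronglyMeasurable
      (fun z => -(Real.exp (-V (y + s • z)) • fderiv ℝ V (y + s • z))) (gam d) :=
    Continuous.aestronglyMeasurable (by fun_prop)
  refine ⟨hasFDerivAt_integral_of_dominated_of_fderiv_le (μ := gam d)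
    (F := fun y z => Real.exp (-V (y + s • z)))
    (F' := fun y z => -(Real.exp (-V (y + s • z)) • fderiv ℝ V (y + s • z)))
    (Metric.ball_mem_nhds y one_pos)
    (.of_forall fun _ => Continuous.aestronglyMeasurable (by fun_prop))
    (heat1_integrable hV (by fun_prop)) hm (.of_forall hb) hi (.of_forall fun z y' _ => ?_), ?_⟩
  · have h1 := ((hV.Pot_diff (y' + s • z)).hasFDerivAt.comp y'
      ((hasFDerivAt_id y').add_const (s • z))).neg.exp
    simpa using h1
  · exact integrable_neg_iff.1 (hi.mono' hm (.of_forall fun z => hb z y (Metric.mem_ball_self one_pos)))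

theorem gg_eq (hV : InClass V) (s : ℝ) (y : E d) :
    gg V s y = ∫ x, gradient V (y + s • x) ∂rho V y s 0 := by
  obtain ⟨h1, h2⟩ := heat2_pp_deriv hV s y
  have h3 := (h1.log (pp_pos hV s y).ne').neg
  refine ext_inner_right ℝ fun v => ?_
  rw [gg, Pot_inner_grad, real_inner_comm, ← integral_inner (heat2_int_grad hV s y), heat2_integral]
  erw [h3.fderiv]
  rw [integral_neg]
  simp only [ContinuousLinearMap.neg_apply, ContinuousLinearMap.smul_apply, smul_neg, neg_neg,
    ContinuousLinearMap.integral_apply h2]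
  congr 2
  funext x
  rw [real_inner_comm, Pot_inner_grad]

/-- tilting the posterior shifts the base point -/
theorem gg_tilt (hV : InClass V) (s : ℝ) (y θ : E d) :
    (∫ x, Real.exp ⟪θ, x⟫ ∂rho V y s 0) • gg V s (y + s • θ) =
      ∫ x, Real.exp ⟪θ, x⟫ • gradient V (y + s • x) ∂rho V y s 0 := by
  have e : ∀ z : E d, y + s • θ + s • z = y + s • (z + θ) := fun z => by module
  have e' : ∀ z : E d, Real.exp (⟪θ, z⟫ - ‖θ‖ ^ 2 / 2) =
      Real.exp (-(‖θ‖ ^ 2 / 2)) * Real.exp ⟪θ, z⟫ := fun z => by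
    rw [← Real.exp_add]; congr 1; ring
  have h1 : pp V s (y + s • θ) = Real.exp (-(‖θ‖ ^ 2 / 2)) *
      ∫ x, Real.exp (-V (y + s • x)) • Real.exp ⟪θ, x⟫ ∂gam d := by
    simp only [pp, e]
    rw [gam_shift θ fun z => Real.exp (-V (y + s • z)), ← integral_const_mul]
    refine integral_congr_ae (.of_forall fun z => ?_)
    simp only [e', smul_eq_mul]
    ring
  have h2 : ∫ x, Real.exp (-V (y + s • θ + s • x)) • gradient V (y + s • θ + s • x) ∂gam d =
      Real.exp (-(‖θ‖ ^ 2 / 2)) •
        ∫ x, Real.exp (-V (y + s • x)) • Real.exp ⟪θ, x⟫ • gradient V (y + s • x) ∂gam d := by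
    simp only [e]
    rw [gam_shift θ fun z => Real.exp (-V (y + s • z)) • gradient V (y + s • z), ← integral_smul]
    refine integral_congr_ae (.of_forall fun z => ?_)
    simp only [e', smul_smul]
    congr 1
    ring
  have hp := pp_pos hV s (y + s • θ)
  rw [gg_eq hV, heat2_integral, heat2_integral, heat2_integral, h2, smul_smul, smul_smul]
  congr 1
  rw [h1] at hp ⊢
  have h3 := (mul_pos_iff_of_pos_left (Real.exp_pos _)).1 hp
  rw [smul_eq_mul]
  field_simp

theorem heat2_good (hV : InClass V) (s : ℝ) (y : E d) {h : E d → ℝ} (hp : PolyG h)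
    (hc : Continuous h) : ExpGood (rho V y s 0) (innerSL ℝ) Set.univ h := by
  refine ⟨hc.aestronglyMeasurable, fun η _ => ⟨1, one_pos, ?_⟩⟩
  obtain ⟨C, R, hC, hb⟩ := hp.le_exp
  rw [heat2_rho]
  refine ((integrable_exp_norm_tilted (heat2_cont hV s y) (fun _ => hV.nonneg _)
    (R + ‖η‖ + 1)).const_mul C).mono' (Continuous.aestronglyMeasurable (by fun_prop))
    (.of_forall fun x => ?_)
  rw [Real.norm_of_nonneg (by positivity), innerSL_apply_norm, innerSL_apply_apply]
  calc |h x| * Real.exp (⟪x, η⟫ + 1 * ‖x‖)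
      ≤ C * Real.exp (R * ‖x‖) * Real.exp (‖x‖ * ‖η‖ + 1 * ‖x‖) := by
        gcongr
        · exact hb x
        · exact real_inner_le_norm x η
    _ = _ := by rw [mul_assoc, ← Real.exp_add]; congr 2; ring

theorem heat2_memLp (hV : InClass V) (s : ℝ) (y : E d) {F : E d → ℝ} (h : PolyG F)
    (hc : Continuous F) : MemLp F 2 (rho V y s 0) :=
  (memLp_two_iff_integrable_sq hc.aestronglyMeasurable).2 (by
    simpa only [sq] using heat2_poly_int hV s y (h.mul h) (hc.mul hc))

theorem heat2_poly_grad (hV : InClass V) (s : ℝ) (y u : E d) :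
    PolyG fun x => ⟪u, gradient V (y + s • x)⟫ :=
  PolyG.of_linear (a := ‖u‖ * (2 * ‖y‖)) (b := ‖u‖ * (2 * |s|)) fun x =>
    (abs_real_inner_le_norm _ _).trans ((mul_le_mul_of_nonneg_left (heat2_grad_le hV s y x)
      (norm_nonneg u)).trans_eq (by ring))

theorem heat2_poly_inner (v : E d) : PolyG fun x : E d => ⟪x, v⟫ :=
  PolyG.of_linear (a := 0) (b := ‖v‖) fun x => (abs_real_inner_le_norm _ _).trans_eq (by ring)

/-- the covariance representation of `T2` -/
theorem heat2_cov (hV : InClass V) {s : ℝ} (hs : 0 < s) (y u v : E d) :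
    s * ⟪u, T2 V s y v⟫ =
      cov[fun x => ⟪u, gradient V (y + s • x)⟫, fun x => ⟪x, v⟫; rho V y s 0] := by
  have := isProb_rho hV y s 0
  have hm : AEStronglyMeasurable (fun x : E d => innerSL ℝ x) (rho V y s 0) :=
    (innerSL ℝ (E := E d)).continuous.aestronglyMeasurable
  have hcF : Continuous fun x => ⟪u, gradient V (y + s • x)⟫ :=
    continuous_const.inner (heat2_cont_grad hV s y)
  have gA := heat2_good hV s y (PolyG.const 1) continuous_const
  have gB := heat2_good hV s y (heat2_poly_grad hV s y u) hcF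
  obtain ⟨dA, eA⟩ := gA.differentiableAt hm (Set.mem_univ (0 : E d))
  obtain ⟨-, eB⟩ := gB.differentiableAt hm (Set.mem_univ (0 : E d))
  have h1 : HasFDerivAt (fun θ : E d => y + s • θ) (s • ContinuousLinearMap.id ℝ (E d)) 0 :=
    ((hasFDerivAt_id (0 : E d)).const_smul s).const_add y
  have h2 : HasFDerivAt (gg V s) (T2 V s y) (y + s • (0 : E d)) := by
    simpa [T2] using ((contDiff_gg hV hs).differentiable (by simp) y).hasFDerivAt
  have h3 := dA.hasFDerivAt.mul ((innerSL ℝ u).hasFDerivAt.comp 0 (h2.comp 0 h1))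
  have e : (fun η : E d => ∫ x, ⟪u, gradient V (y + s • x)⟫ * Real.exp (innerSL ℝ x η)
      ∂rho V y s 0) = (fun η : E d => ∫ x, 1 * Real.exp (innerSL ℝ x η) ∂rho V y s 0) *
        (innerSL ℝ u) ∘ (gg V s) ∘ fun θ : E d => y + s • θ := by
    funext η
    have hi : Integrable (fun x => Real.exp ⟪η, x⟫ • gradient V (y + s • x)) (rho V y s 0) := by
      have hcg := heat2_cont_grad hV s y
      refine ((heat2_good hV s y (PolyG.of_linear fun x => by
        rw [abs_norm]; exact heat2_grad_le hV s y x) hcg.norm).integrable hm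
        (Set.mem_univ η)).mono' (Continuous.aestronglyMeasurable (by fun_prop))
        (.of_forall fun x => ?_)
      rw [norm_smul, Real.norm_of_nonneg (Real.exp_pos _).le, innerSL_apply_apply, mul_comm,
        real_inner_comm]
    have h4 := congrArg (fun w => ⟪u, w⟫) (gg_tilt hV s y η)
    simp only [inner_smul_right, ← integral_inner hi] at h4
    simp only [Pi.mul_apply, Function.comp_apply, innerSL_apply_apply, one_mul,
      real_inner_comm η]
    rw [h4]
    simp only [mul_comm]
  have h5 := eB v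
  rw [e, h3.fderiv, ContinuousLinearMap.add_apply, ContinuousLinearMap.smul_apply,
    ContinuousLinearMap.smul_apply, eA] at h5
  simp only [ContinuousLinearMap.smul_apply, map_zero,
    Real.exp_zero, mul_one, one_mul, integral_const, probReal_univ, smul_eq_mul,
    ContinuousLinearMap.comp_apply, ContinuousLinearMap.id_apply, map_smul, innerSL_apply_apply,
    Function.comp_apply, smul_zero, add_zero] at h5
  rw [covariance_eq_sub (heat2_memLp hV s y (heat2_poly_grad hV s y u) hcF)
    (heat2_memLp hV s y (heat2_poly_inner v) (by fun_prop)), integral_inner (heat2_int_grad hV s y),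
    ← gg_eq hV]
  simp only [Pi.mul_apply]
  linarith

theorem heat2_var (hV : InClass V) (s : ℝ) (y : E d) {F : E d → ℝ} {L : ℝ≥0}
    (hF : LipschitzWith L F) : Var[F; rho V y s 0] ≤ L ^ 2 := by
  rw [heat2_rho]
  have := poincare_lip (heat2_cont hV s y) (fun _ => hV.nonneg _) le_rfl (fun x x' => by
    have h := hV.mid (y + s • x) (y + s • x')
    rw [show (1 / 2 : ℝ) • (y + s • x + (y + s • x')) = y + s • (1 / 2 : ℝ) • (x + x') by module]
      at h
    nlinarith [sq_nonneg ‖y + s • x - (y + s • x')‖]) hF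
  simpa using this

theorem norm_T2_le (hV : InClass V) {s : ℝ} (hs : 0 < s) (y : E d) : ‖T2 V s y‖ ≤ 2 := by
  have := isProb_rho hV y s 0
  refine ContinuousLinearMap.opNorm_le_bound _ (by norm_num) fun v => ?_
  set u := T2 V s y v with hu
  have h1 := heat2_cov hV hs y u v
  rw [← hu, real_inner_self_eq_norm_sq] at h1
  have hcF : Continuous fun x => ⟪u, gradient V (y + s • x)⟫ :=
    continuous_const.inner (heat2_cont_grad hV s y)
  have l1 : LipschitzWith (‖u‖ * (2 * s)).toNNReal fun x => ⟪u, gradient V (y + s • x)⟫ := by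
    refine LipschitzWith.of_dist_le_mul fun x x' => ?_
    have h := hV.lip_grad.dist_le_mul (y + s • x) (y + s • x')
    rw [dist_add_left, dist_smul₀, Real.norm_of_nonneg hs.le, dist_eq_norm] at h
    rw [Real.dist_eq, ← inner_sub_right]
    refine (abs_real_inner_le_norm _ _).trans ((mul_le_mul_of_nonneg_left h
      (norm_nonneg u)).trans_eq ?_)
    rw [Real.coe_toNNReal _ (by positivity), NNReal.coe_ofNat]
    ring
  have l2 : LipschitzWith ‖v‖₊ fun x : E d => ⟪x, v⟫ := by
    refine LipschitzWith.of_dist_le_mul fun x x' => ?_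
    rw [Real.dist_eq, ← inner_sub_left, dist_eq_norm, coe_nnnorm, mul_comm]
    exact abs_real_inner_le_norm _ _
  have v1 := heat2_var hV s y l1
  have v2 := heat2_var hV s y l2
  have v3 := variance_nonneg (fun x => ⟪u, gradient V (y + s • x)⟫ - 4 * s * ⟪x, v⟫) (rho V y s 0)
  rw [variance_fun_sub (heat2_memLp hV s y (heat2_poly_grad hV s y u) hcF)
    ((heat2_memLp hV s y (heat2_poly_inner v) (by fun_prop)).const_mul _),
    covariance_const_mul_right, variance_const_mul, ← h1] at v3
  rw [Real.coe_toNNReal _ (by positivity)] at v1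
  rw [coe_nnnorm] at v2
  have h2 : s ^ 2 * ‖u‖ ^ 2 ≤ s ^ 2 * (2 * ‖v‖) ^ 2 := by
    nlinarith [mul_le_mul_of_nonneg_left v2 (sq_nonneg (4 * s))]
  exact (pow_le_pow_iff_left₀ (norm_nonneg _) (by positivity) two_ne_zero).1
    (le_of_mul_le_mul_left h2 (by positivity))

theorem lip_gg (hV : InClass V) {s : ℝ} (hs : 0 < s) : LipschitzWith 2 (gg V s) :=
  lipschitzWith_of_nnnorm_fderiv_le ((contDiff_gg hV hs).differentiable (by simp)) fun y => by
    exact_mod_cast norm_T2_le hV hs y

theorem heat2_ibp (hV : InClass V) (s : ℝ) (y : E d) :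
    ∫ x, (‖x‖ ^ 2 + s * ⟪x, gradient V (y + s • x)⟫) ∂rho V y s 0 = d := by
  have := isProb_rho hV y s 0
  have hW : ∀ x v : E d, fderiv ℝ (fun x => V (y + s • x)) x v = s * ⟪v, gradient V (y + s • x)⟫ := by
    intro x v
    have h1 := (hV.Pot_diff (y + s • x)).hasFDerivAt.comp x
      (((hasFDerivAt_id x).const_smul s).const_add y)
    erw [h1.fderiv]
    rw [real_inner_comm, Pot_inner_grad]
    simp
  have hF : ∀ x v : E d, fderiv ℝ (fun x : E d => ⟪v, x⟫) x v = ‖v‖ ^ 2 := by
    intro x v
    erw [(innerSL ℝ v).fderiv]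
    simp
  have hc := heat2_cont_grad hV s y
  have key : ∀ i : Fin d, (1 : ℝ) = ∫ x, ⟪ev i, x⟫ * (⟪x, ev i⟫ +
      s * ⟪ev i, gradient V (y + s • x)⟫) ∂rho V y s 0 := by
    intro i
    have h := ibp_tilted (W := fun x => V (y + s • x)) (F := fun x => ⟪ev i, x⟫)
      ((hV.1.of_le (by norm_num)).comp (by fun_prop)) (fun _ => hV.nonneg _) (ev i)
      (by simp only [hW]; exact (PolyG.const s).mul (heat2_poly_grad hV s y _))
      (contDiff_const.inner ℝ contDiff_id)
      (by simpa only [real_inner_comm (ev i)] using heat2_poly_inner (ev i))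
      (by simp only [hF]; exact PolyG.const _)
    simp only [hW, hF, ← heat2_rho] at h
    simpa using h
  have hi : ∀ i : Fin d, Integrable (fun x => ⟪ev i, x⟫ * (⟪x, ev i⟫ +
      s * ⟪ev i, gradient V (y + s • x)⟫)) (rho V y s 0) := fun i =>
    heat2_poly_int hV s y (PolyG.mul
      (by simpa only [real_inner_comm (ev i)] using heat2_poly_inner (ev i))
      ((heat2_poly_inner _).add ((PolyG.const s).mul (heat2_poly_grad hV s y _)))) (by fun_prop)
  have h1 : (d : ℝ) = ∑ _i : Fin d, (1 : ℝ) := by simp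
  rw [h1, Finset.sum_congr rfl fun i _ => key i, ← integral_finset_sum _ fun i _ => hi i]
  refine integral_congr_ae (.of_forall fun x => ?_)
  simp only [EuclideanSpace.inner_single_left, EuclideanSpace.inner_single_right, map_one, one_mul,
    conj_trivial]
  rw [EuclideanSpace.real_norm_sq_eq, PiLp.inner_apply, Finset.mul_sum, ← Finset.sum_add_distrib]
  refine Finset.sum_congr rfl fun i _ => ?_
  simp only [RCLike.inner_apply, conj_trivial]
  ring

theorem rho0_moment (hV : InClass V) {s : ℝ} (hs : 0 ≤ s) (y : E d) :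
    Integrable (fun x => x) (rho V y s 0) ∧ ∫ x, ‖x‖ ∂rho V y s 0 ≤ √d + 2 * s * ‖y‖ := by
  have := isProb_rho hV y s 0
  have p1 : PolyG fun x : E d => ‖x‖ := PolyG.of_linear (a := 0) (b := 1) fun x => by simp
  have i1 := heat2_poly_int hV s y p1 continuous_norm
  refine ⟨(integrable_norm_iff continuous_id.aestronglyMeasurable).1 i1, ?_⟩
  have m1 := heat2_memLp hV s y p1 continuous_norm
  have v1 := variance_nonneg (fun x : E d => ‖x‖) (rho V y s 0)
  rw [variance_eq_sub m1] at v1
  have hc := heat2_cont_grad hV s y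
  have i2 : Integrable (fun x : E d => ‖x‖ ^ 2) (rho V y s 0) := m1.integrable_sq
  have i3 : Integrable (fun x : E d => ‖x‖ ^ 2 + s * ⟪x, gradient V (y + s • x)⟫) (rho V y s 0) := by
    refine i2.add (Integrable.const_mul (heat2_poly_int hV s y ((p1.mul (PolyG.of_linear
      (F := fun x => ‖gradient V (y + s • x)‖) fun x => by
        rw [abs_norm]; exact heat2_grad_le hV s y x)).of_le fun x => ?_) (by fun_prop)) s)
    rw [abs_of_nonneg (a := _ * _) (by positivity)]
    exact abs_real_inner_le_norm _ _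
  have h1 : ∫ x, (‖x‖ ^ 2 - 2 * s * ‖y‖ * ‖x‖) ∂rho V y s 0 ≤ (d : ℝ) := by
    rw [← heat2_ibp hV s y]
    refine integral_mono (i2.sub (i1.const_mul _)) i3 fun x => ?_
    have h1 := hV.mono_grad (y + s • x) y
    rw [add_sub_cancel_left, inner_smul_left, inner_sub_right, conj_trivial] at h1
    have h2 : |⟪x, gradient V y⟫| ≤ ‖x‖ * (2 * ‖y‖) := (abs_real_inner_le_norm _ _).trans
      (mul_le_mul_of_nonneg_left (hV.norm_grad y) (norm_nonneg _))
    have h3 := mul_le_mul_of_nonneg_left (neg_le_of_abs_le h2) hs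
    have h4 := sq_nonneg ‖s • x‖
    dsimp only
    nlinarith
  rw [integral_sub i2 (i1.const_mul _), integral_const_mul] at h1
  simp only [Pi.pow_apply] at v1
  by_contra h
  have h2 : √d * √d = (d : ℝ) := Real.mul_self_sqrt (Nat.cast_nonneg d)
  have h3 := Real.sqrt_nonneg (d : ℝ)
  have h4 : 0 ≤ 2 * s * ‖y‖ := by positivity
  push Not at h
  nlinarith

theorem gg_sub_grad (hV : InClass V) {s : ℝ} (hs : 0 ≤ s) (y : E d) :
    ‖gg V s y - gradient V y‖ ≤ 2 * s * √d + 4 * s ^ 2 * ‖y‖ := by
  have := isProb_rho hV y s 0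
  obtain ⟨i1, h1⟩ := rho0_moment hV hs y
  have e : gg V s y - gradient V y = ∫ x, (gradient V (y + s • x) - gradient V y) ∂rho V y s 0 := by
    rw [integral_sub (heat2_int_grad hV s y) (integrable_const _), ← gg_eq hV]
    simp
  rw [e]
  refine (norm_integral_le_of_norm_le (i1.norm.const_mul (2 * s)) (.of_forall fun x => ?_)).trans ?_
  · have h := hV.lip_grad.dist_le_mul (y + s • x) y
    rw [dist_eq_norm, dist_eq_norm, add_sub_cancel_left, norm_smul, Real.norm_of_nonneg hs,
      NNReal.coe_ofNat] at h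
    linarith
  · rw [integral_const_mul]
    nlinarith [mul_le_mul_of_nonneg_left h1 hs]

theorem norm_gg_le (hV : InClass V) {s : ℝ} (hs : 0 ≤ s) (hs' : 2 * s ^ 2 ≤ 1) (y : E d) :
    ‖gg V s y‖ ≤ 4 * Nm y := by
  have h1 := gg_sub_grad hV hs y
  have h2 := hV.norm_grad y
  have h3 := norm_le_norm_sub_add (gg V s y) (gradient V y)
  have h4 : s ≤ 1 := by nlinarith
  have h5 := Real.sqrt_nonneg (d : ℝ)
  have h6 := mul_le_mul_of_nonneg_right hs' (norm_nonneg y)
  have h7 := mul_le_mul_of_nonneg_right h4 h5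
  unfold Nm
  nlinarith

end Vale.Agent.P347
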