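import Vale.Agent.P347.Heat1

namespace Vale.Agent.P347

open MeasureTheory ProbabilityTheory
open scoped RealInnerProductSpace NNReal ENNReal

variable {d : ℕ}

variable {V : E d → ℝ}

theorem h3_cont (hV : InClass V) : Continuous V := hV.1.continuous

theorem h3_exp_Lam (hV : InClass V) (s : ℝ) (y : E d) : Real.exp (-Lam V s y) = pp V s y := by
  rw [Lam, neg_neg, Real.exp_log (pp_pos hV s y)]

theorem h3_cont_pp (hV : InClass V) (s : ℝ) : Continuous (pp V s) := by
  have : pp V s = fun y => Real.exp (-Lam V s y) := funext fun y => (h3_exp_Lam hV s y).symm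
  rw [this]
  exact (continuous_Lam hV s).neg.rexp

theorem h3_pp_le_one (hV : InClass V) (s : ℝ) (y : E d) : pp V s y ≤ 1 := by
  rw [← h3_exp_Lam hV, Real.exp_le_one_iff, neg_nonpos]
  exact Lam_nonneg hV s y

theorem h3_int_exp (hV : InClass V) (s : ℝ) (y : E d) :
    Integrable (fun z => Real.exp (-V (y + s • z))) (gam d) := by
  have hc := h3_cont hV
  refine Integrable.of_bound (by fun_prop : Continuous _).aestronglyMeasurable 1
    (ae_of_all _ fun z => ?_)
  rw [Real.norm_eq_abs, abs_of_pos (Real.exp_pos _), Real.exp_le_one_iff, neg_nonpos]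
  exact hV.nonneg _

theorem h3_ofReal_pp (hV : InClass V) (s : ℝ) (y : E d) : ENNReal.ofReal (pp V s y) =
    ∫⁻ z, ENNReal.ofReal (Real.exp (-V (y + s • z))) ∂gam d :=
  ofReal_integral_eq_lintegral_ofReal (h3_int_exp hV s y)
    (ae_of_all _ fun _ => (Real.exp_pos _).le)

theorem h3_int_gauss : Integrable (fun x : E d => Real.exp (-‖x‖ ^ 2 / 2)) volume ∧
    ∫ x : E d, Real.exp (-‖x‖ ^ 2 / 2) = ((2 * Real.pi) ^ (-(d : ℝ) / 2))⁻¹ := by
  have hc : (0 : ℝ) < (2 * Real.pi) ^ (-(d : ℝ) / 2) := by positivity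
  have h1 : ∫⁻ x : E d, ENNReal.ofReal ((2 * Real.pi) ^ (-(d : ℝ) / 2) * Real.exp (-‖x‖ ^ 2 / 2))
      = 1 := by
    have := measure_univ (μ := gam d)
    rwa [gam_eq_withDensity, withDensity_apply _ MeasurableSet.univ, Measure.restrict_univ] at this
  have hm : AEStronglyMeasurable
      (fun x : E d => (2 * Real.pi) ^ (-(d : ℝ) / 2) * Real.exp (-‖x‖ ^ 2 / 2)) volume :=
    (by fun_prop : Continuous _).aestronglyMeasurable
  have hpos : 0 ≤ᵐ[volume]
      fun x : E d => (2 * Real.pi) ^ (-(d : ℝ) / 2) * Real.exp (-‖x‖ ^ 2 / 2) :=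
    ae_of_all _ fun x => by positivity
  have h2 := (lintegral_ofReal_ne_top_iff_integrable hm hpos).1 (by rw [h1]; simp)
  have h3 := integral_eq_lintegral_of_nonneg_ae hpos hm
  rw [h1, integral_const_mul, ENNReal.toReal_one] at h3
  refine ⟨(integrable_const_mul_iff (IsUnit.mk0 _ hc.ne') _).1 h2, ?_⟩
  exact eq_inv_of_mul_eq_one_right h3

theorem h3_gam_tilted : gam d = (volume : Measure (E d)).tilted fun x => -‖x‖ ^ 2 / 2 := by
  rw [gam_eq_withDensity, Measure.tilted, h3_int_gauss.2]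
  congr 1
  funext x
  rw [div_inv_eq_mul, mul_comm]

theorem h3_gibbs_eq (V : E d → ℝ) :
    gibbs V = (gam d).tilted fun x => -(V x - ‖x‖ ^ 2 / 2) := by
  rw [h3_gam_tilted, tilted_tilted h3_int_gauss.1, gibbs]
  congr 1
  funext x
  simp only [Pi.add_apply]
  ring

theorem h3_W_nonneg (hV : InClass V) (x : E d) : 0 ≤ V x - ‖x‖ ^ 2 / 2 :=
  sub_nonneg.2 (hV.lower x)

theorem h3_isProb_gibbs (hV : InClass V) : IsProbabilityMeasure (gibbs V) := by
  have hc := h3_cont hV
  rw [h3_gibbs_eq]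
  exact isProb_tilted (by fun_prop) (h3_W_nonneg hV)

theorem h3_int_expV (hV : InClass V) : Integrable (fun x => Real.exp (-V x)) volume := by
  by_contra h
  have := h3_isProb_gibbs hV
  rw [gibbs, tilted_of_not_integrable h] at this
  exact zero_ne_one this.measure_univ

theorem h3_Z_pos (hV : InClass V) : 0 < ∫ x, Real.exp (-V x) :=
  integral_exp_pos (h3_int_expV hV)

theorem h3_polyG_tilted (hV : InClass V) {F : E d → ℝ} (h : PolyG F) (hm : Continuous F) :
    Integrable F (gibbs V) := by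
  have hc := h3_cont hV
  rw [h3_gibbs_eq]
  exact h.integrable_tilted (by fun_prop) (h3_W_nonneg hV) hm

theorem h3_polyG_inner (v : E d) : PolyG fun x : E d => ⟪x, v⟫ :=
  PolyG.of_linear (a := 0) (b := ‖v‖) fun x => by
    rw [zero_add, mul_comm]; exact abs_real_inner_le_norm x v

theorem h3_polyG_norm : PolyG fun x : E d => ‖x‖ :=
  PolyG.of_linear (a := 0) (b := 1) fun x => by simp

theorem h3_polyG_grad (hV : InClass V) (v : E d) : PolyG fun x : E d => ⟪gradient V x, v⟫ :=
  PolyG.of_linear (a := 0) (b := 2 * ‖v‖) fun x => by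
    have h1 := abs_real_inner_le_norm (gradient V x) v
    have h2 := mul_le_mul_of_nonneg_right (hV.norm_grad x) (norm_nonneg v)
    linarith

theorem h3_fderiv_W (hV : InClass V) (x v : E d) :
    fderiv ℝ (fun x => V x - ‖x‖ ^ 2 / 2) x v = ⟪gradient V x, v⟫ - ⟪x, v⟫ := by
  have h1 : HasFDerivAt V (InnerProductSpace.toDual ℝ (E d) (gradient V x)) x :=
    (hV.1.differentiable (by norm_num) x).hasGradientAt.hasFDerivAt
  have h2 := (hasStrictFDerivAt_norm_sq x).hasFDerivAt.mul_const (1 / 2 : ℝ)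
  have h3 := (h1.sub h2).fderiv
  have e : (fun x : E d => V x - ‖x‖ ^ 2 / 2) = V - fun y => ‖y‖ ^ 2 * (1 / 2 : ℝ) := by
    funext y
    simp only [Pi.sub_apply]
    ring
  rw [e, h3]
  simp

theorem h3_ibp (hV : InClass V) (i : Fin d) :
    ∫ x, ⟪x, ev i⟫ * ⟪gradient V x, ev i⟫ ∂gibbs V = 1 := by
  have hp := h3_isProb_gibbs hV
  have hF : ∀ x : E d, HasFDerivAt (fun x : E d => ⟪x, ev i⟫) (innerSL ℝ (ev i)) x := fun x => by
    have := (innerSL ℝ (ev i : E d)).hasFDerivAt (x := x)
    refine this.congr_of_eventuallyEq (Filter.Eventually.of_forall fun y => ?_)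
    simp only [innerSL_apply_apply]
    exact real_inner_comm _ _
  have hF' : ∀ x : E d, fderiv ℝ (fun x : E d => ⟪x, ev i⟫) x (ev i) = 1 := fun x => by
    rw [(hF x).fderiv]
    simp
  have h := ibp_tilted (W := fun x => V x - ‖x‖ ^ 2 / 2) (F := fun x : E d => ⟪x, ev i⟫)
    ((hV.1.of_le (by norm_num)).sub ((contDiff_norm_sq ℝ).div_const 2)) (h3_W_nonneg hV) (ev i)
    (by
      simp only [h3_fderiv_W hV]
      simp only [sub_eq_add_neg]
      refine (h3_polyG_grad hV _).add ((h3_polyG_inner (ev i)).of_le fun x => by rw [abs_neg]))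
    (contDiff_id.inner ℝ contDiff_const) (h3_polyG_inner _)
    (by simp only [hF']; exact PolyG.const 1)
  rw [← h3_gibbs_eq] at h
  simp only [hF', h3_fderiv_W hV, add_sub_cancel, integral_const, probReal_univ, smul_eq_mul,
    mul_one] at h
  exact h.symm

theorem h3_sq_moment (hV : InClass V) :
    Integrable (fun x : E d => ‖x‖ ^ 2) (gibbs V) ∧ ∫ x, ‖x‖ ^ 2 ∂gibbs V ≤ d := by
  have hg := hV.contDiff_grad.continuous
  have h1 : Integrable (fun x : E d => ‖x‖ ^ 2) (gibbs V) := by
    simp only [sq]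
    exact h3_polyG_tilted hV (h3_polyG_norm.mul h3_polyG_norm) (by fun_prop)
  have h2 : ∀ i, Integrable (fun x : E d => ⟪x, ev i⟫ * ⟪gradient V x, ev i⟫) (gibbs V) :=
    fun i => h3_polyG_tilted hV ((h3_polyG_inner _).mul (h3_polyG_grad hV _)) (by fun_prop)
  refine ⟨h1, ?_⟩
  calc ∫ x, ‖x‖ ^ 2 ∂gibbs V ≤ ∫ x, ∑ i, ⟪x, ev i⟫ * ⟪gradient V x, ev i⟫ ∂gibbs V := by
        refine integral_mono h1 (integrable_finsetSum _ fun i _ => h2 i) fun x => ?_
        have h3 := hV.mono_grad x 0
        rw [hV.2.2.1, sub_zero, sub_zero] at h3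
        refine h3.trans (le_of_eq ?_)
        rw [PiLp.inner_apply]
        refine Finset.sum_congr rfl fun i _ => ?_
        rw [EuclideanSpace.inner_single_right, EuclideanSpace.inner_single_right]
        simp [mul_comm]
    _ = d := by
        rw [integral_finsetSum _ fun i _ => h2 i]
        simp only [h3_ibp hV]
        simp

theorem h3_gibbs_moment (hV : InClass V) :
    Integrable (fun x : E d => x) (gibbs V) ∧ ∫ x, ‖x‖ ∂gibbs V ≤ √d := by
  have hp := h3_isProb_gibbs hV
  have h1 := h3_sq_moment hV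
  have h2 : MemLp (fun x : E d => ‖x‖) 2 (gibbs V) :=
    (memLp_two_iff_integrable_sq continuous_norm.aestronglyMeasurable).2 h1.1
  refine ⟨(integrable_norm_iff continuous_id.aestronglyMeasurable).1 (h2.integrable one_le_two), ?_⟩
  have h3 := variance_nonneg (fun x : E d => ‖x‖) (gibbs V)
  rw [variance_eq_sub h2] at h3
  refine Real.le_sqrt_of_sq_le ?_
  have h4 : ∫ x, ((fun x : E d => ‖x‖) ^ 2) x ∂gibbs V ≤ d := h1.2
  linarith

theorem h3_isProb_gibbsS (hV : InClass V) (s : ℝ) : IsProbabilityMeasure (gibbsS V s) := by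
  have hp := h3_isProb_gibbs hV
  exact Measure.isProbabilityMeasure_map (by fun_prop)

theorem h3_gibbsS_moment (hV : InClass V) (s : ℝ) :
    Integrable (fun y => y) (gibbsS V s) ∧ ∫ y, ‖y‖ ∂gibbsS V s ≤ (1 + |s|) * √d := by
  have hp := h3_isProb_gibbs hV
  have h1 := h3_gibbs_moment hV
  have h2 : Integrable (fun z : E d => z) (gam d) := IsGaussian.integrable_id
  have h3 : Integrable (fun p : E d × E d => p.1 + s • p.2) ((gibbs V).prod (gam d)) :=
    (h1.1.comp_fst _).add ((h2.comp_snd _).smul s)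
  refine ⟨(integrable_map_measure continuous_id.aestronglyMeasurable (by fun_prop)).2 h3, ?_⟩
  rw [gibbsS, integral_map (by fun_prop) continuous_norm.aestronglyMeasurable]
  calc ∫ p, ‖p.1 + s • p.2‖ ∂(gibbs V).prod (gam d)
      ≤ ∫ p, ‖p.1‖ + |s| * ‖p.2‖ ∂(gibbs V).prod (gam d) := by
        refine integral_mono h3.norm
          ((h1.1.norm.comp_fst _).add ((h2.norm.comp_snd _).const_mul _)) fun p => ?_
        refine (norm_add_le _ _).trans (le_of_eq ?_)
        rw [norm_smul, Real.norm_eq_abs]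
    _ = ∫ x, ‖x‖ ∂gibbs V + |s| * ∫ z, ‖z‖ ∂gam d := by
        rw [integral_add (h1.1.norm.comp_fst _) ((h2.norm.comp_snd _).const_mul _),
          integral_const_mul, integral_fun_fst (fun x : E d => ‖x‖),
          integral_fun_snd (fun x : E d => ‖x‖)]
        simp
    _ ≤ (1 + |s|) * √d := by
        have := mul_le_mul_of_nonneg_left (integral_norm_gam_le (d := d)) (abs_nonneg s)
        linarith [h1.2]

theorem h3_lint_gibbsS (hV : InClass V) (s : ℝ) {g : E d → ℝ≥0∞} (hg : Measurable g) :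
    ∫⁻ y, g y ∂gibbsS V s = ∫⁻ x, ∫⁻ z, g (x + s • z) ∂gam d ∂gibbs V := by
  have hp := h3_isProb_gibbs hV
  rw [gibbsS, lintegral_map hg (by fun_prop), lintegral_prod _ (by fun_prop)]

theorem h3_gibbsS_conv (hV : InClass V) (σ s : ℝ) :
    ((gibbsS V s).prod (gam d)).map (fun p => p.1 + σ • p.2) = gibbsS V (√(σ ^ 2 + s ^ 2)) := by
  have hp := h3_isProb_gibbsS hV s
  refine Measure.ext_of_lintegral _ fun g hg => ?_
  rw [lintegral_map hg (by fun_prop), lintegral_prod _ (by fun_prop),
    h3_lint_gibbsS hV s (Measurable.lintegral_prod_right' (f := fun p : E d × E d =>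
      g (p.1 + σ • p.2)) (by fun_prop)), h3_lint_gibbsS hV _ hg]
  refine lintegral_congr fun x => ?_
  have h1 := congrArg (fun μ : Measure (E d) => ∫⁻ u, g (x + u) ∂μ) (gam_sum (d := d) s σ)
  rw [lintegral_map (by fun_prop) (by fun_prop), lintegral_map (by fun_prop) (by fun_prop),
    lintegral_prod _ (by fun_prop), add_comm (s ^ 2)] at h1
  rw [← h1]
  simp only [add_assoc]

theorem h3_gibbsS_density (hV : InClass V) (s : ℝ) : gibbsS V s = (volume : Measure (E d)).withDensity
    fun y => ENNReal.ofReal (pp V s y / ∫ x, Real.exp (-V x)) := by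
  have hc := h3_cont hV
  have hc2 := h3_cont_pp hV s
  have hZ := h3_Z_pos hV
  set Z := ∫ x, Real.exp (-V x) with hZd
  refine Measure.ext_of_lintegral _ fun g hg => ?_
  rw [h3_lint_gibbsS hV s hg, gibbs, lintegral_tilted, ← hZd,
    lintegral_withDensity_eq_lintegral_mul _ (by fun_prop) hg]
  have e1 : ∀ x, ENNReal.ofReal (Real.exp (-V x) / Z) * ∫⁻ z, g (x + s • z) ∂gam d
      = ∫⁻ z, ENNReal.ofReal (Real.exp (-V x) / Z) * g (x + s • z) ∂gam d := fun x =>
    (lintegral_const_mul _ (by fun_prop)).symm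
  have e2 : ∀ z : E d, ∫⁻ x, ENNReal.ofReal (Real.exp (-V x) / Z) * g (x + s • z)
      = ∫⁻ y, ENNReal.ofReal (Real.exp (-V (y + s • -z)) / Z) * g y := fun z => by
    rw [← lintegral_add_right_eq_self
      (fun y => ENNReal.ofReal (Real.exp (-V (y + s • -z)) / Z) * g y) (s • z)]
    simp
  simp_rw [e1]
  rw [lintegral_lintegral_swap (by fun_prop)]
  simp_rw [e2]
  rw [lintegral_lintegral_swap (by fun_prop)]
  refine lintegral_congr fun y => ?_
  rw [lintegral_mul_const _ (by fun_prop),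
    gam_neg.lintegral_comp (f := fun z => ENNReal.ofReal (Real.exp (-V (y + s • z)) / Z))
      (by fun_prop), Pi.mul_apply]
  simp_rw [ENNReal.ofReal_div_of_pos hZ, div_eq_mul_inv]
  rw [h3_ofReal_pp hV, lintegral_mul_const _ (by fun_prop)]

theorem h3_pp_lower (hV : InClass V) (s : ℝ) (y : E d) :
    (1 - s ^ 2 * d) * Real.exp (-V y) ≤ pp V s y := by
  have h1 : Integrable (fun z : E d => ⟪gradient V y, z⟫) (gam d) :=
    IsGaussian.integrable_id.const_inner _
  have h2 : Integrable (fun z : E d => ‖z‖ ^ 2) (gam d) :=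
    (memLp_two_iff_integrable_sq_norm continuous_id.aestronglyMeasurable).1 IsGaussian.memLp_two_id
  have h3 : ∫ z, ⟪gradient V y, z⟫ ∂gam d = 0 :=
    integral_strongDual_stdGaussian (innerSL ℝ (gradient V y))
  calc (1 - s ^ 2 * d) * Real.exp (-V y)
      = ∫ z, (1 - s * ⟪gradient V y, z⟫ - s ^ 2 * ‖z‖ ^ 2) * Real.exp (-V y) ∂gam d := by
        have h4 : Integrable (fun z : E d => 1 - s * ⟪gradient V y, z⟫) (gam d) :=
          (integrable_const _).sub (h1.const_mul _)
        rw [integral_mul_const, integral_sub h4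
          (h2.const_mul _), integral_sub (integrable_const _) (h1.const_mul _), integral_const_mul,
          integral_const_mul, h3, integral_norm_sq_gam]
        simp
    _ ≤ pp V s y := by
        refine integral_mono ((((integrable_const _).sub (h1.const_mul _)).sub
          (h2.const_mul _)).mul_const _) (h3_int_exp hV s y) fun z => ?_
        have h4 := hV.upper y (s • z)
        rw [inner_smul_right, norm_smul, mul_pow, Real.norm_eq_abs, sq_abs] at h4
        have h5 := Real.add_one_le_exp (-V (y + s • z) + V y)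
        calc (1 - s * ⟪gradient V y, z⟫ - s ^ 2 * ‖z‖ ^ 2) * Real.exp (-V y)
            ≤ Real.exp (-V (y + s • z) + V y) * Real.exp (-V y) :=
              mul_le_mul_of_nonneg_right (by linarith) (Real.exp_pos _).le
          _ = Real.exp (-V (y + s • z)) := by rw [← Real.exp_add]; congr 1; ring

theorem h3_tv_one (hV : InClass V) (s : ℝ) {B : Set (E d)} (hB : MeasurableSet B) :
    (gibbs V).real B - s ^ 2 * d ≤ (gibbsS V s).real B := by
  have hp := h3_isProb_gibbs hV
  have hp' := h3_isProb_gibbsS hV s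
  have hc := h3_cont hV
  have hZ := h3_Z_pos hV
  have h1 : ENNReal.ofReal (1 - s ^ 2 * d) * gibbs V B ≤ gibbsS V s B := by
    rw [h3_gibbsS_density hV, gibbs, tilted_apply' _ _ hB, withDensity_apply _ hB,
      ← lintegral_const_mul _ (by fun_prop)]
    refine lintegral_mono fun y => ?_
    rw [← ENNReal.ofReal_mul' (by positivity), ← mul_div_assoc]
    exact ENNReal.ofReal_le_ofReal (div_le_div_of_nonneg_right (h3_pp_lower hV s y) hZ.le)
  have h2 := ENNReal.toReal_mono (measure_ne_top _ _) h1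
  rw [ENNReal.toReal_mul, ENNReal.toReal_ofReal'] at h2
  have h3 : (gibbs V).real B ≤ 1 := measureReal_le_one
  have h4 : 0 ≤ (gibbs V).real B := measureReal_nonneg
  have h5 : (1 - s ^ 2 * d) * (gibbs V).real B ≤ (gibbsS V s).real B :=
    (mul_le_mul_of_nonneg_right (le_max_left _ _) h4).trans h2
  have h6 : s ^ 2 * d * (gibbs V).real B ≤ s ^ 2 * d := mul_le_of_le_one_right (by positivity) h3
  linarith

theorem h3_tv (hV : InClass V) (s : ℝ) {B : Set (E d)} (hB : MeasurableSet B) :
    |(gibbsS V s).real B - (gibbs V).real B| ≤ s ^ 2 * d := by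
  have hp := h3_isProb_gibbs hV
  have hp' := h3_isProb_gibbsS hV s
  have h1 := h3_tv_one hV s hB
  have h2 := h3_tv_one hV s hB.compl
  rw [measureReal_compl hB, measureReal_compl hB, probReal_univ, probReal_univ] at h2
  rw [abs_le]
  constructor <;> linarith

theorem h3_int_lip {μ : Measure (E d)} [IsFiniteMeasure μ] (h : Integrable (fun y => y) μ)
    {f : E d → ℝ} {L : ℝ≥0} (hf : LipschitzWith L f) : Integrable f μ := by
  refine Integrable.mono' ((integrable_const ‖f 0‖).add (h.norm.const_mul L))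
    hf.continuous.aestronglyMeasurable (ae_of_all _ fun y => ?_)
  have h1 := hf.norm_sub_le y 0
  rw [sub_zero] at h1
  have h2 := norm_le_norm_add_norm_sub' (f y) (f 0)
  simp only [Pi.add_apply]
  linarith

theorem h3_gibbsS_noise (hV : InClass V) (σ s : ℝ) {f : E d → ℝ} {L : ℝ≥0}
    (hf : LipschitzWith L f) :
    ∫ y, ∫ z, f (y + σ • z) ∂gam d ∂gibbsS V s = ∫ x, f x ∂gibbsS V (√(σ ^ 2 + s ^ 2)) := by
  have hp := h3_isProb_gibbsS hV s
  have hp' := h3_isProb_gibbsS hV (√(σ ^ 2 + s ^ 2))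
  have h1 := h3_int_lip (h3_gibbsS_moment hV (√(σ ^ 2 + s ^ 2))).1 hf
  rw [← h3_gibbsS_conv hV] at h1 ⊢
  rw [integral_map (by fun_prop) hf.continuous.aestronglyMeasurable, integral_prod]
  exact (integrable_map_measure hf.continuous.aestronglyMeasurable (by fun_prop)).1 h1

theorem h3_integral_gibbsS (hV : InClass V) (s : ℝ) (f : E d → ℝ) :
    ∫ y, f y ∂gibbsS V s = ∫ y, pp V s y / (∫ x, Real.exp (-V x)) * f y := by
  have hc2 := h3_cont_pp hV s
  have hZ := h3_Z_pos hV
  rw [h3_gibbsS_density hV, integral_withDensity_eq_integral_toReal_smul (by fun_prop)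
    (ae_of_all _ fun _ => ENNReal.ofReal_lt_top)]
  refine integral_congr_ae (ae_of_all _ fun y => ?_)
  simp only [smul_eq_mul]
  rw [ENNReal.toReal_ofReal (div_pos (pp_pos hV s y) hZ).le]

theorem h3_integral_rhoY (hV : InClass V) (y : E d) (σ s : ℝ) {f : E d → ℝ} (hf : Continuous f) :
    ∫ x, f x ∂rhoY V y σ s =
      ∫ x, pp V s (y + σ • x) / pp V (√(σ ^ 2 + s ^ 2)) y * f (y + σ • x) ∂gam d := by
  rw [rhoY, integral_map (by fun_prop) hf.aestronglyMeasurable, rho, integral_tilted,
    integral_exp_neg_Lam hV]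
  simp only [h3_exp_Lam hV, smul_eq_mul]

theorem h3_gibbsS_descend (hV : InClass V) (σ s : ℝ) {f : E d → ℝ}
    {L : ℝ≥0} (hf : LipschitzWith L f) :
    ∫ y, ∫ x, f x ∂rhoY V y σ s ∂gibbsS V (√(σ ^ 2 + s ^ 2)) = ∫ x, f x ∂gibbsS V s := by
  have hp := h3_isProb_gibbsS hV s
  have hc := hf.continuous
  have hc2 := h3_cont_pp hV s
  have hZ := h3_Z_pos hV
  have h1 := h3_int_lip (h3_gibbsS_moment hV s).1 hf
  rw [h3_gibbsS_density hV, integrable_withDensity_iff_integrable_smul' (by fun_prop)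
    (ae_of_all _ fun _ => ENNReal.ofReal_lt_top)] at h1
  rw [h3_integral_gibbsS hV, h3_integral_gibbsS hV]
  set Z := ∫ x, Real.exp (-V x) with hZd
  set G : E d → ℝ := fun y => pp V s y / Z * f y with hG
  have hGc : Continuous G := by fun_prop
  have hGi : Integrable G := by
    refine h1.congr (ae_of_all _ fun y => ?_)
    simp only [smul_eq_mul, hG]
    rw [ENNReal.toReal_ofReal (div_pos (pp_pos hV s y) hZ).le]
  have e1 : ∀ y, pp V (√(σ ^ 2 + s ^ 2)) y / Z * ∫ x, f x ∂rhoY V y σ s
      = ∫ x, G (y + σ • x) ∂gam d := fun y => by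
    rw [h3_integral_rhoY hV y σ s hc, ← integral_const_mul]
    refine integral_congr_ae (ae_of_all _ fun x => ?_)
    have := (pp_pos hV (√(σ ^ 2 + s ^ 2)) y).ne'
    simp only [hG]
    field_simp
  simp_rw [e1]
  have h2 : Integrable (Function.uncurry fun y x => G (y + σ • x)) (volume.prod (gam d)) := by
    rw [integrable_prod_iff' (by fun_prop : Continuous _).aestronglyMeasurable]
    refine ⟨ae_of_all _ fun x => hGi.comp_add_right (σ • x), ?_⟩
    simp only [Function.uncurry_apply_pair]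
    simp_rw [integral_add_right_eq_self (fun y => ‖G y‖)]
    exact integrable_const _
  rw [integral_integral_swap h2]
  simp_rw [integral_add_right_eq_self G]
  simp

end Vale.Agent.P347
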