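import Vale.Agent.P347.Heat1
import Vale.Agent.P347.Poincare

namespace Vale.Agent.P347

open MeasureTheory ProbabilityTheory
open scoped RealInnerProductSpace NNReal ENNReal

variable {d : ℕ}

variable {V : E d → ℝ}

theorem h3b_exp_Lam (hV : InClass V) (s : ℝ) (y : E d) : Real.exp (-Lam V s y) = pp V s y := by
  rw [Lam, neg_neg, Real.exp_log (pp_pos hV s y)]

theorem h3b_cont_pp (hV : InClass V) (s : ℝ) : Continuous (pp V s) := by
  have : pp V s = fun y => Real.exp (-Lam V s y) := funext fun y => (h3b_exp_Lam hV s y).symm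
  rw [this]
  exact (continuous_Lam hV s).neg.rexp

theorem h3b_semigroup (hV : InClass V) (m : E d) (σ s : ℝ) :
    ENNReal.ofReal (pp V (√(σ ^ 2 + s ^ 2)) m) =
      ∫⁻ x, ENNReal.ofReal (pp V s (m + σ • x)) ∂gam d := by
  have hc := h3b_cont_pp hV s
  rw [← integral_exp_neg_Lam hV]
  simp only [h3b_exp_Lam hV]
  refine ofReal_integral_eq_lintegral_ofReal ?_ (ae_of_all _ fun _ => (pp_pos hV _ _).le)
  refine Integrable.of_bound (by fun_prop : Continuous _).aestronglyMeasurable 1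
    (ae_of_all _ fun z => ?_)
  rw [Real.norm_eq_abs, abs_of_pos (pp_pos hV _ _), ← h3b_exp_Lam hV, Real.exp_le_one_iff,
    neg_nonpos]
  exact Lam_nonneg hV _ _

theorem h3b_lint_rhoY (hV : InClass V) (m : E d) (σ s : ℝ) {g : E d → ℝ≥0∞} (hg : Measurable g) :
    ∫⁻ y, g y ∂rhoY V m σ s = (ENNReal.ofReal (pp V (√(σ ^ 2 + s ^ 2)) m))⁻¹ *
      ∫⁻ x, ENNReal.ofReal (pp V s (m + σ • x)) * g (m + σ • x) ∂gam d := by
  have hc := h3b_cont_pp hV s
  rw [rhoY, lintegral_map hg (by fun_prop), rho, lintegral_tilted, integral_exp_neg_Lam hV,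
    ← lintegral_const_mul _ (by fun_prop)]
  refine lintegral_congr fun x => ?_
  rw [h3b_exp_Lam hV, ENNReal.ofReal_div_of_pos (pp_pos hV _ _), div_eq_mul_inv]
  ring

theorem h3b_bridge (hV : InClass V) (m : E d) {σ₁ σ' s₂ : ℝ} (hpos : 0 < σ₁ ^ 2 + σ' ^ 2) :
    rhoY V m σ₁ (√(σ' ^ 2 + s₂ ^ 2)) =
      ((rhoY V m (√(σ₁ ^ 2 + σ' ^ 2)) s₂).prod (gam d)).map fun p =>
        m + (σ₁ ^ 2 / (σ₁ ^ 2 + σ' ^ 2)) • (p.1 - m) + (σ₁ * σ' / √(σ₁ ^ 2 + σ' ^ 2)) • p.2 := by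
  have hc := h3b_cont_pp hV s₂
  have hp := isProb_rhoY hV m (√(σ₁ ^ 2 + σ' ^ 2)) s₂
  set τ := √(σ₁ ^ 2 + σ' ^ 2) with hτ
  have hτ0 : 0 < τ := Real.sqrt_pos.2 hpos
  have hτ2 : τ ^ 2 = σ₁ ^ 2 + σ' ^ 2 := Real.sq_sqrt hpos.le
  refine Measure.ext_of_lintegral _ fun g hg => ?_
  rw [lintegral_map hg (by fun_prop), lintegral_prod _ (by fun_prop),
    h3b_lint_rhoY hV m τ s₂ (Measurable.lintegral_prod_right' (f := fun p : E d × E d =>
      g (m + (σ₁ ^ 2 / (σ₁ ^ 2 + σ' ^ 2)) • (p.1 - m) + (σ₁ * σ' / τ) • p.2)) (by fun_prop)),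
    h3b_lint_rhoY hV m σ₁ _ hg, Real.sq_sqrt (by positivity), hτ2, add_assoc (σ₁ ^ 2)]
  congr 1
  have hr := (gam_rot (d := d) (c := σ₁ / τ) (s := σ' / τ) (by field_simp; linarith)).lintegral_comp
    (f := fun p : E d × E d => ENNReal.ofReal (pp V s₂ (m + τ • p.1)) *
      g (m + (σ₁ ^ 2 / (σ₁ ^ 2 + σ' ^ 2)) • (τ • p.1) + (σ₁ * σ' / τ) • p.2)) (by fun_prop)
  rw [lintegral_prod _ (by fun_prop), lintegral_prod _ (by fun_prop)] at hr
  simp only [add_sub_cancel_left]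
  simp_rw [← lintegral_const_mul' _ _ ENNReal.ofReal_ne_top]
  rw [← hr]
  refine lintegral_congr fun x => ?_
  rw [h3b_semigroup hV, ← lintegral_mul_const _ (by fun_prop)]
  refine lintegral_congr fun x' => ?_
  have e1 : m + τ • ((σ₁ / τ) • x + (σ' / τ) • x') = m + σ₁ • x + σ' • x' := by
    rw [smul_add, smul_smul, smul_smul, mul_div_cancel₀ _ hτ0.ne', mul_div_cancel₀ _ hτ0.ne',
      add_assoc]
  have e2 : m + (σ₁ ^ 2 / (σ₁ ^ 2 + σ' ^ 2)) • τ • ((σ₁ / τ) • x + (σ' / τ) • x') +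
      (σ₁ * σ' / τ) • ((σ' / τ) • x - (σ₁ / τ) • x') = m + σ₁ • x := by
    rw [← hτ2]
    have h1 : σ₁ ^ 2 / τ ^ 2 * (τ * (σ₁ / τ)) + σ₁ * σ' / τ * (σ' / τ) = σ₁ := by
      field_simp
      rw [hτ2]
    have h2 : σ₁ ^ 2 / τ ^ 2 * (τ * (σ' / τ)) - σ₁ * σ' / τ * (σ₁ / τ) = 0 := by
      field_simp
      ring
    simp only [smul_add, smul_sub, smul_smul]
    linear_combination (norm := module) h1 • x + h2 • x'
  simp only [e1, e2]

theorem h3b_cov {Ω : Type*} [MeasurableSpace Ω] {μ : Measure Ω} [IsProbabilityMeasure μ]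
    {X Y : Ω → ℝ} (hX : MemLp X 2 μ) (hY : MemLp Y 2 μ) {a b : ℝ} (ha : 0 ≤ a) (hb : 0 ≤ b)
    (h1 : Var[X; μ] ≤ a ^ 2) (h2 : Var[Y; μ] ≤ b ^ 2) : |cov[X, Y; μ]| ≤ a * b := by
  have h3 : ∀ t : ℝ, 0 ≤ Var[Y; μ] * (t * t) + 2 * cov[X, Y; μ] * t + Var[X; μ] := fun t => by
    have h := variance_nonneg (fun ω => X ω + t * Y ω) μ
    rw [variance_fun_add hX (hY.const_mul t), variance_const_mul, covariance_const_mul_right] at h
    linarith
  have h4 := discrim_le_zero h3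
  rw [discrim] at h4
  refine abs_le_of_sq_le_sq' ?_ (by positivity) |> abs_le.2
  have h5 := mul_le_mul h1 h2 (variance_nonneg _ _) (sq_nonneg a)
  rw [mul_pow]
  linarith

theorem h3b_rho_zero (V : E d → ℝ) (y : E d) (σ : ℝ) :
    rho V y σ 0 = (gam d).tilted fun x => -V (y + σ • x) := by
  rw [rho, Lam_zero]

theorem h3b_lip_bound {f : E d → ℝ} {L : ℝ≥0} (hf : LipschitzWith L f) (x : E d) :
    |f x| ≤ |f 0| + L * ‖x‖ := by
  have h1 := hf.norm_sub_le x 0
  rw [sub_zero, Real.norm_eq_abs] at h1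
  have h2 := abs_sub_abs_le_abs_sub (f x) (f 0)
  linarith

theorem h3b_memLp {W : E d → ℝ} (hc : Continuous W) (h0 : ∀ x, 0 ≤ W x) {f : E d → ℝ} {L : ℝ≥0}
    (hf : LipschitzWith L f) : MemLp f 2 ((gam d).tilted fun x => -W x) := by
  have h1 : PolyG f := PolyG.of_linear (h3b_lip_bound hf)
  refine (memLp_two_iff_integrable_sq hf.continuous.aestronglyMeasurable).2 ?_
  simp only [sq]
  exact (h1.mul h1).integrable_tilted hc h0 (hf.continuous.mul hf.continuous)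

theorem h3b_hasDeriv {W : E d → ℝ} (hc : Continuous W) (h0 : ∀ x, 0 ≤ W x) {f : E d → ℝ} {L : ℝ≥0}
    (hf : LipschitzWith L f) (θ : E d) :
    HasDerivAt (fun t : ℝ => ∫ x, f x * Real.exp (t * ⟪θ, x⟫) ∂(gam d).tilted fun x => -W x)
      (∫ x, f x * ⟪θ, x⟫ ∂(gam d).tilted fun x => -W x) 0 := by
  have hfc := hf.continuous
  let Φ : E d → ℝ →L[ℝ] ℝ := fun x => ContinuousLinearMap.toSpanSingleton ℝ ⟪θ, x⟫
  have hΦ : Continuous Φ := by
    refine (ContinuousLinearMap.toSpanSingletonLIE ℝ ℝ).continuous.comp (by fun_prop)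
  have hg : ExpGood ((gam d).tilted fun x => -W x) Φ {0} f := by
    refine ⟨hfc.aestronglyMeasurable, ?_⟩
    rintro η rfl
    refine ⟨1, one_pos, ?_⟩
    refine Integrable.mono' ((integrable_exp_norm_tilted hc h0 (‖θ‖ + 1)).const_mul (|f 0| + L))
      (by fun_prop : Continuous _).aestronglyMeasurable (ae_of_all _ fun x => ?_)
    have h1 := h3b_lip_bound hf x
    have h2 : ‖Φ x‖ ≤ ‖θ‖ * ‖x‖ := by
      rw [ContinuousLinearMap.norm_toSpanSingleton]
      exact norm_inner_le_norm θ x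
    have h3 := Real.add_one_le_exp ‖x‖
    have h4 : |f x| ≤ (|f 0| + L) * Real.exp ‖x‖ := by
      have h5 := norm_nonneg x
      have h6 := abs_nonneg (f 0)
      have h7 : (0 : ℝ) ≤ L := L.2
      nlinarith
    rw [map_zero, zero_add, one_mul, Real.norm_eq_abs, abs_of_nonneg (by positivity), add_mul ‖θ‖,
      one_mul, add_comm (‖θ‖ * ‖x‖), Real.exp_add, ← mul_assoc]
    gcongr
  obtain ⟨h1, h2⟩ := hg.differentiableAt hΦ.aestronglyMeasurable (Set.mem_singleton 0)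
  have h3 := h1.hasDerivAt
  rw [← fderiv_apply_one_eq_deriv, h2] at h3
  simpa [Φ] using h3

theorem h3b_shift (hV : InClass V) (y θ : E d) (σ : ℝ) {f : E d → ℝ} (hf : Continuous f) :
    ∫ x, f x ∂rhoY V (y + σ • θ) σ 0 =
      (∫ x, f (y + σ • x) * Real.exp ⟪θ, x⟫ ∂rho V y σ 0) /
        ∫ x, 1 * Real.exp ⟪θ, x⟫ ∂rho V y σ 0 := by
  have hZ : 0 < ∫ x, Real.exp (-V (y + σ • x)) ∂gam d := pp_pos hV σ y
  have e : ∀ x : E d, y + σ • θ + σ • x = y + σ • (x + θ) := fun x => by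
    rw [smul_add, add_assoc, add_comm (σ • θ)]
  rw [rhoY, integral_map (by fun_prop) hf.aestronglyMeasurable, h3b_rho_zero, h3b_rho_zero,
    integral_tilted, integral_tilted, integral_tilted]
  simp only [e, smul_eq_mul, div_mul_eq_mul_div, integral_div]
  rw [gam_shift θ fun x => Real.exp (-V (y + σ • x)),
    gam_shift θ fun x => Real.exp (-V (y + σ • x)) * f (y + σ • x),
    div_div_div_cancel_right₀ hZ.ne']
  simp only [smul_eq_mul, Real.exp_sub, div_mul_eq_mul_div, integral_div]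
  rw [div_div_div_cancel_right₀ (Real.exp_pos _).ne']
  congr 1
  · exact integral_congr_ae (ae_of_all _ fun x => by ring)
  · exact integral_congr_ae (ae_of_all _ fun x => by ring)

theorem h3b_deriv_bound (hV : InClass V) (y θ : E d) {σ : ℝ} (hσ : 0 < σ) {f : E d → ℝ} {L : ℝ≥0}
    (hf : LipschitzWith L f) : ∃ c : ℝ, |c| ≤ L * σ * ‖θ‖ / (1 + σ ^ 2) ∧
      HasDerivAt (fun t : ℝ => ∫ x, f x ∂rhoY V (y + σ • (t • θ)) σ 0) c 0 := by
  have hc : Continuous V := hV.1.continuous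
  have hW : Continuous fun x => V (y + σ • x) := by fun_prop
  have h0 : ∀ x, 0 ≤ V (y + σ • x) := fun x => hV.nonneg _
  have hp := isProb_tilted hW h0
  have hf1 : LipschitzWith (L * ⟨σ, hσ.le⟩) fun x => f (y + σ • x) := by
    refine hf.comp (LipschitzWith.of_dist_le_mul fun x x' => ?_)
    rw [dist_add_left, dist_smul₀, Real.norm_eq_abs, abs_of_pos hσ]
    rfl
  have hf2 : LipschitzWith ‖θ‖₊ fun x : E d => ⟪θ, x⟫ := by
    refine LipschitzWith.of_dist_le_mul fun x x' => ?_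
    rw [Real.dist_eq, ← inner_sub_right, dist_eq_norm]
    exact abs_real_inner_le_norm _ _
  have hmid : ∀ x x' : E d, V (y + σ • (1 / 2 : ℝ) • (x + x')) ≤
      (V (y + σ • x) + V (y + σ • x')) / 2 - σ ^ 2 * ‖x - x'‖ ^ 2 / 8 := fun x x' => by
    have h := hV.mid (y + σ • x) (y + σ • x')
    rw [add_sub_add_left_eq_sub, ← smul_sub, norm_smul, mul_pow, Real.norm_eq_abs, sq_abs] at h
    convert h using 2
    module
  have v1 := poincare_lip hW h0 (sq_nonneg σ) hmid hf1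
  have v2 := poincare_lip hW h0 (sq_nonneg σ) hmid hf2
  have hs : 0 < 1 + σ ^ 2 := by positivity
  have hs2 : √(1 + σ ^ 2) ^ 2 = 1 + σ ^ 2 := Real.sq_sqrt hs.le
  have m1 := h3b_memLp hW h0 hf1
  have m2 := h3b_memLp hW h0 hf2
  have hcov := h3b_cov m1 m2 (a := L * σ / √(1 + σ ^ 2)) (b := ‖θ‖ / √(1 + σ ^ 2))
    (by positivity) (by positivity) (by rw [div_pow, hs2]; exact v1) (by rw [div_pow, hs2]; exact v2)
  rw [div_mul_div_comm, ← sq, hs2] at hcov
  refine ⟨_, hcov, ?_⟩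
  have d1 := h3b_hasDeriv hW h0 hf1 θ
  have d2 := h3b_hasDeriv hW h0 (LipschitzWith.const (1 : ℝ)) θ
  have d3 := d1.fun_div d2 (by simp)
  simp only [h3b_shift hV _ _ _ hf.continuous, h3b_rho_zero, real_inner_smul_left]
  refine d3.congr_deriv ?_
  rw [covariance_eq_sub m1 m2]
  simp

theorem h3b_contract (hV : InClass V) {σ : ℝ} (hσ : 0 < σ) {f : E d → ℝ} {L : ℝ≥0}
    (hf : LipschitzWith L f) (y y' : E d) :
    |∫ x, f x ∂rhoY V y σ 0 - ∫ x, f x ∂rhoY V y' σ 0| ≤ L / (1 + σ ^ 2) * ‖y - y'‖ := by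
  set θ : E d := σ⁻¹ • (y - y') with hθ
  choose c hc hd using fun t : ℝ => h3b_deriv_bound hV (y' + σ • (t • θ)) θ hσ hf
  have h1 : ∀ t, HasDerivAt (fun t : ℝ => ∫ x, f x ∂rhoY V (y' + σ • (t • θ)) σ 0) (c t) t :=
    fun t => by
      have h := HasDerivAt.comp_sub_const t t (by rw [sub_self]; exact hd t)
      refine h.congr_of_eventuallyEq (Filter.Eventually.of_forall fun u => ?_)
      have : y' + σ • (u • θ) = y' + σ • (t • θ) + σ • ((u - t) • θ) := by module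
      simp only [this]
  have h2 := norm_image_sub_le_of_norm_deriv_le_segment_01'
    (fun t _ => (h1 t).hasDerivWithinAt) (fun t _ => hc t)
  rw [one_smul, zero_smul, smul_zero, add_zero, hθ, smul_inv_smul₀ hσ.ne', add_sub_cancel,
    norm_smul, Real.norm_eq_abs, Real.norm_eq_abs, abs_of_pos (inv_pos.2 hσ)] at h2
  refine h2.trans (le_of_eq ?_)
  field_simp

theorem h3b_int_rhoY (hV : InClass V) (y : E d) (σ : ℝ) :
    Integrable (fun u => u) (rhoY V y σ 0) := by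
  have hc : Continuous V := hV.1.continuous
  have hp := isProb_rho hV y σ 0
  have h1 : Integrable (fun x : E d => ‖x‖) (rho V y σ 0) := by
    rw [h3b_rho_zero]
    exact (PolyG.of_linear (a := 0) (b := 1) fun x => by simp).integrable_tilted (by fun_prop)
      (fun x => hV.nonneg _) continuous_norm
  have h2 := (integrable_norm_iff continuous_id.aestronglyMeasurable).1 h1
  exact (integrable_map_measure continuous_id.aestronglyMeasurable (by fun_prop)).2
    ((integrable_const y).add (h2.smul σ))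

end Vale.Agent.P347
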