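import Vale.Agent.P347.Heat2
import Vale.Agent.P347.Heat3AuxA
import Vale.Agent.P347.Heat3AuxB

namespace Vale.Agent.P347

open MeasureTheory ProbabilityTheory
open scoped RealInnerProductSpace NNReal ContDiff

variable {d : ℕ}

variable {V : E d → ℝ}

/-- Gaussian bridge between two levels -/
theorem rhoY_bridge (hV : InClass V) (m : E d) {σ₁ σ' s₂ : ℝ} (h₁ : 0 ≤ σ₁) (h' : 0 ≤ σ')
    (hpos : 0 < σ₁ ^ 2 + σ' ^ 2) :
    rhoY V m σ₁ (√(σ' ^ 2 + s₂ ^ 2)) =
      ((rhoY V m (√(σ₁ ^ 2 + σ' ^ 2)) s₂).prod (gam d)).map fun p =>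
        m + (σ₁ ^ 2 / (σ₁ ^ 2 + σ' ^ 2)) • (p.1 - m) + (σ₁ * σ' / √(σ₁ ^ 2 + σ' ^ 2)) • p.2 :=
  h3b_bridge hV m hpos

theorem h3_bridge_zero (hV : InClass V) (m : E d) {σ s : ℝ} (hσ : 0 < σ) (hs : 0 ≤ s) :
    rhoY V m σ s = ((rhoY V m (√(σ ^ 2 + s ^ 2)) 0).prod (gam d)).map fun p =>
      m + (σ ^ 2 / (σ ^ 2 + s ^ 2)) • (p.1 - m) + (σ * s / √(σ ^ 2 + s ^ 2)) • p.2 := by
  rw [← h3b_bridge hV m (by positivity)]
  congr 1
  rw [zero_pow two_ne_zero, add_zero, Real.sqrt_sq hs]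

theorem h3_int_pair (hV : InClass V) (m c : E d) (τ a b : ℝ) :
    Integrable (fun p : E d × E d => c + a • (p.1 - c) + b • p.2)
      ((rhoY V m τ 0).prod (gam d)) := by
  have hp := isProb_rhoY hV m τ 0
  have h2 : Integrable (fun z : E d => z) (gam d) := IsGaussian.integrable_id
  exact ((integrable_const c).add ((((h3b_int_rhoY hV m τ).comp_fst _).sub
    (integrable_const c)).smul a)).add ((h2.comp_snd _).smul b)

theorem h3_int_rhoY (hV : InClass V) (m : E d) {σ s : ℝ} (hσ : 0 < σ) (hs : 0 ≤ s) :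
    Integrable (fun y => y) (rhoY V m σ s) := by
  rw [h3_bridge_zero hV m hσ hs]
  exact (integrable_map_measure continuous_id.aestronglyMeasurable (by fun_prop)).2
    (h3_int_pair hV m m _ _ _)

theorem h3_int_comp {Ω : Type*} [MeasurableSpace Ω] {μ : Measure Ω} [IsFiniteMeasure μ]
    {A : Ω → E d} (h : Integrable A μ) {f : E d → ℝ} {L : ℝ≥0} (hf : LipschitzWith L f) :
    Integrable (fun o => f (A o)) μ := by
  refine Integrable.mono' ((integrable_const |f 0|).add (h.norm.const_mul L))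
    (hf.continuous.comp_aestronglyMeasurable h.1) (ae_of_all _ fun o => ?_)
  exact h3b_lip_bound hf (A o)

theorem h3_smooth_lip {f : E d → ℝ} {L : ℝ≥0} (hf : LipschitzWith L f) (b : ℝ) (u u' : E d) :
    |∫ z, f (u + b • z) ∂gam d - ∫ z, f (u' + b • z) ∂gam d| ≤ L * ‖u - u'‖ := by
  have h2 : Integrable (fun z : E d => z) (gam d) := IsGaussian.integrable_id
  have h : ∀ u : E d, Integrable (fun z => f (u + b • z)) (gam d) := fun u =>
    h3_int_comp ((integrable_const u).add (h2.smul b)) hf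
  rw [← integral_sub (h u) (h u'), ← Real.norm_eq_abs]
  refine (norm_integral_le_of_norm_le_const (C := L * ‖u - u'‖)
    (ae_of_all _ fun z => ?_)).trans (by simp)
  simpa using hf.norm_sub_le (u + b • z) (u' + b • z)

theorem rhoY_contract (hV : InClass V) {σ s : ℝ} (hσ : 0 < σ) (hs : 0 ≤ s) {f : E d → ℝ} {L : ℝ≥0}
    (hf : LipschitzWith L f) (y y' : E d) :
    |∫ x, f x ∂rhoY V y σ s - ∫ x, f x ∂rhoY V y' σ s| ≤
      L * (1 - σ ^ 2 / (1 + σ ^ 2 + s ^ 2)) * ‖y - y'‖ := by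
  have hpos : 0 < σ ^ 2 + s ^ 2 := by positivity
  set τ := √(σ ^ 2 + s ^ 2) with hτ
  have hτ0 : 0 < τ := Real.sqrt_pos.2 hpos
  have hτ2 : τ ^ 2 = σ ^ 2 + s ^ 2 := Real.sq_sqrt hpos.le
  set a := σ ^ 2 / (σ ^ 2 + s ^ 2) with ha
  set b := σ * s / τ with hb
  have ha0 : 0 ≤ a := by positivity
  have ha1 : a ≤ 1 := (div_le_one hpos).2 (le_add_of_nonneg_right (sq_nonneg s))
  let F : E d → E d → ℝ := fun c u => ∫ z, f (c + a • (u - c) + b • z) ∂gam d
  have hF : ∀ c, LipschitzWith (L * ⟨a, ha0⟩) (F c) := fun c =>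
    LipschitzWith.of_dist_le_mul fun u u' => by
      refine (h3_smooth_lip hf b _ _).trans (le_of_eq ?_)
      rw [add_sub_add_left_eq_sub, ← smul_sub, sub_sub_sub_cancel_right, norm_smul,
        Real.norm_eq_abs, abs_of_nonneg ha0, dist_eq_norm, ← mul_assoc]
      rfl
  have h1 : ∀ c, ∫ x, f x ∂rhoY V c σ s = ∫ u, F c u ∂rhoY V c τ 0 := fun c => by
    have hp := isProb_rhoY hV c τ 0
    rw [h3_bridge_zero hV c hσ hs, integral_map (by fun_prop) hf.continuous.aestronglyMeasurable,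
      integral_prod _ (h3_int_comp (h3_int_pair hV c c τ a b) hf)]
  have hp := isProb_rhoY hV y τ 0
  have h2 := h3b_contract hV hτ0 (hF y') y y'
  have h3 : |∫ u, F y u ∂rhoY V y τ 0 - ∫ u, F y' u ∂rhoY V y τ 0| ≤ L * ((1 - a) * ‖y - y'‖) := by
    rw [← integral_sub (h3_int_lip (h3b_int_rhoY hV y τ) (hF y))
      (h3_int_lip (h3b_int_rhoY hV y τ) (hF y')), ← Real.norm_eq_abs]
    refine (norm_integral_le_of_norm_le_const (C := L * ((1 - a) * ‖y - y'‖))
      (ae_of_all _ fun u => ?_)).trans (by simp)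
    refine (h3_smooth_lip hf b _ _).trans (le_of_eq ?_)
    rw [show y + a • (u - y) - (y' + a • (u - y')) = (1 - a) • (y - y') by module, norm_smul,
      Real.norm_eq_abs, abs_of_nonneg (sub_nonneg.2 ha1)]
  rw [h1, h1]
  refine (abs_sub_le _ _ _).trans ((add_le_add h3 h2).trans (le_of_eq ?_))
  change L * ((1 - a) * ‖y - y'‖) + L * a / (1 + τ ^ 2) * ‖y - y'‖ = _
  rw [hτ2, ha]
  field_simp
  ring

theorem rhoY_moment (hV : InClass V) (m : E d) {σ s : ℝ} (hσ : 0 ≤ σ) (hs : 0 ≤ s)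
    (h : σ ^ 2 + s ^ 2 ≤ 1) :
    Integrable (fun y => y) (rhoY V m σ s) ∧ ∫ y, ‖y‖ ∂rhoY V m σ s ≤ ‖m‖ + 2 * √d := by
  rcases hσ.eq_or_lt with rfl | hσ
  · have hp := isProb_rho hV m 0 s
    have e : rhoY V m 0 s = Measure.dirac m := by
      simp [rhoY]
    rw [e]
    refine ⟨integrable_dirac (by simp), ?_⟩
    rw [integral_dirac]
    exact le_add_of_nonneg_right (by positivity)
  refine ⟨h3_int_rhoY hV m hσ hs, ?_⟩
  have hpos : 0 < σ ^ 2 + s ^ 2 := by positivity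
  have h1 := rhoY_contract hV hσ hs lipschitzWith_one_norm m 0
  have h2 : (1 - σ ^ 2 / (1 + σ ^ 2 + s ^ 2)) * ‖m‖ ≤ ‖m‖ :=
    mul_le_of_le_one_left (norm_nonneg _) (sub_le_self _ (by positivity))
  rw [NNReal.coe_one, one_mul, sub_zero] at h1
  have h3 : ∫ y, ‖y‖ ∂rhoY V 0 σ s ≤ 2 * √d := by
    rw [h3_bridge_zero hV 0 hσ hs, integral_map (by fun_prop) continuous_norm.aestronglyMeasurable]
    set τ := √(σ ^ 2 + s ^ 2) with hτ
    have hτ0 : 0 < τ := Real.sqrt_pos.2 hpos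
    have hτ1 : τ ≤ 1 := Real.sqrt_le_one.2 h
    have hτs : s ≤ τ := Real.le_sqrt_of_sq_le (le_add_of_nonneg_left (sq_nonneg σ))
    have hτσ : σ ≤ τ := Real.le_sqrt_of_sq_le (le_add_of_nonneg_right (sq_nonneg s))
    have hp := isProb_rhoY hV 0 τ 0
    have hg : Integrable (fun z : E d => z) (gam d) := IsGaussian.integrable_id
    have hy := h3b_int_rhoY hV 0 τ
    have h4 : ∫ u, ‖u‖ ∂rhoY V 0 τ 0 ≤ √d := by
      have h5 := (rho0_moment hV hτ0.le 0).2
      rw [norm_zero, mul_zero, add_zero] at h5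
      rw [rhoY, integral_map (by fun_prop) continuous_norm.aestronglyMeasurable]
      simp only [zero_add, norm_smul, Real.norm_eq_abs, abs_of_pos hτ0]
      rw [integral_const_mul]
      exact (mul_le_of_le_one_left (integral_nonneg fun _ => norm_nonneg _) hτ1).trans h5
    calc _ ≤ ∫ p : E d × E d, ‖p.1‖ + ‖p.2‖ ∂(rhoY V 0 τ 0).prod (gam d) := by
          refine integral_mono (h3_int_pair hV 0 0 _ _ _).norm
            ((hy.norm.comp_fst _).add (hg.norm.comp_snd _)) fun p => ?_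
          refine (norm_add_le _ _).trans (add_le_add ?_ ?_)
          · rw [zero_add, sub_zero, norm_smul, Real.norm_eq_abs, abs_of_nonneg (by positivity)]
            exact mul_le_of_le_one_left (norm_nonneg _)
              ((div_le_one hpos).2 (le_add_of_nonneg_right (sq_nonneg s)))
          · rw [norm_smul, Real.norm_eq_abs, abs_of_nonneg (by positivity)]
            refine mul_le_of_le_one_left (norm_nonneg _) ((div_le_one hτ0).2 ?_)
            exact (mul_le_of_le_one_left hs (hτσ.trans hτ1)).trans hτs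
      _ = ∫ u, ‖u‖ ∂rhoY V 0 τ 0 + ∫ z, ‖z‖ ∂gam d := by
          rw [integral_add (hy.norm.comp_fst _) (hg.norm.comp_snd _),
            integral_fun_fst (fun x : E d => ‖x‖), integral_fun_snd (fun x : E d => ‖x‖)]
          simp
      _ ≤ 2 * √d := by linarith [integral_norm_gam_le (d := d)]
  linarith [(abs_le.1 h1).2]

theorem isProb_gibbsS (hV : InClass V) (s : ℝ) : IsProbabilityMeasure (gibbsS V s) :=
  h3_isProb_gibbsS hV s

theorem gibbsS_moment (hV : InClass V) {s : ℝ} (hs : 0 ≤ s) :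
    Integrable (fun y => y) (gibbsS V s) ∧ ∫ y, ‖y‖ ∂gibbsS V s ≤ (1 + s) * √d := by
  simpa only [abs_of_nonneg hs] using h3_gibbsS_moment hV s

theorem gibbsS_descend (hV : InClass V) {σ s : ℝ} (hσ : 0 < σ) (hs : 0 ≤ s) {f : E d → ℝ}
    {L : ℝ≥0} (hf : LipschitzWith L f) :
    ∫ y, ∫ x, f x ∂rhoY V y σ s ∂gibbsS V (√(σ ^ 2 + s ^ 2)) = ∫ x, f x ∂gibbsS V s :=
  h3_gibbsS_descend hV σ s hf

theorem gibbsS_conv (hV : InClass V) (σ s : ℝ) :
    ((gibbsS V s).prod (gam d)).map (fun p => p.1 + σ • p.2) = gibbsS V (√(σ ^ 2 + s ^ 2)) :=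
  h3_gibbsS_conv hV σ s

theorem gibbsS_noise (hV : InClass V) (σ s : ℝ) {f : E d → ℝ} {L : ℝ≥0} (hf : LipschitzWith L f) :
    ∫ y, ∫ z, f (y + σ • z) ∂gam d ∂gibbsS V s = ∫ x, f x ∂gibbsS V (√(σ ^ 2 + s ^ 2)) :=
  h3_gibbsS_noise hV σ s hf

theorem gibbsS_tv (hV : InClass V) {s : ℝ} (hs : 0 ≤ s) {B : Set (E d)} (hB : MeasurableSet B) :
    |(gibbsS V s).real B - (gibbs V).real B| ≤ 2 * s * √d + s ^ 2 * d :=
  (h3_tv hV s hB).trans (le_add_of_nonneg_left (by positivity))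

end Vale.Agent.P347
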