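import Vale.Agent.P347.Gauss

namespace Vale.Agent.P347

open MeasureTheory ProbabilityTheory
open scoped RealInnerProductSpace NNReal ContDiff

variable {d : ℕ}

theorem weights_bound (K : ℕ) : ∃ C : ℝ, 1 ≤ C ∧ (∀ a b, ∑ i, |wI K a b i| ≤ C) ∧
    ∑ i, |wD K i| ≤ C := by
  have h1 : 0 ≤ ∑ a, ∑ b, ∑ i, |wI K a b i| := by positivity
  have h2 : 0 ≤ ∑ i, |wD K i| := by positivity
  refine ⟨1 + ∑ a, ∑ b, ∑ i, |wI K a b i| + ∑ i, |wD K i|, by linarith, fun a b => ?_, by linarith⟩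
  have h3 := Finset.single_le_sum (f := fun b => ∑ i, |wI K a b i|) (fun _ _ => by positivity)
    (Finset.mem_univ b)
  have h4 := Finset.single_le_sum (f := fun a => ∑ b, ∑ i, |wI K a b i|) (fun _ _ => by positivity)
    (Finset.mem_univ a)
  linarith

theorem interp_taylor {F : Type} [NormedAddCommGroup F] [NormedSpace ℝ F] [CompleteSpace F]
    {T : ℝ} (n : ℕ) : ∀ φ : ℕ → ℝ → F,
    (∀ k ≤ n, ∀ t ∈ Set.Icc 0 T, HasDerivWithinAt (φ k) (φ (k + 1) t) (Set.Icc 0 T) t) →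
    ContinuousOn (φ (n + 1)) (Set.Icc 0 T) → ∀ x ∈ Set.Icc 0 T,
    ‖φ 0 x - ∑ r ∈ Finset.range (n + 1), (x ^ r / (r.factorial : ℝ)) • φ r 0‖ ≤
      T ^ n * ∫ t in (0 : ℝ)..T, ‖φ (n + 1) t‖ := by
  induction n with
  | zero =>
    intro φ hd hc x hx
    have hsub : Set.Icc 0 x ⊆ Set.Icc 0 T := Set.Icc_subset_Icc_right hx.2
    have h1 := intervalIntegral.integral_eq_sub_of_hasDerivAt_of_le hx.1
      (f := φ 0) (f' := φ 1) (fun t ht => ((hd 0 le_rfl t (hsub ht)).continuousWithinAt).mono hsub)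
      (fun t ht => (hd 0 le_rfl t ⟨ht.1.le, ht.2.le.trans hx.2⟩).hasDerivAt
        (Icc_mem_nhds ht.1 (ht.2.trans_le hx.2)))
      ((hc.mono hsub).intervalIntegrable_of_Icc hx.1)
    simp only [zero_add, Finset.range_one, Finset.sum_singleton, pow_zero, Nat.factorial_zero,
      Nat.cast_one, div_one, one_smul, one_mul]
    rw [← h1]
    refine (intervalIntegral.norm_integral_le_integral_norm hx.1).trans ?_
    exact intervalIntegral.integral_mono_interval le_rfl hx.1 hx.2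
      (Filter.Eventually.of_forall fun _ => norm_nonneg _)
      (hc.norm.intervalIntegrable_of_Icc (hx.1.trans hx.2))
  | succ n ih =>
    intro φ hd hc x hx
    have h0 : (0 : ℝ) ∈ Set.Icc 0 T := ⟨le_rfl, hx.1.trans hx.2⟩
    have h1 := ih (fun k => φ (k + 1)) (fun k hk => hd (k + 1) (by omega)) hc
    have h2 : ∀ t ∈ Set.Icc 0 T, HasDerivWithinAt
        (fun x => φ 0 x - ∑ r ∈ Finset.range (n + 1 + 1), (x ^ r / (r.factorial : ℝ)) • φ r 0)
        (φ 1 t - ∑ r ∈ Finset.range (n + 1), (t ^ r / (r.factorial : ℝ)) • φ (r + 1) 0)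
        (Set.Icc 0 T) t := by
      intro t ht
      refine (hd 0 (by omega) t ht).fun_sub (HasDerivAt.hasDerivWithinAt ?_)
      simp only [Finset.sum_range_succ' _ (n + 1), pow_zero]
      refine HasDerivAt.add_const _ (HasDerivAt.fun_sum
        (A := fun r x => (x ^ (r + 1) / (((r + 1).factorial : ℕ) : ℝ)) • φ (r + 1) 0)
        (A' := fun r => (t ^ r / (r.factorial : ℝ)) • φ (r + 1) 0) fun r _ => ?_)
      refine (((hasDerivAt_pow (r + 1) t).div_const (((r + 1).factorial : ℕ) : ℝ)).smul_const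
        (φ (r + 1) 0)).congr_deriv ?_
      congr 1
      rw [Nat.factorial_succ]
      push_cast
      field_simp
    have h3 := (convex_Icc 0 T).norm_image_sub_le_of_norm_hasDerivWithin_le h2 h1 h0 hx
    have e : φ 0 0 - ∑ r ∈ Finset.range (n + 1 + 1),
        ((0 : ℝ) ^ r / (r.factorial : ℝ)) • φ r 0 = 0 := by
      rw [Finset.sum_range_succ']
      simp
    rw [e, sub_zero, sub_zero, Real.norm_of_nonneg hx.1] at h3
    refine h3.trans ?_
    have h4 : 0 ≤ ∫ t in (0 : ℝ)..T, ‖φ (n + 1 + 1) t‖ :=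
      intervalIntegral.integral_nonneg h0.2 fun _ _ => norm_nonneg _
    rw [pow_succ, mul_right_comm]
    exact mul_le_mul_of_nonneg_right (mul_le_mul_of_nonneg_left hx.2 (pow_nonneg h0.2 n)) h4

open Polynomial in
theorem interp_lag_exact (K r : ℕ) (hr : r ≤ K) :
    ∑ i : Fin (K + 1), C (((i : ℕ) : ℝ) ^ r) * lag K i = X ^ r := by
  have h := Lagrange.eq_interpolate (s := Finset.univ) (v := fun j : Fin (K + 1) => ((j : ℕ) : ℝ))
    (f := (X ^ r : ℝ[X])) (fun a _ b _ hab => Fin.ext (Nat.cast_injective (R := ℝ) hab)) (by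
      rw [degree_X_pow, Finset.card_univ, Fintype.card_fin]
      exact_mod_cast Nat.lt_succ_of_le hr)
  rw [h, Lagrange.interpolate_apply]
  simp only [eval_pow, eval_X, lag]

theorem interp_wI_exact (K r : ℕ) (hr : r ≤ K) (a b : Fin (K + 1)) :
    ∑ i : Fin (K + 1), wI K a b i * ((i : ℕ) : ℝ) ^ r =
      (((b : ℕ) : ℝ) ^ (r + 1) - ((a : ℕ) : ℝ) ^ (r + 1)) / (r + 1) := by
  rw [← integral_pow]
  unfold wI
  simp only [← intervalIntegral.integral_mul_const]
  rw [← intervalIntegral.integral_finsetSum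
    (f := fun (i : Fin (K + 1)) x => Polynomial.eval x (lag K i) * ((i : ℕ) : ℝ) ^ r) fun i _ =>
    ((lag K i).continuous.mul continuous_const).intervalIntegrable _ _]
  refine intervalIntegral.integral_congr fun x _ => ?_
  have h := congrArg (Polynomial.eval x) (interp_lag_exact K r hr)
  simp only [Polynomial.eval_finsetSum, Polynomial.eval_mul, Polynomial.eval_C,
    Polynomial.eval_pow, Polynomial.eval_X] at h
  simp only [← h, mul_comm]

theorem interp_wD_exact (K r : ℕ) (hr : r ≤ K) :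
    ∑ i : Fin (K + 1), wD K i * ((i : ℕ) : ℝ) ^ r = if r = 1 then 1 else 0 := by
  have h := congrArg (fun p => Polynomial.eval 0 (Polynomial.derivative p))
    (interp_lag_exact K r hr)
  simp only [Polynomial.derivative_sum, Polynomial.derivative_C_mul, Polynomial.eval_finsetSum,
    Polynomial.eval_mul, Polynomial.eval_C, Polynomial.derivative_X_pow, Polynomial.eval_pow,
    Polynomial.eval_X] at h
  unfold wD
  simp only [mul_comm _ (_ ^ r), h]
  rcases r with _ | _ | r <;> simp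

theorem interp_node_mem {K : ℕ} {h : ℝ} (hh : 0 < h) (i : Fin (K + 1)) :
    ((i : ℕ) : ℝ) * h ∈ Set.Icc 0 (K * h) :=
  ⟨by positivity, mul_le_mul_of_nonneg_right (by exact_mod_cast Nat.lt_succ_iff.1 i.2) hh.le⟩

theorem interp_norm_sum_le {F ι : Type} [NormedAddCommGroup F] [NormedSpace ℝ F] [Fintype ι]
    (w : ι → ℝ) (R : ι → F) {B : ℝ} (hR : ∀ i, ‖R i‖ ≤ B) :
    ‖∑ i, w i • R i‖ ≤ (∑ i, |w i|) * B := by
  refine (norm_sum_le _ _).trans ?_
  rw [Finset.sum_mul]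
  refine Finset.sum_le_sum fun i _ => ?_
  rw [norm_smul, Real.norm_eq_abs]
  exact mul_le_mul_of_nonneg_left (hR i) (abs_nonneg _)

theorem interp_int (K : ℕ) : ∃ C : ℝ, 0 ≤ C ∧ ∀ (F : Type) [NormedAddCommGroup F] [NormedSpace ℝ F]
    [CompleteSpace F] (h : ℝ), 0 < h → ∀ φ : ℕ → ℝ → F,
    (∀ k ≤ K + 1, ∀ t ∈ Set.Icc 0 (K * h),
      HasDerivWithinAt (φ k) (φ (k + 1) t) (Set.Icc 0 (K * h)) t) →
    ContinuousOn (φ (K + 2)) (Set.Icc 0 (K * h)) → ∀ a b : Fin (K + 1),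
    ‖φ 0 ((b : ℕ) * h) - φ 0 ((a : ℕ) * h) - ∑ i, (h * wI K a b i) • φ 1 ((i : ℕ) * h)‖ ≤
      C * h ^ (K + 1) * ∫ t in (0 : ℝ)..(K * h), ‖φ (K + 2) t‖ := by
  obtain ⟨C, hC, hI, -⟩ := weights_bound K
  refine ⟨2 * K ^ (K + 1) + C * K ^ K, by positivity, fun F _ _ _ h hh φ hd hc a b => ?_⟩
  have h0 := interp_taylor (K + 1) φ hd hc
  have h1 := interp_taylor K (fun k => φ (k + 1)) (fun k hk => hd (k + 1) (by omega)) hc
  set I := ∫ t in (0 : ℝ)..(K * h), ‖φ (K + 2) t‖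
  have hI0 : 0 ≤ I := intervalIntegral.integral_nonneg (by positivity) fun _ _ => norm_nonneg _
  set P0 : ℝ → F := fun x =>
    ∑ r ∈ Finset.range (K + 1 + 1), (x ^ r / (r.factorial : ℝ)) • φ r 0 with hP0
  set P1 : ℝ → F := fun x =>
    ∑ r ∈ Finset.range (K + 1), (x ^ r / (r.factorial : ℝ)) • φ (r + 1) 0 with hP1
  have e : P0 ((b : ℕ) * h) - P0 ((a : ℕ) * h) = ∑ i, (h * wI K a b i) • P1 ((i : ℕ) * h) := by
    simp only [hP0, hP1, Finset.sum_range_succ' _ (K + 1), pow_zero, add_sub_add_right_eq_sub,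
      Finset.smul_sum, smul_smul]
    rw [Finset.sum_comm, ← Finset.sum_sub_distrib]
    refine Finset.sum_congr rfl fun r hr => ?_
    rw [← sub_smul, ← Finset.sum_smul]
    congr 1
    have h2 := interp_wI_exact K r (Nat.lt_succ_iff.1 (Finset.mem_range.1 hr)) a b
    have e2 : ∀ i : Fin (K + 1), h * wI K a b i * ((((i : ℕ) : ℝ) * h) ^ r / (r.factorial : ℝ)) =
        h ^ (r + 1) / (r.factorial : ℝ) * (wI K a b i * ((i : ℕ) : ℝ) ^ r) := fun i => by ring
    simp only [e2]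
    rw [← Finset.mul_sum, h2, Nat.factorial_succ]
    push_cast
    field_simp
    ring
  have e3 : φ 0 ((b : ℕ) * h) - φ 0 ((a : ℕ) * h) - ∑ i, (h * wI K a b i) • φ 1 ((i : ℕ) * h) =
      (φ 0 ((b : ℕ) * h) - P0 ((b : ℕ) * h)) - (φ 0 ((a : ℕ) * h) - P0 ((a : ℕ) * h)) -
        ∑ i, (h * wI K a b i) • (φ 1 ((i : ℕ) * h) - P1 ((i : ℕ) * h)) := by
    simp only [smul_sub, Finset.sum_sub_distrib]
    rw [← e]
    abel
  have b1 := h0 _ (interp_node_mem hh b)
  have b2 := h0 _ (interp_node_mem hh a)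
  have b3 := interp_norm_sum_le (fun i => h * wI K a b i)
    (fun i => φ 1 ((i : ℕ) * h) - P1 ((i : ℕ) * h)) fun i => h1 _ (interp_node_mem hh i)
  have b4 : ∑ i, |h * wI K a b i| ≤ h * C := by
    simp only [abs_mul, abs_of_pos hh]
    rw [← Finset.mul_sum]
    exact mul_le_mul_of_nonneg_left (hI a b) hh.le
  have b5 := b3.trans (mul_le_mul_of_nonneg_right b4 (by positivity))
  rw [e3]
  refine (norm_sub_le _ _).trans ((add_le_add ((norm_sub_le _ _).trans (add_le_add b1 b2)) b5).trans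
    (le_of_eq ?_))
  ring

theorem interp_der (K : ℕ) (hK : 1 ≤ K) : ∃ C : ℝ, 0 ≤ C ∧ ∀ (F : Type) [NormedAddCommGroup F]
    [NormedSpace ℝ F] [CompleteSpace F] (h : ℝ), 0 < h → ∀ φ : ℕ → ℝ → F,
    (∀ k ≤ K, ∀ t ∈ Set.Icc 0 (K * h),
      HasDerivWithinAt (φ k) (φ (k + 1) t) (Set.Icc 0 (K * h)) t) →
    ContinuousOn (φ (K + 1)) (Set.Icc 0 (K * h)) →
    ‖φ 1 0 - ∑ i, (wD K i / h) • φ 0 ((i : ℕ) * h)‖ ≤
      C * h ^ (K - 1) * ∫ t in (0 : ℝ)..(K * h), ‖φ (K + 1) t‖ := by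
  obtain ⟨C, hC, -, hD⟩ := weights_bound K
  refine ⟨C * K ^ K, by positivity, fun F _ _ _ h hh φ hd hc => ?_⟩
  have h0 := interp_taylor K φ hd hc
  set I := ∫ t in (0 : ℝ)..(K * h), ‖φ (K + 1) t‖
  have hI0 : 0 ≤ I := intervalIntegral.integral_nonneg (by positivity) fun _ _ => norm_nonneg _
  set P0 : ℝ → F := fun x =>
    ∑ r ∈ Finset.range (K + 1), (x ^ r / (r.factorial : ℝ)) • φ r 0 with hP0
  have e : ∑ i, (wD K i / h) • P0 ((i : ℕ) * h) = φ 1 0 := by
    simp only [hP0, Finset.smul_sum, smul_smul]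
    rw [Finset.sum_comm]
    have e2 : ∀ r ∈ Finset.range (K + 1), ∑ i : Fin (K + 1),
        (wD K i / h * ((((i : ℕ) : ℝ) * h) ^ r / (r.factorial : ℝ))) • φ r 0 =
        if r = 1 then φ 1 0 else 0 := by
      intro r hr
      have e3 : ∀ i : Fin (K + 1), wD K i / h * ((((i : ℕ) : ℝ) * h) ^ r / (r.factorial : ℝ)) =
          h ^ r / h / (r.factorial : ℝ) * (wD K i * ((i : ℕ) : ℝ) ^ r) := fun i => by ring
      simp only [e3]
      rw [← Finset.sum_smul, ← Finset.mul_sum,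
        interp_wD_exact K r (Nat.lt_succ_iff.1 (Finset.mem_range.1 hr))]
      split_ifs with h1
      · subst h1
        simp [hh.ne']
      · simp
    rw [Finset.sum_congr rfl e2, Finset.sum_ite_eq' _ 1 (fun _ => φ 1 0),
      if_pos (Finset.mem_range.2 (by omega))]
  have e3 : φ 1 0 - ∑ i, (wD K i / h) • φ 0 ((i : ℕ) * h) =
      -∑ i, (wD K i / h) • (φ 0 ((i : ℕ) * h) - P0 ((i : ℕ) * h)) := by
    simp only [smul_sub, Finset.sum_sub_distrib]
    rw [e]
    abel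
  have b3 := interp_norm_sum_le (fun i => wD K i / h)
    (fun i => φ 0 ((i : ℕ) * h) - P0 ((i : ℕ) * h)) fun i => h0 _ (interp_node_mem hh i)
  have b4 : ∑ i, |wD K i / h| ≤ C / h := by
    simp only [abs_div, abs_of_pos hh]
    rw [← Finset.sum_div]
    exact div_le_div_of_nonneg_right hD hh.le
  rw [e3, norm_neg]
  refine (b3.trans (mul_le_mul_of_nonneg_right b4 (by positivity))).trans (le_of_eq ?_)
  obtain ⟨n, rfl⟩ := Nat.exists_eq_add_of_le' hK
  rw [Nat.add_sub_cancel, mul_pow, pow_succ h]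
  field_simp

/-- generator of the rotation -/
noncomputable def interpJ (A : E d →L[ℝ] E d) : (E d × E d) →L[ℝ] (E d × E d) :=
  (A.comp (ContinuousLinearMap.snd ℝ (E d) (E d))).prod
    (-(A.comp (ContinuousLinearMap.fst ℝ (E d) (E d))))

theorem interpJ_apply (A : E d →L[ℝ] E d) (x : E d × E d) : interpJ A x = (A x.2, -A x.1) := rfl

/-- the rotation flow -/
noncomputable def interpM (A : E d →L[ℝ] E d) (t : ℝ) : (E d × E d) →L[ℝ] (E d × E d) :=
  NormedSpace.exp (t • interpJ A)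

theorem interpM_zero (A : E d →L[ℝ] E d) (x : E d × E d) : interpM A 0 x = x := by
  have e : (0 : ℝ) • interpJ A = 0 := ContinuousLinearMap.ext fun v => zero_smul ℝ (interpJ A v)
  rw [interpM, e, NormedSpace.exp_zero, one_apply_eq_self]

theorem interpM_deriv (A : E d →L[ℝ] E d) (x : E d × E d) (t : ℝ) :
    HasDerivAt (fun t => interpM A t x) (interpJ A (interpM A t x)) t := by
  have h := (hasDerivAt_exp_smul_const' (interpJ A) t).clm_apply (hasDerivAt_const t x)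
  simpa [interpM] using h

theorem interpM_inv {A : E d →L[ℝ] E d} (hA : ∀ u v, ⟪A u, v⟫ = ⟪u, A v⟫) (x y : E d × E d)
    (a t : ℝ) : ⟪(interpM A t x).1, (interpM A (t + a) y).1⟫ +
      ⟪(interpM A t x).2, (interpM A (t + a) y).2⟫ =
      ⟪x.1, (interpM A a y).1⟫ + ⟪x.2, (interpM A a y).2⟫ := by
  have hd : ∀ t, HasDerivAt (fun t => ⟪(interpM A t x).1, (interpM A (t + a) y).1⟫ +
      ⟪(interpM A t x).2, (interpM A (t + a) y).2⟫) 0 t := by
    intro t
    have h1 := interpM_deriv A x t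
    have h2 := (interpM_deriv A y (t + a)).comp_add_const t a
    have a1 := (ContinuousLinearMap.fst ℝ (E d) (E d)).hasFDerivAt.comp_hasDerivAt t h1
    have a2 := (ContinuousLinearMap.fst ℝ (E d) (E d)).hasFDerivAt.comp_hasDerivAt t h2
    have a3 := (ContinuousLinearMap.snd ℝ (E d) (E d)).hasFDerivAt.comp_hasDerivAt t h1
    have a4 := (ContinuousLinearMap.snd ℝ (E d) (E d)).hasFDerivAt.comp_hasDerivAt t h2
    refine ((a1.inner ℝ a2).add (a3.inner ℝ a4)).congr_deriv ?_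
    simp only [Function.comp_apply, ContinuousLinearMap.coe_fst', ContinuousLinearMap.coe_snd',
      interpJ_apply, inner_neg_left, inner_neg_right, hA]
    ring
  have h := is_const_of_deriv_eq_zero (fun t => (hd t).differentiableAt) (fun t => (hd t).deriv) t 0
  simpa only [interpM_zero, zero_add] using h

theorem interpM_sq {A : E d →L[ℝ] E d} (hA : ∀ u v, ⟪A u, v⟫ = ⟪u, A v⟫) (x : E d × E d) (t : ℝ) :
    ‖(interpM A t x).1‖ ^ 2 + ‖(interpM A t x).2‖ ^ 2 = ‖x.1‖ ^ 2 + ‖x.2‖ ^ 2 := by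
  have h := interpM_inv hA x x 0 t
  simpa only [add_zero, interpM_zero, real_inner_self_eq_norm_sq] using h

theorem interpM_norm {A : E d →L[ℝ] E d} (hA : ∀ u v, ⟪A u, v⟫ = ⟪u, A v⟫) (x : E d × E d)
    (t : ℝ) : ‖interpM A t x‖ ≤ ‖x.1‖ + ‖x.2‖ := by
  have h := interpM_sq hA x t
  have h1 := mul_nonneg (norm_nonneg x.1) (norm_nonneg x.2)
  refine max_le (abs_le_of_sq_le_sq' ?_ (by positivity)).2 (abs_le_of_sq_le_sq' ?_ (by positivity)).2
  · nlinarith [sq_nonneg ‖(interpM A t x).2‖]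
  · nlinarith [sq_nonneg ‖(interpM A t x).1‖]

theorem interpJ_pow_norm {A : E d →L[ℝ] E d} (h1 : ‖A‖ ≤ 1) (k : ℕ) (x : E d × E d) :
    ‖(interpJ A ^ k) x‖ ≤ ‖x‖ := by
  have hA : ∀ v, ‖A v‖ ≤ ‖v‖ := fun v =>
    (A.le_opNorm v).trans (mul_le_of_le_one_left (norm_nonneg _) h1)
  induction k with
  | zero => simp
  | succ k ih =>
    rw [pow_succ', mul_apply_eq_comp, interpJ_apply]
    refine max_le ((hA _).trans ((norm_snd_le _).trans ih)) ?_
    rw [norm_neg]
    exact (hA _).trans ((norm_fst_le _).trans ih)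

theorem interpM_pres {A : E d →L[ℝ] E d} (hA : ∀ u v, ⟪A u, v⟫ = ⟪u, A v⟫) (t : ℝ)
    (l : (E d × E d) →L[ℝ] E d) (η : E d → E d × E d)
    (hl : ∀ x ξ, ⟪l x, ξ⟫ = ⟪x.1, (η ξ).1⟫ + ⟪x.2, (η ξ).2⟫)
    (hη : ∀ ξ, ‖(η ξ).1‖ ^ 2 + ‖(η ξ).2‖ ^ 2 = ‖ξ‖ ^ 2) :
    MeasurePreserving (fun z : E d × E d => l (interpM A t (z.2, z.1)))
      ((gam d).prod (gam d)) (gam d) := by
  have h := gam_pair (l.comp ((interpM A t).comp (ContinuousLinearMap.inr ℝ _ _)))
    (l.comp ((interpM A t).comp (ContinuousLinearMap.inl ℝ _ _))) (fun ξ => by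
      have key : ∀ x, ⟪l (interpM A t x), ξ⟫ =
          ⟪x.1, (interpM A (-t) (η ξ)).1⟫ + ⟪x.2, (interpM A (-t) (η ξ)).2⟫ := fun x => by
        rw [hl, ← interpM_inv hA x (η ξ) (-t) t, add_neg_cancel, interpM_zero]
      have e1 : ContinuousLinearMap.adjoint (l.comp ((interpM A t).comp
          (ContinuousLinearMap.inr ℝ _ _))) ξ = (interpM A (-t) (η ξ)).2 :=
        ext_inner_left ℝ fun v => by
          rw [ContinuousLinearMap.adjoint_inner_right]
          simpa using key (0, v)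
      have e2 : ContinuousLinearMap.adjoint (l.comp ((interpM A t).comp
          (ContinuousLinearMap.inl ℝ _ _))) ξ = (interpM A (-t) (η ξ)).1 :=
        ext_inner_left ℝ fun v => by
          rw [ContinuousLinearMap.adjoint_inner_right]
          simpa using key (v, 0)
      rw [e1, e2, add_comm, interpM_sq hA, hη])
  have e : (fun z : E d × E d => l (interpM A t (z.2, z.1))) = fun p : E d × E d =>
      (l.comp ((interpM A t).comp (ContinuousLinearMap.inr ℝ _ _))) p.1 +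
        (l.comp ((interpM A t).comp (ContinuousLinearMap.inl ℝ _ _))) p.2 := by
    funext p
    simp only [ContinuousLinearMap.comp_apply, ← map_add, ContinuousLinearMap.inr_apply,
      ContinuousLinearMap.inl_apply, Prod.mk_add_mk, add_zero, zero_add]
  rw [e]
  exact h

/-- node equations of the linear rotation -/
theorem rot_nodes (K : ℕ) (hK : 1 ≤ K) : ∃ C : ℝ, 0 ≤ C ∧ ∀ (d : ℕ) (A : E d →L[ℝ] E d),
    (∀ u v, ⟪A u, v⟫ = ⟪u, A v⟫) → ‖A‖ ≤ 1 → ∀ τ : ℝ, 0 < τ → K * τ ≤ 1 →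
    ∃ U W : Fin (K + 1) → E d × E d → E d,
      (∀ j, MeasurePreserving (U j) ((gam d).prod (gam d)) (gam d)) ∧
      (∀ j, MeasurePreserving (W j) ((gam d).prod (gam d)) (gam d)) ∧
      (∀ j z, ‖U j z - (z.2 + ∑ i, (τ * wI K 0 j i) • A (W i z))‖ ≤
        C * τ ^ (K + 1) * (‖z.1‖ + ‖z.2‖)) ∧
      (∀ j z, ‖W j z - (z.1 - ∑ i, (τ * wI K 0 j i) • A (U i z))‖ ≤
        C * τ ^ (K + 1) * (‖z.1‖ + ‖z.2‖)) ∧
      (∀ j z, ‖U j z - z.2‖ + ‖W j z - z.1‖ ≤ C * τ * (‖z.1‖ + ‖z.2‖)) ∧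
      ∀ z, ‖A (A z.1) - ∑ j, (wD K j / τ) • A (U j z)‖ ≤ C * τ ^ K * (‖z.1‖ + ‖z.2‖) := by
  obtain ⟨C1, hC1, hI⟩ := interp_int K
  obtain ⟨C2, hC2, hD⟩ := interp_der K hK
  refine ⟨C1 + 2 * K + C2 * K, by positivity, fun d A hA h1 τ hτ hKτ => ?_⟩
  have hAv : ∀ v, ‖A v‖ ≤ ‖v‖ := fun v =>
    (A.le_opNorm v).trans (mul_le_of_le_one_left (norm_nonneg _) h1)
  have hT : 0 ≤ K * τ := by positivity
  have hd : ∀ (x : E d × E d) (k : ℕ) (t : ℝ), HasDerivAt
      (fun t => (interpJ A ^ k) (interpM A t x)) ((interpJ A ^ (k + 1)) (interpM A t x)) t :=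
    fun x k t => (interpJ A ^ k).hasFDerivAt.comp_hasDerivAt t (interpM_deriv A x t)
  have hn : ∀ (z : E d × E d) (k : ℕ) (t : ℝ),
      ‖(interpJ A ^ k) (interpM A t (z.2, z.1))‖ ≤ ‖z.1‖ + ‖z.2‖ := fun z k t =>
    (interpJ_pow_norm h1 k _).trans ((interpM_norm hA _ t).trans (add_comm _ _).le)
  have hc : ∀ (x : E d × E d) (k : ℕ), Continuous fun t => (interpJ A ^ k) (interpM A t x) :=
    fun x k => continuous_iff_continuousAt.2 fun t => (hd x k t).continuousAt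
  have hint : ∀ (z : E d × E d) (k : ℕ), ∫ t in (0 : ℝ)..(K * τ),
      ‖(interpJ A ^ k) (interpM A t (z.2, z.1))‖ ≤ K * τ * (‖z.1‖ + ‖z.2‖) := fun z k => by
    have h := intervalIntegral.integral_mono_on (μ := volume) hT ((hc _ k).norm.intervalIntegrable _ _)
      (continuous_const.intervalIntegrable _ _) fun t _ => hn z k t
    rwa [intervalIntegral.integral_const, sub_zero, smul_eq_mul] at h
  have hI' : ∀ (j : Fin (K + 1)) (z : E d × E d),
      ‖interpM A ((j : ℕ) * τ) (z.2, z.1) - (z.2, z.1) -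
        ∑ i, (τ * wI K 0 j i) • interpJ A (interpM A ((i : ℕ) * τ) (z.2, z.1))‖ ≤
        (C1 + 2 * K + C2 * K) * τ ^ (K + 1) * (‖z.1‖ + ‖z.2‖) := fun j z => by
    have h := hI _ τ hτ (fun k t => (interpJ A ^ k) (interpM A t (z.2, z.1)))
      (fun k _ t _ => (hd _ k t).hasDerivWithinAt) (hc _ _).continuousOn 0 j
    simp only [pow_zero, pow_one, one_apply_eq_self, Fin.val_zero, Nat.cast_zero,
      zero_mul, interpM_zero] at h
    refine h.trans ?_
    have h2 := (hint z (K + 2)).trans (mul_le_of_le_one_left (by positivity) hKτ)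
    refine (mul_le_mul_of_nonneg_left h2 (by positivity)).trans ?_
    gcongr
    linarith [mul_nonneg hC2 (Nat.cast_nonneg K), Nat.cast_nonneg (α := ℝ) K]
  refine ⟨fun j z => (interpM A ((j : ℕ) * τ) (z.2, z.1)).1,
    fun j z => (interpM A ((j : ℕ) * τ) (z.2, z.1)).2, fun j => ?_, fun j => ?_, fun j z => ?_,
    fun j z => ?_, fun j z => ?_, fun z => ?_⟩
  · exact interpM_pres hA _ (ContinuousLinearMap.fst ℝ _ _) (fun ξ => (ξ, 0)) (by simp) (by simp)
  · exact interpM_pres hA _ (ContinuousLinearMap.snd ℝ _ _) (fun ξ => (0, ξ)) (by simp) (by simp)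
  · refine le_trans (le_of_eq ?_) ((norm_fst_le _).trans (hI' j z))
    simp only [Prod.fst_sub, Prod.fst_sum, Prod.smul_fst, interpJ_apply]
    rw [sub_sub]
  · refine le_trans (le_of_eq ?_) ((norm_snd_le _).trans (hI' j z))
    simp only [Prod.snd_sub, Prod.snd_sum, Prod.smul_snd, interpJ_apply, smul_neg,
      Finset.sum_neg_distrib]
    rw [sub_sub, ← sub_eq_add_neg]
  · have h := (convex_univ (E := ℝ)).norm_image_sub_le_of_norm_hasDerivWithin_le
      (fun t _ => (hd (z.2, z.1) 0 t).hasDerivWithinAt) (fun t _ => hn z 1 t)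
      (Set.mem_univ 0) (Set.mem_univ ((j : ℕ) * τ))
    simp only [pow_zero, one_apply_eq_self, interpM_zero, sub_zero] at h
    have h2 := interp_node_mem hτ j
    rw [Real.norm_of_nonneg h2.1] at h
    have h3 := h.trans (mul_le_mul_of_nonneg_left h2.2 (by positivity))
    have h4 := (norm_fst_le _).trans h3
    have h5 := (norm_snd_le _).trans h3
    simp only [Prod.fst_sub, Prod.snd_sub] at h4 h5
    have h6 : 0 ≤ (C1 + C2 * K) * τ * (‖z.1‖ + ‖z.2‖) := by positivity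
    linarith
  · have h := hD _ τ hτ (fun k t => (interpJ A ^ k) (interpM A t (z.2, z.1)))
      (fun k _ t _ => (hd _ k t).hasDerivWithinAt) (hc _ _).continuousOn
    simp only [pow_zero, pow_one, one_apply_eq_self, interpM_zero] at h
    have h2 := (norm_fst_le _).trans h
    simp only [Prod.fst_sub, Prod.fst_sum, Prod.smul_fst, interpJ_apply] at h2
    simp only [← map_smul, ← map_sum, ← map_sub]
    refine (hAv _).trans (h2.trans ((mul_le_mul_of_nonneg_left (hint z _) (by positivity)).trans ?_))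
    obtain ⟨n, rfl⟩ := Nat.exists_eq_add_of_le' hK
    rw [Nat.add_sub_cancel]
    have h6 : 0 ≤ (C1 + 2 * ((n + 1 : ℕ) : ℝ)) * τ ^ (n + 1) * (‖z.1‖ + ‖z.2‖) := by positivity
    rw [pow_succ] at h6 ⊢
    linarith

end Vale.Agent.P347
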