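import Vale.Agent.P347.Approx
import Vale.Agent.P347.Heat3

namespace Vale.Agent.P347

open MeasureTheory ProbabilityTheory
open scoped RealInnerProductSpace NNReal

variable {d : ℕ}

/-- kernels, seen as functionals -/
abbrev Top_Ker (d : ℕ) := (E d → ℝ) → E d → (E d → ℝ) → ℝ

/-- a kernel multiplies Lipschitz constants by at most `c` -/
def Top_Lip (k : Top_Ker d) (c : ℝ≥0) : Prop :=
  ∀ V, InClass V → ∀ (f : E d → ℝ) (L : ℝ≥0), LipschitzWith L f →
    LipschitzWith (c * L) fun y => k V y f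

/-- moment growth of a kernel -/
def Top_Mom (k : Top_Ker d) : Prop :=
  ∀ V, InClass V → ∀ (y : E d) (a c : ℝ), 0 ≤ a →
    k V y (fun x => a * (Nm x + c)) ≤ a * (Nm y + 3 * √d + c)

def Top_comp (k C : Top_Ker d) : Top_Ker d := fun V y f => k V y fun x => C V x f

theorem Top_Lip.comp {k C : Top_Ker d} {a b : ℝ≥0} (hk : Top_Lip k a) (hC : Top_Lip C b) :
    Top_Lip (Top_comp k C) (a * b) := fun V hV f L hf => by
  rw [mul_assoc]
  exact hk V hV _ _ (hC V hV f L hf)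

theorem Top_Lip.mono {k : Top_Ker d} {a b : ℝ≥0} (hk : Top_Lip k a) (h : a ≤ b) : Top_Lip k b :=
  fun V hV f L hf => (hk V hV f L hf).weaken (mul_le_mul_left h L)

theorem Top_lip_Nm {a : ℝ≥0} (c : ℝ) : LipschitzWith a fun y : E d => (a : ℝ) * (Nm y + c) := by
  refine LipschitzWith.of_dist_le_mul fun x y => ?_
  rw [Real.dist_eq, ← mul_sub, abs_mul, NNReal.abs_eq, dist_eq_norm]
  refine mul_le_mul_of_nonneg_left ?_ a.2
  simpa [Nm] using abs_norm_sub_norm_le x y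

theorem Top_Nm_nonneg (y : E d) : 0 ≤ Nm y := by unfold Nm; positivity

theorem Top_step {k C : Top_Ker d} {δ : ℝ} {q j : ℕ} (hδ : 0 ≤ δ) (hj : 2 * δ * j ≤ 1)
    (hk : Approx (E d) k (fun _ y => δ * Nm y) q) (hm : Top_Mom k) (hl : Top_Lip C 1)
    (hC : Approx (E d) C (fun _ y => 2 * j * δ * (Nm y + 3 * j * √d)) (j * q)) :
    Approx (E d) (Top_comp k C)
      (fun _ y => 2 * (j + 1 : ℕ) * δ * (Nm y + 3 * (j + 1 : ℕ) * √d)) ((j + 1) * q) := by
  have ha : 0 ≤ 2 * j * δ := by positivity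
  have h := hk.bind (hC.comap measurable_snd) 1 ⟨_, ha⟩ (fun V hV _ f L hf => hl V hV f L hf)
    fun V _ _ => Top_lip_Nm (a := ⟨_, ha⟩) _
  refine h.mono (fun V hV y => ?_) (le_of_eq (by ring))
  have h1 := hm V hV y _ (3 * j * √d) ha
  have h2 := Top_Nm_nonneg y
  have h3 : 0 ≤ δ * (3 * (j + 1) * √d) := by positivity
  have h4 : (1 + 2 * j * δ) * (δ * Nm y) ≤ 2 * (δ * Nm y) :=
    mul_le_mul_of_nonneg_right (by linarith) (by positivity)
  push_cast
  show (1 + 2 * j * δ) * (δ * Nm y) + _ ≤ _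
  linarith

theorem Top_int {μ : Measure (E d)} [IsProbabilityMeasure μ] (h : Integrable (fun y => y) μ)
    {f : E d → ℝ} {L : ℝ≥0} (hf : LipschitzWith L f) : Integrable f μ := by
  refine ((integrable_const ‖f 0‖).add (h.norm.const_mul L)).mono'
    hf.continuous.aestronglyMeasurable (Filter.Eventually.of_forall fun y => ?_)
  have := hf.norm_sub_le y 0
  rw [sub_zero] at this
  have h2 := norm_le_norm_add_norm_sub' (f y) (f 0)
  show _ ≤ ‖f 0‖ + L * ‖y‖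
  linarith

theorem Top_mom {μ : Measure (E d)} [IsProbabilityMeasure μ] (h : Integrable (fun y => y) μ)
    {B : ℝ} (hB : ∫ y, ‖y‖ ∂μ ≤ B) {a : ℝ} (ha : 0 ≤ a) (c : ℝ) :
    ∫ x, a * (Nm x + c) ∂μ ≤ a * (√d + B + c) := by
  rw [integral_const_mul]
  refine mul_le_mul_of_nonneg_left ?_ ha
  unfold Nm
  have i : Integrable (fun y : E d => √d + ‖y‖) μ := (integrable_const _).add h.norm
  rw [integral_add i (integrable_const _), integral_add (integrable_const _) h.norm]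
  simpa using hB

/-- the descent kernel -/
noncomputable def Top_desc (T s : ℝ) : Top_Ker d :=
  fun V y f => ∫ x, f x ∂rhoY V y (s * Sn T) (s * Cs T)

/-- the noise kernel -/
noncomputable def Top_noise (σ : ℝ) : Top_Ker d := fun _ y f => ∫ z, f (y + σ • z) ∂gam d

section

variable {T s : ℝ}

theorem Top_Sn_pos (hT : 0 < T) : 0 < Sn T := by rw [Sn_eq]; exact mul_pos hT (Cs_pos T)

theorem Top_sq (T s : ℝ) : (s * Sn T) ^ 2 + (s * Cs T) ^ 2 = s ^ 2 := by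
  rw [mul_pow, mul_pow, ← mul_add, Sn_sq_add, mul_one]

theorem Top_desc_lip (hT : 0 < T) (hs : 0 < s) (hs' : s ^ 2 ≤ 1) {c : ℝ≥0}
    (hc : 1 - (s * Sn T) ^ 2 / 2 ≤ c) : Top_Lip (Top_desc (d := d) T s) c := by
  intro V hV f L hf
  refine LipschitzWith.of_dist_le_mul fun y y' => ?_
  rw [Real.dist_eq, dist_eq_norm]
  refine (rhoY_contract hV (mul_pos hs (Top_Sn_pos hT)) (mul_pos hs (Cs_pos T)).le hf y y').trans ?_
  refine mul_le_mul_of_nonneg_right ?_ (norm_nonneg _)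
  rw [NNReal.coe_mul, mul_comm]
  refine mul_le_mul_of_nonneg_right (le_trans ?_ hc) L.2
  rw [add_assoc, Top_sq]
  gcongr
  linarith

theorem Top_desc_mom2 (hT : 0 < T) (hs : 0 < s) (hs' : s ^ 2 ≤ 1) {V : E d → ℝ} (hV : InClass V)
    (y : E d) {a : ℝ} (c : ℝ) (ha : 0 ≤ a) :
    Top_desc T s V y (fun x => a * (Nm x + c)) ≤ a * (Nm y + 2 * √d + c) := by
  have := isProb_rhoY hV y (s * Sn T) (s * Cs T)
  obtain ⟨h1, h2⟩ := rhoY_moment hV y (mul_pos hs (Top_Sn_pos hT)).le (mul_pos hs (Cs_pos T)).le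
    (by rwa [Top_sq])
  exact (Top_mom h1 h2 ha c).trans (le_of_eq (by unfold Nm; ring))

theorem Top_desc_mom (hT : 0 < T) (hs : 0 < s) (hs' : s ^ 2 ≤ 1) :
    Top_Mom (Top_desc (d := d) T s) := fun V hV y a c ha =>
  (Top_desc_mom2 hT hs hs' hV y c ha).trans (by gcongr; norm_num)

theorem Top_desc_inv (hT : 0 < T) (hs : 0 < s) {V : E d → ℝ} (hV : InClass V) {f : E d → ℝ}
    {L : ℝ≥0} (hf : LipschitzWith L f) :
    ∫ y, Top_desc T s V y f ∂gibbsS V s = ∫ x, f x ∂gibbsS V (s * Cs T) := by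
  have := gibbsS_descend hV (mul_pos hs (Top_Sn_pos hT)) (mul_pos hs (Cs_pos T)).le hf
  rwa [Top_sq, Real.sqrt_sq hs.le] at this

theorem Top_noise_lip (σ : ℝ) : Top_Lip (Top_noise (d := d) σ) 1 := fun V _ f L hf => by
  rw [one_mul]
  exact lip_smooth hf σ

/-- the mixing kernel -/
noncomputable def Top_mix (T s : ℝ) : Top_Ker d := Top_comp (Top_desc T s) (Top_noise (s * Sn T))

theorem Top_mix_approx {δ : ℝ} {q : ℕ}
    (h : Approx (E d) (Top_desc T s) (fun _ y => δ * Nm y) q) :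
    Approx (E d) (Top_mix T s) (fun _ y => δ * Nm y) q := by
  have h2 : Samp (E d × E d) (fun _ => Prod.snd) (s * Sn T) (fun _ _ => 0) 0 :=
    samp_known measurable_snd _
  have h3 := h.bind h2 1 0 (fun V hV _ f L hf => Top_noise_lip _ V hV f L hf)
    fun V _ _ => LipschitzWith.const 0
  refine h3.mono (fun V _ y => ?_) le_rfl
  simp [Top_desc]

theorem Top_mix_mom (hT : 0 < T) (hs : 0 < s) (hs' : s ^ 2 ≤ 1) :
    Top_Mom (Top_mix (d := d) T s) := by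
  intro V hV y a c ha
  have := isProb_rhoY hV y (s * Sn T) (s * Cs T)
  have hσ := mul_pos hs (Top_Sn_pos hT)
  have hσ1 : s * Sn T ≤ 1 := by nlinarith [Top_sq T s, sq_nonneg (s * Cs T)]
  obtain ⟨h1, -⟩ := rhoY_moment hV y hσ.le (mul_pos hs (Cs_pos T)).le (by rwa [Top_sq])
  have hg : Integrable (fun z : E d => z) (gam d) := IsGaussian.integrable_id
  refine le_trans ?_ ((Top_desc_mom2 hT hs hs' hV y (√d + c) ha).trans (le_of_eq (by ring)))
  refine integral_mono (Top_int h1 (lip_smooth (Top_lip_Nm (a := ⟨a, ha⟩) c) _))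
    (Top_int h1 (Top_lip_Nm (a := ⟨a, ha⟩) _)) fun x => ?_
  have h3 : ∫ z, a * (Nm (x + (s * Sn T) • z) + c) ∂gam d
      ≤ ∫ z : E d, a * (Nm z + (‖x‖ + c)) ∂gam d := by
    have l : LipschitzWith 1 fun z : E d => x + (s * Sn T) • z :=
      LipschitzWith.of_dist_le_mul fun z z' => by
        rw [dist_add_left, dist_smul₀, Real.norm_eq_abs, abs_of_pos hσ]
        exact mul_le_mul_of_nonneg_right hσ1 dist_nonneg
    refine integral_mono (Top_int hg ((Top_lip_Nm (a := ⟨a, ha⟩) c).comp l))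
      (Top_int hg (Top_lip_Nm (a := ⟨a, ha⟩) _)) fun z => mul_le_mul_of_nonneg_left ?_ ha
    have h4 := norm_add_le x ((s * Sn T) • z)
    rw [norm_smul, Real.norm_eq_abs, abs_of_pos hσ] at h4
    have h5 := mul_le_of_le_one_left (norm_nonneg z) hσ1
    unfold Nm
    linarith
  exact h3.trans ((Top_mom hg integral_norm_gam_le ha _).trans (le_of_eq (by unfold Nm; ring)))

theorem Top_mix_inv (hT : 0 < T) (hs : 0 < s) {V : E d → ℝ} (hV : InClass V) {f : E d → ℝ}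
    {L : ℝ≥0} (hf : LipschitzWith L f) :
    ∫ y, Top_mix T s V y f ∂gibbsS V s = ∫ x, f x ∂gibbsS V s := by
  have h := gibbsS_noise hV (s * Sn T) (s * Cs T) hf
  rw [Top_sq, Real.sqrt_sq hs.le] at h
  rw [← h]
  exact Top_desc_inv hT hs hV (lip_smooth hf _)

/-- `n` descent steps -/
noncomputable def Top_D (T : ℝ) : ℕ → ℝ → Top_Ker d
  | 0, _ => fun _ y f => f y
  | n + 1, s => Top_comp (Top_desc T s) (Top_D T n (s * Cs T))

/-- `n` mixing steps followed by `C` -/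
noncomputable def Top_M (T s : ℝ) (C : Top_Ker d) : ℕ → Top_Ker d
  | 0 => C
  | n + 1 => Top_comp (Top_mix T s) (Top_M T s C n)

theorem Top_next (hs : 0 < s) (T : ℝ) : 0 < s * Cs T ∧ s * Cs T ≤ s :=
  ⟨mul_pos hs (Cs_pos T), mul_le_of_le_one_right hs.le (Cs_le_one T)⟩

theorem Top_D_lip (hT : 0 < T) (n : ℕ) : ∀ s, 0 < s → s ≤ 1 → Top_Lip (Top_D (d := d) T n s) 1 := by
  induction n with
  | zero => exact fun s _ _ V _ f L hf => by rw [one_mul]; exact hf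
  | succ n ih =>
    intro s hs hs'
    have := (Top_desc_lip (d := d) (c := 1) hT hs (by nlinarith) (by
      rw [NNReal.coe_one]; linarith [sq_nonneg (s * Sn T)])).comp
      (ih _ (Top_next hs T).1 ((Top_next hs T).2.trans hs'))
    rwa [one_mul] at this

theorem Top_D_inv (hT : 0 < T) {V : E d → ℝ} (hV : InClass V) {f : E d → ℝ}
    {L : ℝ≥0} (hf : LipschitzWith L f) (n : ℕ) : ∀ s, 0 < s → s ≤ 1 →
    ∫ y, Top_D T n s V y f ∂gibbsS V s = ∫ x, f x ∂gibbsS V (s * Cs T ^ n) := by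
  induction n with
  | zero => exact fun s _ _ => by rw [pow_zero, mul_one]; rfl
  | succ n ih =>
    intro s hs hs'
    have h1 := (Top_next hs T).1
    have h2 := (Top_next hs T).2.trans hs'
    rw [pow_succ', ← mul_assoc, ← ih _ h1 h2]
    exact Top_desc_inv hT hs hV (Top_D_lip hT n _ h1 h2 V hV f L hf)

theorem Top_D_approx {s₀ δ : ℝ} {q : ℕ} (hT : 0 < T) (hs₀ : s₀ ≤ 1) (hδ : 0 ≤ δ)
    (H : ∀ s, 0 < s → s ≤ s₀ → Approx (E d) (Top_desc T s) (fun _ y => δ * Nm y) q) (n : ℕ)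
    (hn : 2 * δ * n ≤ 1) : ∀ s, 0 < s → s ≤ s₀ →
    Approx (E d) (Top_D T n s) (fun _ y => 2 * n * δ * (Nm y + 3 * n * √d)) (n * q) := by
  induction n with
  | zero =>
    intro s _ _
    have h : Samp (E d) (fun _ => id) 0 (fun _ _ => 0) 0 := samp_known measurable_id _
    have e : (Top_D T 0 s : Top_Ker d) = fun _ ω f => ∫ z, f (id ω + (0 : ℝ) • z) ∂gam d := by
      funext V y f
      simp [Top_D]
    rw [e]
    exact Approx.mono h (fun _ _ _ => by simp) (by simp)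
  | succ n ih =>
    intro s hs hs'
    have h1 := (Top_next hs T).1
    have h2 := (Top_next hs T).2.trans hs'
    have hn' : 2 * δ * n ≤ 1 := le_trans (by gcongr; omega) hn
    exact Top_step hδ hn' (H s hs hs') (Top_desc_mom hT hs (by nlinarith))
      (Top_D_lip hT n _ h1 (h2.trans hs₀)) (ih hn' _ h1 h2)

theorem Top_M_lip (hT : 0 < T) (hs : 0 < s) (hs' : s ^ 2 ≤ 1) {c : ℝ≥0}
    (hc : 1 - (s * Sn T) ^ 2 / 2 ≤ c) {C : Top_Ker d} (hC : Top_Lip C 1) (n : ℕ) :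
    Top_Lip (Top_M T s C n) (c ^ n) := by
  induction n with
  | zero => rw [pow_zero]; exact hC
  | succ n ih =>
    have := ((Top_desc_lip hT hs hs' hc).comp (Top_noise_lip (s * Sn T))).comp ih
    rwa [mul_one, ← pow_succ'] at this

theorem Top_M_lip1 (hT : 0 < T) (hs : 0 < s) (hs' : s ^ 2 ≤ 1) {C : Top_Ker d} (hC : Top_Lip C 1)
    (n : ℕ) : Top_Lip (Top_M T s C n) 1 := by
  have := Top_M_lip (c := 1) hT hs hs' (by
    rw [NNReal.coe_one]; linarith [sq_nonneg (s * Sn T)]) hC n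
  rwa [one_pow] at this

theorem Top_M_inv (hT : 0 < T) (hs : 0 < s) (hs' : s ^ 2 ≤ 1) {C : Top_Ker d} (hC : Top_Lip C 1)
    {V : E d → ℝ} (hV : InClass V) {f : E d → ℝ} {L : ℝ≥0} (hf : LipschitzWith L f) (n : ℕ) :
    ∫ y, Top_M T s C n V y f ∂gibbsS V s = ∫ y, C V y f ∂gibbsS V s := by
  induction n with
  | zero => rfl
  | succ n ih =>
    rw [← ih]
    exact Top_mix_inv hT hs hV (Top_M_lip1 hT hs hs' hC n V hV f L hf)

theorem Top_M_approx {δ : ℝ} {q j : ℕ} (hT : 0 < T) (hs : 0 < s) (hs' : s ^ 2 ≤ 1) (hδ : 0 ≤ δ)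
    (H : Approx (E d) (Top_desc T s) (fun _ y => δ * Nm y) q) {C : Top_Ker d} (hC : Top_Lip C 1)
    (hA : Approx (E d) C (fun _ y => 2 * j * δ * (Nm y + 3 * j * √d)) (j * q)) (n : ℕ)
    (hn : 2 * δ * (n + j) ≤ 1) : Approx (E d) (Top_M T s C n)
      (fun _ y => 2 * (n + j : ℕ) * δ * (Nm y + 3 * (n + j : ℕ) * √d)) ((n + j) * q) := by
  induction n with
  | zero => rw [zero_add]; exact hA
  | succ n ih =>
    have hn' : 2 * δ * (n + j) ≤ 1 := le_trans (by gcongr; omega) hn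
    rw [Nat.add_right_comm]
    exact Top_step hδ (by push_cast; exact hn') (Top_mix_approx H) (Top_mix_mom hT hs hs')
      (Top_M_lip1 hT hs hs' hC n) (ih hn')

end

theorem Top_conv {V : E d → ℝ} (hV : InClass V) (σ s : ℝ) {B : Set (E d)} (hB : MeasurableSet B) :
    ∫ y, (gam d).real {z | y + σ • z ∈ B} ∂gibbsS V s = (gibbsS V (√(σ ^ 2 + s ^ 2))).real B := by
  have := isProb_gibbsS hV s
  have hm : Measurable fun p : E d × E d => p.1 + σ • p.2 := by fun_prop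
  rw [← gibbsS_conv hV, map_measureReal_apply hm hB, measureReal_def, Measure.prod_apply (hm hB),
    ← integral_toReal (measurable_measure_prodMk_left (hm hB)).aemeasurable
      (Filter.Eventually.of_forall fun y => measure_lt_top _ _)]
  rfl

/-- mixing for `n₁` steps at scale `s₀`, then `n₂` descent steps, then noise `sf` -/
theorem top_chain {T s₀ δ sf : ℝ} {q n₁ n₂ : ℕ} (hT : 0 < T) (hT' : T ≤ 1 / 8) (hs : 0 < s₀)
    (hs' : 2 * s₀ ^ 2 ≤ 1) (hδ : 0 ≤ δ) (hsf : 0 < sf) (hn : 2 * δ * (n₁ + n₂) ≤ 1)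
    (H : ∀ s, 0 < s → s ≤ s₀ →
      Approx (E d) (fun V y f => ∫ x, f x ∂rhoY V y (s * Sn T) (s * Cs T)) (fun _ y => δ * Nm y) q)
    (hnum : 2 / sf * (2 * (n₁ + n₂) * δ * (1 + 3 * (n₁ + n₂)) * √d +
        (1 - (s₀ * Sn T) ^ 2 / 2) ^ n₁ * (2 * √d)) +
      (2 * (s₀ * Cs T ^ n₂ + sf) * √d + (s₀ * Cs T ^ n₂ + sf) ^ 2 * d) ≤ 1 / 10) :
    Suffices d ((n₁ + n₂) * q) := by
  have _ := hT'
  have hs2 : s₀ ^ 2 ≤ 1 := by nlinarith
  have hs1 : s₀ ≤ 1 := by nlinarith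
  have hD := Top_D_lip (d := d) hT n₂ s₀ hs hs1
  have hA := Top_M_approx hT hs hs2 hδ (H s₀ hs le_rfl) hD (Top_D_approx hT hs1 hδ H n₂
    (le_trans (by gcongr; exact le_add_of_nonneg_left (Nat.cast_nonneg _)) hn) s₀ hs le_rfl) n₁ hn
  refine (hA.comap (φ := fun _ : Unit => 0) measurable_const).suffices hsf fun V hV B hB => ?_
  set φ : E d → ℝ := fun y => (gam d).real {z | y + sf • z ∈ B} with hφ
  have hL : 0 ≤ 2 / sf := by positivity
  obtain ⟨L, hL'⟩ : ∃ L : ℝ≥0, (L : ℝ) = 2 / sf := ⟨⟨_, hL⟩, rfl⟩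
  have hf : LipschitzWith L φ := LipschitzWith.of_dist_le_mul fun y y' => by
    rw [Real.dist_eq, dist_eq_norm, hL']
    exact lip_noise hsf hB y y'
  have hρ : 0 ≤ 1 - (s₀ * Sn T) ^ 2 / 2 := by nlinarith [Top_sq T s₀, sq_nonneg (s₀ * Cs T)]
  obtain ⟨c, hc'⟩ : ∃ c : ℝ≥0, (c : ℝ) = 1 - (s₀ * Sn T) ^ 2 / 2 := ⟨⟨_, hρ⟩, rfl⟩
  have l1 := Top_M_lip hT hs hs2 hc'.ge hD n₁ V hV φ _ hf
  have := isProb_gibbsS hV s₀
  obtain ⟨m1, m2⟩ := gibbsS_moment hV hs.le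
  have e1 := (Dom.of_integrable (F := fun y : E d => 0 - y) (c := 2 * √d)
    ((integrable_const 0).sub m1) (by simpa using m2.trans (by gcongr; linarith))).abs_integral_sub l1 (integrable_const _)
    (Top_int m1 l1)
  rw [Top_M_inv hT hs hs2 hD hV hf, Top_D_inv hT hV hf n₂ s₀ hs hs1, hφ, Top_conv hV _ _ hB,
    integral_const, probReal_univ, one_smul, ← hφ] at e1
  have hc : 0 ≤ s₀ * Cs T ^ n₂ := (mul_pos hs (pow_pos (Cs_pos T) _)).le
  have e2 := gibbsS_tv hV (Real.sqrt_nonneg (sf ^ 2 + (s₀ * Cs T ^ n₂) ^ 2)) hB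
  have e3 : √(sf ^ 2 + (s₀ * Cs T ^ n₂) ^ 2) ≤ s₀ * Cs T ^ n₂ + sf :=
    Real.sqrt_le_iff.2 ⟨by positivity, by nlinarith⟩
  have e4 := e2.trans (show _ ≤ 2 * (s₀ * Cs T ^ n₂ + sf) * √d + (s₀ * Cs T ^ n₂ + sf) ^ 2 * d by
    gcongr)
  have e5 := (abs_sub_le _ _ _).trans (add_le_add e1 e4)
  refine le_trans (add_le_add e5 le_rfl) (le_trans (le_of_eq ?_) hnum)
  simp only [Nm, norm_zero, NNReal.coe_mul, NNReal.coe_pow, hc', hL']
  push_cast
  ring

end Vale.Agent.P347
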