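import Vale.Agent.P347.Params
import Vale.Agent.P347.Top

namespace Vale.Agent.P347

open MeasureTheory ProbabilityTheory
open scoped RealInnerProductSpace NNReal

variable {d : ℕ}

theorem Main_exp {u : ℝ} {j : ℕ} (hu : 0 < u) (h : 4 ^ (j + 1) * ((j + 1).factorial : ℝ) ≤ u) :
    Real.exp (-(u / 4)) ≤ (u ^ j)⁻¹ := by
  rw [Real.exp_neg]
  refine inv_anti₀ (by positivity) (le_trans ?_ (Real.pow_div_factorial_le_exp _ (by positivity)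
    (j + 1)))
  rw [le_div_iff₀ (by positivity), div_pow, le_div_iff₀ (by positivity), pow_succ u, mul_assoc]
  exact mul_le_mul_of_nonneg_left (by linarith) (by positivity)

theorem Main_pow {x a y : ℝ} {n : ℕ} (h0 : 0 ≤ x) (h : x ≤ Real.exp (-a)) (hn : y ≤ n * a) :
    x ^ n ≤ Real.exp (-y) := by
  refine (pow_le_pow_left₀ h0 h n).trans ?_
  rw [← Real.exp_nat_mul, Real.exp_le_exp]
  linarith

theorem Main_num {D n ρ c : ℝ} (hD : 10 ^ 6 ≤ D) (hn0 : 0 ≤ n) (hn : n ≤ D ^ 6)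
    (hρ : ρ ≤ (D ^ 3)⁻¹) (hc0 : 0 ≤ c) (hc : c ≤ (D ^ 3)⁻¹) :
    2 / D⁻¹ * (2 * n * (D ^ 20)⁻¹ * (1 + 3 * n) * √D + ρ * (2 * √D)) +
      (2 * (c + D⁻¹) * √D + (c + D⁻¹) ^ 2 * D) ≤ 1 / 10 := by
  have h1 : 1 ≤ D := by linarith
  have h0 : 0 < D := by linarith
  have s1 : √D ≤ D := Real.sqrt_le_iff.2 ⟨h0.le, by nlinarith⟩
  have s2 : √D ≤ D / 1000 := Real.sqrt_le_iff.2 ⟨by positivity, by nlinarith⟩
  have i1 : D⁻¹ ≤ 1 / 10 ^ 6 := by rw [inv_eq_one_div]; gcongr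
  have c1 : c ≤ D⁻¹ := hc.trans (inv_anti₀ h0 (le_self_pow₀ h1 (by norm_num)))
  have n1 : 1 + 3 * n ≤ 4 * D ^ 6 := by linarith [one_le_pow₀ (n := 6) h1]
  have p1 : (D ^ 6)⁻¹ ≤ D⁻¹ := inv_anti₀ h0 (le_self_pow₀ h1 (by norm_num))
  calc _ ≤ 2 / D⁻¹ * (2 * D ^ 6 * (D ^ 20)⁻¹ * (4 * D ^ 6) * D + (D ^ 3)⁻¹ * (2 * D)) +
        (2 * (D⁻¹ + D⁻¹) * (D / 1000) + (D⁻¹ + D⁻¹) ^ 2 * D) := by gcongr
    _ = 16 * (D ^ 6)⁻¹ + 8 * D⁻¹ + 4 / 1000 := by field_simp; ring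
    _ ≤ _ := by linarith

theorem Main_ceil {u : ℝ} {a M : ℕ} (hu : 4 ≤ u) (hM : 1 ≤ M) (ha : a ≤ 5 * M) :
    (⌈u ^ a⌉₊ : ℝ) ≤ u ^ (6 * M) / 2 := by
  have h1 : 1 ≤ u := by linarith
  have e1 := (Nat.ceil_lt_add_one (by positivity : 0 ≤ u ^ a)).le
  have e2 : u ^ a ≤ u ^ (5 * M) := pow_le_pow_right₀ h1 ha
  have e3 : 1 ≤ u ^ (5 * M) := one_le_pow₀ h1
  have e4 : u ^ (5 * M + 1) ≤ u ^ (6 * M) := pow_le_pow_right₀ h1 (by omega)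
  rw [pow_succ] at e4
  nlinarith

theorem Main_Sn {v T : ℝ} (hv : 0 < v) (h : v ≤ T) (hT : T ≤ 1 / 8) : v ^ 2 / 2 ≤ Sn T ^ 2 := by
  have hC : 3 / 4 ≤ Cs T := Cs_ge (by rw [abs_of_pos (hv.trans_le h)]; linarith)
  have a : (v * (3 / 4)) ^ 2 ≤ Sn T ^ 2 := by
    rw [Sn_eq]
    gcongr
    linarith
  nlinarith

theorem Main_rho {u S : ℝ} {M : ℕ} (hu : 1 ≤ u) (hS : u⁻¹ ^ 2 / 2 ≤ S ^ 2) (hS1 : S ^ 2 ≤ 1) :
    (1 - (u⁻¹ ^ M * S) ^ 2 / 2) ^ ⌈u ^ (2 * M + 3)⌉₊ ≤ Real.exp (-(u / 4)) := by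
  have h0 : 0 < u := by linarith
  have a1 : (u⁻¹ ^ M * S) ^ 2 ≤ 1 := by
    rw [mul_pow]
    exact mul_le_one₀ (pow_le_one₀ (by positivity) (pow_le_one₀ (by positivity)
      (inv_le_one_of_one_le₀ hu))) (by positivity) hS1
  refine Main_pow (by linarith) (by linarith [Real.add_one_le_exp (-((u⁻¹ ^ M * S) ^ 2 / 2))])
    (a := (u⁻¹ ^ M * S) ^ 2 / 2) ?_
  have l1 := Nat.le_ceil (u ^ (2 * M + 3))
  calc u / 4 = u ^ (2 * M + 3) * ((u⁻¹ ^ M) ^ 2 * (u⁻¹ ^ 2 / 2) / 2) := by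
        rw [inv_pow, inv_pow, pow_add, pow_mul']; field_simp; ring
    _ ≤ ⌈u ^ (2 * M + 3)⌉₊ * ((u⁻¹ ^ M) ^ 2 * S ^ 2 / 2) := by gcongr
    _ = _ := by ring

theorem Main_cs {u T : ℝ} (h0 : 0 < u) (hS : u⁻¹ ^ 2 / 2 ≤ Sn T ^ 2) :
    Cs T ^ ⌈u ^ 3⌉₊ ≤ Real.exp (-(u / 4)) := by
  have hSC := Sn_sq_add T
  refine Main_pow (Cs_pos T).le (a := Sn T ^ 2 / 2)
    (by nlinarith [Real.add_one_le_exp (-(Sn T ^ 2 / 2)), sq_nonneg (Cs T - 1)]) ?_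
  have l2 := Nat.le_ceil (u ^ 3)
  calc u / 4 = u ^ 3 * (u⁻¹ ^ 2 / 2 / 2) := by field_simp; ring
    _ ≤ _ := by gcongr

theorem Main_small {D n : ℝ} (hD : 2 ≤ D) (hn : n ≤ D ^ 6) : 2 * (D ^ 20)⁻¹ * n ≤ 1 := by
  have a : D ^ 7 ≤ D ^ 20 := pow_le_pow_right₀ (by linarith) (by norm_num)
  have b : 0 < D ^ 6 := by positivity
  rw [mul_right_comm, ← div_eq_mul_inv, div_le_one (by positivity)]
  calc 2 * n ≤ 2 * D ^ 6 := by linarith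
    _ ≤ D * D ^ 6 := by gcongr
    _ = D ^ 7 := by ring
    _ ≤ _ := a

theorem Main_core {u : ℝ} {M K r q : ℕ} (hM : 1 ≤ M) (hK : 1 ≤ K) (hr : 1 ≤ r) (hu : 10 ^ 6 ≤ u)
    (hu' : 4 ^ (M * r * 3 + 1) * ((M * r * 3 + 1).factorial : ℝ) ≤ u) (hd : u ^ (M * r) = d)
    (hT : K * u⁻¹ ≤ 1 / 8)
    (H : ∀ s : ℝ, 0 < s → s ≤ u⁻¹ ^ M →
      Approx (E d) (fun V y f => ∫ x, f x ∂rhoY V y (s * Sn (K * u⁻¹)) (s * Cs (K * u⁻¹)))
        (fun _ y => u⁻¹ ^ (M * (r * 20)) * Nm y) q) :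
    ∃ n : ℕ, (n : ℝ) ≤ u ^ (6 * M) ∧ Suffices d (n * q) := by
  have h1 : 1 ≤ u := by linarith
  have h0 : 0 < u := by linarith
  have hK' : (1 : ℝ) ≤ K := by exact_mod_cast hK
  have hi : 0 < u⁻¹ := inv_pos.2 h0
  have hiT : u⁻¹ ≤ K * u⁻¹ := le_mul_of_one_le_left hi.le hK'
  have hi1 : u⁻¹ ≤ 1 / 8 := hiT.trans hT
  have hD : (10 : ℝ) ^ 6 ≤ d := by
    rw [← hd]; exact hu.trans (le_self_pow₀ h1 (by positivity))
  have c1 := Main_ceil (a := 2 * M + 3) (by linarith : 4 ≤ u) hM (by omega)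
  have c2 := Main_ceil (a := 3) (by linarith : 4 ≤ u) hM (by omega)
  have hn := (add_le_add c1 c2).trans (add_halves _).le
  have hn' := hn.trans (show _ ≤ (d : ℝ) ^ 6 by
    rw [← hd, ← pow_mul]
    exact pow_le_pow_right₀ h1 (by nlinarith))
  have hδ : u⁻¹ ^ (M * (r * 20)) = ((d : ℝ) ^ 20)⁻¹ := by
    rw [← hd, ← pow_mul, inv_pow, mul_assoc]
  have hs1 : u⁻¹ ^ M ≤ u⁻¹ := pow_le_of_le_one hi.le (by linarith) (by omega)
  have hs0 : 0 < u⁻¹ ^ M := by positivity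
  have he := Main_exp h0 hu'
  rw [pow_mul, hd] at he
  have hS := Main_Sn hi hiT hT
  have hC0 := Cs_pos (K * u⁻¹)
  rw [hδ] at H
  refine ⟨_, by rw [Nat.cast_add]; exact hn, top_chain (sf := (d : ℝ)⁻¹) (hi.trans_le hiT) hT hs0
    (by nlinarith) (by positivity) (inv_pos.2 (by linarith)) (Main_small (by linarith) hn') H
    (Main_num hD (by positivity) hn' ((Main_rho h1 hS ?_).trans he) (by positivity)
      ((mul_le_of_le_one_left (by positivity) (by linarith)).trans ((Main_cs h0 hS).trans he)))⟩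
  linarith [Sn_sq_add (K * u⁻¹), sq_nonneg (Cs (K * u⁻¹))]

theorem main_upper {ε : ℝ} (hε : 0 < ε) :
    ∀ᶠ d : ℕ in Filter.atTop, ∃ q : ℕ, (q : ℝ) ≤ (d : ℝ) ^ ε ∧ Suffices d q := by
  obtain ⟨r, hr⟩ := exists_nat_gt (7 / ε)
  have hr0 : (0 : ℝ) < r := lt_trans (by positivity) hr
  have hr1 : 1 ≤ r := by exact_mod_cast hr0
  obtain ⟨M, K, hM, hK, h₀, hh, hKh, H⟩ := top_step (r * 20)
  have hN : M * r ≠ 0 := by positivity
  have t : Filter.Tendsto (fun d : ℕ => (d : ℝ) ^ (((M * r : ℕ) : ℝ)⁻¹)) Filter.atTop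
      Filter.atTop := (tendsto_rpow_atTop (by positivity)).comp tendsto_natCast_atTop_atTop
  filter_upwards [t.eventually_ge_atTop (10 ^ 6), t.eventually_ge_atTop h₀⁻¹,
    t.eventually_ge_atTop (4 ^ (M * r * 3 + 1) * ((M * r * 3 + 1).factorial : ℝ)),
    Filter.eventually_ge_atTop 1] with d h1 h2 h3 h4
  set u := (d : ℝ) ^ (((M * r : ℕ) : ℝ)⁻¹) with hu
  have hd : u ^ (M * r) = d := Real.rpow_inv_natCast_pow (Nat.cast_nonneg d) hN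
  have u0 : 0 < u := by linarith
  have hi : u⁻¹ ≤ h₀ := (inv_le_comm₀ u0 hh).2 h2
  obtain ⟨q, hq, Hq⟩ := H u⁻¹ (inv_pos.2 u0) hi
  obtain ⟨n, hn, hS⟩ := Main_core hM hK hr1 h1 h3 hd (le_trans (by gcongr) hKh) (Hq d)
  refine ⟨_, ?_, hS⟩
  rw [inv_pow, ← div_eq_mul_inv, div_le_one (by positivity)] at hq
  have hM0 : (0 : ℝ) < M := by exact_mod_cast hM
  calc ((n * q : ℕ) : ℝ) = n * q := by push_cast; rfl
    _ ≤ u ^ (6 * M) * u ^ M := by gcongr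
    _ = (d : ℝ) ^ ((7 : ℝ) / r) := by
      rw [← pow_add, hu, ← Real.rpow_natCast, ← Real.rpow_mul (Nat.cast_nonneg d)]
      congr 1
      push_cast
      field_simp
      ring
    _ ≤ _ := by
      refine Real.rpow_le_rpow_of_exponent_le (by exact_mod_cast h4) ?_
      rw [div_lt_iff₀ hε] at hr
      rw [div_le_iff₀ hr0]
      linarith

theorem main_tendsto :
    Filter.Tendsto (fun d : ℕ => Real.log (Q d) / Real.log d) Filter.atTop (nhds 0) := by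
  rw [tendsto_order]
  refine ⟨fun a ha => Filter.Eventually.of_forall fun d =>
    ha.trans_le (div_nonneg (Real.log_natCast_nonneg _) (Real.log_natCast_nonneg _)),
    fun a ha => ?_⟩
  filter_upwards [main_upper (half_pos ha), Filter.eventually_ge_atTop 2] with d ⟨q, hq, hS⟩ hd
  have hd1 : (1 : ℝ) < d := by exact_mod_cast hd
  have hl := Real.log_pos hd1
  have h1 : Q d ≤ q := Nat.sInf_le hS
  have h2 : Real.log (Q d) ≤ a / 2 * Real.log d := by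
    rcases Nat.eq_zero_or_pos (Q d) with h | h
    · rw [h, Nat.cast_zero, Real.log_zero]
      positivity
    · rw [← Real.log_rpow (by linarith)]
      exact Real.log_le_log (by exact_mod_cast h) (le_trans (by exact_mod_cast h1) hq)
  rw [div_lt_iff₀ hl]
  nlinarith

end Vale.Agent.P347
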