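import Mathlib

namespace Vale.Agent.P347

open MeasureTheory ProbabilityTheory

/-- Euclidean space of dimension `d`. -/
abbrev E (d : ℕ) := EuclideanSpace ℝ (Fin d)

/-- The class of potentials: `C^2`, `V 0 = 0`, `∇V 0 = 0`, `I ≤ ∇²V ≤ 2 I`. -/
def InClass {d : ℕ} (V : E d → ℝ) : Prop :=
  ContDiff ℝ 2 V ∧ V 0 = 0 ∧ gradient V 0 = 0 ∧
    ∀ x v : E d, iteratedFDeriv ℝ 2 V x ![v, v] ∈ Set.Icc (‖v‖ ^ 2) (2 * ‖v‖ ^ 2)

/-- The Gibbs law with density proportional to `exp (-V)`. -/
noncomputable def gibbs {d : ℕ} (V : E d → ℝ) : Measure (E d) :=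
  (volume : Measure (E d)).tilted (fun x => -V x)

/-- A randomized adaptive first-order algorithm: it draws `N` independent standard normal reals,
the `i`-th query point and the output are measurable functions of these and of the list of
answers received so far. -/
structure Alg (d : ℕ) where
  N : ℕ
  query : ℕ → (Fin N → ℝ) × (ℕ → ℝ × E d) → E d
  output : (Fin N → ℝ) × (ℕ → ℝ × E d) → E d
  measurable_query : ∀ i, Measurable (query i)
  measurable_output : Measurable output

/-- The answers to the first `i` queries (later slots hold `0`). -/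
noncomputable def Alg.hist {d : ℕ} (A : Alg d) (V : E d → ℝ) (ω : Fin A.N → ℝ) :
    ℕ → (ℕ → ℝ × E d)
  | 0 => fun _ => 0
  | i + 1 => Function.update (A.hist V ω i) i
      (V (A.query i (ω, A.hist V ω i)), gradient V (A.query i (ω, A.hist V ω i)))

/-- The law of the output after `q` queries. -/
noncomputable def Alg.law {d : ℕ} (A : Alg d) (q : ℕ) (V : E d → ℝ) : Measure (E d) :=
  (Measure.pi fun _ : Fin A.N => gaussianReal 0 1).map fun ω => A.output (ω, A.hist V ω q)

/-- Some algorithm with `q` queries is within total variation `1/10` of the Gibbs law for every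
potential of the class. -/
def Suffices (d q : ℕ) : Prop :=
  ∃ A : Alg d, ∀ V : E d → ℝ, InClass V → ∀ B : Set (E d), MeasurableSet B →
    |(A.law q V).real B - (gibbs V).real B| ≤ 1 / 10

/-- The query complexity `Q(d)`. -/
noncomputable def Q (d : ℕ) : ℕ := sInf {q | Suffices d q}

end Vale.Agent.P347
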