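import Vale.Agent.P347.Calc
import Vale.Agent.P347.Interp

namespace Vale.Agent.P347

open MeasureTheory ProbabilityTheory
open scoped RealInnerProductSpace NNReal ContDiff

variable {d : ℕ}

theorem nodes_dom_int {Ω X : Type*} [MeasurableSpace Ω] [NormedAddCommGroup X] {μ : Measure Ω}
    [SFinite μ] {g : ℝ × Ω → X} (hg : StronglyMeasurable g) {T c : ℝ} (hT : 0 ≤ T)
    (h : ∀ t ∈ Set.Icc 0 T, Dom μ (fun z => g (t, z)) c) :
    Dom μ (fun z => ∫ t in (0 : ℝ)..T, ‖g (t, z)‖) (T * c) := by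
  have h1 : ∀ᵐ t ∂(volume.restrict (Set.Ioc 0 T)),
      Integrable (fun z => g (t, z)) μ ∧ ∫ z, ‖g (t, z)‖ ∂μ ≤ c :=
    ae_restrict_of_forall_mem measurableSet_Ioc fun t ht => (h t ⟨ht.1.le, ht.2⟩).integrable
      (hg.comp_measurable measurable_prodMk_left).aestronglyMeasurable
  have h2 : Integrable (fun t => ∫ z, ‖g (t, z)‖ ∂μ) (volume.restrict (Set.Ioc 0 T)) :=
    Integrable.of_bound hg.norm.integral_prod_right'.aestronglyMeasurable c (h1.mono fun t ht => by
      rw [Real.norm_of_nonneg (integral_nonneg fun _ => norm_nonneg _)]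
      exact ht.2)
  have h3 : Integrable g ((volume.restrict (Set.Ioc 0 T)).prod μ) :=
    (integrable_prod_iff hg.aestronglyMeasurable).2 ⟨h1.mono fun t ht => ht.1, h2⟩
  refine ⟨fun z => ∫ t in Set.Ioc 0 T, ‖g (t, z)‖, h3.norm.integral_prod_right, ?_,
    Filter.Eventually.of_forall fun z => ?_⟩
  · rw [← integral_integral_swap (f := fun t z => ‖g (t, z)‖) h3.norm]
    refine (integral_mono_ae h2 (integrable_const c) (h1.mono fun t ht => ht.2)).trans_eq ?_
    simp [hT]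
  · beta_reduce
    rw [intervalIntegral.integral_of_le hT,
      Real.norm_of_nonneg (integral_nonneg fun _ => norm_nonneg _)]

/-- data of a flow on the interval from `0` to `T` -/
structure NodesFlow (V : E d → ℝ) (m : E d) (s β T : ℝ) (μ : Measure (E d × E d))
    (Φ : ℝ → E d × E d → E d × E d) : Prop where
  meas : Measurable (Function.uncurry Φ)
  der : ∀ z, ∀ t ∈ Set.Icc 0 T,
    HasDerivWithinAt (fun t => Φ t z) (fld V m s β (t, Φ t z)) (Set.Icc 0 T) t
  pres : ∀ t ∈ Set.Icc 0 T, MeasurePreserving (Φ t) μ (mu V m s t)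

section
variable {V : E d → ℝ} {m : E d} {s β T : ℝ} {μ : Measure (E d × E d)}
  {Φ : ℝ → E d × E d → E d × E d}

theorem NodesFlow.chain (h : NodesFlow V m s β T μ Φ) {H : ℝ × E d × E d → E d}
    (hH : ContDiff ℝ ∞ H) (z : E d × E d) {t : ℝ} (ht : t ∈ Set.Icc 0 T) :
    HasDerivWithinAt (fun t => H (t, Φ t z)) (Dt V m s β H (t, Φ t z)) (Set.Icc 0 T) t :=
  (hH.differentiable (by simp) _).hasFDerivAt.comp_hasDerivWithinAt t
    ((hasDerivWithinAt_id t _).prodMk (h.der z t ht))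

theorem NodesFlow.tower (h : NodesFlow V m s β T μ Φ) (hV : InClass V) (hs : 0 < s)
    {H : ℝ × E d × E d → E d} (hH : ContDiff ℝ ∞ H) (k : ℕ) (z : E d × E d) {t : ℝ}
    (ht : t ∈ Set.Icc 0 T) : HasDerivWithinAt (fun t => (Dt V m s β)^[k] H (t, Φ t z))
      ((Dt V m s β)^[k + 1] H (t, Φ t z)) (Set.Icc 0 T) t := by
  rw [Function.iterate_succ_apply']
  exact h.chain (contDiff_Dt_iter hV m hs β hH k) z ht

theorem NodesFlow.dom (h : NodesFlow V m s β T μ Φ) [SFinite μ] (hT : 0 ≤ T)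
    {H : ℝ × E d × E d → E d} (hH : Continuous H) {c : ℝ}
    (hD : ∀ t ∈ Set.Icc 0 T, Dom (mu V m s t) (fun z => H (t, z)) c) :
    Dom μ (fun z => ∫ t in (0 : ℝ)..T, ‖H (t, Φ t z)‖) (T * c) :=
  nodes_dom_int (g := fun p => H (p.1, Φ p.1 p.2))
    (hH.measurable.comp (measurable_fst.prodMk h.meas)).stronglyMeasurable hT
    fun t ht => (hD t ht).comp (h.pres t ht)

end

theorem nodes_int (K : ℕ) : ∃ C : ℝ, 0 ≤ C ∧ ∀ (d : ℕ) (V : E d → ℝ), InClass V →
    ∀ (m : E d) (s β h : ℝ), 0 < s → 0 < h → K * h ≤ 1 / 4 → ∀ (μ : Measure (E d × E d))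
    [SFinite μ] (Φ : ℝ → E d × E d → E d × E d), NodesFlow V m s β (K * h) μ Φ →
    ∀ (Ha Hb : ℝ × E d × E d → E d), ContDiff ℝ ∞ Ha → ContDiff ℝ ∞ Hb → ∀ (a b ca cb : ℝ),
    0 ≤ ca → 0 ≤ cb →
    (∀ t ∈ Set.Icc (0 : ℝ) (1 / 4), Dom (mu V m s t) (fun z => (Dt V m s β)^[K + 1] Ha (t, z)) ca) →
    (∀ t ∈ Set.Icc (0 : ℝ) (1 / 4), Dom (mu V m s t) (fun z => (Dt V m s β)^[K + 1] Hb (t, z)) cb) →
    ∀ φ : E d × E d → ℝ → E d, (∀ z, ∀ t ∈ Set.Icc 0 (K * h), HasDerivWithinAt (φ z)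
      (a • Ha (t, Φ t z) + b • Hb (t, Φ t z)) (Set.Icc 0 (K * h)) t) → ∀ i j : Fin (K + 1),
    Dom μ (fun z => φ z ((j : ℕ) * h) - φ z ((i : ℕ) * h) - ∑ l, (h * wI K i j l) •
      (a • Ha ((l : ℕ) * h, Φ ((l : ℕ) * h) z) + b • Hb ((l : ℕ) * h, Φ ((l : ℕ) * h) z)))
      (C * h ^ (K + 1) * (|a| * ca + |b| * cb)) := by
  obtain ⟨C, hC, hI⟩ := interp_int K
  refine ⟨C, hC, fun d V hV m s β h hs hh hK μ _ Φ hΦ Ha Hb sa sb a b ca cb ha hb da db φ hφ i j =>
    ?_⟩
  have hT : 0 ≤ K * h := by positivity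
  have c1 := (contDiff_Dt_iter hV m hs β sa (K + 1)).continuous
  have c2 := (contDiff_Dt_iter hV m hs β sb (K + 1)).continuous
  have h1 := hΦ.dom hT (H := fun p => a • (Dt V m s β)^[K + 1] Ha p + b • (Dt V m s β)^[K + 1] Hb p)
    (by fun_prop) (c := |a| * ca + |b| * cb) fun t ht =>
      (da t ⟨ht.1, ht.2.trans hK⟩).add_le (db t ⟨ht.1, ht.2.trans hK⟩) (abs_nonneg a) (abs_nonneg b)
        (Filter.Eventually.of_forall fun z => (norm_add_le _ _).trans_eq (by
          rw [norm_smul, norm_smul, Real.norm_eq_abs, Real.norm_eq_abs]))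
  refine (h1.smul_le (a := C * h ^ (K + 1)) (by positivity)
    (Filter.Eventually.of_forall fun z => ?_)).mono (Filter.Eventually.of_forall fun _ => le_rfl) ?_
  · have hd : ∀ k, ∀ t ∈ Set.Icc 0 (K * h), HasDerivWithinAt
        (fun t => a • (Dt V m s β)^[k] Ha (t, Φ t z) + b • (Dt V m s β)^[k] Hb (t, Φ t z))
        (a • (Dt V m s β)^[k + 1] Ha (t, Φ t z) + b • (Dt V m s β)^[k + 1] Hb (t, Φ t z))
        (Set.Icc 0 (K * h)) t := fun k t ht =>
      ((hΦ.tower hV hs sa k z ht).const_smul a).add ((hΦ.tower hV hs sb k z ht).const_smul b)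
    have h2 := hI (E d) h hh (fun k => Nat.casesOn k (φ z) fun k t =>
      a • (Dt V m s β)^[k] Ha (t, Φ t z) + b • (Dt V m s β)^[k] Hb (t, Φ t z))
      (fun k _ => by
        cases k with
        | zero => exact hφ z
        | succ k => exact hd k)
      (fun t ht => (hd (K + 1) t ht).continuousWithinAt) i j
    exact h2.trans (mul_le_mul_of_nonneg_left (le_abs_self _) (by positivity))
  · refine mul_le_mul_of_nonneg_left (mul_le_of_le_one_left (by positivity) ?_) (by positivity)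
    linarith

theorem nodes_cd1 {V : E d → ℝ} (hV : InClass V) (m : E d) {s : ℝ} (hs : 0 < s) :
    ContDiff ℝ ∞ (H1 V m s) :=
  ((contDiff_Cs.comp contDiff_fst).pow 3).smul (contDiff_gF hV m hs)

theorem nodes_cd2 {V : E d → ℝ} (hV : InClass V) (m : E d) {s : ℝ} (hs : 0 < s) :
    ContDiff ℝ ∞ (H2 V m s) :=
  ((contDiff_Cs.comp contDiff_fst).pow 3).smul
    ((contDiff_TF hV m hs).clm_apply (contDiff_snd.comp contDiff_snd))

theorem nodes_cd3 {V : E d → ℝ} (hV : InClass V) (m : E d) {s : ℝ} (hs : 0 < s) :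
    ContDiff ℝ ∞ (H3 V m s) :=
  ((contDiff_Sn.comp contDiff_fst).mul ((contDiff_Cs.comp contDiff_fst).pow 3)).smul
    ((contDiff_TF hV m hs).clm_apply
      ((contDiff_TF hV m hs).clm_apply (contDiff_snd.comp contDiff_snd)))

theorem NodesFlow.fst {V : E d → ℝ} {m : E d} {s β T : ℝ} {μ : Measure (E d × E d)}
    {Φ : ℝ → E d × E d → E d × E d} (h : NodesFlow V m s β T μ Φ) (z : E d × E d) {t : ℝ}
    (ht : t ∈ Set.Icc 0 T) : HasDerivWithinAt (fun t => (Φ t z).1)
      ((-s) • H1 V m s (t, Φ t z) + (β * s) • H2 V m s (t, Φ t z)) (Set.Icc 0 T) t := by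
  have h1 := (ContinuousLinearMap.fst ℝ (E d) (E d)).hasFDerivAt.comp_hasDerivWithinAt t
    (h.der z t ht)
  refine h1.congr_deriv ?_
  simp only [ContinuousLinearMap.coe_fst', fld, H1, H2, smul_smul, neg_mul, neg_smul]

theorem NodesFlow.snd {V : E d → ℝ} {m : E d} {s β T : ℝ} {μ : Measure (E d × E d)}
    {Φ : ℝ → E d × E d → E d × E d} (h : NodesFlow V m s β T μ Φ) (hV : InClass V) (hs : 0 < s)
    (z : E d × E d) {t : ℝ} (ht : t ∈ Set.Icc 0 T) :
    HasDerivWithinAt (fun t => (Φ t z).2 + β • gF V m s (t, Φ t z))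
      ((β ^ 2 * s ^ 2) • H3 V m s (t, Φ t z) + (0 : ℝ) • H3 V m s (t, Φ t z)) (Set.Icc 0 T) t := by
  have h1 := (ContinuousLinearMap.snd ℝ (E d) (E d)).hasFDerivAt.comp_hasDerivWithinAt t
    (h.der z t ht)
  refine (h1.add ((h.chain (contDiff_gF hV m hs) z ht).const_smul β)).congr_deriv ?_
  rw [Dt_gF hV m hs]
  simp only [ContinuousLinearMap.coe_snd', fld]
  module

theorem nodes_abs_Sn (t : ℝ) : |Sn t| ≤ 1 := by
  rw [← sq_le_one_iff_abs_le_one]
  linarith [Sn_sq_add t, sq_nonneg (Cs t)]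

theorem nodes_toY (V : E d → ℝ) (m : E d) (σ s : ℝ) :
    MeasurePreserving (fun x => m + σ • x) (rho V m σ s) (rhoY V m σ s) := ⟨by fun_prop, rfl⟩

theorem nodes_sqrt_le (m : E d) : √d ≤ Nm m := le_add_of_nonneg_right (norm_nonneg m)

theorem nodes_Nm_nonneg (m : E d) : 0 ≤ Nm m := (Real.sqrt_nonneg _).trans (nodes_sqrt_le m)

theorem vflow_nodes (K : ℕ) (hK : 1 ≤ K) : ∃ C : ℝ, 0 ≤ C ∧ ∀ (d : ℕ) (V : E d → ℝ), InClass V →
    ∀ (m : E d) (s h : ℝ), 0 < s → 2 * s ^ 2 ≤ 1 → 0 < h → K * h ≤ 1 / 4 →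
    ∃ Y : Fin (K + 1) → E d × E d → E d,
      (∀ j, MeasurePreserving (Y j) ((gam d).prod (gam d)) (rhoY V m (s * Sj h j) (s * Cj h j))) ∧
      (∀ j, Dom ((gam d).prod (gam d)) (fun z => Y j z - (m + (s * Sj h j) • z.1 -
        ∑ i, (s * Sj h j * h * s * wI K 0 j i * Cj h i ^ 3) • gg V (s * Cj h i) (Y i z)))
        (C * (s * h ^ (K + 1) * Nm m))) ∧
      Dom ((gam d).prod (gam d)) (fun z => T2 V s m z.1 -
        ∑ j, (wD K j / (s * h)) • gg V (s * Cj h j) (Y j z)) (C * (h ^ K * √d)) := by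
  obtain ⟨C1, hC1, hI⟩ := nodes_int K
  obtain ⟨C2, hC2, hD⟩ := interp_der K hK
  obtain ⟨C3, hC3, hB⟩ := deriv_bounds (K + 1)
  refine ⟨C1 * C3 + C2 * K * C3, by positivity, fun d V hV m s h hs hs' hh hKh => ?_⟩
  have hK' : (0 : ℝ) < K := by exact_mod_cast hK
  have hT : 0 < K * h := by positivity
  have hs1 : s ≤ 1 := by nlinarith
  have hN := nodes_Nm_nonneg m
  obtain ⟨Φ, p1, p2, p3, p4⟩ := flow_exists hV m (β := 0) (t₀ := 0) hs hs' (by simp) hT hKh
    ⟨le_rfl, hT.le⟩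
  have e0 : mu V m s 0 = (gam d).prod (gam d) := by
    simp only [mu, rho, Sn_zero, mul_zero, zero_smul, tilted_const]
  rw [e0] at p4
  have hΦ : NodesFlow V m s 0 (K * h) ((gam d).prod (gam d)) Φ := ⟨p1, p3, p4⟩
  have hB' := hB d V hV m s 0 hs hs' (by simp)
  refine ⟨fun j z => m + (s * Sj h j) • (Φ ((j : ℕ) * h) z).1, fun j => ?_, fun j => ?_, ?_⟩
  · have := isProb_rho hV m (s * Sj h j) (s * Cj h j)
    exact (nodes_toY V m _ _).comp (measurePreserving_fst.comp (p4 _ (interp_node_mem hh j)))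
  · have h1 := hI d V hV m s 0 h hs hh hKh _ Φ hΦ _ _ (nodes_cd1 hV m hs) (nodes_cd2 hV m hs)
      (-s) (0 * s) _ _ (by positivity) (by positivity)
      (fun t ht => (hB' (K + 1) le_rfl t ht).1) (fun t ht => (hB' (K + 1) le_rfl t ht).2.2.1)
      (fun z t => (Φ t z).1) (fun z t ht => hΦ.fst z ht) 0 j
    refine (h1.smul_le hs.le (Filter.Eventually.of_forall fun z => ?_)).mono
      (Filter.Eventually.of_forall fun _ => le_rfl) ?_
    · refine le_trans (le_of_eq ?_) (mul_le_mul_of_nonneg_right (b := |s * Sj h j|) ?_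
        (norm_nonneg _))
      · rw [← Real.norm_eq_abs, ← norm_smul]
        congr 1
        simp only [Fin.val_zero, Nat.cast_zero, zero_mul, p2, zero_smul, add_zero, H1, gF, yy,
          smul_sub, Finset.smul_sum, smul_smul, Sj, Cj]
        have e3 : ∀ i : Fin (K + 1),
            s * Sn ((j : ℕ) * h) * (h * wI K 0 j i * (-s * Cs ((i : ℕ) * h) ^ 3)) =
              -(s * Sn ((j : ℕ) * h) * h * s * wI K 0 j i * Cs ((i : ℕ) * h) ^ 3) :=
          fun i => by ring
        simp only [e3, neg_smul, Finset.sum_neg_distrib]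
        abel
      · rw [abs_mul, abs_of_pos hs]
        exact mul_le_of_le_one_right hs.le (nodes_abs_Sn _)
    · rw [abs_neg, abs_of_pos hs, zero_mul, abs_zero, zero_mul, add_zero]
      have b1 : 0 ≤ C1 * C3 * (s * h ^ (K + 1) * Nm m) := by positivity
      have b2 : 0 ≤ C2 * K * C3 * (s * h ^ (K + 1) * Nm m) := by positivity
      nlinarith [mul_le_mul_of_nonneg_left hs1 b1]
  · have h1 := hΦ.dom hT.le (contDiff_Dt_iter hV m hs 0 (contDiff_gF hV m hs) (K + 1)).continuous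
      fun t ht => (hB' K (by omega) t ⟨ht.1, ht.2.trans hKh⟩).2.1
    refine (h1.smul_le (a := s⁻¹ * (C2 * h ^ (K - 1))) (by positivity)
      (Filter.Eventually.of_forall fun z => ?_)).mono
      (Filter.Eventually.of_forall fun _ => le_rfl) ?_
    · have h2 := hD (E d) h hh (fun k t => (Dt V m s 0)^[k] (gF V m s) (t, Φ t z))
        (fun k _ t ht => hΦ.tower hV hs (contDiff_gF hV m hs) k z ht)
        (fun t ht => (hΦ.tower hV hs (contDiff_gF hV m hs) (K + 1) z ht).continuousWithinAt)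
      rw [mul_assoc]
      refine le_trans (le_of_eq ?_) (mul_le_mul_of_nonneg_left
        (h2.trans (mul_le_mul_of_nonneg_left (le_abs_self _) (by positivity))) (by positivity))
      rw [← abs_of_pos (inv_pos.2 hs), ← Real.norm_eq_abs, ← norm_smul]
      congr 1
      simp only [Function.iterate_one, Function.iterate_zero, id_eq, Dt_gF hV m hs, p2, zero_mul,
        zero_smul, add_zero, dA, TF, om, gF, yy, Sn_zero, Cs_zero, mul_zero, mul_one, one_pow,
        sub_zero, smul_sub, Finset.smul_sum, smul_smul, Sj, Cj, inv_mul_cancel₀ hs.ne', one_smul]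
      congr 1
      refine Finset.sum_congr rfl fun i _ => ?_
      congr 1
      field_simp
    · obtain ⟨n, rfl⟩ := Nat.exists_eq_add_of_le' hK
      rw [Nat.add_sub_cancel]
      have b1 : 0 ≤ C1 * C3 * (h ^ (n + 1) * √d) := by positivity
      refine le_trans (le_of_eq ?_) (le_add_of_nonneg_left b1 |>.trans_eq (add_mul _ _ _).symm)
      field_simp
      ring

theorem key_nodes (K : ℕ) (hK : 1 ≤ K) : ∃ C : ℝ, 0 ≤ C ∧ ∀ (d : ℕ) (V : E d → ℝ), InClass V →
    ∀ (m : E d) (s β h : ℝ), 0 < s → 2 * s ^ 2 ≤ 1 → 2 * |β| * s ≤ 1 → 0 < h → K * h ≤ 1 / 4 →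
    ∃ Y G : Fin (K + 1) → E d × E d → E d,
      (∀ z, Y (Fin.last K) z = z.1) ∧ (∀ z, Y 0 z = m) ∧
      (∀ j, MeasurePreserving (fun z => (Y j z, G j z))
        ((rhoY V m (s * Sj h (Fin.last K)) (s * Cj h (Fin.last K))).prod (gam d))
        ((rhoY V m (s * Sj h j) (s * Cj h j)).prod (gam d))) ∧
      (∀ j, Dom ((rhoY V m (s * Sj h (Fin.last K)) (s * Cj h (Fin.last K))).prod (gam d))
        (fun z => Y j z - (m + (Sj h j / Sj h (Fin.last K)) • (z.1 - m) +
          ∑ i, (s * Sj h j * h * wI K (Fin.last K) j i) •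
            (-((s * Cj h i ^ 3) • gg V (s * Cj h i) (Y i z)) +
              (β * s * Cj h i ^ 3) • T2 V (s * Cj h i) (Y i z) (G i z))))
        (C * (s * h ^ (K + 1) * Nm m))) ∧
      (∀ j, Dom ((rhoY V m (s * Sj h (Fin.last K)) (s * Cj h (Fin.last K))).prod (gam d))
        (fun z => G j z - (z.2 +
          β • (gg V (s * Cj h (Fin.last K)) z.1 - gg V (s * Cj h j) (Y j z)) +
          ∑ i, (h * wI K (Fin.last K) j i * (β ^ 2 * s ^ 2 * (Sj h i * Cj h i ^ 3))) •
            T2 V (s * Cj h i) (Y i z) (T2 V (s * Cj h i) (Y i z) (G i z))))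
        (C * (h ^ (K + 1) * √d))) := by
  obtain ⟨C1, hC1, hI⟩ := nodes_int K
  obtain ⟨C3, hC3, hB⟩ := deriv_bounds (K + 1)
  refine ⟨2 * (C1 * C3), by positivity, fun d V hV m s β h hs hs' hβ hh hKh => ?_⟩
  have hK' : (0 : ℝ) < K := by exact_mod_cast hK
  have hT : 0 < K * h := by positivity
  have hs1 : s ≤ 1 := by nlinarith
  have hN := nodes_Nm_nonneg m
  have hN' := nodes_sqrt_le m
  obtain ⟨Φ, p1, p2, p3, p4⟩ := flow_exists hV m (β := β) (t₀ := K * h) hs hs' hβ hT hKh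
    ⟨hT.le, le_rfl⟩
  have hP := isProb_rho hV m (s * Sn (K * h)) (s * Cs (K * h))
  have hP' := isProb_rhoY hV m (s * Sn (K * h)) (s * Cs (K * h))
  have : SFinite (mu V m s (K * h)) := by
    unfold mu
    infer_instance
  have hΦ : NodesFlow V m s β (K * h) (mu V m s (K * h)) Φ := ⟨p1, p3, p4⟩
  have hB' := hB d V hV m s β hs hs' hβ (K + 1) le_rfl
  have hS : 0 < Sn (K * h) := by
    rw [Sn_eq]
    exact mul_pos hT (Cs_pos _)
  have hσ : s * Sn (K * h) ≠ 0 := (mul_pos hs hS).ne'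
  have eS : Sj h (Fin.last K) = Sn (K * h) := rfl
  have eC : Cj h (Fin.last K) = Cs (K * h) := rfl
  set ψ : E d × E d → E d × E d := Prod.map (fun y => (s * Sn (K * h))⁻¹ • (y - m)) id with hψ
  have hψp : MeasurePreserving ψ ((rhoY V m (s * Sn (K * h)) (s * Cs (K * h))).prod (gam d))
      (mu V m s (K * h)) := by
    refine MeasurePreserving.prod ⟨by fun_prop, ?_⟩ (MeasurePreserving.id _)
    rw [rhoY, Measure.map_map (by fun_prop) (by fun_prop)]
    refine Eq.trans ?_ Measure.map_id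
    congr 1
    funext x
    simp only [Function.comp_apply, add_sub_cancel_left, smul_smul, inv_mul_cancel₀ hσ, one_smul,
      id_eq]
  have hback : ∀ z : E d × E d, m + (s * Sn (K * h)) • (ψ z).1 = z.1 := fun z => by
    simp only [hψ, Prod.map_fst, smul_smul, mul_inv_cancel₀ hσ, one_smul, add_sub_cancel]
  rw [eS, eC]
  refine ⟨fun j z => m + (s * Sj h j) • (Φ ((j : ℕ) * h) (ψ z)).1,
    fun j z => (Φ ((j : ℕ) * h) (ψ z)).2, fun z => ?_, fun z => ?_, fun j => ?_, fun j => ?_,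
    fun j => ?_⟩
  · simp only [eS, Fin.val_last, p2, hback]
  · simp [Sj, Sn_zero]
  · have := isProb_rho hV m (s * Sj h j) (s * Cj h j)
    exact ((nodes_toY V m _ _).prod (MeasurePreserving.id (gam d))).comp
      ((p4 _ (interp_node_mem hh j)).comp hψp)
  · have h1 := (hI d V hV m s β h hs hh hKh _ Φ hΦ _ _ (nodes_cd1 hV m hs) (nodes_cd2 hV m hs)
      (-s) (β * s) _ _ (by positivity) (by positivity)
      (fun t ht => (hB' t ht).1) (fun t ht => (hB' t ht).2.2.1)
      (fun z t => (Φ t z).1) (fun z t ht => hΦ.fst z ht) (Fin.last K) j).comp hψp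
    refine (h1.smul_le hs.le (Filter.Eventually.of_forall fun z => ?_)).mono
      (Filter.Eventually.of_forall fun _ => le_rfl) ?_
    · refine le_trans (le_of_eq ?_) (mul_le_mul_of_nonneg_right (b := |s * Sj h j|) ?_
        (norm_nonneg _))
      · rw [← Real.norm_eq_abs, ← norm_smul]
        congr 1
        simp only [Fin.val_last, p2]
        rw [add_assoc, add_sub_add_left_eq_sub, sub_sub, smul_sub (s * Sj h j), smul_add,
          Finset.smul_sum]
        congr 2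
        · simp only [hψ, Prod.map_fst, smul_smul]
          congr 1
          field_simp
        · refine Finset.sum_congr rfl fun i _ => ?_
          simp only [H1, H2, gF, TF, yy, Sj, Cj]
          module
      · rw [abs_mul, abs_of_pos hs]
        exact mul_le_of_le_one_right hs.le (nodes_abs_Sn _)
    · rw [abs_neg, abs_mul, abs_of_pos hs]
      have b1 : s * (C3 * Nm m) + |β| * s * (C3 * √d) ≤ 1 * (C3 * Nm m) + 1 * (C3 * Nm m) := by
        gcongr
        linarith
      refine (mul_le_mul_of_nonneg_left (mul_le_mul_of_nonneg_left b1 (by positivity))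
        hs.le).trans_eq ?_
      ring
  · have h1 := (hI d V hV m s β h hs hh hKh _ Φ hΦ _ _ (nodes_cd3 hV m hs) (nodes_cd3 hV m hs)
      (β ^ 2 * s ^ 2) 0 _ _ (by positivity) (by positivity)
      (fun t ht => (hB' t ht).2.2.2) (fun t ht => (hB' t ht).2.2.2)
      (fun z t => (Φ t z).2 + β • gF V m s (t, Φ t z)) (fun z t ht => hΦ.snd hV hs z ht)
      (Fin.last K) j).comp hψp
    refine h1.mono (Filter.Eventually.of_forall fun z => le_of_eq ?_) ?_
    · congr 1
      simp only [Fin.val_last, p2, zero_mul, zero_smul, add_zero, H3, gF, TF, yy, hback, Sj, Cj, smul_smul]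
      have e2 : (ψ z).2 = z.2 := rfl
      rw [e2]
      simp only [mul_assoc]
      module
    · rw [abs_zero, zero_mul, add_zero]
      have b0 : |β ^ 2 * s ^ 2| ≤ 1 := by
        rw [← mul_pow, abs_pow, abs_mul, abs_of_pos hs]
        exact pow_le_one₀ (by positivity) (by linarith)
      have b1 : |β ^ 2 * s ^ 2| * (C3 * √d) ≤ 2 * (C3 * √d) := by
        gcongr
        linarith
      refine (mul_le_mul_of_nonneg_left b1 (by positivity)).trans_eq ?_
      ring

end Vale.Agent.P347
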