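import Vale.Agent.P347.RepS

namespace Vale.Agent.P347

open MeasureTheory ProbabilityTheory
open scoped RealInnerProductSpace NNReal

variable {d : ℕ}

/-- the improvement step with a uniform bound `sm` on the small terms -/
def ParamsStep (d : ℕ) (h s₀ κ sm : ℝ) (C P k3 m₀ : ℕ) : Prop :=
  ∀ (m : ℕ) (τ R Ra εa Rb εb : ℝ) (Ba Bb : ℕ), m ≤ m₀ → 0 < R → P * s₀ ≤ τ → P * R ≤ τ →
    P * τ ≤ κ → P * τ ≤ Ra → P * R ^ 2 ≤ Rb * τ → P * (P * Ra) ≤ 1 → P * Rb ≤ R →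
    P * (εa + sm) ≤ 1 → εb + sm ≤ R → 0 ≤ εa → 0 ≤ εb →
    Claim d h s₀ (1 / (C : ℝ) ^ m) Ra εa P Ba → Claim d h s₀ (1 / (C : ℝ) ^ m) Rb εb P Bb →
    Claim d h s₀ (1 / (C : ℝ) ^ (m + 1)) R (P * (εb + R * εa + sm)) P
      (P * (Bb + 1) * (Ba + 1) ^ k3)

/-- cost exponents -/
def paramsE (I k3 : ℕ) : ℕ → ℕ
  | 0 => 1
  | j + 1 => 1 + I * (1 + k3 * paramsE I k3 j)

theorem params_pow {θ : ℝ} (h0 : 0 < θ) (h1 : θ ≤ 1) {a b : ℕ} (h : a ≤ b) : θ ^ b ≤ θ ^ a :=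
  pow_le_pow_of_le_one h0.le h1 h

theorem params_mul {θ p : ℝ} (h0 : 0 < θ) (h1 : θ ≤ 1) (hp : p * θ ≤ 1) {a b : ℕ}
    (h : a + 1 ≤ b) (hp0 : 0 ≤ p) : p * θ ^ b ≤ θ ^ a :=
  calc p * θ ^ b ≤ p * θ ^ (a + 1) := mul_le_mul_of_nonneg_left (params_pow h0 h1 h) hp0
    _ = p * θ * θ ^ a := by ring
    _ ≤ θ ^ a := mul_le_of_le_one_left (by positivity) hp

theorem params_c {C : ℕ} (hC : 1 ≤ C) {a b : ℕ} (h : a ≤ b) :
    1 / (C : ℝ) ^ b ≤ 1 / (C : ℝ) ^ a := by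
  have : (1 : ℝ) ≤ C := by exact_mod_cast hC
  gcongr

theorem params_base {h θ : ℝ} {C P b m : ℕ} (hC : 1 ≤ C) (hP : 1 ≤ P) (hh : 0 < h) (hh1 : h ≤ 1)
    (h0 : 0 < θ) (h8 : 8 * θ ≤ 1) (hb : 1 ≤ b) {R : ℝ} (hR : 0 ≤ R) :
    Claim d h (θ ^ (2 * b)) (1 / (C : ℝ) ^ m) R (2 * R) P ((2 * P) ^ 1 - 1) := by
  have hc : 1 / (C : ℝ) ^ m ≤ 1 := by simpa using params_c hC (Nat.zero_le m)
  have h1 : θ ^ (2 * b) ≤ θ ^ 1 := params_pow h0 (by linarith) (by omega)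
  have h2 : 0 < θ ^ (2 * b) := by positivity
  refine (base_claim (c := 1 / (C : ℝ) ^ m) hh.le (by positivity) (mul_le_one₀ hc hh.le hh1)
    (by nlinarith) hR).mono hh.le (by positivity) le_rfl hR le_rfl (by exact_mod_cast hP)
    (by rw [pow_one]; omega)

theorem params_inner {h θ : ℝ} {C P k3 m₀ b I N0 j m ea : ℕ} (hC : 1 ≤ C) (hP : 1 ≤ P)
    (hh : 0 < h) (hh1 : h ≤ 1) (h0 : 0 < θ) (h8 : 8 * θ ≤ 1) (h4 : 4 * P * θ ≤ 1)
    (hb : 3 * j + 2 ≤ b) (hN : b + 3 * j + 3 + I ≤ N0) (hm : m + I ≤ m₀)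
    (hS : ParamsStep d h (θ ^ (2 * b)) (θ ^ b) (θ ^ N0 / 2) C P k3 m₀) {εa : ℝ} (ha0 : 0 ≤ εa)
    (ha : εa ≤ 2 * P * θ ^ (b + 3 * j))
    (hA : Claim d h (θ ^ (2 * b)) (1 / (C : ℝ) ^ m) (θ ^ (b + 3 * j)) εa P ((2 * P) ^ ea - 1))
    (i : ℕ) (hi : i ≤ I) :
    ∃ ε : ℝ, 0 ≤ ε ∧ ε ≤ 2 * P * θ ^ (b + 3 * j + 3 + (I - i)) ∧
      ε ≤ (2 * P) ^ i * (2 * θ ^ (b + 3 * j + 3 + I) + θ ^ (b + 3 * j + 3) * εa + θ ^ N0 / 2) ∧
      Claim d h (θ ^ (2 * b)) (1 / (C : ℝ) ^ (m + i)) (θ ^ (b + 3 * j + 3 + (I - i))) ε P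
        ((2 * P) ^ (1 + i * (1 + k3 * ea)) - 1) := by
  have hP1 : (1 : ℝ) ≤ P := by exact_mod_cast hP
  have hP0 : (0 : ℝ) ≤ P := by linarith
  have h1 : θ ≤ 1 := by linarith
  have hp : (P : ℝ) * θ ≤ 1 := by nlinarith
  induction i with
  | zero =>
    refine ⟨2 * θ ^ (b + 3 * j + 3 + I), by positivity, ?_, ?_, ?_⟩
    · rw [Nat.sub_zero]
      gcongr
      linarith
    · rw [pow_zero, one_mul]
      have : 0 ≤ θ ^ (b + 3 * j + 3) * εa + θ ^ N0 / 2 := by positivity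
      linarith
    · simpa using params_base (d := d) (m := m) hC hP hh hh1 h0 h8 (b := b) (by omega)
        (R := θ ^ (b + 3 * j + 3 + I)) (by positivity)
  | succ i ih =>
    obtain ⟨ε, e0, e1, e2, e3⟩ := ih (by omega)
    set R : ℝ := θ ^ (b + 3 * j + 3 + (I - (i + 1))) with hR
    have hR0 : 0 < R := by positivity
    have hRb : θ ^ (b + 3 * j + 3 + (I - i)) = θ * R := by
      rw [hR, ← pow_succ']
      congr 1
      omega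
    rw [hRb] at e1 e3
    have hR1 : (P : ℝ) * R ≤ θ ^ (b + 3 * j + 2) := params_mul h0 h1 hp (by omega) hP0
    have hR2 : R ≤ θ ^ (b + 3 * j + 3) := params_pow h0 h1 (by omega)
    have hR3 : θ ^ N0 ≤ R := params_pow h0 h1 (by omega)
    have hb2 : θ ^ (b + 3 * j) ≤ θ ^ 2 := params_pow h0 h1 (by omega)
    have hN1 : θ ^ N0 ≤ θ ^ 1 := params_pow h0 h1 (by omega)
    have hq : (P : ℝ) * θ ≤ 1 / 4 := by linarith
    have hq0 : 0 ≤ (P : ℝ) * θ := by positivity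
    have a1 : (P : ℝ) * (P * θ ^ (b + 3 * j)) ≤ 1 / 16 := by
      calc (P : ℝ) * (P * θ ^ (b + 3 * j)) ≤ P * (P * θ ^ 2) := by gcongr
        _ = (P * θ) * (P * θ) := by ring
        _ ≤ 1 / 4 * (1 / 4) := by gcongr
        _ = 1 / 16 := by norm_num
    have a2 : (P : ℝ) * (εa + θ ^ N0 / 2) ≤ 1 := by
      have b1 : (P : ℝ) * εa ≤ P * (2 * P * θ ^ (b + 3 * j)) := by gcongr
      have b2 : (P : ℝ) * θ ^ N0 ≤ P * θ ^ 1 := by gcongr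
      rw [pow_one] at b2
      linarith
    have a3 : ε + θ ^ N0 / 2 ≤ R := by
      have : 2 * P * (θ * R) ≤ R / 2 := by nlinarith
      linarith
    have a4 : εa ≤ 1 := by
      have : 0 ≤ θ ^ N0 / 2 := by positivity
      nlinarith
    have key := hS (m + i) (θ ^ (b + 3 * j + 1)) R (θ ^ (b + 3 * j)) εa (θ * R) ε
      ((2 * P) ^ ea - 1) ((2 * P) ^ (1 + i * (1 + k3 * ea)) - 1) (by omega) hR0
      (params_mul h0 h1 hp (by omega) hP0) (hR1.trans (params_pow h0 h1 (by omega)))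
      (params_mul h0 h1 hp (by omega) hP0) (params_mul h0 h1 hp le_rfl hP0)
      (by calc (P : ℝ) * R ^ 2 = P * R * R := by ring
            _ ≤ θ ^ (b + 3 * j + 2) * R := by gcongr
            _ = _ := by ring)
      (by linarith) (by rw [← mul_assoc]; exact mul_le_of_le_one_left hR0.le hp) a2 a3 ha0 e0
      (hA.mono hh.le (by positivity) (params_c hC (by omega)) (by positivity) le_rfl le_rfl le_rfl)
      e3
    refine ⟨P * (ε + R * εa + θ ^ N0 / 2), by positivity, ?_, ?_, ?_⟩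
    · have : R * εa ≤ R := mul_le_of_le_one_right hR0.le a4
      nlinarith
    · set X : ℝ := 2 * θ ^ (b + 3 * j + 3 + I) + θ ^ (b + 3 * j + 3) * εa + θ ^ N0 / 2 with hX
      have c1 : R * εa ≤ θ ^ (b + 3 * j + 3) * εa := by gcongr
      have c2 : 0 ≤ 2 * θ ^ (b + 3 * j + 3 + I) := by positivity
      have c3 : X ≤ (2 * P) ^ i * X :=
        le_mul_of_one_le_left (by positivity) (one_le_pow₀ (by linarith))
      calc (P : ℝ) * (ε + R * εa + θ ^ N0 / 2) ≤ P * (2 * ((2 * P) ^ i * X)) := by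
            refine mul_le_mul_of_nonneg_left ?_ hP0
            linarith
        _ = _ := by ring
    · refine key.mono hh.le (by positivity) le_rfl hR0.le le_rfl le_rfl ?_
      have p1 : ∀ e : ℕ, (2 * P) ^ e - 1 + 1 = (2 * P) ^ e := fun e =>
        Nat.sub_add_cancel (Nat.one_le_pow _ _ (by omega))
      rw [p1, p1, ← pow_mul, mul_assoc, ← pow_add]
      have p2 : (2 * P) ^ (1 + (i + 1) * (1 + k3 * ea)) =
          2 * (P * (2 * P) ^ (1 + i * (1 + k3 * ea) + ea * k3)) := by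
        rw [← mul_assoc, ← pow_succ']
        congr 1
        ring
      have p3 : 1 ≤ P * (2 * P) ^ (1 + i * (1 + k3 * ea) + ea * k3) :=
        Nat.mul_pos (by omega) (Nat.one_le_pow _ _ (by omega))
      omega

theorem params_outer {h θ : ℝ} {C P k3 b I T J : ℕ} (hC : 1 ≤ C) (hP : 1 ≤ P)
    (hh : 0 < h) (hh1 : h ≤ 1) (h0 : 0 < θ) (h8 : 8 * θ ≤ 1) (h4 : 4 * P * θ ≤ 1)
    (hI : (2 * P : ℝ) ^ I * θ ≤ 1) (hb : 3 * J + 2 ≤ b) (hT : T ≤ I)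
    (hS : ParamsStep d h (θ ^ (2 * b)) (θ ^ b) (θ ^ (2 * b + I) / 2) C P k3 (I * J))
    (j : ℕ) (hj : j ≤ J) :
    ∃ ε : ℝ, 0 ≤ ε ∧ ε ≤ 2 * P * θ ^ (b + 3 * j) ∧ ε ≤ 4 * θ ^ T + θ ^ (b * j) ∧
      Claim d h (θ ^ (2 * b)) (1 / (C : ℝ) ^ (I * j)) (θ ^ (b + 3 * j)) ε P
        ((2 * P) ^ paramsE I k3 j - 1) := by
  have hP1 : (1 : ℝ) ≤ P := by exact_mod_cast hP
  have h1 : θ ≤ 1 := by linarith
  induction j with
  | zero =>
    refine ⟨2 * θ ^ (b + 3 * 0), by positivity, ?_, ?_,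
      params_base hC hP hh hh1 h0 h8 (by omega) (by positivity)⟩
    · gcongr
      linarith
    · have h2 : θ ^ (b + 3 * 0) ≤ θ ^ 1 := params_pow h0 h1 (by omega)
      have h3 : 0 < θ ^ T := by positivity
      rw [mul_zero b, pow_zero]
      rw [pow_one] at h2
      linarith
  | succ j ih =>
    obtain ⟨εa, e0, e1, e2, e3⟩ := ih (by omega)
    have hm : I * j + I ≤ I * J := by
      rw [← Nat.mul_succ]
      exact Nat.mul_le_mul_left _ hj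
    obtain ⟨ε, f0, f1, f2, f3⟩ := params_inner hC hP hh hh1 h0 h8 h4 (by omega) (by omega) hm hS
      e0 e1 e3 I le_rfl
    rw [Nat.sub_self, add_zero] at f1 f3
    refine ⟨ε, f0, f1, f2.trans ?_, f3⟩
    have hp0 : (0 : ℝ) ≤ (2 * P : ℝ) ^ I := by positivity
    have g1 : (2 * P : ℝ) ^ I * θ ^ (b + 3 * j + 3 + I) ≤ θ ^ T :=
      params_mul h0 h1 hI (by omega) hp0
    have g2 : (2 * P : ℝ) ^ I * θ ^ (2 * b + I) ≤ θ ^ T := params_mul h0 h1 hI (by omega) hp0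
    have g3 : (2 * P : ℝ) ^ I * θ ^ (b + 3 * j + 3) ≤ θ ^ b := params_mul h0 h1 hI (by omega) hp0
    have g4 : θ ^ b ≤ θ ^ 1 := params_pow h0 h1 (by omega)
    rw [pow_one] at g4
    have g5 : (2 * P : ℝ) ^ I * θ ^ (b + 3 * j + 3) * εa ≤ θ ^ b * (4 * θ ^ T + θ ^ (b * j)) :=
      mul_le_mul g3 e2 e0 (by positivity)
    have g6 : θ ^ b * θ ^ (b * j) = θ ^ (b * (j + 1)) := by
      rw [← pow_add]
      congr 1
      ring
    have g7 : θ ^ b * θ ^ T ≤ 1 / 8 * θ ^ T :=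
      mul_le_mul_of_nonneg_right (by linarith) (by positivity)
    have g8 : 0 < θ ^ T := by positivity
    calc _ = 2 * ((2 * P : ℝ) ^ I * θ ^ (b + 3 * j + 3 + I)) +
          (2 * P : ℝ) ^ I * θ ^ (b + 3 * j + 3) * εa + (2 * P : ℝ) ^ I * θ ^ (2 * b + I) / 2 := by
          ring
      _ ≤ _ := by linarith

theorem params_Cs {h : ℝ} {K : ℕ} (hh : 0 < h) (hK : 1 ≤ K) :
    Cs (K * h) ^ (2 * K * ⌈1 / h ^ 3⌉₊) ≤ h ^ K := by
  have hK1 : (1 : ℝ) ≤ K := by exact_mod_cast hK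
  have h1 : Cs (K * h) ^ 2 = 1 / (1 + (K * h) ^ 2) := by
    unfold Cs
    rw [div_pow, one_pow, Real.sq_sqrt (by positivity)]
  have h2 := one_add_mul_le_pow (a := ((K : ℝ) * h) ^ 2) (by nlinarith [sq_nonneg (K * h)])
    ⌈1 / h ^ 3⌉₊
  have h3 : 1 / h ^ 3 * h ^ 2 ≤ (⌈1 / h ^ 3⌉₊ : ℝ) * (K * h) ^ 2 := by
    gcongr
    · exact Nat.le_ceil _
    · exact le_mul_of_one_le_left hh.le hK1
  have h4 : 1 / h ^ 3 * h ^ 2 = 1 / h := by field_simp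
  have h5 : (Cs (K * h) ^ 2) ^ ⌈1 / h ^ 3⌉₊ ≤ h := by
    rw [h1, one_div_pow, one_div_le (by positivity) hh]
    linarith
  rw [show 2 * K * ⌈1 / h ^ 3⌉₊ = 2 * ⌈1 / h ^ 3⌉₊ * K by ring, pow_mul, pow_mul]
  exact pow_le_pow_left₀ (by positivity) h5 K

theorem params_ceil {h : ℝ} (hh : 0 < h) (hh1 : h ≤ 1) (a : ℕ) :
    1 ≤ (⌈1 / h ^ a⌉₊ : ℝ) * h ^ a ∧ (⌈1 / h ^ a⌉₊ : ℝ) * h ^ a ≤ 2 := by
  have h0 : 0 < h ^ a := by positivity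
  have h1 : h ^ a ≤ 1 := pow_le_one₀ hh.le hh1
  have h2 := Nat.le_ceil (1 / h ^ a)
  have h3 := (Nat.ceil_lt_add_one (show 0 ≤ 1 / h ^ a by positivity)).le
  constructor
  · rwa [div_le_iff₀ h0] at h2
  · calc _ ≤ (1 / h ^ a + 1) * h ^ a := by gcongr
      _ = 1 + h ^ a := by field_simp
      _ ≤ 2 := by linarith

/-- the conclusion of `step_claim` -/
def ParamsRaw (K k C : ℕ) : Prop :=
  ∀ (d : ℕ) (h s₀ c τ κ R Ra εa Λa Rb εb Λb : ℝ) (n P Ba Bb : ℕ),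
    0 < h → K * h ≤ 1 / 8 → 0 < c → c ≤ 1 → 0 < s₀ → 0 < R → 1 ≤ n →
    C * ((n : ℝ) + 1) ^ 3 ≤ P * c * h → P * s₀ ≤ τ → P * R ≤ τ → P * τ ≤ κ → κ ≤ 1 / 2 →
    P * τ ≤ Ra → P * R ^ 2 ≤ Rb * τ → P * (Λa * Ra) ≤ 1 → Λb * Rb ≤ R →
    P * (εa + h ^ K + κ ^ k) ≤ 1 → εb + (h ^ K + κ ^ k + τ ^ K + Cs (K * h) ^ n) ≤ R →
    0 ≤ εa → 0 ≤ Λa → 0 ≤ εb → 0 ≤ Λb →
    Claim d h s₀ c Ra εa Λa Ba → Claim d h s₀ c Rb εb Λb Bb →
    Claim d h s₀ (c / C) R (P * (εb + R * εa + (h ^ K + κ ^ k + τ ^ K + Cs (K * h) ^ n))) P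
      (P * (Bb + 1) * (Ba + 1) ^ ((k + 1) ^ 3))

theorem params_ok {K k C P n' b N m₀ : ℕ} {h θ : ℝ} (hstep : ParamsRaw K k C) (hC : 1 ≤ C)
    (hP1 : 1 ≤ P) (hK1 : 1 ≤ K) (hn1 : 1 ≤ n') (hkK : k ≤ K) (hh : 0 < h) (hh1 : h ≤ 1)
    (s1 : K * h ≤ 1 / 8) (s2 : h * (C * (5 * K) ^ 3) ≤ 1 / (C : ℝ) ^ m₀) (p1 : 1 ≤ P * h ^ 12)
    (n2 : n' * h ^ 3 ≤ 2) (hCs : Cs (K * h) ^ (2 * K * n') ≤ h ^ K) (h0 : 0 < θ) (t8 : 8 * θ ≤ 1)
    (u1 : h ^ K = θ ^ k) (u2 : (θ ^ b) ^ k ≤ θ ^ k) (u3 : θ ^ b ≤ θ) (u4 : 8 * θ ^ k ≤ θ ^ N) :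
    ParamsStep d h (θ ^ (2 * b)) (θ ^ b) (θ ^ N / 2) C P ((k + 1) ^ 3) m₀ := by
  have hKr : (1 : ℝ) ≤ K := by exact_mod_cast hK1
  have hCr : (1 : ℝ) ≤ C := by exact_mod_cast hC
  have hPr : (1 : ℝ) ≤ P := by exact_mod_cast hP1
  have t0 : θ ≤ 1 := by linarith
  have u5 : 0 < θ ^ k := by positivity
  intro m τ R Ra εa Rb εb Ba Bb hm hR a1 a2 a3 a4 a5 a6 a7 a8 a9 b1 b2 cA cB
  have hτ0 : 0 ≤ τ := le_trans (by positivity) a1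
  have hτ : τ ^ K ≤ θ ^ k :=
    (pow_le_pow_left₀ hτ0 (((le_mul_of_one_le_left hτ0 hPr).trans a3).trans u3) K).trans
      (params_pow h0 t0 hkK)
  have hτ1 : 0 ≤ τ ^ K := by positivity
  have hC0 : 0 ≤ Cs (K * h) ^ (2 * K * n') := pow_nonneg (by unfold Cs; positivity) _
  have hsm : h ^ K + (θ ^ b) ^ k + τ ^ K + Cs (K * h) ^ (2 * K * n') ≤ θ ^ N / 2 := by
    linarith
  have hn : (C : ℝ) * (((2 * K * n' : ℕ) : ℝ) + 1) ^ 3 ≤ P * (1 / (C : ℝ) ^ m) * h := by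
    have v1 : (((2 * K * n' : ℕ) : ℝ) + 1) * h ^ 3 ≤ 5 * K := by
      have : h ^ 3 ≤ 1 := pow_le_one₀ hh.le hh1
      have v2 : (K : ℝ) * (n' * h ^ 3) ≤ K * 2 := by gcongr
      push_cast
      linarith
    refine le_of_mul_le_mul_right ?_ (show 0 < h ^ 11 by positivity)
    calc (C : ℝ) * (((2 * K * n' : ℕ) : ℝ) + 1) ^ 3 * h ^ 11
        = h * (h * (C * ((((2 * K * n' : ℕ) : ℝ) + 1) * h ^ 3) ^ 3)) := by ring
      _ ≤ 1 * (h * (C * (5 * K) ^ 3)) := by gcongr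
      _ ≤ 1 * (1 / (C : ℝ) ^ m) := by gcongr; exact s2.trans (params_c hC hm)
      _ ≤ P * h ^ 12 * (1 / (C : ℝ) ^ m) := by gcongr
      _ = _ := by ring
  have key := hstep d h _ _ τ _ R Ra εa P Rb εb P (2 * K * n') P Ba Bb hh s1 (by positivity)
    (by simpa using params_c hC (Nat.zero_le m)) (by positivity) hR
    (Nat.mul_pos (by omega) hn1) hn a1 a2 a3 (by linarith) a4 a5 a6 a7
    (le_trans (mul_le_mul_of_nonneg_left (by linarith) (by positivity)) a8) (by linarith) b1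
    (by positivity) b2 (by positivity) cA cB
  rw [div_div, ← pow_succ] at key
  exact key.mono hh.le (by positivity) le_rfl hR.le
    (mul_le_mul_of_nonneg_left (by linarith) (by positivity)) le_rfl le_rfl

theorem params_err {N D θ s x : ℝ} {a : ℕ} (hN : 0 ≤ N) (hD : 0 ≤ D) (h0 : 0 < θ)
    (hD1 : D * θ ≤ 1 / 8) (hs : s ≤ 1) (hx0 : 0 ≤ x) (hx : x ≤ 7 * θ ^ (a + 1)) :
    2 * 0 + D * (s * x * N) ≤ θ ^ a * N := by
  have h1 : s * x ≤ 7 * θ ^ (a + 1) := (mul_le_of_le_one_left hx0 hs).trans hx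
  rw [mul_zero, zero_add]
  calc D * (s * x * N) ≤ D * (7 * θ ^ (a + 1) * N) := by gcongr
    _ = 7 * (D * θ) * (θ ^ a * N) := by ring
    _ ≤ _ := mul_le_of_le_one_left (by positivity) (by linarith)

end Vale.Agent.P347
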