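import Vale.Agent.P347.Step
import Vale.Agent.P347.ParamsAux

namespace Vale.Agent.P347

open MeasureTheory ProbabilityTheory
open scoped RealInnerProductSpace NNReal

variable {d : ℕ}

/-- One descent step, accurate to `h ^ (M A)`, with at most `h ^ (-M)` queries. -/
theorem top_step (A : ℕ) : ∃ M K : ℕ, 1 ≤ M ∧ 1 ≤ K ∧ ∃ h₀ : ℝ, 0 < h₀ ∧ K * h₀ ≤ 1 / 8 ∧
    ∀ h : ℝ, 0 < h → h ≤ h₀ → ∃ q : ℕ, (q : ℝ) * h ^ M ≤ 1 ∧ ∀ (d : ℕ) (s : ℝ), 0 < s → s ≤ h ^ M →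
      Approx (E d) (fun V y f => ∫ x, f x ∂rhoY V y (s * Sn (K * h)) (s * Cs (K * h)))
        (fun _ y => h ^ (M * A) * Nm y) q := by
  obtain ⟨J, hJ⟩ : ∃ J, J = 2 * A + 2 := ⟨_, rfl⟩
  obtain ⟨b, hb⟩ : ∃ b, b = 3 * J + 2 := ⟨_, rfl⟩
  obtain ⟨I, hI⟩ : ∃ I, I = 2 * b * A + 2 := ⟨_, rfl⟩
  obtain ⟨k, hk⟩ : ∃ k, k = 2 * b + I + 1 := ⟨_, rfl⟩
  obtain ⟨e, he⟩ : ∃ e, e = paramsE I ((k + 1) ^ 3) J * k := ⟨_, rfl⟩
  obtain ⟨w, hw⟩ : ∃ w, w = I + e + 1 := ⟨_, rfl⟩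
  obtain ⟨K, hK⟩ : ∃ K, K = 13 * w * k := ⟨_, rfl⟩
  have hkK : k ≤ K := by rw [hK]; exact Nat.le_mul_of_pos_left _ (by omega)
  have hK1 : 1 ≤ K := by omega
  obtain ⟨C, hC, hstep⟩ := step_claim K k hK1
  obtain ⟨D, hD, hdesc⟩ := desc_approx K k hK1
  have hKr : (1 : ℝ) ≤ K := by exact_mod_cast hK1
  have hCr : (1 : ℝ) ≤ C := by exact_mod_cast hC
  have hDr : (1 : ℝ) ≤ D := by exact_mod_cast hD
  set c : ℝ := 1 / (C : ℝ) ^ (I * J) with hc
  have hc0 : 0 < c := by positivity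
  have hc1 : c ≤ 1 := (params_c hC (Nat.zero_le (I * J))).trans (by simp)
  refine ⟨13 * w * (2 * b), K, Nat.mul_pos (by omega) (by omega), hK1,
    min (1 / (8 * K)) (min (c / (C * (5 * K) ^ 3)) (c / D)), by positivity, ?_, ?_⟩
  · calc (K : ℝ) * _ ≤ K * (1 / (8 * K)) := by gcongr; exact min_le_left _ _
      _ = 1 / 8 := by field_simp
  intro h hh hh0
  have s1 : K * h ≤ 1 / 8 := by
    calc (K : ℝ) * h ≤ K * (1 / (8 * K)) := by gcongr; exact hh0.trans (min_le_left _ _)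
      _ = 1 / 8 := by field_simp
  have s2 : h * (C * (5 * K) ^ 3) ≤ c :=
    (le_div_iff₀ (by positivity)).1 (hh0.trans ((min_le_right _ _).trans (min_le_left _ _)))
  have s3 : h * D ≤ c :=
    (le_div_iff₀ (by positivity)).1 (hh0.trans ((min_le_right _ _).trans (min_le_right _ _)))
  have h8 : h ≤ 1 / 8 := (le_mul_of_one_le_left hh.le hKr).trans s1
  have hh1 : h ≤ 1 := by linarith
  obtain ⟨p1, p2⟩ := params_ceil hh hh1 12
  obtain ⟨n1, n2⟩ := params_ceil hh hh1 3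
  have hCs := params_Cs hh hK1
  set P : ℕ := ⌈1 / h ^ 12⌉₊ with hP
  set n' : ℕ := ⌈1 / h ^ 3⌉₊ with hn'
  have hP1 : 1 ≤ P := Nat.ceil_pos.2 (by positivity)
  have hn1 : 1 ≤ n' := Nat.ceil_pos.2 (by positivity)
  have hPr : (1 : ℝ) ≤ P := by exact_mod_cast hP1
  have p3 : 4 * P * h ^ 13 ≤ 1 := by
    calc 4 * P * h ^ 13 = 4 * (P * h ^ 12) * h := by ring
      _ ≤ 4 * 2 * (1 / 8) := by gcongr
      _ = 1 := by norm_num
  set θ : ℝ := h ^ (13 * w) with hθ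
  have h0 : 0 < θ := by positivity
  have t1 : θ ≤ h ^ 13 := params_pow hh hh1 (by omega)
  have t2 : θ ≤ h ^ 2 := params_pow hh hh1 (by omega)
  have t3 : θ ≤ h := by simpa using params_pow hh hh1 (show 1 ≤ 13 * w by omega)
  have t8 : 8 * θ ≤ 1 := by linarith
  have t0 : θ ≤ 1 := by linarith
  have t4 : 4 * P * θ ≤ 1 := le_trans (by gcongr) p3
  have tP : (P : ℝ) * θ ≤ 1 := by have : 0 ≤ (P : ℝ) * θ := by positivity
                                  linarith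
  have tw : ∀ a, a ≤ w → (2 * P : ℝ) ^ a * θ ≤ 1 := fun a ha => by
    calc (2 * P : ℝ) ^ a * θ ≤ (2 * P : ℝ) ^ w * θ := by gcongr; linarith
      _ = (2 * P * h ^ 13) ^ w := by rw [hθ, pow_mul, ← mul_pow]
      _ ≤ 1 := pow_le_one₀ (by positivity) (by
        have : 0 ≤ (P : ℝ) * h ^ 13 := by positivity
        linarith)
  have tD : D * θ ≤ c * h := by
    calc D * θ ≤ D * h ^ 2 := by gcongr
      _ = h * D * h := by ring
      _ ≤ c * h := by gcongr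
  have tD1 : D * θ ≤ 1 / 8 := tD.trans ((mul_le_of_le_one_left hh.le hc1).trans h8)
  have u1 : h ^ K = θ ^ k := by rw [hK, pow_mul]
  have u2 : (θ ^ b) ^ k ≤ θ ^ k := by
    rw [← pow_mul]
    exact params_pow h0 t0 (Nat.le_mul_of_pos_left _ (by omega))
  have u3 : θ ^ b ≤ θ := by simpa using params_pow h0 t0 (show 1 ≤ b by omega)
  have u4 : 8 * θ ^ k ≤ θ ^ (2 * b + I) := params_mul h0 t0 t8 (by omega) (by norm_num)
  have u5 : 0 < θ ^ k := by positivity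
  have hS : ∀ d, ParamsStep d h (θ ^ (2 * b)) (θ ^ b) (θ ^ (2 * b + I) / 2) C P ((k + 1) ^ 3)
      (I * J) := fun d => params_ok hstep hC hP1 hK1 hn1 hkK hh hh1 s1 s2 p1 n2 hCs h0 t8 u1 u2 u3 u4
  refine ⟨D * (2 * P) ^ e, ?_, fun d s hs0 hs => ?_⟩
  · rw [pow_mul, ← hθ]
    calc ((D * (2 * P) ^ e : ℕ) : ℝ) * θ ^ (2 * b) ≤ (D * (2 * P) ^ e : ℕ) * θ ^ 2 :=
          mul_le_mul_of_nonneg_left (params_pow h0 t0 (by omega)) (by positivity)
      _ = D * θ * ((2 * P) ^ e * θ) := by push_cast; ring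
      _ ≤ 1 := mul_le_one₀ (by linarith) (by positivity) (tw e (by omega))
  rw [pow_mul, ← hθ] at hs
  obtain ⟨ε, e0, -, e2, e3⟩ := params_outer (d := d) (T := I) hC hP1 hh hh1 h0 t8 t4
    (tw I (by omega)) hb.ge le_rfl (hS d) J le_rfl
  have hD1 : (D : ℝ) * θ ≤ 1 := by linarith
  have hD0 : (0 : ℝ) ≤ D := by linarith
  have key := hdesc d h _ c (θ ^ (b + 3 * J + 1)) (θ ^ b) _ ε P _ hh s1 hc0 hc1
    (params_mul h0 t0 hD1 (by omega) hD0) (params_mul h0 t0 hD1 (by omega) hD0) (by linarith)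
    (by calc (D : ℝ) * θ ^ (b + 3 * J + 1) = θ ^ (b + 3 * J) * (D * θ) := by ring
          _ ≤ θ ^ (b + 3 * J) * (c * h) := by gcongr
          _ = _ := by ring)
    (by calc (D : ℝ) * (P * θ ^ (b + 3 * J)) ≤ D * θ ^ 1 :=
            mul_le_mul_of_nonneg_left (params_mul h0 t0 tP (by omega) (by positivity)) hD0
          _ ≤ 1 := by rwa [pow_one])
    e0 (by positivity) e3 (E d) (fun _ y => y) s (fun _ _ => 0) 0 hs0 hs
    (samp_known measurable_id _)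
  refine key.mono (fun V _ y => ?_) ?_
  · have w1 : θ ^ (b * J) ≤ θ ^ I := params_pow h0 t0 (by rw [hI, hJ]; nlinarith)
    have w2 : θ ^ k ≤ θ ^ I := params_pow h0 t0 (by omega)
    have w4 : h ^ (13 * w * (2 * b) * A) = θ ^ (2 * b * A) := by
      rw [hθ, ← pow_mul, mul_assoc (13 * w)]
    have w5 : θ ^ I ≤ θ ^ (2 * b * A + 1) := params_pow h0 t0 (by omega)
    rw [w4]
    exact params_err (by unfold Nm; positivity) hD0 h0 tD1 (hs.trans (pow_le_one₀ h0.le t0))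
      (by positivity) (by linarith only [e2, w1, w2, w5, u1, u2])
  · rw [Nat.sub_add_cancel (Nat.one_le_pow _ _ (by omega)), ← pow_mul, ← he]
    omega

end Vale.Agent.P347
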