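import Vale.Agent.P347.Core

namespace Vale.Agent.P347

open scoped ContDiff

noncomputable section

variable {S : Type*} [NormedAddCommGroup S] [NormedSpace ℝ S]

/-- directional derivative -/
def dd (v : S) (F : S → ℝ) : S → ℝ := fun x => fderiv ℝ F x v

theorem contDiff_dd {F : S → ℝ} (hF : ContDiff ℝ ∞ F) (v : S) : ContDiff ℝ ∞ (dd v F) := by
  unfold dd
  exact (hF.fderiv_right (m := ∞) (by simp)).clm_apply contDiff_const

theorem dd_comm {F : S → ℝ} (hF : ContDiff ℝ ∞ F) (v w : S) : dd v (dd w F) = dd w (dd v F) := by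
  funext x
  have h2 : ContDiffAt ℝ 2 F x := (contDiff_infty.1 hF 2).contDiffAt
  have hs := h2.isSymmSndFDerivAt (by simp)
  have hd : DifferentiableAt ℝ (fderiv ℝ F) x :=
    (((contDiff_infty.1 hF 2).fderiv_right (m := 1) (by norm_num)).differentiable (by simp)) x
  have key : ∀ a b : S, dd a (dd b F) x = fderiv ℝ (fderiv ℝ F) x a b := by
    intro a b
    unfold dd
    rw [fderiv_clm_apply hd (differentiableAt_const b)]
    simp
  rw [key, key, hs.eq]

/-- smooth functions as a subtype -/
abbrev Sm (S : Type*) [NormedAddCommGroup S] [NormedSpace ℝ S] := {F : S → ℝ // ContDiff ℝ ∞ F}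

def ddS (v : S) (F : Sm S) : Sm S := ⟨dd v F.1, contDiff_dd F.2 v⟩

instance : LeftCommutative (ddS (S := S)) := ⟨fun v w F => Subtype.ext (dd_comm F.2 v w)⟩

open Classical in
/-- iterated directional derivative along a multiset of directions (for smooth functions) -/
def pd (M : Multiset S) (F : S → ℝ) : S → ℝ :=
  if h : ContDiff ℝ ∞ F then (Multiset.foldr ddS ⟨F, h⟩ M).1 else 0

variable {F G : S → ℝ}

theorem contDiff_pd (hF : ContDiff ℝ ∞ F) (M : Multiset S) : ContDiff ℝ ∞ (pd M F) := by
  unfold pd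
  rw [dif_pos hF]
  exact Subtype.property _

theorem pd_zero (hF : ContDiff ℝ ∞ F) : pd 0 F = F := by
  unfold pd
  rw [dif_pos hF]
  simp

theorem pd_cons (hF : ContDiff ℝ ∞ F) (v : S) (M : Multiset S) :
    pd (v ::ₘ M) F = dd v (pd M F) := by
  unfold pd
  rw [dif_pos hF, dif_pos hF, Multiset.foldr_cons]
  rfl

theorem pd_singleton (hF : ContDiff ℝ ∞ F) (v : S) : pd {v} F = dd v F := by
  have := pd_cons hF v 0
  rw [pd_zero hF] at this
  simpa using this

theorem pd_add (hF : ContDiff ℝ ∞ F) (M N : Multiset S) : pd (M + N) F = pd M (pd N F) := by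
  induction M using Multiset.induction_on with
  | empty => simp [pd_zero (contDiff_pd hF N)]
  | cons v M ih => rw [Multiset.cons_add, pd_cons hF, ih, pd_cons (contDiff_pd hF N)]

theorem pd_cons' (hF : ContDiff ℝ ∞ F) (v : S) (M : Multiset S) :
    pd (v ::ₘ M) F = pd M (dd v F) := by
  rw [← pd_singleton hF, ← pd_add hF, add_comm]
  simp

theorem dd_add (hF : ContDiff ℝ ∞ F) (hG : ContDiff ℝ ∞ G) (v : S) :
    dd v (fun x => F x + G x) = fun x => dd v F x + dd v G x := by
  funext x
  unfold dd
  rw [fderiv_fun_add (hF.differentiable (by simp) x) (hG.differentiable (by simp) x)]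
  rfl

theorem dd_mul (hF : ContDiff ℝ ∞ F) (hG : ContDiff ℝ ∞ G) (v : S) :
    dd v (fun x => F x * G x) = fun x => dd v F x * G x + F x * dd v G x := by
  funext x
  unfold dd
  rw [fderiv_fun_mul (hF.differentiable (by simp) x) (hG.differentiable (by simp) x)]
  simp only [add_apply, smul_apply, smul_eq_mul]
  ring

theorem dd_const (c : ℝ) (v : S) : dd v (fun _ : S => c) = fun _ => 0 := by
  funext x
  simp [dd]

theorem dd_const_mul (hF : ContDiff ℝ ∞ F) (c : ℝ) (v : S) :
    dd v (fun x => c * F x) = fun x => c * dd v F x := by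
  rw [dd_mul contDiff_const hF, dd_const]
  simp

theorem dd_sum {ι : Type*} (s : Finset ι) {F : ι → S → ℝ} (hF : ∀ i ∈ s, ContDiff ℝ ∞ (F i))
    (v : S) : dd v (fun x => ∑ i ∈ s, F i x) = fun x => ∑ i ∈ s, dd v (F i) x := by
  funext x
  unfold dd
  rw [fderiv_fun_sum fun i hi => (hF i hi).differentiable (by simp) x]
  simp

theorem dd_comp_clm {S' : Type*} [NormedAddCommGroup S'] [NormedSpace ℝ S'] (hF : ContDiff ℝ ∞ F)
    (l : S' →L[ℝ] S) (c : S) (v : S') :
    dd v (fun x => F (c + l x)) = fun x => dd (l v) F (c + l x) := by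
  funext x
  unfold dd
  have h1 : HasFDerivAt (fun x => c + l x) l x := l.hasFDerivAt.const_add c
  have h2 := (hF.differentiable (by simp) (c + l x)).hasFDerivAt.comp x h1
  exact congrArg (fun L : S' →L[ℝ] ℝ => L v) h2.fderiv

theorem dd_smul_dir (c : ℝ) (v : S) (F : S → ℝ) : dd (c • v) F = fun x => c * dd v F x := by
  funext x
  simp [dd]

theorem pd_fun_add (hF : ContDiff ℝ ∞ F) (hG : ContDiff ℝ ∞ G) (M : Multiset S) :
    pd M (fun x => F x + G x) = fun x => pd M F x + pd M G x := by
  induction M using Multiset.induction_on with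
  | empty => rw [pd_zero hF, pd_zero hG, pd_zero (hF.add hG)]
  | cons v M ih =>
    rw [pd_cons (hF.add hG), ih, dd_add (contDiff_pd hF M) (contDiff_pd hG M), pd_cons hF,
      pd_cons hG]

theorem pd_const_mul (hF : ContDiff ℝ ∞ F) (c : ℝ) (M : Multiset S) :
    pd M (fun x => c * F x) = fun x => c * pd M F x := by
  induction M using Multiset.induction_on with
  | empty => rw [pd_zero hF, pd_zero (contDiff_const.mul hF)]
  | cons v M ih =>
    rw [pd_cons (contDiff_const.mul hF), ih, dd_const_mul (contDiff_pd hF M), pd_cons hF]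

theorem pd_sum {ι : Type*} (s : Finset ι) {F : ι → S → ℝ} (hF : ∀ i ∈ s, ContDiff ℝ ∞ (F i))
    (M : Multiset S) : pd M (fun x => ∑ i ∈ s, F i x) = fun x => ∑ i ∈ s, pd M (F i) x := by
  induction M using Multiset.induction_on with
  | empty =>
    rw [pd_zero (ContDiff.sum hF)]
    funext x
    exact Finset.sum_congr rfl fun i hi => by rw [pd_zero (hF i hi)]
  | cons v M ih =>
    rw [pd_cons (ContDiff.sum hF), ih, dd_sum s fun i hi => contDiff_pd (hF i hi) M]
    funext x
    exact Finset.sum_congr rfl fun i hi => by rw [pd_cons (hF i hi)]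

theorem pd_comp_clm {S' : Type*} [NormedAddCommGroup S'] [NormedSpace ℝ S'] (hF : ContDiff ℝ ∞ F)
    (l : S' →L[ℝ] S) (c : S) (M : Multiset S') :
    pd M (fun x => F (c + l x)) = fun x => pd (M.map l) F (c + l x) := by
  have hc : ContDiff ℝ ∞ (fun x => F (c + l x)) := hF.comp (contDiff_const.add l.contDiff)
  induction M using Multiset.induction_on with
  | empty => rw [pd_zero hc, Multiset.map_zero, pd_zero hF]
  | cons v M ih =>
    rw [pd_cons hc, ih, dd_comp_clm (contDiff_pd hF _), Multiset.map_cons, pd_cons hF]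

theorem pd_map_smul (hF : ContDiff ℝ ∞ F) (c : ℝ) (M : Multiset S) :
    pd (M.map (c • ·)) F = fun x => c ^ Multiset.card M * pd M F x := by
  induction M using Multiset.induction_on with
  | empty => simp [pd_zero hF]
  | cons v M ih =>
    rw [Multiset.map_cons, pd_cons hF, ih, dd_smul_dir, dd_const_mul (contDiff_pd hF M), pd_cons hF]
    funext x
    rw [Multiset.card_cons]
    ring

theorem pd_of_zero_mem (hF : ContDiff ℝ ∞ F) {M : Multiset S} (h : (0 : S) ∈ M) :
    pd M F = fun _ => 0 := by
  obtain ⟨N, rfl⟩ := Multiset.exists_cons_of_mem h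
  rw [pd_cons hF]
  funext x
  simp [dd]

theorem pd_const (c : ℝ) {M : Multiset S} (h : M ≠ 0) : pd M (fun _ : S => c) = fun _ => 0 := by
  obtain ⟨v, hv⟩ := Multiset.exists_mem_of_ne_zero h
  obtain ⟨N, rfl⟩ := Multiset.exists_cons_of_mem hv
  rw [pd_cons' contDiff_const, dd_const]
  have := pd_const_mul (F := fun _ : S => (0 : ℝ)) contDiff_const 0 N
  simpa using this

/-- Leibniz rule over a finite set of positions. -/
theorem pd_mul {ι : Type*} [DecidableEq ι] (hF : ContDiff ℝ ∞ F) (hG : ContDiff ℝ ∞ G)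
    (v : ι → S) (s : Finset ι) :
    pd (s.val.map v) (fun x => F x * G x) =
      fun x => ∑ t ∈ s.powerset, pd (t.val.map v) F x * pd ((s \ t).val.map v) G x := by
  induction s using Finset.induction_on with
  | empty => simp [pd_zero hF, pd_zero hG, pd_zero (hF.mul hG)]
  | insert a s ha ih =>
    rw [Finset.insert_val_of_notMem ha, Multiset.map_cons, pd_cons (hF.mul hG), ih,
      dd_sum _ fun t _ => (contDiff_pd hF _).mul (contDiff_pd hG _)]
    funext x
    rw [Finset.sum_powerset_insert ha, ← Finset.sum_add_distrib]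
    refine Finset.sum_congr rfl fun t ht => ?_
    have hts := Finset.mem_powerset.1 ht
    have hat : a ∉ t := fun h => ha (hts h)
    have e1 : insert a s \ t = insert a (s \ t) := by
      ext b
      simp only [Finset.mem_sdiff, Finset.mem_insert]
      constructor
      · rintro ⟨rfl | h, h'⟩
        · exact Or.inl rfl
        · exact Or.inr ⟨h, h'⟩
      · rintro (rfl | ⟨h, h'⟩)
        · exact ⟨Or.inl rfl, hat⟩
        · exact ⟨Or.inr h, h'⟩
    have e2 : insert a s \ insert a t = s \ t := by
      ext b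
      simp only [Finset.mem_sdiff, Finset.mem_insert, not_or]
      constructor
      · rintro ⟨rfl | h, h', h''⟩
        · exact absurd rfl h'
        · exact ⟨h, h''⟩
      · rintro ⟨h, h'⟩
        exact ⟨Or.inr h, fun e => ha (e ▸ h), h'⟩
    have ha' : a ∉ s \ t := fun h => ha (Finset.mem_sdiff.1 h).1
    rw [dd_mul (contDiff_pd hF _) (contDiff_pd hG _), e1, e2, Finset.insert_val_of_notMem ha',
      Finset.insert_val_of_notMem hat, Multiset.map_cons, Multiset.map_cons, pd_cons hF, pd_cons hG]
    ring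

/-- The multiset of basis directions of a multi-index. -/
def dirs {d : ℕ} {ι : Type} [Fintype ι] (I : ι → Fin d) : Multiset (E d) :=
  Finset.univ.val.map fun a => ev (I a)

end

end Vale.Agent.P347
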