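import Vale.Agent.P347.Approx
import Vale.Agent.P347.Heat2

namespace Vale.Agent.P347

open MeasureTheory ProbabilityTheory
open scoped RealInnerProductSpace NNReal

variable {d : ℕ}

variable {Ω : Type} [MeasurableSpace Ω]

theorem repS_Nm (y : E d) : 0 ≤ Nm y := add_nonneg (Real.sqrt_nonneg _) (norm_nonneg _)

theorem repS_norm {m : (E d → ℝ) → Ω → E d} {B : Ω → ℝ} {s wb : ℝ} {N : ℕ}
    (hB : ∀ o, 0 ≤ B o) (hs : 0 < s) (hs' : 2 * s ^ 2 ≤ 1) (hwb : 0 ≤ wb) (h4 : 8 * N * wb ≤ 1)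
    {V : E d → ℝ} (hV : InClass V) (o : Ω)
    {a W b : ℝ} {n p : ℕ} {u : (E d → ℝ) → Ω → E d} (hu : Rep m B s wb a W b n p u) :
    0 ≤ W → n ≤ N →
      ‖u V o‖ ≤ |a| * ‖m V o‖ + b * B o + 8 * n * W * (Nm (m V o) + 4 * B o) := by
  have hX : 0 ≤ Nm (m V o) + 4 * B o := by have := repS_Nm (m V o); have := hB o; positivity
  induction hu with
  | base a W b n p φ hφ hb =>
    intro hW _
    have h1 := norm_add_le (a • m V o) (φ o)
    rw [norm_smul, Real.norm_eq_abs] at h1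
    have h2 : 0 ≤ 8 * n * W * (Nm (m V o) + 4 * B o) := by positivity
    have := hb o
    linarith
  | step a W b n p u₀ a₁ n₁ u₁ w s₁ n' _ _ ha hw hs₁ hs₂ hn ih₀ ih₁ =>
    intro hW hN
    have h0 := ih₀ hW (by omega)
    have h1 := ih₁ hwb (by omega)
    have hn₁ : (n₁ : ℝ) ≤ N := by exact_mod_cast (by omega : n₁ ≤ N)
    have hn' : (n : ℝ) + 1 ≤ n' := by exact_mod_cast (by omega : n + 1 ≤ n')
    have h2 : 8 * n₁ * wb ≤ 1 := le_trans (by gcongr) h4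
    have h3 := mul_le_mul_of_nonneg_right h2 hX
    have h5 := mul_le_mul_of_nonneg_right ha (norm_nonneg (m V o))
    have h6 : Nm (u₁ V o) ≤ 2 * (Nm (m V o) + 4 * B o) := by
      unfold Nm at *
      linarith
    have h7 := norm_gg_le hV (s := s₁) (by linarith) (by nlinarith) (u₁ V o)
    have h8 : ‖w • gg V s₁ (u₁ V o)‖ ≤ W * (8 * (Nm (m V o) + 4 * B o)) := by
      rw [norm_smul, Real.norm_eq_abs]
      exact mul_le_mul hw (by linarith) (norm_nonneg _) hW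
    have h9 := norm_add_le (u₀ V o) (w • gg V s₁ (u₁ V o))
    have h10 := mul_le_mul_of_nonneg_right hn' (mul_nonneg hW hX)
    linarith

theorem repS_inner_Nm {m : (E d → ℝ) → Ω → E d} {B : Ω → ℝ} {s wb : ℝ} {N : ℕ}
    (hB : ∀ o, 0 ≤ B o) (hs : 0 < s) (hs' : 2 * s ^ 2 ≤ 1) (hwb : 0 ≤ wb) (h4 : 8 * N * wb ≤ 1)
    {V : E d → ℝ} (hV : InClass V) (o : Ω)
    {a : ℝ} {n p : ℕ} {u : (E d → ℝ) → Ω → E d} (hu : Rep m B s wb a wb 4 n p u) (ha : |a| ≤ 1)
    (hn : n ≤ N) : Nm (u V o) ≤ 2 * (Nm (m V o) + 4 * B o) := by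
  have hX : 0 ≤ Nm (m V o) + 4 * B o := by have := repS_Nm (m V o); have := hB o; positivity
  have h1 := repS_norm hB hs hs' hwb h4 hV o hu hwb hn
  have hn₁ : (n : ℝ) ≤ N := by exact_mod_cast hn
  have h2 : 8 * n * wb ≤ 1 := le_trans (by gcongr) h4
  have h3 := mul_le_mul_of_nonneg_right h2 hX
  have h5 := mul_le_mul_of_nonneg_right ha (norm_nonneg (m V o))
  unfold Nm at *
  linarith

theorem repS_noise {t x y : ℝ} (ht : 0 < t) (hx : 0 ≤ x) (hxy : x + 1 ≤ y) :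
    √((t * √x) ^ 2 + t ^ 2) ≤ t * √y := by
  rw [mul_pow, Real.sq_sqrt hx, Real.sqrt_le_iff, mul_pow, Real.sq_sqrt (by linarith)]
  exact ⟨by positivity, by nlinarith [sq_nonneg t]⟩

theorem repS_level {t₀ c s s₁ h : ℝ} {n N : ℕ} (ht : 0 < t₀) (hs : 0 < s) (hn : n ≤ N)
    (h1 : t₀ * √(N + 1) ≤ c * s * h / 2) (hs₁ : s / 2 ≤ s₁) : t₀ * √(n + 1) ≤ c * s₁ * h := by
  have hn' : (n : ℝ) ≤ N := by exact_mod_cast hn
  have h2 : t₀ * √(n + 1) ≤ t₀ * √(N + 1) := by gcongr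
  have h3 : 0 ≤ t₀ * √(N + 1) := by positivity
  have h4 : 0 ≤ c * h := by
    by_contra hneg
    have := mul_neg_of_neg_of_pos (not_le.1 hneg) hs
    linarith
  have h5 := mul_le_mul_of_nonneg_left hs₁ h4
  linarith

theorem repS_div {x s s₁ : ℝ} (hx : 0 ≤ x) (hs : 0 < s) (hs₁ : s / 2 ≤ s₁) :
    x / s₁ ≤ 2 * (x / s) := by
  calc x / s₁ ≤ x / (s / 2) := div_le_div_of_nonneg_left hx (half_pos hs) hs₁
    _ = _ := by field_simp

theorem repS_err {lam lam₁ e Y Z n n₁ n' N : ℝ} (hl : 0 ≤ lam) (hl₁ : lam₁ ≤ 2 * lam)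
    (he : 0 ≤ e) (hY : 0 ≤ Y) (hZ : Z ≤ 2 * Y) (hn₁ : 0 ≤ n₁) (hn₁' : n₁ ≤ N)
    (hn' : n + 1 ≤ n') (h3 : 4 * N * lam ≤ 1) :
    (1 + 4 * n * lam) * e + 4 * n * Y + (lam₁ * ((1 + 4 * n₁ * lam) * e + 4 * n₁ * Y) + Z) ≤
      (1 + 4 * n' * lam) * e + 4 * n' * Y := by
  have h1 : 4 * n₁ * lam ≤ 1 := le_trans (by gcongr) h3
  have h2 : lam₁ * ((1 + 4 * n₁ * lam) * e + 4 * n₁ * Y) ≤
      2 * lam * ((1 + 4 * n₁ * lam) * e + 4 * n₁ * Y) :=
    mul_le_mul_of_nonneg_right hl₁ (by positivity)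
  have h4 := mul_le_mul_of_nonneg_right h1 (mul_nonneg hl he)
  have h5 := mul_le_mul_of_nonneg_right h1 hY
  have h6 := mul_le_mul_of_nonneg_right hn' (mul_nonneg hl he)
  have h7 := mul_le_mul_of_nonneg_right hn' hY
  linarith

theorem rep_samp_inner {h s₀ c R ε Λ : ℝ} {Bq : ℕ} (hC : Claim d h s₀ c R ε Λ Bq)
    {m : (E d → ℝ) → Ω → E d} {B : Ω → ℝ} {s wb t₀ : ℝ} {e : (E d → ℝ) → Ω → ℝ} {q N : ℕ}
    (hm : Samp Ω m t₀ e q) (hB : ∀ o, 0 ≤ B o) (hs : 0 < s) (hs₀ : s ≤ s₀) (hs' : 2 * s ^ 2 ≤ 1)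
    (ht : 0 < t₀) (hR : 0 ≤ R) (hε : 0 ≤ ε) (hΛ : 0 ≤ Λ) (hwb : 0 ≤ wb)
    (h1 : t₀ * √(N + 1) ≤ c * s * h / 2) (h2 : 2 * wb * s ≤ R * t₀)
    (h3 : 4 * N * (Λ * R * t₀ / s) ≤ 1) (h4 : 8 * N * wb ≤ 1)
    {a b : ℝ} {n p : ℕ} {u : (E d → ℝ) → Ω → E d} (hu : Rep m B s wb a wb b n p u) (ha : |a| ≤ 1)
    (hn : n ≤ N) :
    Samp Ω u (t₀ * √(n + 1))
      (fun V o => 2 * e V o + 4 * n * ε * t₀ * (Nm (m V o) + 4 * B o))
      ((n + 1) * (Bq + 1) ^ p * (q + 1)) := by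
  have hl : 0 ≤ Λ * R * t₀ / s := by positivity
  have hY : ∀ V o, 0 ≤ ε * t₀ * (Nm (m V o) + 4 * B o) := fun V o => by
    have := repS_Nm (m V o); have := hB o; positivity
  have key : ∀ {a W b : ℝ} {n p : ℕ} {u : (E d → ℝ) → Ω → E d}, Rep m B s wb a W b n p u →
      W ≤ wb → |a| ≤ 1 → n ≤ N → ∃ q', q' + 1 ≤ (n + 1) * (Bq + 1) ^ p * (q + 1) ∧
        Samp Ω u (t₀ * √(n + 1)) (fun V o => (1 + 4 * n * (Λ * R * t₀ / s)) * e V o +
          4 * n * (ε * t₀ * (Nm (m V o) + 4 * B o))) q' := by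
    intro a W b n p u hu
    induction hu with
    | base a W b n p φ hφ _ =>
      intro _ ha _
      refine ⟨q, Nat.le_mul_of_pos_left _ (by positivity), ?_⟩
      have h5 : 1 ≤ √((n : ℝ) + 1) := Real.one_le_sqrt.2 (by have := n.cast_nonneg (α := ℝ); linarith)
      refine Approx.mono ((hm.affine a hφ).noise_mono (by positivity) (by nlinarith))
        (fun V hV o => ?_) le_rfl
      have h6 := Approx.nonneg hm hV o
      have h7 := mul_le_mul_of_nonneg_right ha h6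
      have h8 : 0 ≤ 4 * n * (Λ * R * t₀ / s) * e V o := by positivity
      have h9 := mul_nonneg (by positivity : (0 : ℝ) ≤ 4 * n) (hY V o)
      linarith
    | step a W b n p u₀ a₁ n₁ u₁ w s₁ n' _ hu₁ ha₁ hw hs₁ hs₂ hn ih₀ ih₁ =>
      intro hW ha hN
      obtain ⟨q₀, hq₀, H₀⟩ := ih₀ hW ha (by omega)
      obtain ⟨q₁, hq₁, H₁⟩ := ih₁ le_rfl ha₁ (by omega)
      have hs₁0 : 0 < s₁ := by linarith
      have H₂ := hC Ω u₁ s₁ w t₀ _ q₁ hs₁0 (hs₂.trans hs₀) ht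
        (le_trans (by have := hw.trans hW; gcongr) h2)
        (H₁.noise_mono (by positivity) (repS_level ht hs (by omega) h1 hs₁))
      have hn' : (n : ℝ) + 1 ≤ n' := by exact_mod_cast (by omega : n + 1 ≤ n')
      refine ⟨q₀ + Bq * (q₁ + 1), ?_, Approx.mono ((H₀.add H₂).noise_mono (Real.sqrt_nonneg _)
        (repS_noise ht (by positivity) (by linarith))) (fun V hV o => ?_) le_rfl⟩
      · have h5 : Bq * (q₁ + 1) ≤ (n₁ + 1) * (Bq + 1) ^ (p + 1) * (q + 1) :=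
          calc Bq * (q₁ + 1) ≤ (Bq + 1) * ((n₁ + 1) * (Bq + 1) ^ p * (q + 1)) :=
                Nat.mul_le_mul (Nat.le_succ _) hq₁
            _ = _ := by ring
        calc q₀ + Bq * (q₁ + 1) + 1 ≤ (n + 1) * (Bq + 1) ^ (p + 1) * (q + 1) +
              (n₁ + 1) * (Bq + 1) ^ (p + 1) * (q + 1) := by omega
          _ = (n + n₁ + 1 + 1) * (Bq + 1) ^ (p + 1) * (q + 1) := by ring
          _ ≤ _ := by gcongr
      · refine repS_err hl (repS_div (by positivity) hs hs₁) (Approx.nonneg hm hV o) (hY V o) ?_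
          (Nat.cast_nonneg _) (by exact_mod_cast (by omega : n₁ ≤ N)) hn' h3
        have := mul_le_mul_of_nonneg_left
          (repS_inner_Nm hB hs hs' hwb h4 hV o hu₁ ha₁ (by omega)) (mul_nonneg hε ht.le)
        linarith
  obtain ⟨q', hq', H⟩ := key hu le_rfl ha hn
  refine Approx.mono H (fun V hV o => ?_) (by omega)
  have hn' : (n : ℝ) ≤ N := by exact_mod_cast hn
  have h5 : 4 * n * (Λ * R * t₀ / s) ≤ 1 := le_trans (by gcongr) h3
  have h6 := mul_le_mul_of_nonneg_right h5 (Approx.nonneg hm hV o)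
  linarith

theorem rep_samp_top {h s₀ c R ε Λ R' ε' Λ' : ℝ} {Bq Bq' : ℕ} (hC : Claim d h s₀ c R ε Λ Bq)
    (hC' : Claim d h s₀ c R' ε' Λ' Bq')
    {m : (E d → ℝ) → Ω → E d} {B : Ω → ℝ} {s wb t₀ t₁ W : ℝ} {e : (E d → ℝ) → Ω → ℝ} {q N : ℕ}
    (hm : Samp Ω m t₀ e q) (hB : ∀ o, 0 ≤ B o) (hs : 0 < s) (hs₀ : s ≤ s₀) (hs' : 2 * s ^ 2 ≤ 1)
    (ht : 0 < t₀) (hR : 0 ≤ R) (hε : 0 ≤ ε) (hΛ : 0 ≤ Λ) (hwb : 0 ≤ wb)
    (h1 : t₀ * √(N + 1) ≤ c * s * h / 2) (h2 : 2 * wb * s ≤ R * t₀)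
    (h3 : 4 * N * (Λ * R * t₀ / s) ≤ 1) (h4 : 8 * N * wb ≤ 1)
    (ht₁ : 0 < t₁) (hR' : 0 ≤ R') (hε' : 0 ≤ ε') (hΛ' : 0 ≤ Λ') (h5 : 2 * W * s ≤ R' * t₁)
    {n p : ℕ} {u : (E d → ℝ) → Ω → E d} (hu : Rep m B s wb 0 W 0 n p u) (hn : n ≤ N) :
    Samp Ω u (t₁ * √n)
      (fun V o => n * (2 * (Λ' * R' * t₁ / s) *
        (2 * e V o + 4 * N * ε * t₀ * (Nm (m V o) + 4 * B o)) +
          2 * ε' * t₁ * (Nm (m V o) + 4 * B o)))
      (n * Bq' * ((N + 1) * (Bq + 1) ^ p * (q + 1) + 1)) := by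
  have hX : ∀ V o, 0 ≤ Nm (m V o) + 4 * B o := fun V o => by
    have := repS_Nm (m V o); have := hB o; positivity
  have hE : ∀ V, InClass V → ∀ o, 0 ≤ 2 * (Λ' * R' * t₁ / s) *
      (2 * e V o + 4 * N * ε * t₀ * (Nm (m V o) + 4 * B o)) +
        2 * ε' * t₁ * (Nm (m V o) + 4 * B o) := fun V hV o => by
    have := hX V o; have := Approx.nonneg hm hV o; positivity
  have key : ∀ {a W b : ℝ} {n p : ℕ} {u : (E d → ℝ) → Ω → E d}, Rep m B s wb a W b n p u →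
      a = 0 → 2 * W * s ≤ R' * t₁ → n ≤ N → Samp Ω u (t₁ * √n)
      (fun V o => n * (2 * (Λ' * R' * t₁ / s) *
        (2 * e V o + 4 * N * ε * t₀ * (Nm (m V o) + 4 * B o)) +
          2 * ε' * t₁ * (Nm (m V o) + 4 * B o)))
      (n * Bq' * ((N + 1) * (Bq + 1) ^ p * (q + 1) + 1)) := by
    intro a W b n p u hu
    induction hu with
    | base a W b n p φ hφ _ =>
      rintro rfl _ _
      simp only [zero_smul, zero_add]
      exact Approx.mono (samp_known hφ _) (fun V hV o => mul_nonneg (Nat.cast_nonneg _) (hE V hV o))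
        (Nat.zero_le _)
    | step a W b n p u₀ a₁ n₁ u₁ w s₁ n' _ hu₁ ha₁ hw hs₁ hs₂ hn ih₀ _ =>
      intro ha h5 hN
      have H₀ := ih₀ ha h5 (by omega)
      have H₁ := rep_samp_inner hC hm hB hs hs₀ hs' ht hR hε hΛ hwb h1 h2 h3 h4 hu₁ ha₁ (by omega)
      have hs₁0 : 0 < s₁ := by linarith
      have hW : 0 ≤ W := (abs_nonneg w).trans hw
      have H₂ := hC' Ω u₁ s₁ w t₁ _ _ hs₁0 (hs₂.trans hs₀) ht₁ (le_trans (by gcongr) h5)
        (H₁.noise_mono (by positivity) (repS_level ht hs (by omega) h1 hs₁))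
      have hn' : (n : ℝ) + 1 ≤ n' := by exact_mod_cast (by omega : n + 1 ≤ n')
      refine Approx.mono ((H₀.add H₂).noise_mono (Real.sqrt_nonneg _)
        (repS_noise ht₁ (by positivity) hn')) (fun V hV o => ?_) ?_
      · have t1 := mul_le_mul_of_nonneg_right hn' (hE V hV o)
        have t2 := mul_le_mul_of_nonneg_left
          (repS_inner_Nm hB hs hs' hwb h4 hV o hu₁ ha₁ (by omega)) (mul_nonneg hε' ht₁.le)
        have hn₁ : (n₁ : ℝ) ≤ N := by exact_mod_cast (by omega : n₁ ≤ N)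
        have t3 : Λ' * R' * t₁ / s₁ * (2 * e V o + 4 * n₁ * ε * t₀ * (Nm (m V o) + 4 * B o)) ≤
            2 * (Λ' * R' * t₁ / s) * (2 * e V o + 4 * N * ε * t₀ * (Nm (m V o) + 4 * B o)) := by
          have := hX V o
          have := Approx.nonneg hm hV o
          exact mul_le_mul (repS_div (by positivity) hs hs₁) (by gcongr) (by positivity)
            (by positivity)
        linarith
      · have t1 : (n₁ + 1) * (Bq + 1) ^ p * (q + 1) ≤ (N + 1) * (Bq + 1) ^ (p + 1) * (q + 1) :=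
          Nat.mul_le_mul_right _ (Nat.mul_le_mul (by omega)
            (Nat.pow_le_pow_right (Nat.succ_pos _) (Nat.le_succ _)))
        calc _ ≤ n * Bq' * ((N + 1) * (Bq + 1) ^ (p + 1) * (q + 1) + 1) +
              Bq' * ((N + 1) * (Bq + 1) ^ (p + 1) * (q + 1) + 1) := by gcongr
          _ = (n + 1) * Bq' * ((N + 1) * (Bq + 1) ^ (p + 1) * (q + 1) + 1) := by ring
          _ ≤ _ := by gcongr; omega
  exact key hu rfl h5 hn

theorem base_claim {h s₀ c R : ℝ} (hh : 0 ≤ h) (hc : 0 ≤ c) (hch : c * h ≤ 1)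
    (hs : 2 * s₀ ^ 2 ≤ 1) (hR : 0 ≤ R) : Claim d h s₀ c R (2 * R) 1 1 := by
  intro Ω _ m s w t e q hs0 hs₀ ht hw hm
  have hs1 : s ≤ 1 := by nlinarith
  have h1 : Samp (Ω × E d) (fun V p => w • gradient V p.2) 0 (fun _ _ => 0) 1 :=
    (approx_query measurable_snd w).of_eq (fun V _ o f L _ => by simp) (fun _ _ _ => le_rfl) le_rfl
  have hlip : ∀ {V : E d → ℝ}, InClass V → LipschitzWith (‖w‖₊ * 2) fun y => w • gradient V y :=
    fun hV => (lipschitzWith_smul w).comp hV.lip_grad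
  have h2 := Approx.bind hm (h1.noise_mono le_rfl ht.le) (‖w‖₊ * 2) 0
    (fun V hV o f L hf => by rw [mul_comm]; exact (lip_smooth hf t).comp (hlip hV))
    (fun V _ o => LipschitzWith.const 0)
  refine Approx.mono (h2.congr (e' := fun V o => 2 * R * t * Nm (m V o))
    fun V hV o f L hf => ?_) (fun V hV o => ?_) (by omega)
  · set φ := fun y => ∫ z, f (y + t • z) ∂gam d with hφ
    have hφL : LipschitzWith L φ := lip_smooth hf t
    have i1 : Integrable (fun z => φ (w • gradient V (m V o + (c * s * h) • z))) (gam d) :=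
      approxAux_int (approxAux_gam (m V o) (c * s * h)) (hφL.comp (hlip hV))
    have i2 : Integrable (fun z : E d => L * (|w| * (2 * (c * s * h) * ‖z‖ +
        (2 * s * √d + 4 * s ^ 2 * ‖m V o‖)))) (gam d) :=
      (((IsGaussian.integrable_fun_id.norm.const_mul _).add
        (integrable_const _)).const_mul _).const_mul _
    have e1 : φ (w • gg V s (m V o)) = ∫ _z, φ (w • gg V s (m V o)) ∂gam d := by simp
    change |∫ z, φ (w • gradient V (m V o + (c * s * h) • z)) ∂gam d - φ (w • gg V s (m V o))| ≤ _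
    rw [e1, ← integral_sub i1 (integrable_const _), ← Real.norm_eq_abs]
    refine (norm_integral_le_of_norm_le i2 (ae_of_all _ fun z => ?_)).trans ?_
    · rw [← dist_eq_norm]
      refine (hφL.dist_le_mul _ _).trans (mul_le_mul_of_nonneg_left ?_ L.2)
      rw [dist_smul₀, Real.norm_eq_abs]
      refine mul_le_mul_of_nonneg_left ?_ (abs_nonneg w)
      refine (dist_triangle _ (gradient V (m V o)) _).trans (add_le_add ?_ ?_)
      · have := hV.lip_grad.dist_le_mul (m V o + (c * s * h) • z) (m V o)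
        rw [dist_self_add_left, norm_smul, Real.norm_of_nonneg (by positivity)] at this
        simpa [mul_assoc] using this
      · rw [dist_comm, dist_eq_norm]
        exact gg_sub_grad hV hs0.le _
    · rw [integral_const_mul, integral_const_mul,
        integral_add (IsGaussian.integrable_fun_id.norm.const_mul _) (integrable_const _),
        integral_const_mul]
      refine mul_le_mul_of_nonneg_left ?_ L.2
      simp only [integral_const, probReal_univ, smul_eq_mul, one_mul]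
      have t1 := integral_norm_gam_le (d := d)
      have t2 : 2 * (c * s * h) * ∫ z, ‖z‖ ∂gam d ≤ 2 * s * √d :=
        mul_le_mul (by nlinarith) t1 (integral_nonneg fun _ => norm_nonneg _) (by positivity)
      have t3 : 4 * s ^ 2 * ‖m V o‖ ≤ 4 * s * ‖m V o‖ :=
        mul_le_mul_of_nonneg_right (by nlinarith) (norm_nonneg _)
      calc _ ≤ |w| * (4 * s * Nm (m V o)) :=
            mul_le_mul_of_nonneg_left (by unfold Nm; linarith) (abs_nonneg w)
        _ = 2 * (2 * |w| * s) * Nm (m V o) := by ring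
        _ ≤ 2 * (R * t) * Nm (m V o) := by have := repS_Nm (m V o); gcongr
        _ = _ := by ring
  · have t1 : |w| * 2 ≤ 1 * R * t / s := by rw [le_div_iff₀ hs0]; linarith
    have t2 := mul_le_mul_of_nonneg_right t1 (Approx.nonneg hm hV o)
    simpa using t2

theorem Claim.mono {h s₀ c c' R ε ε' Λ Λ' : ℝ} {Bq Bq' : ℕ} (hC : Claim d h s₀ c R ε Λ Bq)
    (hh : 0 ≤ h) (hc : 0 ≤ c') (hc' : c' ≤ c) (hR : 0 ≤ R) (hε : ε ≤ ε') (hΛ : Λ ≤ Λ')
    (hB : Bq ≤ Bq') : Claim d h s₀ c' R ε' Λ' Bq' := by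
  intro Ω _ m s w t e q hs0 hs₀ ht hw hm
  refine Approx.mono (hC Ω m s w t e q hs0 hs₀ ht hw (hm.noise_mono (by positivity) (by gcongr)))
    (fun V hV o => ?_) (Nat.mul_le_mul_right _ hB)
  have := Approx.nonneg hm hV o
  have := repS_Nm (m V o)
  gcongr

end Vale.Agent.P347
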