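import Vale.Agent.P347.Interp
import Vale.Agent.P347.Pot

namespace Vale.Agent.P347

open MeasureTheory ProbabilityTheory
open scoped RealInnerProductSpace NNReal

variable {d : ℕ}

section basic

variable {Ω : Type} [MeasurableSpace Ω] {m : (E d → ℝ) → Ω → E d} {B : Ω → ℝ} {s wb : ℝ}

theorem Rep.cast {a a' W b b' : ℝ} {n p : ℕ} {u u' : (E d → ℝ) → Ω → E d}
    (h : Rep m B s wb a W b n p u) (ha : a = a') (hb : b = b') (hu : ∀ V o, u V o = u' V o) :
    Rep m B s wb a' W b' n p u' := by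
  obtain rfl : u = u' := funext fun V => funext (hu V)
  rw [← ha, ← hb]
  exact h

theorem Rep.mono (hB : ∀ o, 0 ≤ B o) {a W b : ℝ} {n p : ℕ} {u : (E d → ℝ) → Ω → E d}
    (h : Rep m B s wb a W b n p u) : ∀ {W' b' : ℝ} {n' p' : ℕ}, W ≤ W' → b ≤ b' → n ≤ n' →
      p ≤ p' → Rep m B s wb a W' b' n' p' u := by
  induction h with
  | base a W b n p φ hφ hb =>
    intro W' b' n' p' _ h2 _ _
    exact Rep.base a W' b' n' p' φ hφ fun o =>
      (hb o).trans (mul_le_mul_of_nonneg_right h2 (hB o))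
  | step a W b n p u₀ a₁ n₁ u₁ w s₁ n₂ _ _ ha hw hs₁ hs₂ hn ih₀ ih₁ =>
    intro W' b' n' p' h1 h2 h3 h4
    obtain ⟨r, rfl⟩ : ∃ r, p' = r + 1 := ⟨p' - 1, by omega⟩
    exact Rep.step a W' b' n r u₀ a₁ n₁ u₁ w s₁ n' (ih₀ h1 h2 le_rfl h4)
      (ih₁ le_rfl le_rfl le_rfl (by omega)) ha (hw.trans h1) hs₁ hs₂ (hn.trans h3)

theorem Rep.add_base {a W b : ℝ} {n p : ℕ} {u : (E d → ℝ) → Ω → E d}
    (h : Rep m B s wb a W b n p u) (a' b' : ℝ) (n' : ℕ) {φ : Ω → E d} (hφ : Measurable φ)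
    (hb : ∀ o, ‖φ o‖ ≤ b' * B o) :
    Rep m B s wb (a + a') W (b + b') (n + n') p fun V o => u V o + (a' • m V o + φ o) := by
  induction h with
  | base a W b n p ψ hψ hb' =>
    refine (Rep.base (a + a') W (b + b') (n + n') p (fun o => ψ o + φ o) (hψ.add hφ)
      fun o => ?_).cast rfl rfl fun V o => ?_
    · rw [add_mul]
      exact (norm_add_le _ _).trans (add_le_add (hb' o) (hb o))
    · beta_reduce
      rw [add_smul]; abel
  | step a W b n p u₀ a₁ n₁ u₁ w s₁ n₂ _ h₁ ha hw hs₁ hs₂ hn ih₀ _ =>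
    exact (Rep.step _ W _ _ p _ a₁ n₁ u₁ w s₁ (n₂ + n') ih₀ h₁ ha hw hs₁ hs₂ (by omega)).cast
      rfl rfl fun V o => by beta_reduce; abel

theorem Rep.add {a' W b' : ℝ} {n' p : ℕ} {u' : (E d → ℝ) → Ω → E d}
    (h' : Rep m B s wb a' W b' n' p u') : ∀ {a b : ℝ} {n : ℕ} {u : (E d → ℝ) → Ω → E d},
      Rep m B s wb a W b n p u →
      Rep m B s wb (a + a') W (b + b') (n + n') p fun V o => u V o + u' V o := by
  induction h' with
  | base a' W b' n' p φ hφ hb => exact fun h => h.add_base a' b' n' hφ hb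
  | step a' W b' n' p u₀ a₁ n₁ u₁ w s₁ n₂ _ h₁ ha hw hs₁ hs₂ hn ih₀ _ =>
    intro a b n u h
    exact (Rep.step _ W _ _ p _ a₁ n₁ u₁ w s₁ (n + n₂) (ih₀ h) h₁ ha hw hs₁ hs₂ (by omega)).cast
      rfl rfl fun V o => by beta_reduce; abel

theorem Rep.known (W b : ℝ) (n p : ℕ) {φ : Ω → E d} (hφ : Measurable φ)
    (hb : ∀ o, ‖φ o‖ ≤ b * B o) : Rep m B s wb 0 W b n p fun _ o => φ o :=
  (Rep.base 0 W b n p φ hφ hb).cast rfl rfl fun V o => by simp

theorem Rep.one_step {a₁ W w s₁ : ℝ} {n₁ p : ℕ} {u₁ : (E d → ℝ) → Ω → E d}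
    (h₁ : Rep m B s wb a₁ wb 4 n₁ p u₁) (ha : |a₁| ≤ 1) (hw : |w| ≤ W) (hs : s / 2 ≤ s₁)
    (hs' : s₁ ≤ s) : Rep m B s wb 0 W 0 (n₁ + 1) (p + 1) fun V o => w • gg V s₁ (u₁ V o) :=
  (Rep.step 0 W 0 0 p _ a₁ n₁ u₁ w s₁ (n₁ + 1)
    (Rep.known W 0 0 (p + 1) (φ := fun _ => 0) measurable_const fun o => by simp) h₁ ha hw hs hs'
    (by omega)).cast rfl rfl fun V o => by simp

theorem Rep.add0 {a W b : ℝ} {n n' p : ℕ} {u u' : (E d → ℝ) → Ω → E d}
    (h : Rep m B s wb a W b n p u) (h' : Rep m B s wb 0 W 0 n' p u') :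
    Rep m B s wb a W b (n + n') p fun V o => u V o + u' V o :=
  (h'.add h).cast (add_zero a) (add_zero b) fun _ _ => rfl

theorem Rep.sum {ι : Type} (t : Finset ι) {W : ℝ} {n p : ℕ} {u : ι → (E d → ℝ) → Ω → E d}
    (h : ∀ i ∈ t, Rep m B s wb 0 W 0 n p (u i)) :
    Rep m B s wb 0 W 0 (t.card * n) p fun V o => ∑ i ∈ t, u i V o := by
  classical
  induction t using Finset.induction_on with
  | empty =>
    exact (Rep.known W 0 _ p (φ := fun _ => 0) measurable_const fun o => by simp).cast rfl rfl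
      fun V o => by simp
  | insert i t hi ih =>
    rw [Finset.card_insert_of_notMem hi, add_mul, one_mul]
    exact ((ih fun j hj => h j (Finset.mem_insert_of_mem hj)).add0
      (h i (Finset.mem_insert_self _ _))).cast rfl rfl fun V o => by
        rw [Finset.sum_insert hi, add_comm]

theorem Rep.sumF {K : ℕ} {W : ℝ} {n p : ℕ} {u : Fin (K + 1) → (E d → ℝ) → Ω → E d}
    (h : ∀ i, Rep m B s wb 0 W 0 n p (u i)) :
    Rep m B s wb 0 W 0 ((K + 1) * n) p fun V o => ∑ i, u i V o := by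
  simpa using Rep.sum Finset.univ fun i _ => h i

end basic

theorem Rep.smul {Ω : Type} [MeasurableSpace Ω] {m : (E d → ℝ) → Ω → E d} {B : Ω → ℝ}
    {s wb a W b : ℝ} {n p : ℕ} {u : (E d → ℝ) → Ω → E d} (h : Rep m B s wb a W b n p u) (c : ℝ) :
    Rep m B s wb (c * a) (|c| * W) (|c| * b) n p fun V o => c • u V o := by
  induction h with
  | base a W b n p φ hφ hb =>
    refine (Rep.base (c * a) _ (|c| * b) n p (fun o => c • φ o) (hφ.const_smul c)
      fun o => ?_).cast rfl rfl fun V o => by rw [smul_add, mul_smul]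
    rw [norm_smul, Real.norm_eq_abs, mul_assoc]
    exact mul_le_mul_of_nonneg_left (hb o) (abs_nonneg c)
  | step a W b n p u₀ a₁ n₁ u₁ w s₁ n₂ _ h₁ ha hw hs₁ hs₂ hn ih₀ _ =>
    refine (Rep.step _ _ _ n p _ a₁ n₁ u₁ (c * w) s₁ n₂ ih₀ h₁ ha ?_ hs₁ hs₂ hn).cast rfl rfl
      fun V o => by rw [smul_add, mul_smul]
    rw [abs_mul]
    exact mul_le_mul_of_nonneg_left hw (abs_nonneg c)

/-- standing assumptions for the templates -/
structure RCtx (K : ℕ) (Cw s h wb : ℝ) : Prop where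
  w1 : ∀ a b i, |wI K a b i| ≤ Cw
  w2 : ∀ i, |wD K i| ≤ Cw
  one : 1 ≤ Cw
  hs : 0 < s
  hh : 0 < h
  hK : 1 ≤ K
  hKh : K * h ≤ 1 / 4
  hwb : Cw * s ^ 2 ≤ wb

def nY (K n₀ : ℕ) : ℕ → ℕ
  | 0 => n₀ + n₀
  | l + 1 => n₀ + n₀ + (K + 1) * (nY K n₀ l + 1)

def nG (K k n₀ : ℕ) : ℕ := (K + 1) * (nY K n₀ k + 1)

def nR (K k n₀ : ℕ) : ℕ → ℕ
  | 0 => n₀
  | l + 1 => n₀ + (K + 1) * nG K k (nR K k n₀ l)

def nH (K k n₀ : ℕ) : ℕ := (K + 1) * nG K k (nR K k n₀ k)

def nK (K k : ℕ) : ℕ → ℕ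
  | 0 => 0
  | l + 1 => (K + 1) * (nK K k l + 1 + nG K k (nK K k l)) +
      (1 + (nK K k l + 1) + (K + 1) * nH K k (nK K k l))

namespace RCtx

variable {K : ℕ} {Cw s h wb : ℝ} (c : RCtx K Cw s h wb)
include c

theorem node (j : Fin (K + 1)) : 0 ≤ ((j : ℕ) : ℝ) * h ∧ ((j : ℕ) : ℝ) * h ≤ K * h := by
  have h1 : ((j : ℕ) : ℝ) ≤ K := by exact_mod_cast Nat.lt_succ_iff.1 j.2
  have := c.hh
  exact ⟨by positivity, by gcongr⟩

theorem Cj_mem (j : Fin (K + 1)) : 3 / 4 ≤ Cj h j ∧ Cj h j ≤ 1 :=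
  ⟨Cs_ge (by
    rw [abs_of_nonneg (c.node j).1]
    linarith [(c.node j).2, c.hKh]), Cs_le_one _⟩

theorem Sj_mem (j : Fin (K + 1)) : 0 ≤ Sj h j ∧ Sj h j ≤ K * h := by
  unfold Sj
  rw [Sn_eq]
  exact ⟨mul_nonneg (c.node j).1 (Cs_pos _).le,
    (mul_le_of_le_one_right (c.node j).1 (Cs_le_one _)).trans (c.node j).2⟩

theorem abs_Cj3 (j : Fin (K + 1)) : |Cj h j ^ 3| ≤ 1 := by
  have h1 := c.Cj_mem j
  rw [abs_of_nonneg (pow_nonneg (by linarith) _)]
  exact pow_le_one₀ (by linarith) h1.2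

theorem abs_Sj (j : Fin (K + 1)) : |Sj h j| ≤ 1 := by
  rw [abs_of_nonneg (c.Sj_mem j).1]
  exact ((c.Sj_mem j).2.trans c.hKh).trans (by norm_num)

theorem h_le : h ≤ 1 := by
  have h1 : (1 : ℝ) ≤ K := by exact_mod_cast c.hK
  nlinarith [c.hh, c.hKh]

theorem wb0 : 0 ≤ wb := le_trans (by have := c.one; positivity) c.hwb

theorem Kh_pos : 0 < K * h := by
  have h1 : (1 : ℝ) ≤ K := by exact_mod_cast c.hK
  have := c.hh
  positivity

theorem level {s' : ℝ} (h1 : 3 / 4 * s ≤ s') (h2 : s' ≤ s) (j : Fin (K + 1)) :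
    s / 2 ≤ s' * Cj h j ∧ s' * Cj h j ≤ s := by
  have h3 := c.Cj_mem j
  have h4 := c.hs
  constructor <;> nlinarith

theorem level0 (j : Fin (K + 1)) : 3 / 4 * s ≤ s * Cj h j ∧ s * Cj h j ≤ s := by
  have h3 := c.Cj_mem j
  have h4 := c.hs
  constructor <;> nlinarith

variable {Ω : Type} [MeasurableSpace Ω] {m : (E d → ℝ) → Ω → E d} {B : Ω → ℝ}
  (hB : ∀ o, 0 ≤ B o) {s' a b₁ b₂ : ℝ} (h1 : 3 / 4 * s ≤ s') (h2 : s' ≤ s) (ha : |a| ≤ 1)
  (hb : b₁ + b₂ ≤ 4) (hb₂ : 0 ≤ b₂)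
include hB h1 h2 ha hb hb₂

theorem rep_vY {n₀ D : ℕ} {M P : (E d → ℝ) → Ω → E d} (hM : Rep m B s wb a wb b₁ n₀ D M)
    (hP : Rep m B s wb 0 wb b₂ n₀ D fun V o => (s * (K * h)) • P V o) (l : ℕ) :
    ∀ j, Rep m B s wb a wb (b₁ + b₂) (nY K n₀ l) (D + l)
      fun V o => vY K h V s' (M V o) (P V o) l j := by
  have hs := c.hs
  have hKh := c.Kh_pos
  have hs' : 0 ≤ s' := by linarith
  have h0 : ∀ j : Fin (K + 1), Rep m B s wb a wb (b₁ + b₂) (n₀ + n₀) D
      fun V o => M V o + (s' * Sj h j) • P V o := by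
    intro j
    have hr : |s' * Sj h j / (s * (K * h))| ≤ 1 := by
      rw [abs_of_nonneg (div_nonneg (mul_nonneg hs' (c.Sj_mem j).1) (by positivity)),
        div_le_one (by positivity)]
      exact mul_le_mul h2 (c.Sj_mem j).2 (c.Sj_mem j).1 hs.le
    refine (((hP.smul _).mono hB (mul_le_of_le_one_left c.wb0 hr) (mul_le_of_le_one_left hb₂ hr)
      le_rfl le_rfl).add hM).cast (by simp) rfl fun V o => ?_
    rw [smul_smul, div_mul_cancel₀ _ (by positivity)]
  induction l with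
  | zero => exact h0
  | succ l ih =>
    intro j
    refine (((h0 j).mono hB le_rfl le_rfl le_rfl (by omega)).add0 (Rep.sumF fun i =>
      ((ih i).mono hB le_rfl hb le_rfl le_rfl).one_step
        (w := -(s' * Sj h j * h * s' * wI K 0 j i * Cj h i ^ 3)) ha ?_ (c.level h1 h2 i).1
        (c.level h1 h2 i).2)).cast rfl rfl fun V o => ?_
    · refine le_trans ?_ c.hwb
      simp only [abs_neg, abs_mul, abs_of_nonneg hs', abs_of_pos c.hh]
      calc _ ≤ s * 1 * 1 * s * Cw * 1 := by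
            have := c.one
            have := c.hh
            have := c.abs_Sj j
            have := c.h_le
            have := c.w1 0 j i
            have := c.abs_Cj3 i
            gcongr
        _ = _ := by ring
    · simp only [vY, neg_smul, Finset.sum_neg_distrib, sub_eq_add_neg]

theorem rep_Gam (k : ℕ) {n₀ D : ℕ} {M P : (E d → ℝ) → Ω → E d} (hM : Rep m B s wb a wb b₁ n₀ D M)
    (hP : Rep m B s wb 0 wb b₂ n₀ D fun V o => (s * (K * h)) • P V o) {x W : ℝ}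
    (hx : |x| * (2 * Cw) ≤ W * (s * h)) :
    Rep m B s wb 0 W 0 (nG K k n₀) (D + k + 1) fun V o => x • Gam K h k V s' (M V o) (P V o) := by
  have hs := c.hs
  have hh := c.hh
  have hs' : 0 < s' := by linarith
  refine (Rep.sumF fun j => ((c.rep_vY hB h1 h2 ha hb hb₂ hM hP k j).mono hB le_rfl hb le_rfl
    le_rfl).one_step (w := x * (wD K j / (s' * h))) ha ?_ (c.level h1 h2 j).1
      (c.level h1 h2 j).2).cast rfl rfl fun V o => ?_
  · rw [abs_mul, abs_div, abs_of_pos (mul_pos hs' hh), ← mul_div_assoc,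
      div_le_iff₀ (mul_pos hs' hh)]
    have h3 := mul_le_mul_of_nonneg_left (c.w2 j) (abs_nonneg x)
    have h4 : 0 ≤ W := by
      by_contra hW
      have := mul_neg_of_neg_of_pos (not_le.1 hW) (mul_pos hs hh)
      have : 0 ≤ |x| * (2 * Cw) := by have := c.one; positivity
      linarith
    have h5 : W * (s * h) ≤ W * (2 * s' * h) := by gcongr; linarith
    linarith
  · simp only [Gam, Finset.smul_sum, mul_smul]

theorem rep_rot (k : ℕ) {τ : ℝ} (hτ : 0 < τ) (hw : K * τ * Cw ^ 2 ≤ wb) {n₀ D : ℕ}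
    {M G u : (E d → ℝ) → Ω → E d} (hM : Rep m B s wb a wb b₁ n₀ D M)
    (hG : Rep m B s wb 0 wb b₂ n₀ D fun V o => (s * (K * h)) • G V o)
    (hu : Rep m B s wb 0 wb b₂ n₀ D fun V o => (s * (K * h)) • u V o) (l : ℕ) :
    ∀ j, (Rep m B s wb 0 wb b₂ (nR K k n₀ l) (D + l * (k + 1))
      fun V o => (s * (K * h)) • (rot K h k τ V s' (M V o) (G V o) (u V o) l j).1) ∧
      Rep m B s wb 0 wb b₂ (nR K k n₀ l) (D + l * (k + 1))
        fun V o => (s * (K * h)) • (rot K h k τ V s' (M V o) (G V o) (u V o) l j).2 := by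
  induction l with
  | zero => exact fun j => ⟨by simpa [rot, nR] using hu, by simpa [rot, nR] using hG⟩
  | succ l ih =>
    intro j
    have hM' : Rep m B s wb a wb b₁ (nR K k n₀ l) (D + l * (k + 1)) M :=
      hM.mono hB le_rfl le_rfl (by cases l <;> simp [nR]) (by omega)
    have hx : ∀ i, |s * (K * h) * (τ * wI K 0 j i / 2)| * (2 * Cw) ≤ wb * (s * h) := fun i => by
      have hs := c.hs
      have hh := c.hh
      have := c.one
      rw [abs_mul, abs_of_pos (mul_pos hs c.Kh_pos), abs_div, abs_mul, abs_of_pos hτ, abs_two]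
      calc _ ≤ s * (K * h) * (τ * Cw / 2) * (2 * Cw) := by gcongr; exact c.w1 _ _ _
        _ = K * τ * Cw ^ 2 * (s * h) := by ring
        _ ≤ _ := by gcongr
    have e : D + (l + 1) * (k + 1) = D + l * (k + 1) + k + 1 := by ring
    rw [e]
    constructor
    · refine ((hu.mono hB le_rfl le_rfl le_rfl (by omega)).add0 (Rep.sumF fun i =>
        c.rep_Gam hB h1 h2 ha hb hb₂ k hM' (ih i).2 (hx i))).cast rfl rfl fun V o => ?_
      simp only [rot, smul_add, Finset.smul_sum, mul_smul]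
    · refine ((hG.mono hB le_rfl le_rfl le_rfl (by omega)).add0 (Rep.sumF fun i =>
        c.rep_Gam hB h1 h2 ha hb hb₂ k hM' (ih i).1
          (x := -(s * (K * h) * (τ * wI K 0 j i / 2))) (by rw [abs_neg]; exact hx i))).cast rfl rfl
        fun V o => ?_
      simp only [rot, smul_add, smul_neg, Finset.smul_sum, mul_smul, neg_smul,
        Finset.sum_neg_distrib, sub_eq_add_neg]

theorem rep_Gam2 (k : ℕ) {τ : ℝ} (hτ : 0 < τ) (hw : K * τ * Cw ^ 2 ≤ wb) {n₀ D : ℕ}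
    {M G u : (E d → ℝ) → Ω → E d} (hM : Rep m B s wb a wb b₁ n₀ D M)
    (hG : Rep m B s wb 0 wb b₂ n₀ D fun V o => (s * (K * h)) • G V o)
    (hu : Rep m B s wb 0 wb b₂ n₀ D fun V o => (s * (K * h)) • u V o) {x W : ℝ}
    (hx : |x| * (4 * Cw ^ 2) ≤ W * (τ * (s * h))) :
    Rep m B s wb 0 W 0 (nH K k n₀) (D + (k + 1) ^ 2)
      fun V o => x • Gam2 K h k τ V s' (M V o) (G V o) (u V o) := by
  have e : D + (k + 1) ^ 2 = D + k * (k + 1) + k + 1 := by ring
  rw [e]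
  refine (Rep.sumF fun j => c.rep_Gam hB h1 h2 ha hb hb₂ k
    (hM.mono hB le_rfl le_rfl (by cases k <;> simp [nR]) (by omega))
    (c.rep_rot hB h1 h2 ha hb hb₂ k hτ hw hM hG hu k j).1 (x := x * (2 * wD K j / τ))
    ?_).cast rfl rfl fun V o => ?_
  · have := c.one
    rw [abs_mul, abs_div, abs_mul, abs_two, abs_of_pos hτ]
    calc _ ≤ |x| * (2 * Cw / τ) * (2 * Cw) := by gcongr; exact c.w2 j
      _ = |x| * (4 * Cw ^ 2) / τ := by ring
      _ ≤ _ := by rw [div_le_iff₀ hτ]; linarith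
  · simp only [Gam2, Finset.smul_sum, mul_smul]

end RCtx

theorem repT_weights (K : ℕ) : ∃ C : ℝ, 1 ≤ C ∧ (∀ a b i, |wI K a b i| ≤ C) ∧
    ∀ i, |wD K i| ≤ C := by
  obtain ⟨C, h1, h2, h3⟩ := weights_bound K
  exact ⟨C, h1, fun a b i => (Finset.single_le_sum (fun i _ => abs_nonneg (wI K a b i))
    (Finset.mem_univ i)).trans (h2 a b), fun i => (Finset.single_le_sum
      (fun i _ => abs_nonneg (wD K i)) (Finset.mem_univ i)).trans h3⟩

theorem rep_descY (K k : ℕ) (hK : 1 ≤ K) : ∃ (C : ℝ) (n : ℕ), 1 ≤ C ∧ ∀ (d : ℕ) (Ω : Type)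
    [MeasurableSpace Ω] (m : (E d → ℝ) → Ω → E d) (B : Ω → ℝ) (s h wb : ℝ) (p : Ω → E d),
    0 < s → s ≤ 1 → 0 < h → K * h ≤ 1 / 8 → C * s ≤ wb → Measurable p → (∀ o, ‖p o‖ ≤ B o) →
    Rep m B s wb 1 wb 1 n k fun V o => descY K h k V s (m V o) (p o) := by
  obtain ⟨Cw, h1, h2, h3⟩ := repT_weights K
  refine ⟨Cw, nY K 0 k + 0, h1, fun d Ω _ m B s h wb p hs hs1 hh hKh hwb hp hpB => ?_⟩
  have c : RCtx K Cw s (2 * h) wb := ⟨h2, h3, h1, hs, by positivity, hK, by linarith,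
    le_trans (mul_le_mul_of_nonneg_left (by nlinarith) (by linarith)) hwb⟩
  have hB : ∀ o, 0 ≤ B o := fun o => (norm_nonneg _).trans (hpB o)
  have hK1 : (1 : ℝ) ≤ K := by exact_mod_cast hK
  have hA := brA_mem (T := K * h) (by positivity) (by linarith)
  have hA' : |brA (K * h)| ≤ 1 := by rw [abs_of_nonneg hA.1]; linarith [hA.2]
  have hY := c.rep_vY hB (s' := s) (a := 1) (b₁ := 0) (b₂ := 1) (by linarith) le_rfl (by simp)
    (by norm_num) zero_le_one (n₀ := 0) (D := 0) (M := m) (P := fun _ => p)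
    ((Rep.base (m := m) 1 wb 0 0 0 (fun _ => 0) measurable_const fun o => by simp).cast rfl rfl
      fun V o => by simp)
    (Rep.known wb 1 0 0 (hp.const_smul (s * (K * (2 * h)))) fun o => by
      rw [norm_smul, Real.norm_of_nonneg (by positivity)]
      exact mul_le_mul (by nlinarith [c.hKh, c.Kh_pos]) (hpB o) (norm_nonneg _) zero_le_one)
    k (Fin.last K)
  refine (((hY.smul _).mono hB (mul_le_of_le_one_left c.wb0 hA') (b' := 1) (by simpa using hA')
    le_rfl (by omega)).add_base (1 - brA (K * h)) 0 0 (φ := fun _ => 0) measurable_const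
    fun o => by simp).cast (by ring) (by ring) fun V o => ?_
  simp only [descY, smul_sub, sub_smul, one_smul, add_zero]
  abel

theorem repT_key {K : ℕ} {Cw s h wb τ β : ℝ} (c : RCtx K Cw s h wb) (k : ℕ) {Ω : Type}
    [MeasurableSpace Ω] (m : (E d → ℝ) → Ω → E d) {B : Ω → ℝ} {y G u : Ω → E d}
    (hs1 : s ≤ 1) (hτ : 0 < τ) (hβ : |β| * s ≤ τ) (hw : 4 * K * Cw ^ 3 * τ ≤ wb)
    (hy : Measurable y) (hG : Measurable G) (hu : Measurable u) (hyB : ∀ o, ‖y o‖ ≤ B o)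
    (hGB : ∀ o, ‖G o‖ ≤ B o) (huB : ∀ o, ‖u o‖ ≤ B o) (l : ℕ) :
    ∀ j, (Rep m B s wb (1 - Sj h j / Sj h (Fin.last K)) wb 1 (nK K k l) (l * (k + 1) ^ 2)
      fun V o => (key K h k τ β V s (m V o) (y o) (G o) (u o) l j).1) ∧
      Rep m B s wb 0 wb 1 (nK K k l) (l * (k + 1) ^ 2)
        fun V o => (s * (K * h)) • (key K h k τ β V s (m V o) (y o) (G o) (u o) l j).2 := by
  have hB : ∀ o, 0 ≤ B o := fun o => (norm_nonneg _).trans (hyB o)
  have hs := c.hs
  have hh := c.hh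
  have hC := c.one
  have hK1 : (1 : ℝ) ≤ K := by exact_mod_cast c.hK
  have hσ : s * (K * h) ≤ 1 := by nlinarith [c.hKh, c.Kh_pos]
  have hr : ∀ j : Fin (K + 1), 0 ≤ Sj h j / Sj h (Fin.last K) ∧ Sj h j / Sj h (Fin.last K) ≤ 1 :=
    fun j => ⟨div_nonneg (c.Sj_mem j).1 (c.Sj_mem _).1, div_le_one_of_le₀
      (Sn_mono (by simpa using (c.node j).2)) (c.Sj_mem _).1⟩
  have ha : ∀ j : Fin (K + 1), |1 - Sj h j / Sj h (Fin.last K)| ≤ 1 := fun j => by
    rw [abs_le]; constructor <;> linarith [(hr j).1, (hr j).2]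
  have hkn : ∀ {φ : Ω → E d}, Measurable φ → (∀ o, ‖φ o‖ ≤ B o) → ∀ n p,
      Rep m B s wb 0 wb 1 n p fun _ o => (s * (K * h)) • φ o := fun hφ hb n p =>
    Rep.known wb 1 n p (hφ.const_smul (s * (K * h))) fun o => by
      rw [norm_smul, Real.norm_of_nonneg (by positivity)]
      exact mul_le_mul hσ (hb o) (norm_nonneg _) zero_le_one
  have h0 : ∀ (j : Fin (K + 1)) n p, Rep m B s wb (1 - Sj h j / Sj h (Fin.last K)) wb 1 n p
      fun V o => m V o + (Sj h j / Sj h (Fin.last K)) • (y o - m V o) := fun j n p =>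
    (Rep.base _ wb 1 n p (fun o => (Sj h j / Sj h (Fin.last K)) • y o)
      (hy.const_smul (Sj h j / Sj h (Fin.last K)))
      fun o => by
        rw [norm_smul, Real.norm_of_nonneg (hr j).1]
        exact mul_le_mul (hr j).2 (hyB o) (norm_nonneg _) zero_le_one).cast rfl rfl fun V o => by
      simp only [smul_sub, sub_smul, one_smul]
      abel
  have hC2 : Cw ^ 2 ≤ Cw ^ 3 := pow_le_pow_right₀ hC (by norm_num)
  have hC3 : 1 ≤ Cw ^ 3 := one_le_pow₀ hC
  have hw3 : 4 * Cw ^ 3 * τ ≤ wb := le_trans (by nlinarith [mul_pos hτ (pow_pos (by linarith : (0 : ℝ) < Cw) 3)]) hw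
  have hw2 : K * τ * Cw ^ 2 ≤ wb := by
    have : K * τ * Cw ^ 2 ≤ K * τ * Cw ^ 3 := by gcongr
    have : 0 ≤ K * τ * Cw ^ 3 := by positivity
    linarith
  have hσβ : |s * (K * h) * β| ≤ wb := by
    rw [abs_mul, abs_of_pos (mul_pos hs c.Kh_pos)]
    calc s * (K * h) * |β| = (K * h) * (|β| * s) := by ring
      _ ≤ 1 * τ := mul_le_mul (c.hKh.trans (by norm_num)) hβ (by positivity) zero_le_one
      _ ≤ _ := by nlinarith
  induction l with
  | zero => exact fun j => ⟨h0 j _ _, hkn hG hGB _ _⟩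
  | succ l ih =>
    intro j
    have hp : 1 + 2 * k + k ^ 2 = (k + 1) ^ 2 := by ring
    have e : (l + 1) * (k + 1) ^ 2 = l * (k + 1) ^ 2 + (k + 1) ^ 2 := by ring
    have hY4 := fun i => (ih i).1.mono hB le_rfl (b' := 4) (by norm_num) le_rfl le_rfl
    constructor
    · refine (((h0 j 0 _).add0 (Rep.sumF fun i => (((hY4 i).one_step
        (w := -(s * Sj h j * h * wI K (Fin.last K) j i * (s * Cj h i ^ 3))) (W := wb) (ha i) ?_
        (le_trans (by linarith) (c.level0 i).1) (c.level0 i).2).mono hB le_rfl le_rfl le_rfl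
          (p' := (l + 1) * (k + 1) ^ 2) (by omega)).add0
        ((c.rep_Gam hB (c.level0 i).1 (c.level0 i).2 (ha i) (b₁ := 1) (b₂ := 1) (by norm_num)
          zero_le_one k (ih i).1 (ih i).2
          (x := s * Sj h j * h * wI K (Fin.last K) j i * (β * s * Cj h i ^ 3)) (W := wb) ?_).mono
          hB le_rfl le_rfl le_rfl (by omega)))).mono hB le_rfl le_rfl (n' := nK K k (l + 1))
          (by rw [nK]; omega) le_rfl).cast rfl rfl fun V o => ?_
      · refine le_trans ?_ c.hwb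
        simp only [abs_neg, abs_mul, abs_of_pos hs, abs_of_pos hh]
        calc _ ≤ s * 1 * 1 * Cw * (s * 1) := by
              have := c.abs_Sj j
              have := c.h_le
              have := c.w1 (Fin.last K) j i
              have := c.abs_Cj3 i
              gcongr
          _ = _ := by ring
      · simp only [abs_mul, abs_of_pos hs, abs_of_pos hh]
        calc _ ≤ s * 1 * h * Cw * (τ * 1) * (2 * Cw) := by
              have := c.abs_Sj j
              have := c.w1 (Fin.last K) j i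
              have := c.abs_Cj3 i
              gcongr
          _ = 2 * Cw ^ 2 * τ * (s * h) := by ring
          _ ≤ _ := by
              have : Cw ^ 2 * τ ≤ Cw ^ 3 * τ := by gcongr
              have : 0 ≤ Cw ^ 3 * τ := by positivity
              gcongr
              linarith
      · simp only [key, smul_add, smul_neg, neg_smul, smul_smul]
    · refine (((((hkn hG hGB 0 ((l + 1) * (k + 1) ^ 2)).add0
        (((Rep.known wb 4 0 0 hy fun o => (hyB o).trans (by linarith [hB o])).one_step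
          (w := s * (K * h) * β) (W := wb) (by simp) hσβ
          (le_trans (by linarith) (c.level0 (Fin.last K)).1) (c.level0 _).2).mono hB le_rfl le_rfl
          le_rfl (by omega))).add0
        (((hY4 j).one_step (w := -(s * (K * h) * β)) (W := wb) (ha j) (by rwa [abs_neg])
          (le_trans (by linarith) (c.level0 j).1) (c.level0 j).2).mono hB le_rfl le_rfl le_rfl
          (by omega))).add0
        (Rep.sumF fun i => (c.rep_Gam2 hB (c.level0 i).1 (c.level0 i).2 (ha i) (b₁ := 1) (b₂ := 1)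
          (by norm_num) zero_le_one k hτ hw2 (ih i).1 (ih i).2 (hkn hu huB _ _)
          (x := s * (K * h) * (h * wI K (Fin.last K) j i * (β ^ 2 * s ^ 2 * (Sj h i * Cj h i ^ 3))))
          (W := wb) ?_).mono hB le_rfl le_rfl le_rfl (by omega))).mono hB le_rfl le_rfl
          (n' := nK K k (l + 1)) (by rw [nK]; omega) le_rfl).cast rfl rfl fun V o => ?_
      · have t1 : |β ^ 2| * s ^ 2 ≤ τ ^ 2 := by
          rw [abs_pow, ← mul_pow]
          exact pow_le_pow_left₀ (by positivity) hβ 2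
        simp only [abs_mul, abs_of_pos hs, abs_of_pos hh, abs_of_pos (pow_pos hs 2), Nat.abs_cast]
        calc _ ≤ s * 1 * (h * Cw * (τ ^ 2 * (1 * 1))) * (4 * Cw ^ 2) := by
              have : K * h ≤ 1 := c.hKh.trans (by norm_num)
              have := c.abs_Sj i
              have := c.w1 (Fin.last K) j i
              have := c.abs_Cj3 i
              gcongr
          _ = 4 * Cw ^ 3 * τ * (τ * (s * h)) := by ring
          _ ≤ _ := by gcongr
      · simp only [key, smul_add, smul_neg, neg_smul, smul_smul, Finset.smul_sum, sub_eq_add_neg,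
          add_assoc]

theorem rep_keyQ (K k : ℕ) (hK : 1 ≤ K) : ∃ (C : ℝ) (n : ℕ), 1 ≤ C ∧ ∀ (d : ℕ) (Ω : Type)
    [MeasurableSpace Ω] (m : (E d → ℝ) → Ω → E d) (B : Ω → ℝ) (s h τ β wb : ℝ) (y G u : Ω → E d),
    0 < s → s ≤ 1 → 0 < h → K * h ≤ 1 / 4 → 0 < τ → s ≤ τ → |β| * s ≤ τ → C * τ ≤ wb →
    Measurable y → Measurable G → Measurable u →
    (∀ o, ‖y o‖ ≤ B o) → (∀ o, ‖G o‖ ≤ B o) → (∀ o, ‖u o‖ ≤ B o) →
    Rep m B s wb 0 (C * (|β| * s) / τ) 0 n ((k + 1) ^ 3)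
      fun V o => keyQ K h k τ β V s (m V o) (y o) (G o) (u o) := by
  obtain ⟨Cw, h1, h2, h3⟩ := repT_weights K
  have hK1 : (1 : ℝ) ≤ K := by exact_mod_cast hK
  have hC3 : Cw ≤ Cw ^ 3 := le_self_pow₀ h1 (by norm_num)
  have hC4 : 4 * Cw ^ 3 ≤ 4 * K * Cw ^ 3 := by nlinarith
  refine ⟨4 * K * Cw ^ 3, (K + 1) * nH K k (nK K k k), by linarith,
    fun d Ω _ m B s h τ β wb y G u hs hs1 hh hKh hτ hsτ hβ hw hy hG hu hyB hGB huB => ?_⟩
  have c : RCtx K Cw s h wb := ⟨h2, h3, h1, hs, hh, hK, hKh,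
    le_trans (mul_le_mul (by linarith) (by nlinarith) (by positivity) (by positivity)) hw⟩
  have hB : ∀ o, 0 ≤ B o := fun o => (norm_nonneg _).trans (hyB o)
  have H := repT_key c k m hs1 hτ hβ hw hy hG hu hyB hGB huB k
  have hw2 : K * τ * Cw ^ 2 ≤ wb := by
    have : K * τ * Cw ^ 2 ≤ K * τ * Cw ^ 3 := by gcongr; norm_num
    have : 0 ≤ K * τ * Cw ^ 3 := by positivity
    linarith
  have e : (k + 1) ^ 3 = k * (k + 1) ^ 2 + (k + 1) ^ 2 := by ring
  rw [e]
  refine (Rep.sumF fun i => c.rep_Gam2 hB (c.level0 i).1 (c.level0 i).2 ?_ (b₁ := 1) (b₂ := 1)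
    (by norm_num) zero_le_one k hτ hw2 (H i).1 (H i).2 (u := fun _ => u)
    (Rep.known wb 1 _ _ (hu.const_smul (s * (K * h))) fun o => ?_)
    (x := h * wI K (Fin.last K) 0 i * (β * s ^ 2 * (Sj h i * Cj h i ^ 3))) ?_).cast rfl rfl
    fun V o => by rw [keyQ]
  · have t1 : 0 ≤ Sj h i / Sj h (Fin.last K) := div_nonneg (c.Sj_mem i).1 (c.Sj_mem _).1
    have t2 : Sj h i / Sj h (Fin.last K) ≤ 1 :=
      div_le_one_of_le₀ (Sn_mono (by simpa using (c.node i).2)) (c.Sj_mem _).1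
    rw [abs_le]; constructor <;> linarith
  · rw [norm_smul, Real.norm_of_nonneg (by positivity)]
    exact mul_le_mul (by nlinarith [c.Kh_pos]) (huB o) (norm_nonneg _) zero_le_one
  · simp only [abs_mul, abs_of_pos hh, abs_of_pos (pow_pos hs 2)]
    calc _ ≤ h * Cw * (|β| * s ^ 2 * (1 * 1)) * (4 * Cw ^ 2) := by
          have := c.abs_Sj i
          have := c.w1 (Fin.last K) 0 i
          have := c.abs_Cj3 i
          gcongr
      _ = 4 * Cw ^ 3 * (|β| * s) / τ * (τ * (s * h)) := by field_simp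
      _ ≤ _ := by gcongr

end Vale.Agent.P347
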