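import Vale.Agent.P347.Approx

namespace Vale.Agent.P347

open MeasureTheory ProbabilityTheory
open scoped RealInnerProductSpace NNReal

variable {d : ℕ}

variable {Ω : Type} [MeasurableSpace Ω]

theorem step_Nm (y : E d) : √d ≤ Nm y ∧ ‖y‖ ≤ Nm y ∧ 0 ≤ Nm y := by
  have h1 := Real.sqrt_nonneg (d : ℝ)
  have h2 := norm_nonneg y
  unfold Nm
  exact ⟨by linarith, by linarith, by linarith⟩

theorem step_intg {g : E d → ℝ} {L : ℝ≥0} (hg : LipschitzWith L g) : Integrable g (gam d) := by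
  have hY : Integrable (fun z : E d => z) (gam d) := IsGaussian.integrable_fun_id
  refine ((integrable_const |g 0|).add (hY.norm.const_mul L)).mono'
    hg.continuous.aestronglyMeasurable (ae_of_all _ fun r => ?_)
  have h1 := hg.dist_le_mul r 0
  rw [dist_zero_right, Real.dist_eq] at h1
  have h2 := abs_sub_abs_le_abs_sub (g r) (g 0)
  simp only [Real.norm_eq_abs, Pi.add_apply]
  linarith

theorem step_int_diff {g g' : E d → ℝ} {L L' : ℝ≥0} (hg : LipschitzWith L g)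
    (hg' : LipschitzWith L' g') {c : ℝ} (h : ∀ z, |g z - g' z| ≤ c) :
    |∫ z, g z ∂gam d - ∫ z, g' z ∂gam d| ≤ c := by
  rw [← integral_sub (step_intg hg) (step_intg hg'), ← Real.norm_eq_abs]
  have := norm_integral_le_of_norm_le_const (μ := gam d) (f := fun z => g z - g' z) (C := c)
    (ae_of_all _ fun z => by simpa using h z)
  simpa using this

theorem step_lip {g : E d → ℝ} {c : ℝ} {L : ℝ≥0} (hc : 0 ≤ c)
    (h : ∀ y y', |g y - g y'| ≤ L * (c * ‖y - y'‖)) : LipschitzWith (NNReal.mk c hc * L) g :=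
  LipschitzWith.of_dist_le_mul fun y y' => by
    rw [Real.dist_eq, dist_eq_norm]
    refine (h y y').trans (le_of_eq ?_)
    simp only [NNReal.coe_mul, NNReal.coe_mk]
    ring

theorem step_mbind {μ : (E d → ℝ) → Ω → Measure (E d)} {e₁ M a : (E d → ℝ) → Ω → ℝ} {q₁ q₂ : ℕ}
    {T : (E d → ℝ) → Ω × E d → (E d → ℝ) → ℝ} {e : (E d → ℝ) → Ω × E d → ℝ}
    (h₁ : Approx Ω (fun V o f => ∫ y, f y ∂μ V o) e₁ q₁) (h₂ : Approx (Ω × E d) T e q₂)
    {lam b : ℝ} (hlam : 0 ≤ lam) (hb : 0 ≤ b)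
    (hμ : ∀ V, InClass V → ∀ o, IsProbabilityMeasure (μ V o) ∧ Integrable (fun y => y) (μ V o) ∧
      ∫ y, ‖y‖ ∂μ V o ≤ M V o)
    (hT : ∀ V, InClass V → ∀ o (f : E d → ℝ) (L : ℝ≥0), LipschitzWith L f → ∀ y y',
      |T V (o, y) f - T V (o, y') f| ≤ L * (lam * ‖y - y'‖))
    (he : ∀ V, InClass V → ∀ o y, e V (o, y) ≤ a V o + b * ‖y‖) :
    Approx Ω (fun V o f => ∫ y, T V (o, y) f ∂μ V o)
      (fun V o => (lam + b) * e₁ V o + (a V o + b * M V o)) (q₁ + q₂) := by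
  have h3 : Approx (Ω × E d) T (fun V p => a V p.1 + b * ‖p.2‖) q₂ :=
    h₂.mono (fun V hV p => he V hV p.1 p.2) le_rfl
  have h4 := Approx.bind h₁ h3 (NNReal.mk lam hlam) (NNReal.mk b hb)
    (fun V hV o f L hf => step_lip hlam (hT V hV o f L hf))
    (fun V hV o => LipschitzWith.of_dist_le_mul fun y y' => by
      rw [Real.dist_eq, dist_eq_norm, add_sub_add_left_eq_sub, ← mul_sub, abs_mul, abs_of_nonneg hb]
      exact mul_le_mul_of_nonneg_left (abs_norm_sub_norm_le _ _) hb)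
  refine h4.mono (fun V hV o => ?_) le_rfl
  obtain ⟨hp, hi, hM⟩ := hμ V hV o
  simp only [NNReal.coe_mk]
  rw [integral_add (integrable_const _) (hi.norm.const_mul b), integral_const_mul]
  have := mul_le_mul_of_nonneg_left hM hb
  simp only [integral_const, probReal_univ, smul_eq_mul, one_mul]
  linarith

theorem step_gbind {a : (E d → ℝ) → Ω → ℝ} {q : ℕ}
    {T : (E d → ℝ) → Ω × E d → (E d → ℝ) → ℝ} {e : (E d → ℝ) → Ω × E d → ℝ}
    (h₂ : Approx (Ω × E d) T e q) {lam b : ℝ} (hlam : 0 ≤ lam) (hb : 0 ≤ b)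
    (hT : ∀ V, InClass V → ∀ o (f : E d → ℝ) (L : ℝ≥0), LipschitzWith L f → ∀ y y',
      |T V (o, y) f - T V (o, y') f| ≤ L * (lam * ‖y - y'‖))
    (he : ∀ V, InClass V → ∀ o y, e V (o, y) ≤ a V o + b * ‖y‖) :
    Approx Ω (fun V o f => ∫ y, T V (o, y) f ∂gam d) (fun V o => a V o + b * √d) q := by
  have h := step_mbind (μ := fun _ _ => gam d) (M := fun _ _ => √d) approx_gauss h₂ hlam hb
    (fun V _ o => ⟨inferInstance, IsGaussian.integrable_fun_id, integral_norm_gam_le⟩) hT he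
  exact h.mono (fun V _ o => by simp) (by omega)

theorem step_smooth_diff {f : E d → ℝ} {L : ℝ≥0} (hf : LipschitzWith L f) (t : ℝ) (x x' : E d)
    {c : ℝ} (h : ‖x - x'‖ ≤ c) :
    |∫ z, f (x + t • z) ∂gam d - ∫ z, f (x' + t • z) ∂gam d| ≤ L * c := by
  have := (lip_smooth hf t).dist_le_mul x x'
  rw [Real.dist_eq, dist_eq_norm] at this
  exact this.trans (mul_le_mul_of_nonneg_left h L.coe_nonneg)

/-- bind `y` (approximately drawn from `μ`) and two Gaussian vectors -/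
theorem step_triple {μ : (E d → ℝ) → Ω → Measure (E d)} {e₁ M a : (E d → ℝ) → Ω → ℝ} {q₁ q₂ : ℕ}
    {U : (E d → ℝ) → Ω → E d → E d → E d → E d} {t : ℝ}
    {e : (E d → ℝ) → ((Ω × E d) × E d) × E d → ℝ}
    (h₁ : Approx Ω (fun V o f => ∫ y, f y ∂μ V o) e₁ q₁)
    (h₂ : Samp (((Ω × E d) × E d) × E d) (fun V p => U V p.1.1.1 p.1.1.2 p.1.2 p.2) t e q₂)
    {l₁ l₂ b₁ b₂ : ℝ} (hl₁ : 0 ≤ l₁) (hl₂ : 0 ≤ l₂) (hb₁ : 0 ≤ b₁) (hb₂ : 0 ≤ b₂)
    (hμ : ∀ V, InClass V → ∀ o, IsProbabilityMeasure (μ V o) ∧ Integrable (fun y => y) (μ V o) ∧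
      ∫ y, ‖y‖ ∂μ V o ≤ M V o)
    (hU : ∀ V, InClass V → ∀ o y G u y' G' u', ‖U V o y G u - U V o y' G' u'‖ ≤
      l₁ * ‖y - y'‖ + l₂ * (‖G - G'‖ + ‖u - u'‖))
    (he : ∀ V, InClass V → ∀ o y G u, e V (((o, y), G), u) ≤
      a V o + b₁ * ‖y‖ + b₂ * (‖G‖ + ‖u‖)) :
    Approx Ω (fun V o f => ∫ y, ∫ G, ∫ u, ∫ z, f (U V o y G u + t • z) ∂gam d ∂gam d ∂gam d ∂μ V o)
      (fun V o => (l₁ + b₁) * e₁ V o + (a V o + 2 * b₂ * √d + b₁ * M V o)) (q₁ + q₂) := by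
  have A : ∀ V, InClass V → ∀ o (f : E d → ℝ) (L : ℝ≥0), LipschitzWith L f → ∀ y G u y' G' u',
      |∫ z, f (U V o y G u + t • z) ∂gam d - ∫ z, f (U V o y' G' u' + t • z) ∂gam d| ≤
        L * (l₁ * ‖y - y'‖ + l₂ * (‖G - G'‖ + ‖u - u'‖)) :=
    fun V hV o f L hf y G u y' G' u' => step_smooth_diff hf t _ _ (hU V hV o y G u y' G' u')
  have A1 : ∀ V, InClass V → ∀ o (f : E d → ℝ) (L : ℝ≥0), LipschitzWith L f → ∀ y G u u',
      |∫ z, f (U V o y G u + t • z) ∂gam d - ∫ z, f (U V o y G u' + t • z) ∂gam d| ≤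
        L * (l₂ * ‖u - u'‖) :=
    fun V hV o f L hf y G u u' => by simpa using A V hV o f L hf y G u y G u'
  have B : ∀ V, InClass V → ∀ o (f : E d → ℝ) (L : ℝ≥0), LipschitzWith L f → ∀ y G y' G',
      |∫ u, ∫ z, f (U V o y G u + t • z) ∂gam d ∂gam d -
        ∫ u, ∫ z, f (U V o y' G' u + t • z) ∂gam d ∂gam d| ≤
        L * (l₁ * ‖y - y'‖ + l₂ * ‖G - G'‖) :=
    fun V hV o f L hf y G y' G' => step_int_diff (step_lip hl₂ (A1 V hV o f L hf y G))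
      (step_lip hl₂ (A1 V hV o f L hf y' G')) fun u => by
        simpa using A V hV o f L hf y G u y' G' u
  have B1 : ∀ V, InClass V → ∀ o (f : E d → ℝ) (L : ℝ≥0), LipschitzWith L f → ∀ y G G',
      |∫ u, ∫ z, f (U V o y G u + t • z) ∂gam d ∂gam d -
        ∫ u, ∫ z, f (U V o y G' u + t • z) ∂gam d ∂gam d| ≤ L * (l₂ * ‖G - G'‖) :=
    fun V hV o f L hf y G G' => by simpa using B V hV o f L hf y G y G'
  have h3 := step_gbind (Ω := (Ω × E d) × E d)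
    (a := fun V p => a V p.1.1 + b₁ * ‖p.1.2‖ + b₂ * ‖p.2‖) h₂ hl₂ hb₂
    (fun V hV p f L hf u u' => A1 V hV p.1.1 f L hf p.1.2 p.2 u u')
    (fun V hV p u => (he V hV p.1.1 p.1.2 p.2 u).trans (le_of_eq (by ring)))
  have h4 := step_gbind (Ω := Ω × E d)
    (a := fun V p => a V p.1 + b₁ * ‖p.2‖ + b₂ * √d) h3 hl₂ hb₂
    (fun V hV p f L hf G G' => B1 V hV p.1 f L hf p.2 G G')
    (fun V hV p G => le_of_eq (by ring))
  exact step_mbind (a := fun V o => a V o + 2 * b₂ * √d) h₁ h4 hl₁ hb₁ hμ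
    (fun V hV o f L hf y y' => step_int_diff (step_lip hl₂ (B1 V hV o f L hf y))
      (step_lip hl₂ (B1 V hV o f L hf y')) fun G => by simpa using B V hV o f L hf y G y' G)
    (fun V hV o y => le_of_eq (by ring))

end Vale.Agent.P347
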