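import Vale.Agent.P347.Model

namespace Vale.Agent.P347

theorem step_sqrt (N : ℕ) : 1 ≤ √((N : ℝ) + 1) ∧ √((N : ℝ) + 1) ≤ N + 1 := by
  have h0 : (0 : ℝ) ≤ N := N.cast_nonneg
  refine ⟨Real.one_le_sqrt.2 (by linarith), Real.sqrt_le_iff.2 ⟨by linarith, by nlinarith⟩⟩

theorem step_num_t0 {c s h σ R Λ C C₁ : ℝ} (N : ℕ) (hc : 0 < c) (hc1 : c ≤ 1) (hs : 0 < s)
    (hh : 0 < h) (hh1 : h ≤ 1) (hC₁ : 1 ≤ C₁) (hC : 4 * (N + 1) * C₁ ≤ C) (hσ : 0 ≤ σ)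
    (hR : C * σ ≤ R * c * h) (hΛ : C * (Λ * R) ≤ 1) (hΛR : 0 ≤ Λ * R) (hσ1 : C * σ ≤ 1 / 2) :
    ∃ t₀ : ℝ, 0 < t₀ ∧ t₀ ≤ s / 2 ∧ c / C * s * h ≤ t₀ ∧ t₀ * √(N + 1) = c * s * h / 2 ∧
      2 * (C₁ * σ) * s ≤ R * t₀ ∧ 4 * N * (Λ * R * t₀ / s) ≤ 1 ∧ 8 * N * (C₁ * σ) ≤ 1 := by
  obtain ⟨hr1, hr2⟩ := step_sqrt N
  set r := √((N : ℝ) + 1) with hr
  have h0 : (0 : ℝ) ≤ N := N.cast_nonneg
  have hr0 : 0 < r := by linarith
  have hch : c * h ≤ 1 := mul_le_one₀ hc1 hh.le hh1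
  have hC4 : 4 * (N + 1) ≤ C := le_trans (le_mul_of_one_le_right (by linarith) hC₁) hC
  have hcsh : 0 < c * s * h := by positivity
  have ht : c * s * h / (2 * r) ≤ s / 2 := by
    rw [div_le_div_iff₀ (by positivity) (by norm_num)]
    have : c * h * s ≤ r * s := mul_le_mul_of_nonneg_right (hch.trans hr1) hs.le
    linarith
  refine ⟨c * s * h / (2 * r), by positivity, ht, ?_, by field_simp, ?_, ?_, ?_⟩
  · rw [show c / C * s * h = c * s * h / C by ring]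
    exact div_le_div_of_nonneg_left hcsh.le (by positivity) (by linarith)
  · rw [← mul_div_assoc, le_div_iff₀ (by positivity)]
    have h1 : 4 * r * C₁ ≤ C :=
      le_trans (mul_le_mul_of_nonneg_right (by linarith) (by linarith)) hC
    have h2 : 4 * r * C₁ * σ * s ≤ R * c * h * s :=
      mul_le_mul_of_nonneg_right ((mul_le_mul_of_nonneg_right h1 hσ).trans hR) hs.le
    linarith
  · have h1 : Λ * R * (c * s * h / (2 * r)) / s ≤ Λ * R := by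
      rw [div_le_iff₀ hs]
      exact mul_le_mul_of_nonneg_left (by linarith) hΛR
    have h2 : 4 * N * (Λ * R) ≤ C * (Λ * R) := mul_le_mul_of_nonneg_right (by linarith) hΛR
    have h3 := mul_le_mul_of_nonneg_left h1 (show (0 : ℝ) ≤ 4 * N by linarith)
    linarith
  · have h1 : 4 * N * C₁ ≤ C :=
      le_trans (mul_le_mul_of_nonneg_right (by linarith) (by linarith)) hC
    have h2 := mul_le_mul_of_nonneg_right h1 hσ
    linarith

end Vale.Agent.P347
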