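import Vale.Agent.P347.Nodes
import Vale.Agent.P347.Heat3

namespace Vale.Agent.P347

open MeasureTheory ProbabilityTheory
open scoped RealInnerProductSpace NNReal

variable {d : ℕ}

theorem templ_picard {e : ℕ → ℝ} {κ r : ℝ} (h0 : 0 ≤ κ) (h1 : κ ≤ 1 / 2) (hr : 0 ≤ r)
    (h : ∀ l, e (l + 1) ≤ κ * e l + r) (l : ℕ) : e l ≤ κ ^ l * e 0 + 2 * r := by
  induction l with
  | zero => simpa using hr
  | succ l ih =>
    have h2 := mul_le_mul_of_nonneg_left ih h0
    have h3 := mul_le_mul_of_nonneg_right h1 hr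
    have h4 := h l
    rw [pow_succ]
    linarith

section cont
variable {X : Type*} [TopologicalSpace X] {V : E d → ℝ} {K k : ℕ} {h s τ β : ℝ}

theorem templ_cont_gg (hV : InClass V) (hs : 0 < s) (i : Fin (K + 1)) :
    Continuous (gg V (s * Cj h i)) := (lip_gg hV (mul_pos hs (Cs_pos _))).continuous

theorem templ_cont_vY (hV : InClass V) (hs : 0 < s) {m p : X → E d} (hm : Continuous m)
    (hp : Continuous p) (l : ℕ) (j : Fin (K + 1)) :
    Continuous fun x => vY K h V s (m x) (p x) l j := by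
  induction l generalizing j with
  | zero =>
    simp only [vY]
    exact hm.add (hp.fun_const_smul _)
  | succ l ih =>
    simp only [vY]
    exact (hm.add (hp.fun_const_smul _)).sub (continuous_finsetSum _ fun i _ =>
      ((templ_cont_gg hV hs i).comp' (ih i)).fun_const_smul _)

theorem templ_cont_Gam (hV : InClass V) (hs : 0 < s) {m p : X → E d} (hm : Continuous m)
    (hp : Continuous p) : Continuous fun x => Gam K h k V s (m x) (p x) :=
  continuous_finsetSum _ fun i _ =>
    ((templ_cont_gg hV hs i).comp' (templ_cont_vY hV hs hm hp k i)).fun_const_smul _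

theorem templ_cont_rot (hV : InClass V) (hs : 0 < s) {m G u : X → E d} (hm : Continuous m)
    (hG : Continuous G) (hu : Continuous u) (l : ℕ) (j : Fin (K + 1)) :
    Continuous fun x => rot K h k τ V s (m x) (G x) (u x) l j := by
  induction l generalizing j with
  | zero => exact hu.prodMk hG
  | succ l ih =>
    simp only [rot]
    exact (hu.add (continuous_finsetSum _ fun i _ =>
      (templ_cont_Gam hV hs hm (ih i).snd).fun_const_smul _)).prodMk
      (hG.sub (continuous_finsetSum _ fun i _ =>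
        (templ_cont_Gam hV hs hm (ih i).fst).fun_const_smul _))

theorem templ_cont_Gam2 (hV : InClass V) (hs : 0 < s) {m G u : X → E d} (hm : Continuous m)
    (hG : Continuous G) (hu : Continuous u) :
    Continuous fun x => Gam2 K h k τ V s (m x) (G x) (u x) :=
  continuous_finsetSum _ fun i _ =>
    (templ_cont_Gam hV hs hm (templ_cont_rot hV hs hm hG hu k i).fst).fun_const_smul _

theorem templ_cont_T2 (hV : InClass V) (hs : 0 < s) : Continuous (T2 V s) :=
  (contDiff_gg hV hs).continuous_fderiv (by simp)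

end cont

theorem templ_dom_of_comp {Ω Ω' X : Type*} [MeasurableSpace Ω] [MeasurableSpace Ω']
    [NormedAddCommGroup X] {μ : Measure Ω} {ν : Measure Ω'} {φ : Ω' → Ω}
    (hφ : MeasurePreserving φ ν μ) {F : Ω → X} {c : ℝ} (hF : AEStronglyMeasurable F μ)
    (h : Dom ν (fun o => F (φ o)) c) : Dom μ F c := by
  obtain ⟨h1, h2⟩ := h.integrable (hF.comp_measurePreserving hφ)
  refine Dom.of_integrable ((hφ.integrable_comp hF).1 h1) ?_
  rw [← hφ.map_eq, integral_map hφ.measurable.aemeasurable (hφ.map_eq.symm ▸ hF.norm)]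
  exact h2

theorem templ_integral_comp {Ω Ω' : Type*} [MeasurableSpace Ω] [MeasurableSpace Ω']
    {μ : Measure Ω} {ν : Measure Ω'} {φ : Ω' → Ω} (hφ : MeasurePreserving φ ν μ) {F : Ω → ℝ}
    (hF : AEStronglyMeasurable F μ) : ∫ o, F (φ o) ∂ν = ∫ o, F o ∂μ := by
  rw [← hφ.map_eq, integral_map hφ.measurable.aemeasurable (hφ.map_eq.symm ▸ hF)]

theorem templ_int_lip {Ω X : Type*} [MeasurableSpace Ω] [NormedAddCommGroup X] {μ : Measure Ω}
    [IsFiniteMeasure μ] {A : Ω → X} (hA : Integrable A μ) {f : X → ℝ} {L : ℝ≥0}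
    (hf : LipschitzWith L f) : Integrable (fun o => f (A o)) μ := by
  refine ((integrable_const ‖f 0‖).add (hA.norm.const_mul L)).mono'
    (hf.continuous.comp_aestronglyMeasurable hA.aestronglyMeasurable)
    (Filter.Eventually.of_forall fun o => ?_)
  have h1 := hf.norm_sub_le (A o) 0
  rw [sub_zero] at h1
  have h2 := norm_sub_norm_le (f (A o)) (f 0)
  simp only [Pi.add_apply]
  linarith

theorem templ_int_gam : Integrable (fun z : E d => z) (gam d) := IsGaussian.integrable_fun_id

theorem templ_dom_gam : Dom (gam d) (fun z : E d => z) √d :=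
  Dom.of_integrable templ_int_gam integral_norm_gam_le

theorem templ_lip_smooth {f : E d → ℝ} {L : ℝ≥0} (hf : LipschitzWith L f) (t : ℝ) :
    LipschitzWith L fun y => ∫ z, f (y + t • z) ∂gam d := by
  have hi : ∀ y : E d, Integrable (fun z => f (y + t • z)) (gam d) := fun y =>
    templ_int_lip ((integrable_const y).add (templ_int_gam.smul t)) hf
  refine LipschitzWith.of_dist_le_mul fun y y' => ?_
  rw [dist_eq_norm, ← integral_sub (hi y) (hi y')]
  refine (norm_integral_le_of_norm_le_const (C := L * dist y y')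
    (Filter.Eventually.of_forall fun z => ?_)).trans_eq (by simp)
  refine (hf.norm_sub_le _ _).trans_eq ?_
  rw [add_sub_add_right_eq_sub, dist_eq_norm]

theorem templ_Sj_nonneg {K : ℕ} {h : ℝ} (hh : 0 < h) (j : Fin (K + 1)) : 0 ≤ Sj h j := by
  rw [Sj, Sn_eq]
  exact mul_nonneg (by positivity) (Cs_pos _).le

theorem templ_Sj_le {K : ℕ} (h : ℝ) (j : Fin (K + 1)) : Sj h j ≤ 1 :=
  (le_abs_self _).trans (nodes_abs_Sn _)

theorem templ_dom_Nm {V : E d → ℝ} (hV : InClass V) (m : E d) {s : ℝ} (hs : 0 < s) (hs1 : s ≤ 1)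
    {K : ℕ} {h : ℝ} (hh : 0 < h) (j : Fin (K + 1)) :
    Integrable (fun y => y) (rhoY V m (s * Sj h j) (s * Cj h j)) ∧
    Integrable (fun y => Nm y) (rhoY V m (s * Sj h j) (s * Cj h j)) ∧
      ∫ y, Nm y ∂(rhoY V m (s * Sj h j) (s * Cj h j)) ≤ 3 * Nm m := by
  have := isProb_rhoY hV m (s * Sj h j) (s * Cj h j)
  obtain ⟨h1, h2⟩ := rhoY_moment hV m (σ := s * Sj h j) (s := s * Cj h j)
    (mul_nonneg hs.le (templ_Sj_nonneg hh j)) (mul_pos hs (Cs_pos _)).le (by
      rw [mul_pow, mul_pow, ← mul_add, Sj, Cj, Sn_sq_add, mul_one]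
      exact pow_le_one₀ hs.le hs1)
  refine ⟨h1, (integrable_const _).add h1.norm, ?_⟩
  unfold Nm
  rw [integral_add (integrable_const _) h1.norm]
  simp only [integral_const, probReal_univ, one_smul]
  linarith [norm_nonneg m]

theorem templ_dom_gg {V : E d → ℝ} (hV : InClass V) (m : E d) {s : ℝ} (hs : 0 < s)
    (hs' : 2 * s ^ 2 ≤ 1) {K : ℕ} {h : ℝ} (hh : 0 < h) (j : Fin (K + 1)) :
    Dom (rhoY V m (s * Sj h j) (s * Cj h j)) (gg V (s * Cj h j)) (12 * Nm m) := by
  obtain ⟨-, h1, h2⟩ := templ_dom_Nm hV m hs (by nlinarith) hh j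
  refine ⟨fun y => 4 * Nm y, h1.const_mul 4, ?_, Filter.Eventually.of_forall fun y => ?_⟩
  · rw [integral_const_mul]
    linarith
  · refine norm_gg_le hV (mul_pos hs (Cs_pos _)).le (le_trans ?_ hs') y
    have h3 : s * Cj h j ≤ s := mul_le_of_le_one_right hs.le (Cs_le_one _)
    have h4 : 0 < s * Cj h j := mul_pos hs (Cs_pos _)
    exact mul_le_mul_of_nonneg_left (pow_le_pow_left₀ h4.le h3 2) zero_le_two

/-- the Picard iterates are close to the node values of the flow -/
theorem templ_vY_close (K k : ℕ) (hK : 1 ≤ K) : ∃ C : ℝ, 1 ≤ C ∧ ∀ (d : ℕ) (V : E d → ℝ),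
    InClass V → ∀ (m : E d) (s h κ : ℝ), 0 < s → 0 < h → K * h ≤ 1 / 4 → C * s ≤ κ → κ ≤ 1 / 2 →
    ∃ Y : Fin (K + 1) → E d × E d → E d,
      (∀ j, MeasurePreserving (Y j) ((gam d).prod (gam d)) (rhoY V m (s * Sj h j) (s * Cj h j))) ∧
      Dom ((gam d).prod (gam d)) (fun z => fun j => vY K h V s m z.1 k j - Y j z)
        (C * (s * h * (h ^ K + κ ^ k) * Nm m)) ∧
      Dom ((gam d).prod (gam d)) (fun z => T2 V s m z.1 -
        ∑ j, (wD K j / (s * h)) • gg V (s * Cj h j) (Y j z)) (C * (h ^ K * Nm m)) := by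
  obtain ⟨C0, hC0, hF⟩ := vflow_nodes K hK
  obtain ⟨Cw, hCw, hI, -⟩ := weights_bound K
  have hK0 : (0 : ℝ) ≤ K := Nat.cast_nonneg K
  have p1 : 0 ≤ 3 * ((K + 1) * C0) := by positivity
  have p2 : 0 ≤ Cw * ((K + 1) * 12) := by positivity
  refine ⟨2 * Cw + C0 + 3 * ((K + 1) * C0) + Cw * ((K + 1) * 12), by linarith,
    fun d V hV m s h κ hs hh hKh hsκ hκ => ?_⟩
  have hK1 : (1 : ℝ) ≤ K := by exact_mod_cast hK
  have h1 : h ≤ 1 := by nlinarith
  have h2 : 2 * Cw * s ≤ κ := le_trans (mul_le_mul_of_nonneg_right (by linarith) hs.le) hsκ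
  have h3 : s ≤ 1 / 2 := by nlinarith
  have hs' : 2 * s ^ 2 ≤ 1 := by nlinarith
  have hκ0 : 0 ≤ κ := le_trans (by positivity) h2
  have hN := nodes_Nm_nonneg m
  obtain ⟨Y, q1, q2, q3⟩ := hF d V hV m s h hs hs' hh hKh
  refine ⟨Y, q1, ?_, q3.mono (Filter.Eventually.of_forall fun _ => le_rfl) ?_⟩
  swap
  · gcongr
    · linarith
    · exact nodes_sqrt_le m
  have d1 := Dom.sum Finset.univ fun j _ => q2 j
  have d2 := Dom.sum Finset.univ fun j _ => (templ_dom_gg hV m hs hs' hh j).comp (q1 j)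
  simp only [Finset.sum_const, Finset.card_univ, Fintype.card_fin, nsmul_eq_mul] at d1 d2
  refine (d1.add_le d2 (a := 3) (b := κ ^ k * (s * h * Cw)) (by norm_num) (by positivity)
    (Filter.Eventually.of_forall fun z => ?_)).mono
    (Filter.Eventually.of_forall fun _ => le_rfl) ?_
  · rw [Real.norm_of_nonneg (by positivity), Real.norm_of_nonneg (by positivity)]
    set c : Fin (K + 1) → Fin (K + 1) → ℝ :=
      fun j i => s * Sj h j * h * s * wI K 0 j i * Cj h i ^ 3 with hc
    set r := ∑ j, ‖Y j z - (m + (s * Sj h j) • z.1 - ∑ i, c j i • gg V (s * Cj h i) (Y i z))‖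
    set g := ∑ j, ‖gg V (s * Cj h j) (Y j z)‖
    have hr : ∀ j, ‖Y j z - (m + (s * Sj h j) • z.1 - ∑ i, c j i • gg V (s * Cj h i) (Y i z))‖ ≤ r :=
      fun j => Finset.single_le_sum (f := fun j => ‖Y j z - (m + (s * Sj h j) • z.1 -
        ∑ i, c j i • gg V (s * Cj h i) (Y i z))‖) (fun _ _ => norm_nonneg _) (Finset.mem_univ j)
    have hr0 : 0 ≤ r := by positivity
    have hg0 : 0 ≤ g := by positivity
    have hcs : ∀ j, ∑ i, |c j i| ≤ s * (s * h * Cw) := fun j => by
      refine le_trans (Finset.sum_le_sum fun i _ => ?_) ((Finset.mul_sum _ _ _).symm.trans_le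
        ((mul_le_mul_of_nonneg_left (hI 0 j) (show 0 ≤ s * s * h by positivity)).trans_eq
          (by ring)))
      have a1 := templ_Sj_nonneg hh j
      have a2 := templ_Sj_le h j
      have a3 : Cj h i ^ 3 ≤ 1 := pow_le_one₀ (Cs_pos _).le (Cs_le_one _)
      have a4 : 0 < Cj h i := Cs_pos _
      simp only [hc, abs_mul, abs_of_pos hs, abs_of_pos hh, abs_of_nonneg a1,
        abs_of_pos (pow_pos a4 3)]
      calc _ ≤ s * 1 * h * s * |wI K 0 j i| * 1 := by gcongr
        _ = _ := by ring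
    have hP := templ_picard (e := fun l => ‖fun j => vY K h V s m z.1 l j - Y j z‖) hκ0 hκ hr0
      (fun l => (pi_norm_le_iff_of_nonneg (by positivity)).2 fun j => by
        have e1 : vY K h V s m z.1 (l + 1) j - Y j z =
            -(Y j z - (m + (s * Sj h j) • z.1 - ∑ i, c j i • gg V (s * Cj h i) (Y i z))) -
            ∑ i, c j i • (gg V (s * Cj h i) (vY K h V s m z.1 l i) - gg V (s * Cj h i) (Y i z)) := by
          simp only [vY, smul_sub, Finset.sum_sub_distrib, hc]
          abel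
        have b1 := interp_norm_sum_le (c j) (fun i => gg V (s * Cj h i) (vY K h V s m z.1 l i) -
          gg V (s * Cj h i) (Y i z)) (B := 2 * ‖fun j => vY K h V s m z.1 l j - Y j z‖) fun i =>
          ((lip_gg hV (mul_pos hs (Cs_pos _))).norm_sub_le _ _).trans (mul_le_mul_of_nonneg_left
            (norm_le_pi_norm (fun j => vY K h V s m z.1 l j - Y j z) i) zero_le_two)
        have b2 : (∑ i, |c j i|) * 2 ≤ κ := by
          have b3 : s * (s * h * Cw) ≤ s * (1 * 1 * Cw) := by gcongr; linarith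
          linarith [hcs j]
        rw [e1]
        refine (norm_sub_le _ _).trans ?_
        rw [norm_neg, add_comm]
        refine add_le_add (b1.trans ?_) (hr j)
        rw [← mul_assoc]
        exact mul_le_mul_of_nonneg_right b2 (norm_nonneg _)) k
    have h0 : ‖fun j => vY K h V s m z.1 0 j - Y j z‖ ≤ r + s * h * Cw * g :=
      (pi_norm_le_iff_of_nonneg (by positivity)).2 fun j => by
        have e1 : vY K h V s m z.1 0 j - Y j z =
            -(Y j z - (m + (s * Sj h j) • z.1 - ∑ i, c j i • gg V (s * Cj h i) (Y i z))) +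
            ∑ i, c j i • gg V (s * Cj h i) (Y i z) := by
          simp only [vY]
          abel
        have b1 := interp_norm_sum_le (c j) (fun i => gg V (s * Cj h i) (Y i z)) (B := g) fun i =>
          Finset.single_le_sum (f := fun j => ‖gg V (s * Cj h j) (Y j z)‖)
            (fun _ _ => norm_nonneg _) (Finset.mem_univ i)
        rw [e1]
        refine (norm_add_le _ _).trans ?_
        rw [norm_neg]
        refine add_le_add (hr j) (b1.trans (mul_le_mul_of_nonneg_right ((hcs j).trans ?_) hg0))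
        exact mul_le_of_le_one_left (by positivity) (by linarith)
    have b4 : κ ^ k * r ≤ r := mul_le_of_le_one_left hr0 (pow_le_one₀ hκ0 (by linarith))
    have b5 := mul_le_mul_of_nonneg_left h0 (pow_nonneg hκ0 k)
    linarith
  · push_cast
    have b1 : 0 ≤ s * h * h ^ K * Nm m := by positivity
    have b2 : 0 ≤ s * h * κ ^ k * Nm m := by positivity
    have b3 := mul_nonneg (show 0 ≤ 2 * Cw + C0 + Cw * ((K + 1) * 12) by positivity) b1
    have b4 := mul_nonneg (show 0 ≤ 2 * Cw + C0 + 3 * ((K + 1) * C0) by positivity) b2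
    rw [pow_succ]
    linarith

end Vale.Agent.P347
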