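import Vale.Agent.P347.Heat2
import Vale.Agent.P347.Interp

namespace Vale.Agent.P347

open MeasureTheory ProbabilityTheory
open scoped RealInnerProductSpace NNReal

variable {d : ℕ}

theorem TemplLip_sum {ι : Type} [Fintype ι] {c w : ι → ℝ} {X X' : ι → E d} {a N Cw : ℝ}
    (ha : 0 ≤ a) (hN : 0 ≤ N) (hw : ∑ i, |w i| ≤ Cw) (hc : ∀ i, |c i| ≤ a * |w i|)
    (hX : ∀ i, ‖X i - X' i‖ ≤ N) : ‖∑ i, c i • X i - ∑ i, c i • X' i‖ ≤ a * Cw * N := by
  rw [← Finset.sum_sub_distrib]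
  calc _ ≤ ∑ i, a * N * |w i| := norm_sum_le_of_le _ fun i _ => by
        rw [← smul_sub, norm_smul, Real.norm_eq_abs]
        exact (mul_le_mul (hc i) (hX i) (norm_nonneg _) (by positivity)).trans (le_of_eq (by ring))
    _ = a * N * ∑ i, |w i| := by rw [Finset.mul_sum]
    _ ≤ a * N * Cw := by gcongr
    _ = _ := by ring

theorem TemplLip_abs {c a b w : ℝ} (e : c = a * w) (h : |a| ≤ b) : |c| ≤ b * |w| := by
  rw [e, abs_mul]
  exact mul_le_mul_of_nonneg_right h (abs_nonneg w)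

theorem TemplLip_add {a b a' b' : E d} {x y : ℝ} (h : ‖a - a'‖ ≤ x) (h' : ‖b - b'‖ ≤ y) :
    ‖a + b - (a' + b')‖ ≤ x + y := by
  rw [add_sub_add_comm]
  exact norm_add_le_of_le h h'

theorem TemplLip_sub {a b a' b' : E d} {x y : ℝ} (h : ‖a - a'‖ ≤ x) (h' : ‖b - b'‖ ≤ y) :
    ‖a - b - (a' - b')‖ ≤ x + y := by
  rw [sub_sub_sub_comm]
  exact norm_sub_le_of_le h h'

theorem TemplLip_smul {a a' : E d} {c x y : ℝ} (hc : |c| ≤ x) (h : ‖a - a'‖ ≤ y) :
    ‖c • a - c • a'‖ ≤ x * y := by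
  rw [← smul_sub, norm_smul, Real.norm_eq_abs]
  exact mul_le_mul hc h (norm_nonneg _) ((abs_nonneg _).trans hc)

theorem TemplLip_gg {V : E d → ℝ} (hV : InClass V) {s x : ℝ} (hs : 0 < s) {a a' : E d}
    (h : ‖a - a'‖ ≤ x) : ‖gg V s a - gg V s a'‖ ≤ 2 * x :=
  ((lip_gg hV hs).norm_sub_le a a').trans (by push_cast; linarith)

theorem TemplLip_node {K : ℕ} {h : ℝ} (hh : 0 < h) (hK : K * h ≤ 1 / 4) (j : Fin (K + 1)) :
    0 ≤ Sj h j ∧ Sj h j ≤ K * h ∧ 3 / 4 ≤ Cj h j ∧ Cj h j ≤ 1 ∧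
      |Sj h j / Sj h (Fin.last K)| ≤ 1 := by
  have hj : ∀ i : Fin (K + 1), ((i : ℕ) : ℝ) * h ≤ K * h := fun i =>
    mul_le_mul_of_nonneg_right (by exact_mod_cast Fin.is_le i) hh.le
  have h0 : ∀ i : Fin (K + 1), 0 ≤ Sj h i := fun i => by
    rw [Sj, Sn_eq]
    exact mul_nonneg (by positivity) (Cs_pos _).le
  refine ⟨h0 j, ?_, Cs_ge ?_, Cs_le_one _, ?_⟩
  · rw [Sj, Sn_eq]
    exact (mul_le_of_le_one_right (by positivity) (Cs_le_one _)).trans (hj j)
  · rw [abs_of_nonneg (by positivity)]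
    linarith [hj j]
  · rw [abs_of_nonneg (div_nonneg (h0 _) (h0 _))]
    exact div_le_one_of_le₀ (Sn_mono (hj j)) (h0 _)

/-- the standing assumptions -/
structure TemplLip_H (K : ℕ) (h Cw : ℝ) : Prop where
  hK : 1 ≤ K
  hh : 0 < h
  hKh : K * h ≤ 1 / 4
  hC : 1 ≤ Cw
  hI : ∀ a b, ∑ i, |wI K a b i| ≤ Cw
  hD : ∑ i, |wD K i| ≤ Cw

section

variable {K k : ℕ} {h Cw s τ β : ℝ} {V : E d → ℝ}

theorem TemplLip_H.small (H : TemplLip_H K h Cw) : h ≤ 1 / 4 := by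
  have : (1 : ℝ) ≤ K := by exact_mod_cast H.hK
  nlinarith [H.hh, H.hKh]

theorem TemplLip_H.vY (H : TemplLip_H K h Cw) (hV : InClass V) (hs : 0 < s) (hs' : Cw * s ≤ 1)
    (m p m' p' : E d) (l : ℕ) : ∀ j, ‖vY K h V s m p l j - vY K h V s m' p' l j‖ ≤
      2 * (‖m - m'‖ + s * (K * h) * ‖p - p'‖) := by
  have hh := H.hh
  have hC := H.hC
  have n := TemplLip_node hh H.hKh
  have h0 : ∀ j : Fin (K + 1), ‖m + (s * Sj h j) • p - (m' + (s * Sj h j) • p')‖ ≤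
      ‖m - m'‖ + s * (K * h) * ‖p - p'‖ := fun j => TemplLip_add le_rfl (TemplLip_smul (by
        rw [abs_of_nonneg (mul_nonneg hs.le (n j).1)]
        exact mul_le_mul_of_nonneg_left (n j).2.1 hs.le) le_rfl)
  set A := ‖m - m'‖ + s * (K * h) * ‖p - p'‖ with hA
  have hA0 : 0 ≤ A := by positivity
  induction l with
  | zero => exact fun j => (h0 j).trans (by linarith)
  | succ l ih =>
    intro j
    have hs1 : s ≤ 1 := by nlinarith
    refine (TemplLip_sub (h0 j) (TemplLip_sum (a := s * (1 / 4) * (1 / 4) * 1 * 1 ^ 3)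
      (N := 2 * (2 * A)) (by positivity) (by positivity) (H.hI 0 j)
      (fun i => TemplLip_abs (a := s * Sj h j * h * s * Cj h i ^ 3) (by ring) ?_)
      fun i => TemplLip_gg hV (mul_pos hs (by linarith [(n i).2.2.1])) (ih i))).trans ?_
    · have a1 := (n j).1
      have a2 := (n j).2.1.trans H.hKh
      have a3 : 0 ≤ Cj h i := by linarith [(n i).2.2.1]
      have a4 := (n i).2.2.2.1
      have a5 := H.small
      rw [abs_of_nonneg (by positivity)]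
      gcongr
    · nlinarith [mul_le_mul_of_nonneg_right hs' hA0]

theorem TemplLip_H.Gam (H : TemplLip_H K h Cw) (hV : InClass V) (hs : 0 < s) (hs' : Cw * s ≤ 1)
    {m p m' p' : E d} {x y : ℝ} (hm : ‖m - m'‖ ≤ x) (hp : ‖p - p'‖ ≤ y) :
    ‖Gam K h k V s m p - Gam K h k V s m' p'‖ ≤ 4 * Cw * K / (s * h) * x + 4 * Cw * K * y := by
  have hh := H.hh
  have hC := H.hC
  have hK : (1 : ℝ) ≤ K := by exact_mod_cast H.hK
  have hx := (norm_nonneg _).trans hm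
  refine (TemplLip_sum (a := 1 / (s * h)) (by positivity) (by positivity) H.hD
    (fun i => TemplLip_abs (a := 1 / (s * h)) (by ring) (abs_of_pos (by positivity)).le)
    fun i => TemplLip_gg hV (mul_pos hs (Cs_pos _)) (H.vY hV hs hs' m p m' p' k i)).trans ?_
  calc _ = 4 * Cw * 1 / (s * h) * ‖m - m'‖ + 4 * Cw * K * ‖p - p'‖ := by field_simp; ring
    _ ≤ _ := by gcongr

theorem TemplLip_H.rot (H : TemplLip_H K h Cw) (hV : InClass V) (hs : 0 < s) (hs' : Cw * s ≤ 1)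
    (hτ : 0 < τ) (hτ' : Cw * (4 * Cw * K) * τ ≤ 1) {m G u m' G' u' : E d} {x y : ℝ}
    (hm : ‖m - m'‖ ≤ x) (hy : ‖G - G'‖ + ‖u - u'‖ ≤ y) (l : ℕ) : ∀ j,
      ‖(rot K h k τ V s m G u l j).1 - (rot K h k τ V s m' G' u' l j).1‖ ≤ 2 * y + x / (s * h) ∧
      ‖(rot K h k τ V s m G u l j).2 - (rot K h k τ V s m' G' u' l j).2‖ ≤ 2 * y + x / (s * h) := by
  have hh := H.hh
  have hC := H.hC
  have hx := (norm_nonneg _).trans hm
  have hG : ‖G - G'‖ ≤ y := by linarith [norm_nonneg (u - u')]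
  have hu : ‖u - u'‖ ≤ y := by linarith [norm_nonneg (G - G')]
  have hy0 := (norm_nonneg _).trans hG
  have hx' : 0 ≤ x / (s * h) := by positivity
  induction l with
  | zero => exact fun j => ⟨hu.trans (by linarith), hG.trans (by linarith)⟩
  | succ l ih =>
    intro j
    have c : ∀ i, |τ * wI K 0 j i / 2| ≤ τ / 2 * |wI K 0 j i| := fun i =>
      TemplLip_abs (a := τ / 2) (by ring) (abs_of_pos (by positivity)).le
    have e : y + τ / 2 * Cw * (4 * Cw * K / (s * h) * x + 4 * Cw * K * (2 * y + x / (s * h)))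
        ≤ 2 * y + x / (s * h) := by
      calc _ = y + Cw * (4 * Cw * K) * τ * (y + x / (s * h)) := by ring
        _ ≤ y + 1 * (y + x / (s * h)) := by gcongr
        _ = _ := by ring
    exact ⟨(TemplLip_add hu (TemplLip_sum (by positivity) (by positivity) (H.hI 0 j) c
        fun i => H.Gam hV hs hs' hm (ih i).2)).trans e,
      (TemplLip_sub hG (TemplLip_sum (by positivity) (by positivity) (H.hI 0 j) c
        fun i => H.Gam hV hs hs' hm (ih i).1)).trans e⟩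

theorem TemplLip_H.Gam2 (H : TemplLip_H K h Cw) (hV : InClass V) (hs : 0 < s) (hs' : Cw * s ≤ 1)
    (hτ : 0 < τ) (hτ' : Cw * (4 * Cw * K) * τ ≤ 1) {m G u m' G' u' : E d} {x y : ℝ}
    (hm : ‖m - m'‖ ≤ x) (hy : ‖G - G'‖ + ‖u - u'‖ ≤ y) :
    ‖Gam2 K h k τ V s m G u - Gam2 K h k τ V s m' G' u'‖ ≤
      16 * Cw ^ 2 * K / (τ * (s * h)) * x + 16 * Cw ^ 2 * K / τ * y := by
  have hh := H.hh
  have hC := H.hC
  have hx := (norm_nonneg _).trans hm
  have hy0 : 0 ≤ y := le_trans (by positivity) hy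
  refine (TemplLip_sum (a := 2 / τ) (by positivity) (by positivity) H.hD
    (fun i => TemplLip_abs (a := 2 / τ) (by ring) (abs_of_pos (by positivity)).le)
    fun i => H.Gam hV hs hs' hm (H.rot hV hs hs' hτ hτ' hm hy k i).1).trans (le_of_eq ?_)
  field_simp
  ring

/-- bounds at the level `s * Cj h i` -/
theorem TemplLip_H.level (H : TemplLip_H K h Cw) (hV : InClass V) (hs : 0 < s) (hs' : Cw * s ≤ 1)
    (hτ : 0 < τ) (hτ' : Cw * (4 * Cw * K) * τ ≤ 1) (i : Fin (K + 1)) {Y G u Y' G' u' : E d}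
    {N : ℝ} (hY : ‖Y - Y'‖ ≤ N) (hG : ‖G - G'‖ ≤ N / s) (hu : ‖u - u'‖ ≤ N / s) :
    ‖P347.Gam K h k V (s * Cj h i) Y G - P347.Gam K h k V (s * Cj h i) Y' G'‖ ≤
      8 * Cw * K / (s * h) * N ∧
    ‖P347.Gam2 K h k τ V (s * Cj h i) Y G u - P347.Gam2 K h k τ V (s * Cj h i) Y' G' u'‖ ≤
      32 * Cw ^ 2 * K / (τ * (s * h)) * N := by
  have hh := H.hh
  have hC := H.hC
  have h4 := H.small
  have hN := (norm_nonneg _).trans hY
  obtain ⟨-, -, c1, c2, -⟩ := TemplLip_node hh H.hKh i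
  have p : 0 < s * Cj h i := by positivity
  have q : Cw * (s * Cj h i) ≤ 1 :=
    le_trans (by gcongr; exact mul_le_of_le_one_right hs.le c2) hs'
  constructor
  · refine (H.Gam hV p q hY hG).trans ?_
    calc _ ≤ 4 * Cw * K / (s * (3 / 4) * h) * N + 4 * Cw * K * (N / s) := by gcongr
      _ = (16 / 3 + 4 * h) * (Cw * K / (s * h) * N) := by field_simp; ring
      _ ≤ 8 * (Cw * K / (s * h) * N) := by gcongr; linarith
      _ = _ := by ring
  · refine (H.Gam2 hV p q hτ hτ' hY (add_le_add hG hu)).trans ?_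
    calc _ ≤ 16 * Cw ^ 2 * K / (τ * (s * (3 / 4) * h)) * N
          + 16 * Cw ^ 2 * K / τ * (N / s + N / s) := by gcongr
      _ = (64 / 3 + 32 * h) * (Cw ^ 2 * K / (τ * (s * h)) * N) := by field_simp; ring
      _ ≤ 32 * (Cw ^ 2 * K / (τ * (s * h)) * N) := by gcongr; linarith
      _ = _ := by ring

theorem TemplLip_H.coef (H : TemplLip_H K h Cw) (i : Fin (K + 1)) :
    |Cj h i ^ 3| ≤ 1 ∧ |Sj h i * Cj h i ^ 3| ≤ 1 / 4 := by
  obtain ⟨a1, a2, a3, a4, -⟩ := TemplLip_node H.hh H.hKh i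
  have a5 : Cj h i ^ 3 ≤ 1 := pow_le_one₀ (by linarith) a4
  have a6 : 0 ≤ Cj h i ^ 3 := by positivity
  refine ⟨by rwa [abs_of_nonneg a6], ?_⟩
  rw [abs_of_nonneg (by positivity)]
  exact (mul_le_of_le_one_right a1 a5).trans (a2.trans H.hKh)

theorem TemplLip_H.key (H : TemplLip_H K h Cw) (hV : InClass V) (hs : 0 < s) (hs' : Cw * s ≤ 1)
    (hτ : 0 < τ) (hτ' : Cw * (4 * Cw * K) * τ ≤ 1) (hβ : 64 * Cw ^ 3 * K * (|β| * s) ≤ τ)
    {m y G u y' G' u' : E d} {N : ℝ} (hy : ‖y - y'‖ ≤ N / 2) (hG : ‖G - G'‖ ≤ N / s / 2)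
    (hu : ‖u - u'‖ ≤ N / s) (l : ℕ) : ∀ j,
      ‖(key K h k τ β V s m y G u l j).1 - (key K h k τ β V s m y' G' u' l j).1‖ ≤ N ∧
      ‖(key K h k τ β V s m y G u l j).2 - (key K h k τ β V s m y' G' u' l j).2‖ ≤ N / s := by
  have hh := H.hh
  have hC := H.hC
  have h4 := H.small
  have hK : (1 : ℝ) ≤ K := by exact_mod_cast H.hK
  have n := TemplLip_node hh H.hKh
  have hN : 0 ≤ N := by linarith [norm_nonneg (y - y')]
  have hNs : 0 ≤ N / s := by positivity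
  have h0 : ∀ j : Fin (K + 1), ‖m + (Sj h j / Sj h (Fin.last K)) • (y - m) -
      (m + (Sj h j / Sj h (Fin.last K)) • (y' - m))‖ ≤ 0 + 1 * (N / 2) := fun j =>
    TemplLip_add (by simp) (TemplLip_smul (n j).2.2.2.2 (by rwa [sub_sub_sub_cancel_right]))
  set b := |β| * s with hb
  have hb0 : 0 ≤ b := by positivity
  have hs1 : s ≤ 1 := by nlinarith
  have c2 : 1 ≤ Cw ^ 2 * K := one_le_mul_of_one_le_of_one_le (one_le_pow₀ hC) hK
  have hτ1 : τ ≤ 1 / 4 := by nlinarith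
  have b1 : Cw ^ 3 * K * (b / τ) ≤ 1 / 64 := by
    rw [← mul_div_assoc, div_le_iff₀ hτ]; linarith
  have b2 : Cw ^ 2 * K * b ≤ 1 / 64 := by
    have : Cw ^ 2 * K * b * 1 ≤ Cw ^ 2 * K * b * Cw := by gcongr
    nlinarith
  have b3 : b ≤ 1 / 64 := by nlinarith
  induction l with
  | zero => exact fun j => ⟨(h0 j).trans (by linarith), hG.trans (by linarith)⟩
  | succ l ih =>
    intro j
    have L := fun i => H.level (k := k) hV hs hs' hτ hτ' i (ih i).1 (ih i).2 hu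
    constructor
    · refine (TemplLip_add (h0 j) (TemplLip_sum (a := s * (1 / 4) * h)
        (N := s * 1 * (2 * N) + b * 1 * (8 * Cw * K / (s * h) * N)) (by positivity) (by positivity)
        (H.hI (Fin.last K) j) (fun i => TemplLip_abs rfl ?_) fun i => TemplLip_add ?_
        (TemplLip_smul ?_ (L i).1))).trans ?_
      · have a1 := (n j).1
        have a2 := (n j).2.1.trans H.hKh
        rw [abs_of_nonneg (by positivity)]
        gcongr
      · rw [neg_sub_neg, norm_sub_rev]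
        refine TemplLip_smul ?_ (TemplLip_gg hV (mul_pos hs (Cs_pos _)) (ih i).1)
        rw [abs_mul, abs_of_pos hs]
        exact mul_le_mul_of_nonneg_left (H.coef i).1 hs.le
      · rw [abs_mul, abs_mul, abs_of_pos hs]
        exact mul_le_mul_of_nonneg_left (H.coef i).1 hb0
      · calc _ = (1 / 2 + Cw * s * s * h / 2 + 2 * (Cw ^ 2 * K * b)) * N := by field_simp; ring
          _ ≤ (1 / 2 + 1 * 1 * (1 / 4) / 2 + 2 * (1 / 64)) * N := by gcongr
          _ ≤ _ := by linarith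
    · refine (TemplLip_add (TemplLip_add hG (TemplLip_smul le_rfl (TemplLip_sub
        (TemplLip_gg hV (mul_pos hs (Cs_pos _)) hy)
        (TemplLip_gg hV (mul_pos hs (Cs_pos _)) (ih j).1)))) (TemplLip_sum
        (a := h * (b ^ 2 * (1 / 4))) (by positivity) (by positivity) (H.hI (Fin.last K) j)
        (fun i => TemplLip_abs (a := h * (β ^ 2 * s ^ 2 * (Sj h i * Cj h i ^ 3))) (by ring) ?_)
        fun i => (L i).2)).trans ?_
      · rw [abs_mul, abs_of_pos hh, abs_mul, abs_of_nonneg (by positivity : 0 ≤ β ^ 2 * s ^ 2), hb,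
          mul_pow, sq_abs]
        gcongr
        exact (H.coef i).2
      · calc _ = (1 / 2 + 3 * b + 8 * b * (Cw ^ 3 * K * (b / τ))) * (N / s) := by
              rw [hb]; field_simp; ring
          _ ≤ (1 / 2 + 3 * (1 / 64) + 8 * (1 / 64) * (1 / 64)) * (N / s) := by gcongr
          _ ≤ _ := by linarith

theorem TemplLip_H.keyQ (H : TemplLip_H K h Cw) (hV : InClass V) (hs : 0 < s) (hs' : Cw * s ≤ 1)
    (hτ : 0 < τ) (hτ' : Cw * (4 * Cw * K) * τ ≤ 1) (hβ : 64 * Cw ^ 3 * K * (|β| * s) ≤ τ)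
    (m y G u y' G' u' : E d) : ‖keyQ K h k τ β V s m y G u - keyQ K h k τ β V s m y' G' u'‖ ≤
      ‖y - y'‖ + ‖G - G'‖ + ‖u - u'‖ := by
  have hh := H.hh
  have hC := H.hC
  have hs1 : s ≤ 1 := by nlinarith
  set D := ‖y - y'‖ + ‖G - G'‖ + ‖u - u'‖ with hD
  have n1 := norm_nonneg (y - y')
  have n2 := norm_nonneg (G - G')
  have n3 := norm_nonneg (u - u')
  have hD0 : 0 ≤ D := by positivity
  have e : 2 * D ≤ 2 * D / s := le_div_self (by positivity) hs hs1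
  have hu : ‖u - u'‖ ≤ 2 * D / s := by linarith
  have I := H.key (k := k) (m := m) hV hs hs' hτ hτ' hβ (N := 2 * D) (y := y) (y' := y') (G := G)
    (G' := G') (by linarith) (by linarith) hu k
  have b1 : Cw ^ 3 * K * (|β| * s / τ) ≤ 1 / 64 := by
    rw [← mul_div_assoc, div_le_iff₀ hτ]; linarith
  refine (TemplLip_sum (a := h * (|β| * s ^ 2 * (1 / 4))) (by positivity) (by positivity)
    (H.hI (Fin.last K) 0)
    (fun i => TemplLip_abs (a := h * (β * s ^ 2 * (Sj h i * Cj h i ^ 3))) (by ring) ?_)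
    fun i => (H.level hV hs hs' hτ hτ' i (I i).1 (I i).2 hu).2).trans ?_
  · rw [abs_mul, abs_of_pos hh, abs_mul, abs_mul, abs_of_nonneg (by positivity : 0 ≤ s ^ 2)]
    gcongr
    exact (H.coef i).2
  · calc _ = 16 * (Cw ^ 3 * K * (|β| * s / τ)) * D := by field_simp; ring
      _ ≤ 16 * (1 / 64) * D := by gcongr
      _ ≤ _ := by linarith

end

/-- Lipschitz bounds for the templates. -/
theorem templ_lip (K k : ℕ) (hK : 1 ≤ K) : ∃ C : ℝ, 1 ≤ C ∧ ∀ (d : ℕ) (V : E d → ℝ), InClass V →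
    ∀ (s h τ β : ℝ), 0 < s → 0 < h → K * h ≤ 1 / 4 → 0 < τ → C * s ≤ 1 → C * τ ≤ 1 →
      (∀ l j m p m' p', ‖vY K h V s m p l j - vY K h V s m' p' l j‖ ≤
        2 * (‖m - m'‖ + s * (K * h) * ‖p - p'‖)) ∧
      (∀ m p m' p', ‖Gam K h k V s m p - Gam K h k V s m' p'‖ ≤
        C / (s * h) * ‖m - m'‖ + C * ‖p - p'‖) ∧
      (∀ m G u m' G' u', ‖Gam2 K h k τ V s m G u - Gam2 K h k τ V s m' G' u'‖ ≤
        C / (τ * (s * h)) * ‖m - m'‖ + C / τ * (‖G - G'‖ + ‖u - u'‖)) ∧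
      (C * (|β| * s) ≤ τ → ∀ m y G u y' G' u',
        ‖keyQ K h k τ β V s m y G u - keyQ K h k τ β V s m y' G' u'‖ ≤
          ‖y - y'‖ + ‖G - G'‖ + ‖u - u'‖) := by
  obtain ⟨Cw, hC, hI, hD⟩ := weights_bound K
  have hK' : (1 : ℝ) ≤ K := by exact_mod_cast hK
  have c1 : Cw * K ≤ Cw ^ 3 * K := by gcongr; exact le_self_pow₀ hC (by norm_num)
  have c2 : Cw ^ 2 * K ≤ Cw ^ 3 * K := by gcongr; norm_num
  have c0 : Cw ≤ Cw * K := le_mul_of_one_le_right (by linarith) hK'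
  refine ⟨64 * Cw ^ 3 * K, by linarith, fun d V hV s h τ β hs hh hKh hτ hs' hτ' => ?_⟩
  have H : TemplLip_H K h Cw := ⟨hK, hh, hKh, hC, hI, hD⟩
  have e1 : Cw * s ≤ 1 := le_trans (by gcongr; linarith) hs'
  have e2 : Cw * (4 * Cw * K) * τ ≤ 1 :=
    le_trans (mul_le_mul_of_nonneg_right (by linarith) hτ.le) hτ'
  refine ⟨fun l j m p m' p' => H.vY hV hs e1 m p m' p' l j, fun m p m' p' =>
    (H.Gam hV hs e1 le_rfl le_rfl).trans ?_, fun m G u m' G' u' =>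
    (H.Gam2 hV hs e1 hτ e2 le_rfl le_rfl).trans ?_, fun hβ => H.keyQ hV hs e1 hτ e2 hβ⟩
  · have : 4 * Cw * K ≤ 64 * Cw ^ 3 * K := by linarith
    gcongr
  · have : 16 * Cw ^ 2 * K ≤ 64 * Cw ^ 3 * K := by linarith
    gcongr

end Vale.Agent.P347
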