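import Vale.Agent.P347.Nodes
import Vale.Agent.P347.Heat3
import Vale.Agent.P347.TemplLip
import Vale.Agent.P347.TemplAux

namespace Vale.Agent.P347

open MeasureTheory ProbabilityTheory
open scoped RealInnerProductSpace NNReal

variable {d : ℕ}

theorem gam_approx (K k : ℕ) (hK : 1 ≤ K) : ∃ C : ℝ, 1 ≤ C ∧ ∀ (d : ℕ) (V : E d → ℝ), InClass V →
    ∀ (m : E d) (s h κ : ℝ), 0 < s → 0 < h → K * h ≤ 1 / 4 → C * s ≤ κ → κ ≤ 1 / 2 →
      Dom (gam d) (fun p => T2 V s m p - Gam K h k V s m p) (C * ((h ^ K + κ ^ k) * Nm m)) := by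
  obtain ⟨C0, hC0, hF⟩ := templ_vY_close K k hK
  obtain ⟨Cw, hCw, -, hD⟩ := weights_bound K
  have p1 : 0 ≤ 2 * Cw * C0 := by positivity
  refine ⟨C0 + 2 * Cw * C0, by linarith, fun d V hV m s h κ hs hh hKh hsκ hκ => ?_⟩
  have h2 : C0 * s ≤ κ := le_trans (mul_le_mul_of_nonneg_right (by linarith) hs.le) hsκ
  have hκ0 : 0 ≤ κ := le_trans (by positivity) h2
  have hN := nodes_Nm_nonneg m
  obtain ⟨Y, -, q2, q3⟩ := hF d V hV m s h κ hs hh hKh h2 hκ
  refine templ_dom_of_comp (ν := (gam d).prod (gam d)) measurePreserving_fst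
    ((T2 V s m).continuous.sub (templ_cont_Gam hV hs continuous_const
      continuous_id)).aestronglyMeasurable ?_
  refine (q3.add_le q2 (a := 1) (b := Cw / (s * h) * 2) zero_le_one (by positivity)
    (Filter.Eventually.of_forall fun z => ?_)).mono
    (Filter.Eventually.of_forall fun _ => le_rfl) ?_
  · have e1 : T2 V s m z.1 - Gam K h k V s m z.1 =
        (T2 V s m z.1 - ∑ j, (wD K j / (s * h)) • gg V (s * Cj h j) (Y j z)) -
        ∑ j, (wD K j / (s * h)) • (gg V (s * Cj h j) (vY K h V s m z.1 k j) -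
          gg V (s * Cj h j) (Y j z)) := by
      simp only [Gam, smul_sub, Finset.sum_sub_distrib]
      abel
    have b1 := interp_norm_sum_le (fun j => wD K j / (s * h))
      (fun i => gg V (s * Cj h i) (vY K h V s m z.1 k i) - gg V (s * Cj h i) (Y i z))
      (B := 2 * ‖fun j => vY K h V s m z.1 k j - Y j z‖) fun i =>
      ((lip_gg hV (mul_pos hs (Cs_pos _))).norm_sub_le _ _).trans (mul_le_mul_of_nonneg_left
        (norm_le_pi_norm (fun j => vY K h V s m z.1 k j - Y j z) i) zero_le_two)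
    have b2 : ∑ i, |wD K i / (s * h)| ≤ Cw / (s * h) := by
      simp only [abs_div, abs_of_pos (mul_pos hs hh)]
      rw [← Finset.sum_div]
      gcongr
    rw [e1, one_mul, mul_assoc]
    exact (norm_sub_le _ _).trans (add_le_add le_rfl
      (b1.trans (mul_le_mul_of_nonneg_right b2 (by positivity))))
  · have e2 : Cw / (s * h) * 2 * (C0 * (s * h * (h ^ K + κ ^ k) * Nm m)) =
        2 * Cw * C0 * ((h ^ K + κ ^ k) * Nm m) := by
      field_simp
    have b3 : 0 ≤ C0 * (κ ^ k * Nm m) := by positivity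
    rw [e2]
    linarith

theorem templ_bridge {V : E d → ℝ} (hV : InClass V) (m : E d) {s T : ℝ} (hs : 0 < s) (hT : 0 < T) :
    rhoY V m (s * Sn T) (s * Cs T) =
      ((rhoY V m (s * Sn (2 * T)) (s * Cs (2 * T))).prod (gam d)).map fun p =>
        m + brA T • (p.1 - m) + (s * brB T) • p.2 := by
  have h1 : 0 < Sn T := by
    rw [Sn_eq]
    exact mul_pos hT (Cs_pos _)
  have h2 : Sn T ≤ Sn (2 * T) := Sn_mono (by linarith)
  have h3 : 0 < Sn (2 * T) := h1.trans_le h2
  have h4 : 0 ≤ Sn (2 * T) ^ 2 - Sn T ^ 2 := sub_nonneg.2 (by gcongr)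
  have e1 : (s * √(Sn (2 * T) ^ 2 - Sn T ^ 2)) ^ 2 + (s * Cs (2 * T)) ^ 2 = (s * Cs T) ^ 2 := by
    rw [mul_pow, Real.sq_sqrt h4]
    linear_combination s ^ 2 * Sn_sq_add (2 * T) - s ^ 2 * Sn_sq_add T
  have e2 : (s * Sn T) ^ 2 + (s * √(Sn (2 * T) ^ 2 - Sn T ^ 2)) ^ 2 = (s * Sn (2 * T)) ^ 2 := by
    rw [mul_pow s (√_), Real.sq_sqrt h4]
    ring
  have h := rhoY_bridge hV m (σ₁ := s * Sn T) (σ' := s * √(Sn (2 * T) ^ 2 - Sn T ^ 2))
    (s₂ := s * Cs (2 * T)) (by positivity) (by positivity) (by positivity)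
  rw [e1, e2, Real.sqrt_sq (mul_pos hs (Cs_pos _)).le, Real.sqrt_sq (by positivity)] at h
  have e3 : (s * Sn T) ^ 2 / (s * Sn (2 * T)) ^ 2 = brA T := by
    unfold brA
    field_simp
  have e4 : s * Sn T * (s * √(Sn (2 * T) ^ 2 - Sn T ^ 2)) / (s * Sn (2 * T)) = s * brB T := by
    have e5 : brB T = Sn T * √(Sn (2 * T) ^ 2 - Sn T ^ 2) / Sn (2 * T) := by
      unfold brB brA
      rw [Real.sqrt_eq_iff_mul_self_eq (by
        refine mul_nonneg (sq_nonneg _) (sub_nonneg.2 ((div_le_one (by positivity)).2 ?_))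
        linarith) (by positivity)]
      have e6 := Real.sq_sqrt h4
      field_simp
      linear_combination -e6
    rw [e5]
    field_simp
  rwa [e3, e4] at h

theorem desc_target (K k : ℕ) (hK : 1 ≤ K) : ∃ C : ℝ, 1 ≤ C ∧ ∀ (d : ℕ) (V : E d → ℝ), InClass V →
    ∀ (m : E d) (s h κ : ℝ), 0 < s → 0 < h → K * h ≤ 1 / 8 → C * s ≤ κ → κ ≤ 1 / 2 →
      ∀ (f : E d → ℝ) (L : ℝ≥0), LipschitzWith L f →
      |∫ p, ∫ z, f (descY K h k V s m p + (s * brB (K * h)) • z) ∂gam d ∂gam d -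
        ∫ y, f y ∂rhoY V m (s * Sn (K * h)) (s * Cs (K * h))| ≤
        L * (C * (s * (h ^ K + κ ^ k) * Nm m)) := by
  obtain ⟨C0, hC0, hF⟩ := templ_vY_close K k hK
  have p1 : (1 : ℝ) ≤ 2 ^ K := one_le_pow₀ (by norm_num)
  have p2 : C0 ≤ C0 * 2 ^ K := le_mul_of_one_le_right (by linarith) p1
  refine ⟨C0 * 2 ^ K, by linarith, fun d V hV m s h κ hs hh hKh hsκ hκ f L hf => ?_⟩
  have hK1 : (1 : ℝ) ≤ K := by exact_mod_cast hK
  have hT : 0 < K * h := by positivity
  have h2 : C0 * s ≤ κ := le_trans (mul_le_mul_of_nonneg_right p2 hs.le) hsκ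
  have hκ0 : 0 ≤ κ := le_trans (by positivity) h2
  have hs1 : s ≤ 1 := by nlinarith
  have hN := nodes_Nm_nonneg m
  obtain ⟨Y, q1, q2, -⟩ := hF d V hV m s (2 * h) κ hs (by positivity) (by linarith) h2 hκ
  have q3 := q1 (Fin.last K)
  have iY := (templ_dom_Nm hV m hs hs1 (h := 2 * h) (by positivity) (Fin.last K)).1
  have eT : ((Fin.last K : ℕ) : ℝ) * (2 * h) = 2 * (K * h) := by
    rw [Fin.val_last]
    ring
  simp only [Sj, Cj, eT] at q3 iY
  have := isProb_rhoY hV m (s * Sn (2 * (K * h))) (s * Cs (2 * (K * h)))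
  have hφ := templ_lip_smooth hf (s * brB (K * h))
  obtain ⟨a0, a1⟩ := brA_mem hT (by linarith)
  have iB : Integrable (fun y => m + brA (K * h) • (y - m))
      (rhoY V m (s * Sn (2 * (K * h))) (s * Cs (2 * (K * h)))) :=
    (integrable_const m).add ((iY.sub (integrable_const m)).smul (brA (K * h)))
  have iB' : Integrable (fun w => m + brA (K * h) • (Y (Fin.last K) w - m))
      ((gam d).prod (gam d)) := q3.integrable_comp_of_integrable iB
  have cA : Continuous fun p => descY K h k V s m p := continuous_const.add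
    (((templ_cont_vY hV hs continuous_const continuous_id k _).sub continuous_const).fun_const_smul _)
  have hD : Dom ((gam d).prod (gam d)) (fun w => descY K h k V s m w.1 -
      (m + brA (K * h) • (Y (Fin.last K) w - m))) (C0 * 2 ^ K * (s * (h ^ K + κ ^ k) * Nm m)) := by
    refine q2.mono (Filter.Eventually.of_forall fun w => ?_) ?_
    · rw [descY, add_sub_add_left_eq_sub, ← smul_sub, sub_sub_sub_cancel_right, norm_smul,
        Real.norm_of_nonneg a0]
      exact (mul_le_of_le_one_left (norm_nonneg _) (by linarith)).trans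
        (norm_le_pi_norm (fun j => vY K (2 * h) V s m w.1 k j - Y j w) (Fin.last K))
    · rw [mul_assoc C0]
      refine mul_le_mul_of_nonneg_left ?_ (by linarith)
      have b1 : 2 * h ≤ 1 := by nlinarith
      have b2 : (2 * h) ^ K + κ ^ k ≤ 2 ^ K * (h ^ K + κ ^ k) := by
        rw [mul_pow, mul_add]
        exact add_le_add le_rfl (le_mul_of_one_le_left (by positivity) p1)
      calc _ ≤ s * 1 * (2 ^ K * (h ^ K + κ ^ k)) * Nm m := by gcongr
        _ = _ := by ring
  have iA : Integrable (fun w : E d × E d => descY K h k V s m w.1) ((gam d).prod (gam d)) := by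
    have h3 := (hD.integrable ((cA.comp continuous_fst).aestronglyMeasurable.sub
      iB'.aestronglyMeasurable)).1.add iB'
    refine h3.congr (Filter.Eventually.of_forall fun w => ?_)
    simp only [Pi.add_apply, sub_add_cancel]
  have h4 := hD.abs_integral_sub hφ (templ_int_lip iA hφ) (templ_int_lip iB' hφ)
  rw [templ_integral_comp (measurePreserving_fst (μ := gam d) (ν := gam d))
      (F := fun p => ∫ z, f (descY K h k V s m p + (s * brB (K * h)) • z) ∂gam d)
      (hφ.continuous.comp cA).aestronglyMeasurable,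
    templ_integral_comp q3
      (F := fun y => ∫ z, f (m + brA (K * h) • (y - m) + (s * brB (K * h)) • z) ∂gam d)
      (templ_int_lip iB hφ).aestronglyMeasurable] at h4
  rw [templ_bridge hV m hs hT, integral_map (by fun_prop) hf.continuous.aestronglyMeasurable,
    integral_prod (fun p : E d × E d => f (m + brA (K * h) • (p.1 - m) + (s * brB (K * h)) • p.2))
      (templ_int_lip ((iB.comp_fst _).add
      ((templ_int_gam.smul (s * brB (K * h))).comp_snd _)) hf)]
  exact h4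

theorem templ_rot_close {K k : ℕ} {h τ s κ M D N : ℝ} {V : E d → ℝ} {m G u : E d}
    {U W : Fin (K + 1) → E d} {T : E d →L[ℝ] E d} (hτ : 0 < τ) (hM : 1 ≤ M) (hD : 0 ≤ D)
    (hN : 0 ≤ N) (hκ : κ ≤ 1 / 2) (hτκ : M ^ 2 * τ ≤ κ) (hI : ∀ j, ∑ i, |wI K 0 j i| ≤ M)
    (hL : ∀ p p', ‖Gam K h k V s m p - Gam K h k V s m p'‖ ≤ M * ‖p - p'‖)
    (hU : ∀ j, ‖T (U j) - Gam K h k V s m (U j)‖ ≤ D)
    (hW : ∀ j, ‖T (W j) - Gam K h k V s m (W j)‖ ≤ D)
    (r1 : ∀ j, ‖U j - (u + ∑ i, (τ * wI K 0 j i / 2) • T (W i))‖ ≤ M * τ ^ (K + 1) * N)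
    (r2 : ∀ j, ‖W j - (G - ∑ i, (τ * wI K 0 j i / 2) • T (U i))‖ ≤ M * τ ^ (K + 1) * N)
    (r3 : ∀ j, ‖U j - u‖ + ‖W j - G‖ ≤ M * τ * N) (j : Fin (K + 1)) :
    ‖(rot K h k τ V s m G u k j).1 - U j‖ ≤
      κ ^ k * (M * τ * N) + 2 * (τ * M * D + M * τ ^ (K + 1) * N) := by
  have hκ0 : 0 ≤ κ := le_trans (by positivity) hτκ
  have hc : ∀ j, ∑ i, |τ * wI K 0 j i / 2| ≤ τ * M := fun j => by
    simp only [abs_div, abs_mul, abs_of_pos hτ, abs_two]
    rw [← Finset.sum_div, ← Finset.mul_sum]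
    have b1 := mul_le_mul_of_nonneg_left (hI j) hτ.le
    have b2 : 0 ≤ τ * M := by positivity
    linarith
  have key : ∀ (j : Fin (K + 1)) (a b : Fin (K + 1) → E d) (e : ℝ), 0 ≤ e →
      (∀ i, ‖a i - b i‖ ≤ e) → (∀ i, ‖T (b i) - Gam K h k V s m (b i)‖ ≤ D) →
      ‖∑ i, (τ * wI K 0 j i / 2) • Gam K h k V s m (a i) - ∑ i, (τ * wI K 0 j i / 2) • T (b i)‖ ≤
        κ * e + τ * M * D := by
    intro j a b e he h1 h2
    simp only [← Finset.sum_sub_distrib, ← smul_sub]
    refine (interp_norm_sum_le _ _ (B := M * e + D) fun i => ?_).trans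
      ((mul_le_mul_of_nonneg_right (hc j) (by positivity)).trans ?_)
    · refine (norm_sub_le_norm_sub_add_norm_sub _ (Gam K h k V s m (b i)) _).trans (add_le_add
        ((hL _ _).trans (mul_le_mul_of_nonneg_left (h1 i) (by positivity))) ?_)
      rw [norm_sub_rev]
      exact h2 i
    · nlinarith [mul_le_mul_of_nonneg_right hτκ he]
  have hP := templ_picard (e := fun l => ‖fun j => rot K h k τ V s m G u l j - (U j, W j)‖)
    (r := τ * M * D + M * τ ^ (K + 1) * N) hκ0 hκ (by positivity)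
    (fun l => (pi_norm_le_iff_of_nonneg (by positivity)).2 fun j => by
      have b0 := norm_le_pi_norm (fun j => rot K h k τ V s m G u l j - (U j, W j))
      have b1 := key j (fun i => (rot K h k τ V s m G u l i).2) W _ (norm_nonneg _)
        (fun i => (norm_snd_le _).trans (b0 i)) hW
      have b2 := key j (fun i => (rot K h k τ V s m G u l i).1) U _ (norm_nonneg _)
        (fun i => (norm_fst_le _).trans (b0 i)) hU
      refine max_le ?_ ?_
      · refine (norm_sub_le_norm_sub_add_norm_sub _ (u + ∑ i, (τ * wI K 0 j i / 2) • T (W i))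
          (U j)).trans ?_
        rw [norm_sub_rev _ (U j), ← add_assoc]
        refine add_le_add (le_trans (le_of_eq ?_) b1) (r1 j)
        simp only [rot, add_sub_add_left_eq_sub]
      · refine (norm_sub_le_norm_sub_add_norm_sub _ (G - ∑ i, (τ * wI K 0 j i / 2) • T (U i))
          (W j)).trans ?_
        rw [norm_sub_rev _ (W j), ← add_assoc]
        refine add_le_add (le_trans (le_of_eq ?_) b2) (r2 j)
        simp only [rot, sub_sub_sub_cancel_left]
        exact norm_sub_rev _ _) k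
  have h0 : ‖fun j => rot K h k τ V s m G u 0 j - (U j, W j)‖ ≤ M * τ * N :=
    (pi_norm_le_iff_of_nonneg (by positivity)).2 fun j => by
      have b1 := r3 j
      rw [norm_sub_rev (U j), norm_sub_rev (W j)] at b1
      exact max_le ((le_add_of_nonneg_right (norm_nonneg _)).trans b1)
        ((le_add_of_nonneg_left (norm_nonneg _)).trans b1)
  exact ((norm_fst_le _).trans (norm_le_pi_norm
    (fun j => rot K h k τ V s m G u k j - (U j, W j)) j)).trans
    (hP.trans (add_le_add (mul_le_mul_of_nonneg_left h0 (by positivity)) le_rfl))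

theorem gam2_approx (K k : ℕ) (hK : 1 ≤ K) : ∃ C : ℝ, 1 ≤ C ∧ ∀ (d : ℕ) (V : E d → ℝ), InClass V →
    ∀ (m : E d) (s h τ κ : ℝ), 0 < s → 0 < h → K * h ≤ 1 / 4 → 0 < τ → C * s ≤ κ → C * τ ≤ κ →
      κ ≤ 1 / 2 →
      Dom ((gam d).prod (gam d))
        (fun z => T2 V s m (T2 V s m z.1) - Gam2 K h k τ V s m z.1 z.2)
        (C * (((h ^ K + κ ^ k) / τ + τ ^ K) * Nm m)) := by
  obtain ⟨Cg, hCg, hG⟩ := gam_approx K k hK
  obtain ⟨Cw, hCw, hI, hD⟩ := weights_bound K
  obtain ⟨CL, hCL, hL⟩ := templ_lip K k hK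
  obtain ⟨Cr, hCr, hR⟩ := rot_nodes K hK
  have hK0 : (0 : ℝ) ≤ K := Nat.cast_nonneg K
  obtain ⟨M, m1, m2, m3, m4, m5⟩ : ∃ M : ℝ, Cg ≤ M ∧ Cw ≤ M ∧ CL ≤ M ∧ Cr ≤ M ∧ K + 1 ≤ M :=
    ⟨Cg + Cw + CL + Cr + (K + 1), by linarith, by linarith, by linarith, by linarith, by linarith⟩
  have hM : 1 ≤ M := hCg.trans m1
  have M2 : M ^ 2 ≤ M ^ 5 := pow_le_pow_right₀ hM (by norm_num)
  have M3 : M ^ 3 ≤ M ^ 5 := pow_le_pow_right₀ hM (by norm_num)
  have M1 : M ≤ M ^ 2 := le_self_pow₀ hM two_ne_zero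
  refine ⟨20 * M ^ 5, by linarith, fun d V hV m s h τ κ hs hh hKh hτ hsκ hτκ hκ => ?_⟩
  have a1 : M * s ≤ κ := le_trans (mul_le_mul_of_nonneg_right (by linarith) hs.le) hsκ
  have a2 : M ^ 2 * τ ≤ κ := le_trans (mul_le_mul_of_nonneg_right (by linarith) hτ.le) hτκ
  have a3 : M * τ ≤ κ := le_trans (mul_le_mul_of_nonneg_right M1 hτ.le) a2
  have a4 : τ ≤ 1 := by nlinarith
  have hκ0 : 0 ≤ κ := le_trans (by positivity) a1
  have hN := nodes_Nm_nonneg m
  have g1 := hG d V hV m s h κ hs hh hKh ((mul_le_mul_of_nonneg_right m1 hs.le).trans a1) hκ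
  have l1 := (hL d V hV s h τ 0 hs hh hKh hτ
    (by linarith [mul_le_mul_of_nonneg_right m3 hs.le])
    (by linarith [mul_le_mul_of_nonneg_right m3 hτ.le])).2.1
  have l2 : ∀ p p', ‖Gam K h k V s m p - Gam K h k V s m p'‖ ≤ M * ‖p - p'‖ := fun p p' => by
    have b1 := l1 m p m p'
    rw [sub_self, norm_zero, mul_zero, zero_add] at b1
    exact b1.trans (mul_le_mul_of_nonneg_right m3 (norm_nonneg _))
  obtain ⟨U, W, u1, u2, u3, u4, u5, u6⟩ := hR d ((1 / 2 : ℝ) • T2 V s m)
    (fun u v => by simp only [smul_apply, inner_smul_left, inner_smul_right, T2_symm hV hs,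
      conj_trivial])
    (by
      rw [norm_smul, Real.norm_of_nonneg (by norm_num)]
      linarith [norm_T2_le hV hs m]) τ hτ
    (by linarith [mul_le_mul_of_nonneg_right m5 hτ.le])
  have d1 := (Dom.sum Finset.univ fun j _ => g1.comp (u1 j)).add_le
    (Dom.sum Finset.univ fun j _ => g1.comp (u2 j)) zero_le_one zero_le_one
    (H := fun z => ∑ j, ‖T2 V s m (U j z) - Gam K h k V s m (U j z)‖ +
      ∑ j, ‖T2 V s m (W j z) - Gam K h k V s m (W j z)‖)
    (Filter.Eventually.of_forall fun z => (norm_add_le _ _).trans_eq (by rw [one_mul, one_mul]))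
  have d2 := (templ_dom_gam.comp (measurePreserving_fst (μ := gam d) (ν := gam d))).add_le
    (templ_dom_gam.comp (measurePreserving_snd (μ := gam d) (ν := gam d))) zero_le_one zero_le_one
    (H := fun z => ‖z.1‖ + ‖z.2‖)
    (Filter.Eventually.of_forall fun z => (norm_add_le _ _).trans_eq (by simp))
  simp only [Finset.sum_const, Finset.card_univ, Fintype.card_fin, nsmul_eq_mul, one_mul] at d1 d2
  refine (d1.add_le d2 (a := 6 * M ^ 3 / τ) (b := 8 * M ^ 3 * τ ^ K + 2 * M ^ 3 * κ ^ k)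
    (by positivity) (by positivity) (Filter.Eventually.of_forall fun z => ?_)).mono
    (Filter.Eventually.of_forall fun _ => le_rfl) ?_
  · rw [Real.norm_of_nonneg (by positivity), Real.norm_of_nonneg (by positivity)]
    have s1 : ∀ j, ‖T2 V s m (U j z) - Gam K h k V s m (U j z)‖ ≤ _ := fun j =>
      (Finset.single_le_sum (f := fun j => ‖T2 V s m (U j z) - Gam K h k V s m (U j z)‖)
        (fun _ _ => norm_nonneg _) (Finset.mem_univ j)).trans (le_add_of_nonneg_right
        (b := ∑ j, ‖T2 V s m (W j z) - Gam K h k V s m (W j z)‖) (by positivity))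
    have s2 : ∀ j, ‖T2 V s m (W j z) - Gam K h k V s m (W j z)‖ ≤ _ := fun j =>
      (Finset.single_le_sum (f := fun j => ‖T2 V s m (W j z) - Gam K h k V s m (W j z)‖)
        (fun _ _ => norm_nonneg _) (Finset.mem_univ j)).trans (le_add_of_nonneg_left
        (b := ∑ j, ‖T2 V s m (U j z) - Gam K h k V s m (U j z)‖) (by positivity))
    set D := ∑ j, ‖T2 V s m (U j z) - Gam K h k V s m (U j z)‖ +
      ∑ j, ‖T2 V s m (W j z) - Gam K h k V s m (W j z)‖
    have hD0 : 0 ≤ D := by positivity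
    set N := ‖z.1‖ + ‖z.2‖
    have hN0 : 0 ≤ N := by positivity
    have e0 : ∀ (c : ℝ) (x : E d), c • ((1 / 2 : ℝ) • T2 V s m) x = (c / 2) • T2 V s m x :=
      fun c x => by rw [smul_apply, smul_smul, mul_one_div]
    simp only [e0] at u3 u4 u6
    have c1 := templ_rot_close (G := z.1) (u := z.2) (U := fun j => U j z) (W := fun j => W j z) hτ
      hM hD0 hN0 hκ a2 (fun j => (hI 0 j).trans m2) l2 s1 s2
      (fun j => (u3 j z).trans (by gcongr)) (fun j => (u4 j z).trans (by gcongr))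
      (fun j => (u5 j z).trans (by gcongr))
    have e1 : T2 V s m (T2 V s m z.1) - Gam2 K h k τ V s m z.1 z.2 =
        (4 : ℝ) • (((1 / 2 : ℝ) • T2 V s m) (((1 / 2 : ℝ) • T2 V s m) z.1) -
          ∑ j, (wD K j / τ / 2) • T2 V s m (U j z)) + ∑ j, (2 * wD K j / τ) •
          (T2 V s m (U j z) - Gam K h k V s m (rot K h k τ V s m z.1 z.2 k j).1) := by
      have e2 : ∀ j, 4 * (wD K j / τ / 2) = 2 * wD K j / τ := fun j => by ring
      simp only [Gam2, smul_sub, Finset.sum_sub_distrib, Finset.smul_sum, smul_smul, e2,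
        smul_apply, map_smul]
      module
    have b1 := interp_norm_sum_le (fun j => 2 * wD K j / τ) (fun j => T2 V s m (U j z) -
      Gam K h k V s m (rot K h k τ V s m z.1 z.2 k j).1) fun j =>
      (norm_sub_le_norm_sub_add_norm_sub _ (Gam K h k V s m (U j z)) _).trans (add_le_add (s1 j)
        ((l2 _ _).trans (mul_le_mul_of_nonneg_left ((norm_sub_rev _ _).trans_le (c1 j))
          (by positivity))))
    have b2 : ∑ i, |2 * wD K i / τ| ≤ 2 * M / τ := by
      simp only [abs_div, abs_mul, abs_of_pos hτ, abs_two]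
      rw [← Finset.sum_div, ← Finset.mul_sum]
      gcongr
      exact hD.trans m2
    have b3 := b1.trans (mul_le_mul_of_nonneg_right b2 (by positivity))
    have b4 : Cr * τ ^ K * N ≤ M ^ 3 * τ ^ K * N := by
      gcongr
      exact m4.trans (le_self_pow₀ hM (by norm_num))
    rw [e1]
    refine (norm_add_le _ _).trans ?_
    rw [norm_smul, Real.norm_of_nonneg (by norm_num)]
    have e3 : 2 * M / τ * (D + M * (κ ^ k * (M * τ * N) + 2 * (τ * M * D + M * τ ^ (K + 1) * N))) =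
        2 * M / τ * D + 4 * M ^ 3 * D + (4 * M ^ 3 * τ ^ K + 2 * M ^ 3 * κ ^ k) * N := by
      field_simp
      ring
    have b5 : 2 * M / τ * D ≤ 2 * M ^ 3 / τ * D := by
      gcongr
      exact le_self_pow₀ hM (by norm_num)
    have b6 : 4 * M ^ 3 * D ≤ 4 * M ^ 3 / τ * D := by
      gcongr
      exact le_div_self (by positivity) hτ a4
    have e4 : 6 * M ^ 3 / τ * D = 2 * M ^ 3 / τ * D + 4 * M ^ 3 / τ * D := by ring
    linarith [u6 z]
  · push_cast
    have b1 := nodes_sqrt_le m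
    have b2 : κ ^ k ≤ (h ^ K + κ ^ k) / τ :=
      (le_add_of_nonneg_left (by positivity)).trans (le_div_self (by positivity) hτ a4)
    calc _ ≤ 6 * M ^ 3 / τ * (M * (M * ((h ^ K + κ ^ k) * Nm m)) +
          M * (M * ((h ^ K + κ ^ k) * Nm m))) +
          (8 * M ^ 5 * τ ^ K + 2 * M ^ 5 * ((h ^ K + κ ^ k) / τ)) * (Nm m + Nm m) := by gcongr
      _ = 16 * M ^ 5 * (((h ^ K + κ ^ k) / τ + τ ^ K) * Nm m) := by ring
      _ ≤ _ := by
        gcongr
        norm_num

end Vale.Agent.P347
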