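import Vale.Agent.P347.RepS
import Vale.Agent.P347.RepT
import Vale.Agent.P347.Templ
import Vale.Agent.P347.StepAuxA
import Vale.Agent.P347.StepAuxN

namespace Vale.Agent.P347

open MeasureTheory ProbabilityTheory
open scoped RealInnerProductSpace NNReal

theorem step_desc (K k : ℕ) (hK : 1 ≤ K) : ∃ C : ℕ, 1 ≤ C ∧ ∀ (d : ℕ) (h s₀ c τ κ R ε Λ : ℝ)
    (Bq : ℕ), 0 < h → K * h ≤ 1 / 8 → 0 < c → c ≤ 1 → C * s₀ ≤ τ → C * τ ≤ κ → κ ≤ 1 / 2 →
    C * τ ≤ R * c * h → C * (Λ * R) ≤ 1 → 0 ≤ ε → 0 ≤ Λ → Claim d h s₀ c R ε Λ Bq →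
    ∀ (Ω : Type) [MeasurableSpace Ω] (m : (E d → ℝ) → Ω → E d) (s : ℝ) (e : (E d → ℝ) → Ω → ℝ)
      (q : ℕ), 0 < s → s ≤ s₀ → Samp Ω m (c / C * s * h) e q →
      Approx Ω (fun V o f => ∫ y, f y ∂rhoY V (m V o) (s * Sn (K * h)) (s * Cs (K * h)))
        (fun V o => 2 * e V o + C * (s * (ε + h ^ K + κ ^ k) * Nm (m V o)))
        (C * (Bq + 1) ^ k * (q + 1)) := by
  obtain ⟨C₁, N, hC₁, HR⟩ := rep_descY K k hK
  obtain ⟨C₂, hC₂, HL⟩ := templ_lip K k hK
  obtain ⟨C₃, hC₃, HT⟩ := desc_target K k hK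
  obtain ⟨C, hC⟩ := exists_nat_ge (10 * (N + 1) * C₁ + C₂ + C₃)
  have hN : (0 : ℝ) ≤ N := N.cast_nonneg
  have hNC : 10 * ((N : ℝ) + 1) ≤ 10 * (N + 1) * C₁ := le_mul_of_one_le_right (by linarith) hC₁
  have hC1 : (1 : ℝ) ≤ C := by linarith
  have hNn : N + 1 ≤ C := by exact_mod_cast (show ((N : ℝ) + 1) ≤ C by linarith)
  refine ⟨C, by omega, ?_⟩
  intro d h s₀ c τ κ R ε Λ Bq hh hKh hc hc1 hs₀ hτ hκ hR hΛR hε hΛ hCl Ω _ m s e q hs hss hm
  have hK1 : (1 : ℝ) ≤ K := by exact_mod_cast hK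
  have hhK : h ≤ K * h := le_mul_of_one_le_left hh.le hK1
  have hCs : C * s ≤ τ := (mul_le_mul_of_nonneg_left hss (by linarith)).trans hs₀
  have hsτ : s ≤ τ := (le_mul_of_one_le_left hs.le hC1).trans hCs
  have hτ0 : 0 < τ := hs.trans_le hsτ
  have hτκ : τ ≤ κ := (le_mul_of_one_le_left hτ0.le hC1).trans hτ
  have hR0 : 0 ≤ R := by
    have h1 : 0 < R * c * h := (mul_pos (by linarith) hτ0).trans_le hR
    exact (pos_of_mul_pos_left (pos_of_mul_pos_left h1 hh.le) hc.le).le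
  have hκ0 : 0 ≤ κ := hτ0.le.trans hτκ
  obtain ⟨t₀, ht₀, ht1, ht2, ht3, ht4, ht5, ht6⟩ := step_num_t0 (s := s) N hc hc1 hs hh
    (by linarith) hC₁ (by linarith) hτ0.le hR hΛR (mul_nonneg hΛ hR0) (hτ.trans hκ)
  have hm' : Samp (Ω × E d) (fun V o => m V o.1) t₀ (fun V o => e V o.1) q :=
    Samp.noise_mono (Approx.comap hm measurable_fst) (by positivity) ht2
  have hs1 : s ≤ 1 / 2 := by linarith
  have h1 := rep_samp_inner hCl hm' (B := fun o => ‖o.2‖) (fun o => norm_nonneg _) hs hss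
    (by nlinarith) ht₀ hR0 hε hΛ (by positivity) ht3.le ht4 ht5 ht6
    (HR d (Ω × E d) (fun V o => m V o.1) (fun o => ‖o.2‖) s h (C₁ * τ) Prod.snd hs (by linarith) hh
      hKh (mul_le_mul_of_nonneg_left hsτ (by linarith)) measurable_snd fun o => le_rfl)
    (by simp) le_rfl
  have hT0 : 0 < K * h := hh.trans_le hhK
  have h2 := h1.noise_mono (t' := s * brB (K * h)) (by positivity) (by
    have a1 := brB_ge hT0 (by linarith)
    have a2 : c * h ≤ K * h := (mul_le_of_le_one_left hh.le hc1).trans hhK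
    have a3 : s * (c * h / 2) ≤ s * brB (K * h) := mul_le_mul_of_nonneg_left (by linarith) hs.le
    linarith)
  have hx : 0 ≤ 4 * N * ε * t₀ := by positivity
  have h3 := step_gbind (a := fun V o => 2 * e V o + 4 * N * ε * t₀ * Nm (m V o)) h2
    (lam := 1) (b := 4 * (4 * N * ε * t₀)) zero_le_one (by positivity)
    (fun V hV o f L hf p p' => step_smooth_diff hf _ _ _ (by
      have hCs2 : C₂ * s ≤ 1 :=
        (mul_le_mul_of_nonneg_right (by linarith) hs.le).trans (hCs.trans (by linarith))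
      have a1 := (HL d V hV s (2 * h) s 0 hs (by linarith) (by linarith) hs hCs2 hCs2).1 k
        (Fin.last K) (m V o) p (m V o) p'
      obtain ⟨a2, a3⟩ := brA_mem hT0 (by linarith)
      simp only [descY]
      rw [add_sub_add_left_eq_sub, ← smul_sub, sub_sub_sub_cancel_right, norm_smul,
        Real.norm_of_nonneg a2]
      rw [sub_self, norm_zero, zero_add] at a1
      have a4 : s * (K * (2 * h)) ≤ 1 := mul_le_one₀ (by linarith) (by linarith) (by linarith)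
      have a5 := mul_le_mul_of_nonneg_right a4 (norm_nonneg (p - p'))
      have a6 := mul_le_mul_of_nonneg_right a3
        (norm_nonneg (vY K (2 * h) V s (m V o) p k (Fin.last K) -
          vY K (2 * h) V s (m V o) p' k (Fin.last K)))
      linarith))
    (fun V hV o p => le_of_eq (by ring))
  have h4 := h3.congr fun V hV o f L hf => HT d V hV (m V o) s h κ hs hh hKh
    ((mul_le_mul_of_nonneg_right (by linarith) hs.le).trans (hCs.trans hτκ)) hκ f L hf
  refine h4.mono (fun V hV o => ?_) (Nat.mul_le_mul_right _ (Nat.mul_le_mul_right _ hNn))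
  obtain ⟨b1, -, b2⟩ := step_Nm (m V o)
  have b3 : 0 ≤ s * (h ^ K + κ ^ k) * Nm (m V o) := by positivity
  have b4 := mul_le_mul_of_nonneg_right (show C₃ ≤ C by linarith) b3
  have b5 := mul_le_mul_of_nonneg_left b1 hx
  have b6 : N * t₀ * (ε * Nm (m V o)) ≤ C / 10 * (s / 2) * (ε * Nm (m V o)) :=
    mul_le_mul_of_nonneg_right (mul_le_mul (by linarith) ht1 ht₀.le (by linarith))
      (mul_nonneg hε b2)
  linarith

end Vale.Agent.P347
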