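import Vale.Agent.P347.Heat2
import Vale.Agent.P347.StepAuxA

namespace Vale.Agent.P347

open MeasureTheory ProbabilityTheory
open scoped RealInnerProductSpace NNReal

variable {d : ℕ}

variable {Ω : Type} [MeasurableSpace Ω]

/-- one step of the chain, with the templates abstracted -/
theorem step_comb {μ : (E d → ℝ) → Ω → Measure (E d)} {m : (E d → ℝ) → Ω → E d}
    {e₁ e : (E d → ℝ) → Ω → ℝ} {q₁ q₂ q₃ : ℕ} {Q : (E d → ℝ) → Ω → E d → E d → E d → E d}
    {w s s' t₁ t' x a A η : ℝ} (hs' : 0 < s') (ht₁ : 0 ≤ t₁) (hx : 0 ≤ x) (ha : 0 ≤ a)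
    (h₁ : Approx Ω (fun V o f => ∫ y, f y ∂μ V o) e₁ q₁)
    (hμ : ∀ V, InClass V → ∀ o, IsProbabilityMeasure (μ V o) ∧ Integrable (fun y => y) (μ V o) ∧
      ∫ y, ‖y‖ ∂μ V o ≤ ‖m V o‖ + 2 * √d)
    (hL : ∀ V, InClass V → ∀ o y G u y' G' u', ‖Q V o y G u - Q V o y' G' u'‖ ≤
      ‖y - y'‖ + ‖G - G'‖ + ‖u - u'‖)
    (hQ : Samp (((Ω × E d) × E d) × E d) (fun V p => w • Q V p.1.1.1 p.1.1.2 p.1.2 p.2) t₁
      (fun V p => e V p.1.1.1 + x * (Nm (m V p.1.1.1) + 4 * (‖p.1.1.2‖ + ‖p.1.2‖ + ‖p.2‖))) q₂)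
    (hg : Samp (((Ω × E d) × E d) × E d) (fun V p => w • gg V s' p.1.1.2) t'
      (fun _ p => a * (Nm p.1.1.2 + A * √d)) q₃)
    (hkey : ∀ V, InClass V → ∀ o (f : E d → ℝ) (L : ℝ≥0), LipschitzWith L f →
      |∫ y, ∫ G, ∫ u, f (w • gg V s' y + t₁ • G + w • Q V o y G u) ∂gam d ∂gam d ∂μ V o -
        ∫ z, f (w • gg V s (m V o) + t₁ • z) ∂gam d| ≤ L * (η * Nm (m V o))) :
    Samp Ω (fun V o => w • gg V s (m V o)) (√(t' ^ 2 + 2 * t₁ ^ 2))
      (fun V o => (3 * |w| + 4 * x + a) * e₁ V o + e V o + (17 * x + η) * Nm (m V o) +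
        a * (Nm (m V o) + (A + 2) * √d)) (q₁ + q₂ + q₃) := by
  have h2 := (hQ.affine 1 (φ := fun p => t₁ • p.1.2)
    ((measurable_snd.comp measurable_fst).const_smul t₁)).add hg
  have hw := abs_nonneg w
  have h3 := step_triple (U := fun V o y G u => (1 : ℝ) • w • Q V o y G u + t₁ • G + w • gg V s' y)
    (a := fun V o => e V o + x * Nm (m V o) + a * (√d + A * √d)) h₁ h2
    (l₁ := 3 * |w|) (l₂ := |w| + t₁) (b₁ := 4 * x + a) (b₂ := 4 * x) (by positivity)
    (by positivity) (by positivity) (by positivity) hμ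
    (fun V hV o y G u y' G' u' => by
      have a1 := mul_le_mul_of_nonneg_left (hL V hV o y G u y' G' u') hw
      have a2 := mul_le_mul_of_nonneg_left ((lip_gg hV hs').dist_le_mul y y') hw
      rw [dist_eq_norm, dist_eq_norm, NNReal.coe_ofNat] at a2
      have a3 : (1 : ℝ) • w • Q V o y G u + t₁ • G + w • gg V s' y -
          ((1 : ℝ) • w • Q V o y' G' u' + t₁ • G' + w • gg V s' y') =
          w • (Q V o y G u - Q V o y' G' u') + t₁ • (G - G') + w • (gg V s' y - gg V s' y') := by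
        simp only [one_smul, smul_sub]
        abel
      have a4 := norm_add₃_le (a := w • (Q V o y G u - Q V o y' G' u')) (b := t₁ • (G - G'))
        (c := w • (gg V s' y - gg V s' y'))
      rw [norm_smul, norm_smul, norm_smul, Real.norm_eq_abs, Real.norm_of_nonneg ht₁] at a4
      have a5 := mul_nonneg ht₁ (norm_nonneg (u - u'))
      rw [a3]
      linarith)
    (fun V hV o y G u => le_of_eq (by simp only [abs_one, Nm]; ring))
  have h4 := h3.congr (e' := fun V o => η * Nm (m V o))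
    (T' := fun V o f => ∫ z, f (w • gg V s (m V o) + √(t' ^ 2 + 2 * t₁ ^ 2) • z) ∂gam d)
    fun V hV o f L hf => by
      have b1 := hkey V hV o _ L (lip_smooth hf √((|1| * t₁) ^ 2 + t' ^ 2))
      rw [smooth_smooth hf, Real.sq_sqrt (by positivity),
        show t₁ ^ 2 + ((|1| * t₁) ^ 2 + t' ^ 2) = t' ^ 2 + 2 * t₁ ^ 2 by rw [abs_one]; ring] at b1
      have b2 : ∀ y G u, (1 : ℝ) • w • Q V o y G u + t₁ • G + w • gg V s' y =
          w • gg V s' y + t₁ • G + w • Q V o y G u := fun y G u => by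
        rw [one_smul]
        abel
      simp only [b2]
      exact b1
  refine Approx.mono h4 (fun V hV o => ?_) (by omega)
  obtain ⟨c1, c2, -⟩ := step_Nm (m V o)
  have c3 := mul_le_mul_of_nonneg_left c1 hx
  have c4 := mul_le_mul_of_nonneg_left c2 hx
  have c5 : a * Nm (m V o) = a * (√d + ‖m V o‖) := rfl
  have c6 : x * Nm (m V o) = x * (√d + ‖m V o‖) := rfl
  have c7 := mul_nonneg hx (norm_nonneg (m V o))
  linarith

end Vale.Agent.P347
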