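import Vale.Agent.P347.RepS
import Vale.Agent.P347.StepAuxA

namespace Vale.Agent.P347

open MeasureTheory ProbabilityTheory
open scoped RealInnerProductSpace NNReal

variable {d : ℕ}

theorem step_rec {δ x b j n : ℝ} (hδ : 0 ≤ δ) (hx : 0 ≤ x) (hb : 0 ≤ b) (hj : 0 ≤ j) (hjn : j ≤ n)
    (hn : 2 * n * δ ≤ 1) :
    (1 + δ) * ((1 + 2 * j * δ) * (j * x + b)) + x ≤ (1 + 2 * (j + 1) * δ) * ((j + 1) * x + b) := by
  have h1 : 2 * j * δ ≤ 1 := le_trans (mul_le_mul_of_nonneg_right (by linarith) hδ) hn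
  have h2 : (1 + δ) * (1 + 2 * j * δ) ≤ 1 + 2 * (j + 1) * δ := by
    have := mul_le_mul_of_nonneg_left h1 hδ
    linarith
  have h3 := mul_le_mul_of_nonneg_right h2 (show 0 ≤ j * x + b by positivity)
  have h4 : 0 ≤ 2 * (j + 1) * δ * x := by positivity
  linarith

theorem step_ind {h c w t₁ Cc D x δ s₀ : ℝ} {c₁ n : ℕ} (hh : 0 ≤ h) (hc : 0 ≤ c) (hch : c * h ≤ 1)
    (hs₀ : 2 * s₀ ^ 2 ≤ 1) (ht₁ : 0 < t₁) (hCc : 0 < Cc) (hCc1 : Cc ≤ 1) (hD : 0 ≤ D)
    (hx : 0 ≤ x) (hδ : 0 ≤ δ) (hn : 2 * n * δ ≤ 1)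
    (hstep : ∀ (Ω : Type) [MeasurableSpace Ω] (m : (E d → ℝ) → Ω → E d) (s : ℝ)
      (e : (E d → ℝ) → Ω → ℝ) (q : ℕ), 0 < s → s ≤ s₀ → Samp Ω m (c * s * h) e q →
      ∀ (t' a A : ℝ) (q' : ℕ), 0 ≤ a → 0 ≤ A →
      Samp (((Ω × E d) × E d) × E d) (fun V p => w • gg V (s * Cc) p.1.1.2) t'
        (fun _ p => a * (Nm p.1.1.2 + A * √d)) q' →
      Samp Ω (fun V o => w • gg V s (m V o)) (√(t' ^ 2 + 2 * t₁ ^ 2))
        (fun V o => (D / s + 2 * a) * e V o + ((1 + δ) * a + x) * (Nm (m V o) + (A + 2) * √d))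
        (c₁ * (q + 1) + q')) (j : ℕ) :
    j ≤ n → ∀ (Ω : Type) [MeasurableSpace Ω] (m : (E d → ℝ) → Ω → E d) (s : ℝ)
      (e : (E d → ℝ) → Ω → ℝ) (q : ℕ), 0 < s → s ≤ s₀ → Samp Ω m (c * s * h) e q →
      Samp Ω (fun V o => w • gg V s (m V o)) (t₁ * √(2 * (j + 1)))
        (fun V o => (D / s + 2 * |w| + 4 * (n * x + 4 * |w| * s₀)) * e V o +
          (1 + 2 * j * δ) * (j * x + 4 * |w| * s * Cc ^ j) * (Nm (m V o) + 2 * j * √d))
        ((j * c₁ + 1) * (q + 1)) := by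
  have hw := abs_nonneg w
  induction j with
  | zero =>
    intro _ Ω _ m s e q hs hss hm
    have ht : 0 < t₁ * √(2 * (((0 : ℕ) : ℝ) + 1)) := by positivity
    generalize t₁ * √(2 * (((0 : ℕ) : ℝ) + 1)) = t at ht
    have h1 := base_claim (d := d) (R := 2 * |w| * s / t) hh hc hch hs₀ (by positivity) Ω m s w t
      e q hs hss ht (le_of_eq (by field_simp)) hm
    refine Approx.mono h1 (fun V hV o => ?_) (by simp)
    have a1 := hm.nonneg hV o
    have a2 : 0 ≤ (D / s + 4 * (n * x + 4 * |w| * s₀)) * e V o := by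
      have := hs.le.trans hss
      positivity
    rw [show 1 * (2 * |w| * s / t) * t / s = 2 * |w| by field_simp,
      show 2 * (2 * |w| * s / t) * t = 4 * |w| * s by field_simp; ring]
    simp only [Nat.cast_zero, mul_zero, zero_mul, add_zero, zero_add, pow_zero, mul_one, one_mul]
    linarith
  | succ j ih =>
    intro hj Ω _ m s e q hs hss hm
    have hj0 : (0 : ℝ) ≤ j := j.cast_nonneg
    have hjn : (j : ℝ) ≤ n := by exact_mod_cast (show j ≤ n by omega)
    have hsC : s * Cc ≤ s₀ := (mul_le_of_le_one_right hs.le hCc1).trans hss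
    have h1 := ih (by omega) (((Ω × E d) × E d) × E d) (fun _ p => p.1.1.2) (s * Cc) (fun _ _ => 0) 0
      (mul_pos hs hCc) hsC (samp_known (measurable_snd.comp (measurable_fst.comp measurable_fst)) _)
    have hb : 0 ≤ 4 * |w| * (s * Cc) * Cc ^ j := by positivity
    have h2 := hstep Ω m s e q hs hss hm _
      ((1 + 2 * j * δ) * (j * x + 4 * |w| * (s * Cc) * Cc ^ j)) (2 * j) _ (by positivity)
      (by positivity) (Approx.mono h1 (fun V _ p => le_of_eq (by ring)) le_rfl)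
    rw [mul_pow, Real.sq_sqrt (by positivity), show t₁ ^ 2 * (2 * ((j : ℝ) + 1)) + 2 * t₁ ^ 2 =
      t₁ ^ 2 * (2 * (((j + 1 : ℕ) : ℝ) + 1)) by push_cast; ring,
      Real.sqrt_mul (by positivity), Real.sqrt_sq ht₁.le] at h2
    refine Approx.mono h2 (fun V hV o => ?_) (by nlinarith [Nat.zero_le (j * c₁ * q)])
    have a1 := hm.nonneg hV o
    have a2 := step_rec hδ hx hb hj0 hjn hn
    have a3 : 0 ≤ Nm (m V o) + (2 * j + 2) * √d := by
      have := (step_Nm (m V o)).2.2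
      positivity
    have a4 := mul_le_mul_of_nonneg_right a2 a3
    have a5 : (1 + 2 * j * δ) * (j * x + 4 * |w| * (s * Cc) * Cc ^ j) ≤
        2 * (n * x + 4 * |w| * s₀) := by
      refine mul_le_mul ?_ (add_le_add (mul_le_mul_of_nonneg_right hjn hx) ?_) (by positivity)
        (by norm_num)
      · have := mul_le_mul_of_nonneg_right hjn hδ
        linarith
      · exact (mul_le_of_le_one_right (by positivity) (pow_le_one₀ hCc.le hCc1)).trans
          (mul_le_mul_of_nonneg_left hsC (by positivity))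
    have a6 := mul_le_mul_of_nonneg_right a5 a1
    have a7 := mul_nonneg hw a1
    rw [show 4 * |w| * s * Cc ^ (j + 1) = 4 * |w| * (s * Cc) * Cc ^ j by ring]
    push_cast
    rw [show 2 * ((j : ℝ) + 1) * √d = (2 * j + 2) * √d by ring]
    linarith

end Vale.Agent.P347
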