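import Vale.Agent.P347.Model

namespace Vale.Agent.P347

theorem step_num_one {w s R t t₁ C₀ C₁ C₄ εa εb η₁ η₂ a e X Y : ℝ} (hw : 0 ≤ w) (hs : 0 < s)
    (hs1 : s ≤ 1) (hR : 0 ≤ R) (hR1 : R ≤ 1) (hwR : 2 * w * s ≤ R * t) (ht₁ : 0 ≤ t₁) (ht : t₁ ≤ t)
    (hC₀ : 0 ≤ C₀) (hC₁ : 0 ≤ C₁) (hC₄ : 0 ≤ C₄) (hεa : 0 ≤ εa) (hεa1 : εa ≤ 1) (hεb : 0 ≤ εb)
    (hη₁ : 0 ≤ η₁) (hη₂ : 0 ≤ η₂) (hεb1 : εb ≤ R) (hδ : C₀ * (εa + η₁) ≤ 1) (ha : 0 ≤ a)
    (he : 0 ≤ e) (hX : 0 ≤ X) (hY : 0 ≤ Y) :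
    (3 * w + 4 * (C₁ * (t₁ * (R * εa + εb))) + a) * (2 * e + C₀ * (s * (εa + η₁) * X)) +
      C₁ * (R * t₁ / s) * e + (17 * (C₁ * (t₁ * (R * εa + εb))) + C₄ * (t₁ * (η₁ + η₂))) * X +
      a * (X + Y) ≤ ((3 + 17 * C₁) * R * t / s + 2 * a) * e +
      ((1 + C₀ * (εa + η₁)) * a + (2 * C₀ + 21 * C₁ + C₄) * t * (εb + R * εa + (η₁ + η₂))) *
        (X + Y) := by
  have ht0 := ht₁.trans ht
  have hRa : R * εa ≤ R := mul_le_of_le_one_right hR hεa1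
  have hRa0 : 0 ≤ R * εa := mul_nonneg hR hεa
  have hRη : R * η₁ ≤ η₁ := mul_le_of_le_one_left hη₁ hR1
  have g1 : 2 * w ≤ R * t / s := by rwa [le_div_iff₀ hs]
  have g2 : R * t ≤ R * t / s := le_div_self (by positivity) hs hs1
  have g3 : R * t₁ / s ≤ R * t / s := by gcongr
  have g4 : t₁ * (R * εa + εb) ≤ t * (2 * R) := mul_le_mul ht (by linarith) (by linarith) ht0
  have g5 : t₁ * (R * εa + εb) ≤ t * (εb + R * εa + (η₁ + η₂)) :=
    mul_le_mul ht (by linarith) (by linarith) ht0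
  have g6 : t₁ * (η₁ + η₂) ≤ t * (εb + R * εa + (η₁ + η₂)) :=
    mul_le_mul ht (by linarith) (by linarith) ht0
  have g7 : t * (R * (εa + η₁)) ≤ t * (εb + R * εa + (η₁ + η₂)) :=
    mul_le_mul_of_nonneg_left (by linarith) ht0
  have g8 : w * s * (εa + η₁) ≤ R * t / 2 * (εa + η₁) :=
    mul_le_mul_of_nonneg_right (by linarith) (by linarith)
  have g9 : 0 ≤ t * (εb + R * εa + (η₁ + η₂)) := by positivity
  have g0 : 0 ≤ t₁ * (R * εa + εb) := by positivity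
  have k0 : 0 ≤ C₀ * (εa + η₁) := by positivity
  have k1 : s * (C₀ * (εa + η₁)) ≤ C₀ * (εa + η₁) := mul_le_of_le_one_left k0 hs1
  rw [show (3 + 17 * C₁) * R * t / s = (3 + 17 * C₁) * (R * t / s) by ring, mul_assoc _ t]
  generalize t * (εb + R * εa + (η₁ + η₂)) = Z at *
  generalize t₁ * (R * εa + εb) = x at *
  generalize t₁ * (η₁ + η₂) = x' at *
  generalize R * t₁ / s = u' at *
  generalize R * t / s = u at *
  have m1 : (6 * w + 8 * (C₁ * x) + C₁ * u') * e ≤ (3 + 17 * C₁) * u * e := by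
    have := mul_le_mul_of_nonneg_left (show 8 * x + u' ≤ 17 * u by linarith) hC₁
    exact mul_le_mul_of_nonneg_right (by linarith) he
  have m2 : (3 * (C₀ * (w * s * (εa + η₁))) + 4 * (C₁ * x * (s * (C₀ * (εa + η₁)))) +
      17 * (C₁ * x) + C₄ * x') * X ≤ (2 * C₀ + 21 * C₁ + C₄) * Z * X := by
    have n1 := mul_le_mul_of_nonneg_left (show 3 * (w * s * (εa + η₁)) ≤ 2 * Z by linarith) hC₀
    have n2 := mul_le_mul_of_nonneg_left g5 hC₁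
    have n3 := mul_le_mul_of_nonneg_left g6 hC₄
    have n4 := mul_le_of_le_one_right (mul_nonneg hC₁ g0) (k1.trans hδ)
    exact mul_le_mul_of_nonneg_right (by linarith) hX
  have m3 := mul_le_mul_of_nonneg_left k1 (mul_nonneg ha hX)
  have m4 : 0 ≤ (C₀ * (εa + η₁) * a + (2 * C₀ + 21 * C₁ + C₄) * Z) * Y := by positivity
  linarith

theorem step_num_fin {w s R t C₁ C₅ ε γ δ n P e X D : ℝ} (hw : 0 ≤ w) (hs : 0 < s) (hs1 : s ≤ 1)
    (hR : 0 ≤ R) (hR1 : R ≤ 1) (hwR : 2 * w * s ≤ R * t) (ht : 0 ≤ t) (hC₅ : 0 ≤ C₅)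
    (hε : 0 ≤ ε) (hε1 : ε ≤ 2 * R) (hγ : 0 ≤ γ) (hδ : 2 * n * δ ≤ 1) (hn : 0 ≤ n)
    (hP : 12 + 17 * C₁ + 8 * n * C₅ ≤ P) (hP' : 2 * (1 + 2 * n) * (n * C₅ + 2) ≤ P) (he : 0 ≤ e)
    (hD : 0 ≤ D) (hDX : D ≤ X) :
    ((3 + 17 * C₁) * R * t / s + 2 * w + 4 * (n * (C₅ * t * ε) + 4 * w * s)) * e +
      (1 + 2 * n * δ) * (n * (C₅ * t * ε) + 4 * w * s * γ) * (X + 2 * n * D) ≤
      P * R * t / s * e + P * (ε + γ) * t * X := by
  have hX := hD.trans hDX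
  have g1 : 2 * w ≤ R * t / s := by rwa [le_div_iff₀ hs]
  have g0 : 0 ≤ R * t := by positivity
  have g2 : R * t ≤ R * t / s := le_div_self g0 hs hs1
  have g3 : t * ε ≤ t * (2 * R) := mul_le_mul_of_nonneg_left hε1 ht
  have g4 : R * t ≤ t := mul_le_of_le_one_left ht hR1
  rw [show (3 + 17 * C₁) * R * t / s = (3 + 17 * C₁) * (R * t / s) by ring,
    show P * R * t / s = P * (R * t / s) by ring]
  generalize R * t / s = u at *
  have m1 := mul_le_mul_of_nonneg_left (show t * ε ≤ 2 * u by linarith) (mul_nonneg hn hC₅)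
  have m2 := mul_le_mul_of_nonneg_right hP (g0.trans g2)
  refine add_le_add (mul_le_mul_of_nonneg_right (by linarith) he) ?_
  have m3 : 4 * w * s * γ ≤ 2 * t * γ := mul_le_mul_of_nonneg_right (by linarith) hγ
  have m4 : 0 ≤ n * C₅ * (t * γ) := by positivity
  have m5 : 0 ≤ t * ε := by positivity
  have m6 : X + 2 * n * D ≤ (1 + 2 * n) * X := by
    have := mul_le_mul_of_nonneg_left hDX hn
    linarith
  calc _ ≤ 2 * ((n * C₅ + 2) * ((ε + γ) * t)) * ((1 + 2 * n) * X) :=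
        mul_le_mul (mul_le_mul (by linarith) (by linarith) (by positivity) (by norm_num)) m6
          (by positivity) (by positivity)
    _ = 2 * (1 + 2 * n) * (n * C₅ + 2) * ((ε + γ) * t * X) := by ring
    _ ≤ P * ((ε + γ) * t * X) := mul_le_mul_of_nonneg_right hP' (by positivity)
    _ = _ := by ring

theorem step_num_beta {w t R : ℝ} (n : ℕ) (ht : 0 < t) (hR : 0 ≤ R) :
    ∃ β t₁ : ℝ, 0 < t₁ ∧ t₁ ≤ t ∧ β * t₁ = w ∧ t₁ * √(2 * (n + 1)) = t ∧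
      ∀ s, 0 ≤ s → 2 * |w| * s ≤ R * t →
        |β| * s ≤ (n + 1) * R ∧ (|β| * s) ^ 2 ≤ (n + 1) * R ^ 2 := by
  have hn : (0 : ℝ) ≤ n := n.cast_nonneg
  have h1 : 1 ≤ √(2 * ((n : ℝ) + 1)) := Real.one_le_sqrt.2 (by linarith)
  have h2 : √(2 * ((n : ℝ) + 1)) ^ 2 = 2 * (n + 1) := Real.sq_sqrt (by linarith)
  generalize √(2 * ((n : ℝ) + 1)) = r at *
  have hr : 0 < r := by linarith
  have h3 : r ≤ r ^ 2 := le_self_pow₀ h1 two_ne_zero
  refine ⟨w * r / t, t / r, by positivity, div_le_self ht.le h1, by field_simp, by field_simp,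
    fun s hs hw => ?_⟩
  have h4 : |w * r / t| * s ≤ r / 2 * R := by
    rw [abs_div, abs_mul, abs_of_pos hr, abs_of_pos ht, div_mul_eq_mul_div, div_le_iff₀ ht]
    have := mul_le_mul_of_nonneg_left hw hr.le
    linarith
  refine ⟨h4.trans (mul_le_mul_of_nonneg_right (by linarith) hR),
    (pow_le_pow_left₀ (by positivity) h4 2).trans ?_⟩
  rw [mul_pow]
  exact mul_le_mul_of_nonneg_right (by linarith) (sq_nonneg R)

end Vale.Agent.P347
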