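import Vale.Agent.P347.RepS
import Vale.Agent.P347.RepT
import Vale.Agent.P347.StepAuxA
import Vale.Agent.P347.StepAuxN

namespace Vale.Agent.P347

open MeasureTheory ProbabilityTheory
open scoped RealInnerProductSpace NNReal

theorem step_num_Q {N C g R t t' t₀ s εa εb e X : ℝ} (hN : 0 ≤ N) (hC : 4 * (N + 1) ^ 2 ≤ C)
    (hg : 0 ≤ g) (hgR : g ≤ R) (ht' : 0 ≤ t') (ht : t' ≤ t) (ht₀ : 0 ≤ t₀) (hs : 0 < s)
    (hts : t₀ ≤ s / 2) (hεa : 0 ≤ εa) (hεb : 0 ≤ εb) (he : 0 ≤ e) (hX : 0 ≤ X) :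
    N * (2 * (g * t' / s) * (2 * e + 4 * N * εa * t₀ * X) + 2 * εb * t' * X) ≤
      C * (R * t / s) * e + C * (t * (R * εa + εb)) * X := by
  have hR := hg.trans hgR
  have ht0 := ht'.trans ht
  have hN2 : 0 ≤ N ^ 2 := sq_nonneg N
  have h1 : g * t' / s ≤ R * t / s :=
    div_le_div_of_nonneg_right (mul_le_mul hgR ht ht' hR) hs.le
  have h0 : 0 ≤ g * t' / s := by positivity
  have h2 : g * t' / s * t₀ ≤ R * t / 2 :=
    (mul_le_mul h1 hts ht₀ (h0.trans h1)).trans (le_of_eq (by field_simp))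
  have h3 : 4 * N * (g * t' / s) * e ≤ C * (R * t / s) * e :=
    mul_le_mul_of_nonneg_right (mul_le_mul (by linarith) h1 h0 (by linarith)) he
  have h4 : 4 * N ^ 2 * (2 * (g * t' / s * t₀)) * (εa * X) ≤ C * (R * t) * (εa * X) :=
    mul_le_mul_of_nonneg_right (mul_le_mul (by linarith) (by linarith) (by positivity)
      (by linarith)) (mul_nonneg hεa hX)
  have h5 : 2 * N * t' * (εb * X) ≤ C * t * (εb * X) :=
    mul_le_mul_of_nonneg_right (mul_le_mul (by linarith) ht ht' (by linarith)) (mul_nonneg hεb hX)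
  linarith

theorem step_Q (K k : ℕ) (hK : 1 ≤ K) : ∃ C : ℕ, 1 ≤ C ∧
    ∀ (d : ℕ) (h s₀ c τ Ra εa Λa Rb εb Λb R β t₁ s : ℝ) (Ba Bb : ℕ),
    0 < h → K * h ≤ 1 / 8 → 0 < c → c ≤ 1 → 0 < s → s ≤ s₀ → s ≤ τ → C * τ ≤ 1 / 2 →
    C * τ ≤ Ra * c * h → C * (Λa * Ra) ≤ 1 → 0 ≤ εa → 0 ≤ Λa → 0 ≤ εb → 0 ≤ Λb → Λb * Rb ≤ R →
    0 < t₁ → |β| * s ≤ τ → C * (|β| * s) ^ 2 ≤ Rb * τ →
    Claim d h s₀ c Ra εa Λa Ba → Claim d h s₀ c Rb εb Λb Bb →
    ∀ (Ω : Type) [MeasurableSpace Ω] (m : (E d → ℝ) → Ω → E d) (e : (E d → ℝ) → Ω → ℝ) (q : ℕ)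
      (y G u : Ω → E d), Measurable y → Measurable G → Measurable u →
      Samp Ω m (c / C * s * h) e q →
      Samp Ω (fun V o => (β * t₁) • keyQ K h k τ β V s (m V o) (y o) (G o) (u o)) t₁
        (fun V o => C * (R * t₁ / s) * e V o +
          C * (t₁ * (R * εa + εb)) * (Nm (m V o) + 4 * (‖y o‖ + ‖G o‖ + ‖u o‖)))
        (C * (Bb + 1) * (Ba + 1) ^ ((k + 1) ^ 3) * (q + 1)) := by
  obtain ⟨C₁, N, hC₁, HR⟩ := rep_keyQ K k hK
  obtain ⟨C, hC⟩ := exists_nat_ge (4 * (N + 1) ^ 2 * C₁)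
  have hN : (0 : ℝ) ≤ N := N.cast_nonneg
  have hN2 : (0 : ℝ) ≤ N ^ 2 := sq_nonneg _
  have hC2 : 4 * ((N : ℝ) + 1) ^ 2 ≤ C := (le_mul_of_one_le_right (by positivity) hC₁).trans hC
  have hC3 : 4 * ((N : ℝ) + 1) * C₁ ≤ C :=
    (mul_le_mul_of_nonneg_right (by linarith) (by linarith)).trans hC
  have hC1 : (1 : ℝ) ≤ C := by linarith
  have hNn : N * (N + 2) ≤ C := by exact_mod_cast (show ((N : ℝ) * (N + 2)) ≤ C by linarith)
  refine ⟨C, by exact_mod_cast hC1, ?_⟩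
  intro d h s₀ c τ Ra εa Λa Rb εb Λb R β t₁ s Ba Bb hh hKh hc hc1 hs hss hsτ hτ hRa hΛR hεa hΛa
    hεb hΛb hΛb' ht₁ hβ hβ2 hCa hCb Ω _ m e q y G u hy hG hu hm
  have hK1 : (1 : ℝ) ≤ K := by exact_mod_cast hK
  have hhK : h ≤ K * h := le_mul_of_one_le_left hh.le hK1
  have hτ0 : 0 < τ := hs.trans_le hsτ
  have hτ1 : τ ≤ 1 / 2 := (le_mul_of_one_le_left hτ0.le hC1).trans hτ
  have hRa0 : 0 ≤ Ra := by
    have h1 : 0 < Ra * c * h := (mul_pos (by linarith) hτ0).trans_le hRa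
    exact (pos_of_mul_pos_left (pos_of_mul_pos_left h1 hh.le) hc.le).le
  have hRb0 : 0 ≤ Rb := nonneg_of_mul_nonneg_left (le_trans (by positivity) hβ2) hτ0
  obtain ⟨t₀, ht₀, ht1, ht2, ht3, ht4, ht5, ht6⟩ := step_num_t0 (s := s) N hc hc1 hs hh
    (by linarith) hC₁ hC3 hτ0.le hRa hΛR (mul_nonneg hΛa hRa0) hτ
  obtain ⟨hr1, hr2⟩ := step_sqrt N
  have hrN : √(N : ℝ) ≤ √(N + 1) := Real.sqrt_le_sqrt (by linarith)
  generalize √((N : ℝ) + 1) = r at hr1 hr2 hrN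
  have hr0 : 0 < r := by linarith
  have h0 := (HR d Ω m (fun o => ‖y o‖ + ‖G o‖ + ‖u o‖) s h τ β (C₁ * τ) y G u hs (by linarith) hh
    (by linarith) hτ0 hsτ hβ le_rfl hy hG hu
    (fun o => by linarith [norm_nonneg (G o), norm_nonneg (u o)])
    (fun o => by linarith [norm_nonneg (y o), norm_nonneg (u o)])
    (fun o => by linarith [norm_nonneg (G o), norm_nonneg (y o)])).smul (β * t₁)
  rw [mul_zero, mul_zero] at h0
  have hs2 : s ^ 2 ≤ (1 / 2) ^ 2 := pow_le_pow_left₀ hs.le (hsτ.trans hτ1) 2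
  have h1 := rep_samp_top hCa hCb (t₁ := t₁ / r) (hm.noise_mono (by positivity) ht2)
    (fun o => by positivity) hs hss (by linarith) ht₀ hRa0 hεa hΛa (by positivity) ht3.le ht4 ht5
    ht6 (by positivity) hRb0 hεb hΛb (by
      have a1 : 2 * r * C₁ ≤ C :=
        (mul_le_mul_of_nonneg_right (by linarith) (by linarith)).trans hC3
      have a2 := (mul_le_mul_of_nonneg_right a1 (sq_nonneg (|β| * s))).trans hβ2
      rw [abs_mul, abs_of_pos ht₁, show 2 * (|β| * t₁ * (C₁ * (|β| * s) / τ)) * s =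
        2 * r * C₁ * (|β| * s) ^ 2 * (t₁ / r / τ) by field_simp,
        show Rb * (t₁ / r) = Rb * τ * (t₁ / r / τ) by field_simp]
      exact mul_le_mul_of_nonneg_right a2 (by positivity)) h0 le_rfl
  have h2 := h1.noise_mono (t' := t₁) (by positivity)
    ((mul_le_mul_of_nonneg_left hrN (by positivity)).trans (le_of_eq (by field_simp)))
  refine Approx.mono h2 (fun V hV o => ?_) ?_
  · have a1 := (step_Nm (m V o)).2.2
    exact step_num_Q hN hC2 (mul_nonneg hΛb hRb0) hΛb' (by positivity) (div_le_self ht₁.le hr1)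
      ht₀.le hs ht1 hεa hεb (hm.nonneg hV o) (by positivity)
  · have a1 : 1 ≤ (Ba + 1) ^ ((k + 1) ^ 3) * (q + 1) := Nat.succ_le_of_lt (by positivity)
    rw [mul_assoc (N + 1), mul_assoc (C * (Bb + 1))]
    generalize (Ba + 1) ^ ((k + 1) ^ 3) * (q + 1) = Z at a1
    calc N * Bb * ((N + 1) * Z + 1) ≤ N * (Bb + 1) * ((N + 1) * Z + Z) := by gcongr; omega
      _ = N * (N + 2) * (Bb + 1) * Z := by ring
      _ ≤ C * (Bb + 1) * Z := by gcongr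

end Vale.Agent.P347
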