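import Vale.Agent.P347.Heat3
import Vale.Agent.P347.StepAuxB
import Vale.Agent.P347.StepAuxI
import Vale.Agent.P347.StepAuxM
import Vale.Agent.P347.StepAuxQ

namespace Vale.Agent.P347

open MeasureTheory ProbabilityTheory
open scoped RealInnerProductSpace NNReal

theorem step_main (K k : ℕ) (hK : 1 ≤ K) {C₀ : ℕ} {C₂ C₄ : ℝ} (hC₀ : 1 ≤ C₀) (hC₂ : 1 ≤ C₂)
    (hC₄ : 1 ≤ C₄)
    (HD : ∀ (d : ℕ) (h s₀ c τ κ R ε Λ : ℝ)
      (Bq : ℕ), 0 < h → K * h ≤ 1 / 8 → 0 < c → c ≤ 1 → C₀ * s₀ ≤ τ → C₀ * τ ≤ κ → κ ≤ 1 / 2 →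
      C₀ * τ ≤ R * c * h → C₀ * (Λ * R) ≤ 1 → 0 ≤ ε → 0 ≤ Λ → Claim d h s₀ c R ε Λ Bq →
      ∀ (Ω : Type) [MeasurableSpace Ω] (m : (E d → ℝ) → Ω → E d) (s : ℝ) (e : (E d → ℝ) → Ω → ℝ)
        (q : ℕ), 0 < s → s ≤ s₀ → Samp Ω m (c / C₀ * s * h) e q →
        Approx Ω (fun V o f => ∫ y, f y ∂rhoY V (m V o) (s * Sn (K * h)) (s * Cs (K * h)))
          (fun V o => 2 * e V o + C₀ * (s * (ε + h ^ K + κ ^ k) * Nm (m V o)))
          (C₀ * (Bq + 1) ^ k * (q + 1)))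
    (HL : ∀ (d : ℕ) (V : E d → ℝ), InClass V →
      ∀ (s h τ β : ℝ), 0 < s → 0 < h → K * h ≤ 1 / 4 → 0 < τ → C₂ * s ≤ 1 → C₂ * τ ≤ 1 →
      C₂ * (|β| * s) ≤ τ → ∀ m y G u y' G' u',
        ‖keyQ K h k τ β V s m y G u - keyQ K h k τ β V s m y' G' u'‖ ≤
          ‖y - y'‖ + ‖G - G'‖ + ‖u - u'‖)
    (HK : ∀ (d : ℕ) (V : E d → ℝ), InClass V →
      ∀ (m : E d) (s h τ κ β t : ℝ), 0 < s → 0 < h → K * h ≤ 1 / 4 → 0 < τ → 0 < t → C₄ * s ≤ τ →
      C₄ * (|β| * s) ≤ τ → C₄ * τ ≤ κ → κ ≤ 1 / 2 →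
      ∀ (f : E d → ℝ) (L : ℝ≥0), LipschitzWith L f →
      |∫ y, ∫ G, ∫ u, f ((β * t) • gg V (s * Cs (K * h)) y + t • G +
          (β * t) • keyQ K h k τ β V s m y G u) ∂gam d ∂gam d
          ∂rhoY V m (s * Sn (K * h)) (s * Cs (K * h)) -
        ∫ z, f ((β * t) • gg V s m + t • z) ∂gam d| ≤
        L * (C₄ * (t * (h ^ K + κ ^ k + τ ^ K) * Nm m))) : ∃ C : ℕ, 1 ≤ C ∧
    ∀ (d : ℕ) (h s₀ c τ κ R Ra εa Λa Rb εb Λb : ℝ) (n P Ba Bb : ℕ),
    0 < h → K * h ≤ 1 / 8 → 0 < c → c ≤ 1 → 0 < s₀ → 0 < R → 1 ≤ n →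
    C * ((n : ℝ) + 1) ^ 3 ≤ P * c * h → P * s₀ ≤ τ → P * R ≤ τ → P * τ ≤ κ → κ ≤ 1 / 2 →
    P * τ ≤ Ra → P * R ^ 2 ≤ Rb * τ → P * (Λa * Ra) ≤ 1 → Λb * Rb ≤ R →
    P * (εa + h ^ K + κ ^ k) ≤ 1 → εb + (h ^ K + κ ^ k + τ ^ K + Cs (K * h) ^ n) ≤ R →
    0 ≤ εa → 0 ≤ Λa → 0 ≤ εb → 0 ≤ Λb →
    Claim d h s₀ c Ra εa Λa Ba → Claim d h s₀ c Rb εb Λb Bb →
    Claim d h s₀ (c / C) R (P * (εb + R * εa + (h ^ K + κ ^ k + τ ^ K + Cs (K * h) ^ n))) P
      (P * (Bb + 1) * (Ba + 1) ^ ((k + 1) ^ 3)) := by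
  obtain ⟨C₁, hC₁, HQ⟩ := step_Q K k hK
  obtain ⟨C, hC⟩ := exists_nat_ge (10 * (2 * C₀ + 21 * C₁ + C₄) + 12 + C₂)
  have hC₀' : (1 : ℝ) ≤ C₀ := by exact_mod_cast hC₀
  have hC₁' : (1 : ℝ) ≤ C₁ := by exact_mod_cast hC₁
  have hC1 : (1 : ℝ) ≤ C := by linarith
  refine ⟨C, by exact_mod_cast hC1, ?_⟩
  intro d h s₀ c τ κ R Ra εa Λa Rb εb Λb n P Ba Bb hh hKh hc hc1 hs₀ hR hn hP hPs hPR hPτ hκ hRa
    hRb hΛa1 hΛb1 hεa1 hεb1 hεa hΛa hεb hΛb hCa hCb Ω _ m s w t e q hs hss ht hw hm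
  have hK1 : (1 : ℝ) ≤ K := by exact_mod_cast hK
  have hhK : h ≤ K * h := le_mul_of_one_le_left hh.le hK1
  have hn0 : (0 : ℝ) ≤ n := n.cast_nonneg
  have hch : c * h ≤ 1 := mul_le_one₀ hc1 hh.le (by linarith)
  have hP0 : (0 : ℝ) ≤ P := P.cast_nonneg
  have hn2 : (n : ℝ) + 1 ≤ (n + 1) ^ 2 := le_self_pow₀ (by linarith) two_ne_zero
  have hP2 : C * ((n : ℝ) + 1) ^ 2 ≤ P * c * h :=
    (mul_le_mul_of_nonneg_left (pow_le_pow_right₀ (by linarith) (by norm_num)) (by linarith)).trans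
      hP
  have hPP : P * c * h ≤ P := by
    rw [mul_assoc]
    exact mul_le_of_le_one_right hP0 hch
  have hP1 : C * ((n : ℝ) + 1) ≤ P * c * h :=
    (mul_le_mul_of_nonneg_left hn2 (by linarith)).trans hP2
  have hCP : (C : ℝ) ≤ P * c * h := (le_mul_of_one_le_right (by linarith) (by linarith)).trans hP1
  have hle : ∀ {C' x y : ℝ}, C' ≤ C → 0 ≤ x → P * x ≤ y → C' * x ≤ y := fun h1 h2 h3 =>
    (mul_le_mul_of_nonneg_right (h1.trans (hCP.trans hPP)) h2).trans h3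
  have hle' : ∀ {C' x x' y : ℝ}, 0 ≤ C' → C' ≤ C → 0 ≤ x → x' ≤ (n + 1) * x → P * x ≤ y →
      C' * x' ≤ y := fun h0 h1 h2 h3 h4 => by
    refine (mul_le_mul_of_nonneg_left h3 h0).trans (le_trans ?_ h4)
    rw [← mul_assoc]
    exact mul_le_mul_of_nonneg_right
      ((mul_le_mul_of_nonneg_right h1 (by linarith)).trans (hP1.trans hPP)) h2
  have hsτ : s₀ ≤ τ := by simpa using hle hC1 hs₀.le hPs
  have hτ : 0 < τ := hs₀.trans_le hsτ
  have hτκ : τ ≤ κ := by simpa using hle hC1 hτ.le hPτ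
  have hR1 : R ≤ τ := by simpa using hle hC1 hR.le hPR
  have hκ0 : 0 ≤ κ := by linarith
  have hRa0 : 0 ≤ Ra := le_trans (by positivity) hRa
  have hτRa : ∀ {C' : ℝ}, C' ≤ C → C' * τ ≤ Ra * c * h := fun h1 => by
    refine (mul_le_mul_of_nonneg_right (h1.trans hCP) hτ.le).trans ?_
    have := mul_le_mul_of_nonneg_right hRa (mul_pos hc hh).le
    linarith
  have hη₁ : 0 ≤ h ^ K + κ ^ k := by positivity
  have hη₂ : 0 ≤ τ ^ K := by positivity
  have hCc := Cs_pos (K * h)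
  have hγ : 0 ≤ Cs (K * h) ^ n := by positivity
  have hεa2 : εa ≤ 1 := by
    have := hle hC1 (by linarith) hεa1
    linarith
  have hδ : 2 * n * (C₀ * (εa + (h ^ K + κ ^ k))) ≤ 1 := by
    have := hle' (C' := 2 * C₀) (x' := n * (εa + h ^ K + κ ^ k)) (by linarith) (by linarith)
      (by linarith) (mul_le_mul_of_nonneg_right (by linarith) (by linarith)) hεa1
    linarith
  have hcC : 0 ≤ c / C := by positivity
  have hnoise : ∀ {C' s' : ℝ}, 1 ≤ C' → C' ≤ C → 0 < s' → c / C * s' * h ≤ c / C' * s' * h :=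
    fun h1 h2 h3 => by gcongr
  obtain ⟨β, t₁, ht₁, htt, rfl, ht2, hβ⟩ := step_num_beta (w := w) n ht hR.le
  have hs1 : s ≤ 1 / 2 := by linarith
  have H := step_ind (d := d) (w := β * t₁) (D := (3 + 17 * C₁) * R * t)
    (x := (2 * C₀ + 21 * C₁ + C₄) * t * (εb + R * εa + (h ^ K + κ ^ k + τ ^ K)))
    (c₁ := (C₀ + C₁) * (Bb + 1) * (Ba + 1) ^ ((k + 1) ^ 3)) (s₀ := s) hh.le hcC
    ((mul_le_mul_of_nonneg_right (div_le_self hc.le hC1) hh.le).trans hch)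
    (by linarith [pow_le_pow_left₀ hs.le hs1 2]) ht₁ hCc (Cs_le_one _) (by positivity)
    (by positivity) (by positivity) hδ
    (fun Ω _ m s' e q hs' hss' hm t' a A q' ha hA hg => by
      have hw' : 2 * |β * t₁| * s' ≤ R * t :=
        (mul_le_mul_of_nonneg_left hss' (by positivity)).trans hw
      obtain ⟨hβ1, hβ2⟩ := hβ s' hs'.le hw'
      have hs0 : s' ≤ s₀ := hss'.trans hss
      have hCs : ∀ {C' : ℝ}, C' ≤ C → C' * s' ≤ τ := fun h1 =>
        hle h1 hs'.le ((mul_le_mul_of_nonneg_left hs0 hP0).trans hPs)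
      have h1 := HD d h s₀ c τ κ Ra εa Λa Ba hh hKh hc hc1 (hle (by linarith) hs₀.le hPs)
        (hle (by linarith) hτ.le hPτ) hκ (hτRa (by linarith))
        (hle (by linarith) (mul_nonneg hΛa hRa0) hΛa1) hεa hΛa hCa Ω m s' e q hs' hs0
        (hm.noise_mono (by positivity) (hnoise hC₀' (by linarith) hs'))
      have h2 := HQ d h s₀ c τ Ra εa Λa Rb εb Λb R β t₁ s' Ba Bb hh hKh hc hc1 hs' hs0
        (hs0.trans hsτ) ((hle (by linarith) hτ.le hPτ).trans hκ) (hτRa (by linarith))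
        (hle (by linarith) (mul_nonneg hΛa hRa0) hΛa1) hεa hΛa hεb hΛb hΛb1 ht₁
        (by simpa using hle' zero_le_one hC1 hR.le hβ1 hPR)
        (hle' (by linarith) (by linarith) (sq_nonneg R) hβ2 hRb) hCa hCb
        (((Ω × E d) × E d) × E d) (fun V p => m V p.1.1.1) (fun V p => e V p.1.1.1) q
        (fun p => p.1.1.2) (fun p => p.1.2) (fun p => p.2)
        (measurable_snd.comp (measurable_fst.comp measurable_fst))
        (measurable_snd.comp measurable_fst) measurable_snd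
        (Approx.comap (hm.noise_mono (by positivity) (hnoise hC₁' (by linarith) hs'))
          (measurable_fst.comp (measurable_fst.comp measurable_fst)))
      have hSn : 0 ≤ Sn (K * h) := by
        rw [Sn_eq]
        positivity
      have h3 := step_comb (s := s') (η := C₄ * (t₁ * (h ^ K + κ ^ k + τ ^ K)))
        (e := fun V o => C₁ * (R * t₁ / s') * e V o)
        (Q := fun V o y G u => keyQ K h k τ β V s' (m V o) y G u) (mul_pos hs' hCc) ht₁.le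
        (by positivity) ha h1
        (fun V hV o => ⟨isProb_rhoY hV _ _ _, rhoY_moment hV (m V o) (by positivity)
          (by positivity) (by
            rw [mul_pow, mul_pow, ← mul_add, Sn_sq_add, mul_one]
            exact pow_le_one₀ hs'.le (by linarith))⟩)
        (fun V hV o => (HL d V hV s' h τ β hs' hh (by linarith) hτ
          ((hCs (by linarith)).trans (by linarith))
          ((hle (by linarith) hτ.le hPτ).trans (by linarith)))
          (hle' (by linarith) (by linarith) hR.le hβ1 hPR) (m V o)) h2 hg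
        (fun V hV o f L hf => (HK d V hV (m V o) s' h τ κ β t₁ hs' hh (by linarith) hτ ht₁
          (hCs (by linarith)) (hle' (by linarith) (by linarith) hR.le hβ1 hPR)
          (hle (by linarith) hτ.le hPτ) hκ f L hf).trans (le_of_eq (by ring)))
      refine Approx.mono h3 (fun V hV o => ?_) (Nat.add_le_add_right ?_ _)
      · rw [add_assoc εa]
        exact step_num_one (abs_nonneg _) hs' (by linarith) hR.le (by linarith) hw' ht₁.le htt
          (by linarith) (by linarith) (by linarith) hεa hεa2 hεb hη₁ hη₂ (by linarith)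
          (by rw [← add_assoc]; exact hle (by linarith) (by linarith) hεa1) ha (hm.nonneg hV o)
          (step_Nm _).2.2 (by positivity)
      · have b1 : (Ba + 1) ^ k ≤ (Bb + 1) * (Ba + 1) ^ ((k + 1) ^ 3) :=
          (Nat.pow_le_pow_right (Nat.succ_pos _) ((Nat.le_succ k).trans
            (Nat.le_self_pow (by norm_num) _))).trans (Nat.le_mul_of_pos_left _ (Nat.succ_pos _))
        rw [← add_mul, mul_assoc C₁, mul_assoc (C₀ + C₁), add_mul C₀]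
        gcongr) n le_rfl Ω m s e q hs le_rfl hm
  rw [ht2] at H
  have hPn : (C : ℝ) * (n + 1) ^ 2 ≤ P := hP2.trans hPP
  refine Approx.mono H (fun V hV o => ?_) (Nat.mul_le_mul_right _ ?_)
  · rw [← add_assoc (εb + R * εa) _ (Cs (K * h) ^ n)]
    have a1 : R * εa ≤ R := mul_le_of_le_one_right hR.le hεa2
    have a0 : 0 ≤ R * εa := by positivity
    have a2 : (0 : ℝ) ≤ 2 * C₀ + 21 * C₁ + C₄ := by linarith
    have a3 : (17 : ℝ) * C₁ ≤ 2 * C₀ + 21 * C₁ + C₄ := by linarith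
    have a4 : 10 * (2 * C₀ + 21 * C₁ + C₄) + 12 ≤ C := by linarith
    generalize 2 * C₀ + 21 * C₁ + C₄ = C₅ at a2 a3 a4 ⊢
    have a5 := (mul_le_mul_of_nonneg_right a4 (sq_nonneg ((n : ℝ) + 1))).trans hPn
    have a6 := mul_nonneg hn0 a2
    have a7 := mul_nonneg (sq_nonneg (n : ℝ)) a2
    have a8 := sq_nonneg (n : ℝ)
    exact step_num_fin (abs_nonneg _) hs (by linarith) hR.le (by linarith) hw ht.le a2
      (by linarith) (by linarith) hγ hδ hn0 (by linarith) (by linarith) (hm.nonneg hV o)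
      (Real.sqrt_nonneg _) (step_Nm _).1
  · have a1 : n * (C₀ + C₁) + 1 ≤ P := by
      have a2 := mul_le_mul_of_nonneg_left (show (C₀ + C₁ : ℝ) ≤ C by linarith) hn0
      exact_mod_cast (show (n : ℝ) * (C₀ + C₁) + 1 ≤ P by linarith)
    have a3 : 1 ≤ (Bb + 1) * (Ba + 1) ^ ((k + 1) ^ 3) := Nat.succ_le_of_lt (by positivity)
    rw [mul_assoc (C₀ + C₁), mul_assoc P]
    generalize (Bb + 1) * (Ba + 1) ^ ((k + 1) ^ 3) = Z at a3
    calc n * ((C₀ + C₁) * Z) + 1 ≤ n * ((C₀ + C₁) * Z) + Z := by omega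
      _ = (n * (C₀ + C₁) + 1) * Z := by ring
      _ ≤ P * Z := Nat.mul_le_mul_right _ a1

end Vale.Agent.P347
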