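import Vale.Agent.P347.TemplAux

namespace Vale.Agent.P347

open MeasureTheory ProbabilityTheory
open scoped RealInnerProductSpace NNReal

variable {d : ℕ}

theorem templKey_cont {X : Type*} [TopologicalSpace X] {V : E d → ℝ} {K k : ℕ} {h s τ β : ℝ}
    (hV : InClass V) (hs : 0 < s) (m : E d) {y G u : X → E d} (hy : Continuous y)
    (hG : Continuous G) (hu : Continuous u) (l : ℕ) (j : Fin (K + 1)) :
    Continuous fun x => key K h k τ β V s m (y x) (G x) (u x) l j := by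
  have h0 : ∀ c : ℝ, Continuous fun x => m + c • (y x - m) := fun c => by fun_prop
  induction l generalizing j with
  | zero => exact (h0 _).prodMk hG
  | succ l ih =>
    simp only [key]
    refine ((h0 _).add (continuous_finsetSum _ fun i _ => Continuous.fun_const_smul ?_ _)).prodMk
      ((hG.add (Continuous.fun_const_smul ?_ _)).add
        (continuous_finsetSum _ fun i _ => Continuous.fun_const_smul ?_ _))
    · exact (((templ_cont_gg hV hs i).comp' (ih i).fst).fun_const_smul _).neg.add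
        ((templ_cont_Gam hV (mul_pos hs (Cs_pos _)) (ih i).fst (ih i).snd).fun_const_smul _)
    · exact ((templ_cont_gg hV hs _).comp' hy).sub ((templ_cont_gg hV hs j).comp' (ih j).fst)
    · exact templ_cont_Gam2 hV (mul_pos hs (Cs_pos _)) (ih i).fst (ih i).snd hu

theorem templKey_contQ {X : Type*} [TopologicalSpace X] {V : E d → ℝ} {K k : ℕ} {h s τ β : ℝ}
    (hV : InClass V) (hs : 0 < s) (m : E d) {y G u : X → E d} (hy : Continuous y)
    (hG : Continuous G) (hu : Continuous u) :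
    Continuous fun x => keyQ K h k τ β V s m (y x) (G x) (u x) :=
  continuous_finsetSum _ fun i _ => (templ_cont_Gam2 hV (mul_pos hs (Cs_pos _))
    (templKey_cont hV hs m hy hG hu k i).fst (templKey_cont hV hs m hy hG hu k i).snd
    hu).fun_const_smul _

theorem templKey_C3 {K : ℕ} (h : ℝ) (i : Fin (K + 1)) : |Cj h i ^ 3| ≤ 1 := by
  rw [Cj, abs_of_pos (pow_pos (Cs_pos _) 3)]
  exact pow_le_one₀ (Cs_pos _).le (Cs_le_one _)

theorem templKey_point {K k : ℕ} {h τ β s κ M R1 R2 D1 D2 B1 B2 B3 : ℝ} {V : E d → ℝ}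
    {m y G0 u : E d} {Y G P1 P2 : Fin (K + 1) → E d} (hM : 1 ≤ M) (hs : 0 < s) (hh : 0 < h)
    (hh1 : h ≤ 1) (hτ : 0 < τ) (hsτ : 10 * M ^ 2 * s ≤ τ) (hβτ : 10 * M ^ 2 * (|β| * s) ≤ τ)
    (hτκ : τ ≤ κ) (hκ : κ ≤ 1 / 2) (hI : ∀ j, ∑ i, |wI K (Fin.last K) j i| ≤ M)
    (hg : ∀ (i : Fin (K + 1)) a b, ‖gg V (s * Cj h i) a - gg V (s * Cj h i) b‖ ≤ 2 * ‖a - b‖)
    (hΓ : ∀ (i : Fin (K + 1)) a p a' p',
      ‖Gam K h k V (s * Cj h i) a p - Gam K h k V (s * Cj h i) a' p'‖ ≤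
        2 * M / (s * h) * ‖a - a'‖ + M * ‖p - p'‖)
    (hΓ2 : ∀ (i : Fin (K + 1)) a p a' p',
      ‖Gam2 K h k τ V (s * Cj h i) a p u - Gam2 K h k τ V (s * Cj h i) a' p' u‖ ≤
        2 * M / (τ * (s * h)) * ‖a - a'‖ + M / τ * ‖p - p'‖)
    (rY : ∀ j, ‖Y j - (m + (Sj h j / Sj h (Fin.last K)) • (y - m) +
      ∑ i, (s * Sj h j * h * wI K (Fin.last K) j i) •
        (-((s * Cj h i ^ 3) • gg V (s * Cj h i) (Y i)) + (β * s * Cj h i ^ 3) • P1 i))‖ ≤ s * R1)
    (rG : ∀ j, ‖G j - (G0 + β • (gg V (s * Cj h (Fin.last K)) y - gg V (s * Cj h j) (Y j)) +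
      ∑ i, (h * wI K (Fin.last K) j i * (β ^ 2 * s ^ 2 * (Sj h i * Cj h i ^ 3))) • P2 i)‖ ≤ R2)
    (d1 : ∀ i, ‖P1 i - Gam K h k V (s * Cj h i) (Y i) (G i)‖ ≤ D1)
    (d2 : ∀ i, ‖P2 i - Gam2 K h k τ V (s * Cj h i) (Y i) (G i) u‖ ≤ D2)
    (b1 : ∀ i, ‖gg V (s * Cj h i) (Y i)‖ ≤ B1) (b2 : ∀ i, ‖P1 i‖ ≤ B2)
    (b3 : ∀ j, ‖G0 - G j‖ ≤ B3) :
    ‖β • keyQ K h k τ β V s m y G0 u -
      ∑ i, (h * wI K (Fin.last K) 0 i * (β ^ 2 * s ^ 2 * (Sj h i * Cj h i ^ 3))) • P2 i‖ ≤
      4 * (R1 + R2 + D1 + τ * D2) + κ ^ k * (B1 + B2 + B3) := by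
  have n1 : 0 ≤ R1 := nonneg_of_mul_nonneg_right ((norm_nonneg _).trans (rY 0)) hs
  have n2 : 0 ≤ R2 := (norm_nonneg _).trans (rG 0)
  have n3 : 0 ≤ D1 := (norm_nonneg _).trans (d1 0)
  have n4 : 0 ≤ D2 := (norm_nonneg _).trans (d2 0)
  have n5 : 0 ≤ B1 := (norm_nonneg _).trans (b1 0)
  have n6 : 0 ≤ B2 := (norm_nonneg _).trans (b2 0)
  have n7 : 0 ≤ B3 := (norm_nonneg _).trans (b3 0)
  set x := |β| * s with hx
  have hx0 : 0 ≤ x := by positivity
  have hκ0 : 0 ≤ κ := hτ.le.trans hτκ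
  have M1 : M ≤ M ^ 2 := le_self_pow₀ hM two_ne_zero
  have t1 : M * s ≤ τ / 10 := by linarith [mul_le_mul_of_nonneg_right M1 hs.le]
  have t2 : M * x ≤ τ / 10 := by linarith [mul_le_mul_of_nonneg_right M1 hx0]
  have t3 : x ≤ τ / 10 := (le_mul_of_one_le_left hx0 hM).trans t2
  have t4 : s ≤ τ / 10 := (le_mul_of_one_le_left hs.le hM).trans t1
  have t5 : h * (M * x) ≤ τ / 10 := (mul_le_of_le_one_left (by positivity) hh1).trans t2
  have t6 : h * (M * s) ≤ τ / 10 := (mul_le_of_le_one_left (by positivity) hh1).trans t1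
  have ha : ∀ j, ∑ i, |s * Sj h j * h * wI K (Fin.last K) j i| ≤ s * h * M := fun j => by
    simp only [abs_mul, abs_of_pos hs, abs_of_pos hh]
    rw [← Finset.mul_sum]
    calc _ ≤ s * 1 * h * M := by
          gcongr
          · exact nodes_abs_Sn _
          · exact hI j
      _ = _ := by ring
  have hb : ∀ j, ∑ i, |h * wI K (Fin.last K) j i * (β ^ 2 * s ^ 2 * (Sj h i * Cj h i ^ 3))| ≤
      h * M * x ^ 2 := fun j => by
    refine le_trans (Finset.sum_le_sum fun i _ => ?_) ((Finset.mul_sum _ _ _).symm.trans_le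
      ((mul_le_mul_of_nonneg_left (hI j) (show 0 ≤ h * x ^ 2 by positivity)).trans_eq (by ring)))
    rw [abs_mul, abs_mul, abs_mul, abs_mul (Sj h i), ← mul_pow, abs_pow, abs_mul β, abs_of_pos hs,
      abs_of_pos hh]
    calc _ ≤ h * |wI K (Fin.last K) j i| * (x ^ 2 * (1 * 1)) := by
          gcongr
          · exact nodes_abs_Sn _
          · exact templKey_C3 h i
      _ = _ := by ring
  have c1 : ∀ (i : Fin (K + 1)) (v : E d), ‖(s * Cj h i ^ 3) • v‖ ≤ s * ‖v‖ := fun i v => by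
    rw [norm_smul, Real.norm_eq_abs, abs_mul, abs_of_pos hs]
    exact mul_le_mul_of_nonneg_right (mul_le_of_le_one_right hs.le (templKey_C3 h i))
      (norm_nonneg _)
  have c2 : ∀ (i : Fin (K + 1)) (v : E d), ‖(β * s * Cj h i ^ 3) • v‖ ≤ x * ‖v‖ := fun i v => by
    rw [norm_smul, Real.norm_eq_abs, abs_mul, abs_mul, abs_of_pos hs]
    exact mul_le_mul_of_nonneg_right (mul_le_of_le_one_right hx0 (templKey_C3 h i))
      (norm_nonneg _)
  set Z : ℕ → Fin (K + 1) → E d × E d := key K h k τ β V s m y G0 u with hZ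
  set e : ℕ → ℝ := fun l => ‖fun j => (s⁻¹ • ((Z l j).1 - Y j), (Z l j).2 - G j)‖ with he
  have e0 : ∀ l, 0 ≤ e l := fun l => norm_nonneg _
  have e1 : ∀ l j, ‖(Z l j).1 - Y j‖ ≤ s * e l := fun l j => by
    have h1 := (norm_fst_le _).trans
      (norm_le_pi_norm (fun j => (s⁻¹ • ((Z l j).1 - Y j), (Z l j).2 - G j)) j)
    rwa [norm_smul, Real.norm_of_nonneg (inv_pos.2 hs).le, inv_mul_le_iff₀ hs] at h1
  have e2 : ∀ l j, ‖(Z l j).2 - G j‖ ≤ e l := fun l j => (norm_snd_le _).trans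
    (norm_le_pi_norm (fun j => (s⁻¹ • ((Z l j).1 - Y j), (Z l j).2 - G j)) j)
  have e3 : ∀ l c, 0 ≤ c → (∀ j, ‖(Z l j).1 - Y j‖ ≤ s * c) → (∀ j, ‖(Z l j).2 - G j‖ ≤ c) →
      e l ≤ c := fun l c hc h1 h2 => (pi_norm_le_iff_of_nonneg hc).2 fun j => max_le (by
        rw [norm_smul, Real.norm_of_nonneg (inv_pos.2 hs).le, inv_mul_le_iff₀ hs]
        exact h1 j) (h2 j)
  have g2 : ∀ l j,
      ‖∑ i, (h * wI K (Fin.last K) j i * (β ^ 2 * s ^ 2 * (Sj h i * Cj h i ^ 3))) •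
        Gam2 K h k τ V (s * Cj h i) (Z l i).1 (Z l i).2 u -
        ∑ i, (h * wI K (Fin.last K) j i * (β ^ 2 * s ^ 2 * (Sj h i * Cj h i ^ 3))) • P2 i‖ ≤
        τ / 10 * e l + τ * D2 := fun l j => by
    simp only [← Finset.sum_sub_distrib, ← smul_sub]
    have := e0 l
    refine (interp_norm_sum_le _ _ (B := 3 * M / (τ * h) * e l + D2) fun i => ?_).trans
      ((mul_le_mul_of_nonneg_right (hb j) (by positivity)).trans ?_)
    · refine (norm_sub_le_norm_sub_add_norm_sub _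
        (Gam2 K h k τ V (s * Cj h i) (Y i) (G i) u) _).trans
        (add_le_add ((hΓ2 i _ _ _ _).trans ?_) ((norm_sub_rev _ _).trans_le (d2 i)))
      calc _ ≤ 2 * M / (τ * (s * h)) * (s * e l) + M / (τ * h) * e l := by
            gcongr
            · exact e1 l i
            · exact mul_le_of_le_one_right hτ.le hh1
            · exact e2 l i
        _ = _ := by field_simp; ring
    · have a1 : h * M * x ^ 2 * (3 * M / (τ * h) * e l + D2) =
          3 * (M * x) ^ 2 / τ * e l + h * (M * x) * x * D2 := by field_simp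
      have a2 : 3 * (M * x) ^ 2 / τ ≤ τ / 10 := by
        calc _ ≤ 3 * (τ / 10) ^ 2 / τ := by gcongr
          _ = 3 / 100 * τ := by field_simp; ring
          _ ≤ _ := by linarith
      have a3 : h * (M * x) * x ≤ τ * 1 := by gcongr <;> linarith
      rw [a1]
      gcongr
      linarith
  have hP := templ_picard (e := e) (r := R1 + R2 + D1 + τ * D2) hκ0 hκ (by positivity) (fun l => by
    have := e0 l
    have k1 : τ * e l ≤ κ * e l := mul_le_mul_of_nonneg_right hτκ (e0 l)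
    have k2 : 0 ≤ τ * e l := by positivity
    refine e3 _ _ (by positivity) (fun j => ?_) fun j => ?_
    · refine (norm_sub_le_norm_sub_add_norm_sub _ _ (Y j)).trans
        ((add_le_add ?_ ((norm_sub_rev _ _).trans_le (rY j))).trans
          (show s * (κ * e l + D1) + s * R1 ≤ _ from ?_))
      · simp only [hZ, key, add_sub_add_left_eq_sub, ← Finset.sum_sub_distrib, ← smul_sub]
        refine (interp_norm_sum_le _ _
          (B := s * (2 * (s * e l)) + x * (3 * M / h * e l + D1)) fun i => ?_).trans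
          ((mul_le_mul_of_nonneg_right (ha j) (by positivity)).trans ?_)
        · rw [add_sub_add_comm, neg_sub_neg, ← smul_sub, ← smul_sub]
          refine (norm_add_le _ _).trans (add_le_add ((c1 _ _).trans ?_) ((c2 _ _).trans ?_))
          · rw [norm_sub_rev]
            exact mul_le_mul_of_nonneg_left ((hg i _ _).trans
              (mul_le_mul_of_nonneg_left (e1 l i) zero_le_two)) hs.le
          · refine mul_le_mul_of_nonneg_left ((norm_sub_le_norm_sub_add_norm_sub _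
              (Gam K h k V (s * Cj h i) (Y i) (G i)) _).trans
              (add_le_add ((hΓ i _ _ _ _).trans ?_) ((norm_sub_rev _ _).trans_le (d1 i)))) hx0
            calc _ ≤ 2 * M / (s * h) * (s * e l) + M / h * e l := by
                  gcongr
                  · exact e1 l i
                  · exact le_div_self (by positivity) hh hh1
                  · exact e2 l i
              _ = _ := by field_simp; ring
        · have a1 : s * h * M * (s * (2 * (s * e l)) + x * (3 * M / h * e l + D1)) =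
              s * ((2 * (h * (M * s)) * s + 3 * (M ^ 2 * x)) * e l + h * (M * x) * D1) := by
            field_simp
            ring
          have a2 : h * (M * s) * s ≤ τ / 10 * 1 := by gcongr; linarith
          rw [a1]
          gcongr
          · linarith
          · exact mul_le_of_le_one_left n3 (by linarith)
      · rw [← mul_add]
        refine mul_le_mul_of_nonneg_left ?_ hs.le
        linarith [mul_nonneg hτ.le n4]
    · refine (norm_sub_le_norm_sub_add_norm_sub _ _ (G j)).trans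
        ((add_le_add ?_ ((norm_sub_rev _ _).trans_le (rG j))).trans
          (show τ / 5 * e l + (τ / 10 * e l + τ * D2) + R2 ≤ _ by linarith))
      simp only [hZ, key]
      rw [add_sub_add_comm, add_sub_add_left_eq_sub, ← smul_sub, sub_sub_sub_cancel_left]
      refine (norm_add_le _ _).trans (add_le_add ?_ (g2 l j))
      rw [norm_smul, Real.norm_eq_abs, norm_sub_rev]
      refine (mul_le_mul_of_nonneg_left ((hg j _ _).trans
        (mul_le_mul_of_nonneg_left (e1 l j) zero_le_two)) (abs_nonneg β)).trans ?_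
      linarith [mul_le_mul_of_nonneg_right t3 (e0 l)]) k
  have h0 : e 0 ≤ R1 + (B1 + B2 + B3) := by
    refine e3 _ _ (by positivity) (fun j => ?_) fun j => (b3 j).trans (by linarith)
    refine (norm_sub_le_norm_sub_add_norm_sub _ _ (Y j)).trans
      ((add_le_add ?_ ((norm_sub_rev _ _).trans_le (rY j))).trans
        (show s * (B1 + B2) + s * R1 ≤ _ from ?_))
    · simp only [hZ, key, sub_add_cancel_left, norm_neg]
      refine (interp_norm_sum_le _ _ (B := s * B1 + x * B2) fun i => ?_).trans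
        ((mul_le_mul_of_nonneg_right (ha j) (by positivity)).trans ?_)
      · refine (norm_add_le _ _).trans (add_le_add ?_
          ((c2 _ _).trans (mul_le_mul_of_nonneg_left (b2 i) hx0)))
        rw [norm_neg]
        exact (c1 _ _).trans (mul_le_mul_of_nonneg_left (b1 i) hs.le)
      · have a1 : s * h * M * (s * B1 + x * B2) = s * (h * (M * s) * B1 + h * (M * x) * B2) := by
          ring
        rw [a1]
        gcongr
        · exact mul_le_of_le_one_left n5 (by linarith)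
        · exact mul_le_of_le_one_left n6 (by linarith)
    · rw [← mul_add]
      exact mul_le_mul_of_nonneg_left (by linarith) hs.le
  have e4 : β • keyQ K h k τ β V s m y G0 u =
      ∑ i, (h * wI K (Fin.last K) 0 i * (β ^ 2 * s ^ 2 * (Sj h i * Cj h i ^ 3))) •
        Gam2 K h k τ V (s * Cj h i) (Z k i).1 (Z k i).2 u := by
    simp only [keyQ, Finset.smul_sum, smul_smul, hZ]
    refine Finset.sum_congr rfl fun i _ => ?_
    congr 1
    ring
  rw [e4]
  refine (g2 k 0).trans ?_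
  have a1 : τ / 10 * e k ≤ e k := mul_le_of_le_one_left (e0 k) (by linarith)
  have a2 := mul_le_mul_of_nonneg_left h0 (pow_nonneg hκ0 k)
  have a3 : κ ^ k * R1 ≤ R1 := mul_le_of_le_one_left n1 (pow_le_one₀ hκ0 (by linarith))
  linarith [mul_nonneg hτ.le n4]

theorem templKey_single {X : Type*} [SeminormedAddCommGroup X] {K : ℕ} (F : Fin (K + 1) → X)
    (i : Fin (K + 1)) : ‖F i‖ ≤ ∑ i, ‖F i‖ :=
  Finset.single_le_sum (f := fun i => ‖F i‖) (fun _ _ => norm_nonneg _) (Finset.mem_univ i)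

theorem templKey_point2 {K k : ℕ} {h τ β s κ M CL t : ℝ} {V : E d → ℝ} (hV : InClass V)
    {m y G0 u : E d} {Y G : Fin (K + 1) → E d} (hM : 1 ≤ M) (hs : 0 < s) (hh : 0 < h)
    (hh1 : h ≤ 1) (hKh : K * h ≤ 1 / 4) (hτ : 0 < τ) (ht : 0 < t) (hsτ : 10 * M ^ 2 * s ≤ τ)
    (hβτ : 10 * M ^ 2 * (|β| * s) ≤ τ) (hτκ : τ ≤ κ) (hκ : κ ≤ 1 / 2)
    (hI : ∀ j, ∑ i, |wI K (Fin.last K) j i| ≤ M) (m3 : CL ≤ M)
    (hΓ : ∀ (i : Fin (K + 1)) a p a' p',
      ‖Gam K h k V (s * Cj h i) a p - Gam K h k V (s * Cj h i) a' p'‖ ≤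
        CL / (s * Cj h i * h) * ‖a - a'‖ + CL * ‖p - p'‖)
    (hΓ2 : ∀ (i : Fin (K + 1)) a p u a' p' u',
      ‖Gam2 K h k τ V (s * Cj h i) a p u - Gam2 K h k τ V (s * Cj h i) a' p' u'‖ ≤
        CL / (τ * (s * Cj h i * h)) * ‖a - a'‖ + CL / τ * (‖p - p'‖ + ‖u - u'‖))
    (y2 : Y 0 = m) :
    ‖((β * t) • gg V (s * Cj h (Fin.last K)) y + t • G0 + (β * t) • keyQ K h k τ β V s m y G0 u) -
      ((β * t) • gg V s m + t • G 0)‖ ≤ t * 5 *
      (s⁻¹ * ∑ j, ‖Y j - (m + (Sj h j / Sj h (Fin.last K)) • (y - m) +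
        ∑ i, (s * Sj h j * h * wI K (Fin.last K) j i) •
          (-((s * Cj h i ^ 3) • gg V (s * Cj h i) (Y i)) +
            (β * s * Cj h i ^ 3) • T2 V (s * Cj h i) (Y i) (G i)))‖ +
      ∑ j, ‖G j - (G0 + β • (gg V (s * Cj h (Fin.last K)) y - gg V (s * Cj h j) (Y j)) +
        ∑ i, (h * wI K (Fin.last K) j i * (β ^ 2 * s ^ 2 * (Sj h i * Cj h i ^ 3))) •
          T2 V (s * Cj h i) (Y i) (T2 V (s * Cj h i) (Y i) (G i)))‖ +
      ∑ i, ‖T2 V (s * Cj h i) (Y i) (G i) - Gam K h k V (s * Cj h i) (Y i) (G i)‖ +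
      τ * ∑ i, ‖T2 V (s * Cj h i) (Y i) (T2 V (s * Cj h i) (Y i) (G i)) -
        Gam2 K h k τ V (s * Cj h i) (Y i) (G i) u‖) +
      t * κ ^ k * (∑ i, ‖gg V (s * Cj h i) (Y i)‖ + 2 * ∑ i, ‖G i‖ +
        (∑ _i : Fin (K + 1), ‖G0‖ + ∑ i, ‖G i‖)) := by
  have s0 : ∀ i : Fin (K + 1), 0 < s * Cj h i := fun i => mul_pos hs (Cs_pos _)
  have s2 : ∀ i : Fin (K + 1), s ≤ 2 * (s * Cj h i) := fun i => by
    have b1 := interp_node_mem hh i
    have b2 : 3 / 4 ≤ Cj h i := Cs_ge (by rw [abs_of_nonneg b1.1]; linarith [b1.2])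
    nlinarith
  have r0 := templKey_single (fun j => G j - (G0 +
    β • (gg V (s * Cj h (Fin.last K)) y - gg V (s * Cj h j) (Y j)) +
    ∑ i, (h * wI K (Fin.last K) j i * (β ^ 2 * s ^ 2 * (Sj h i * Cj h i ^ 3))) •
      T2 V (s * Cj h i) (Y i) (T2 V (s * Cj h i) (Y i) (G i))))
  have r1 := templKey_single (fun j => Y j - (m + (Sj h j / Sj h (Fin.last K)) • (y - m) +
    ∑ i, (s * Sj h j * h * wI K (Fin.last K) j i) •
      (-((s * Cj h i ^ 3) • gg V (s * Cj h i) (Y i)) +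
        (β * s * Cj h i ^ 3) • T2 V (s * Cj h i) (Y i) (G i))))
  have b1 := templKey_point (k := k) (V := V) (m := m) (y := y) (G0 := G0) (u := u)
    (Y := Y) (G := G) (P1 := fun i => T2 V (s * Cj h i) (Y i) (G i))
    (P2 := fun i => T2 V (s * Cj h i) (Y i) (T2 V (s * Cj h i) (Y i) (G i)))
    hM hs hh hh1 hτ hsτ hβτ hτκ hκ hI (fun i a b => (lip_gg hV (s0 i)).norm_sub_le a b)
    (fun i a p a' p' => (hΓ i a p a' p').trans (by
      have b2 : CL / (s * Cj h i * h) ≤ 2 * M / (s * h) := by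
        rw [div_le_div_iff₀ (mul_pos (s0 i) hh) (mul_pos hs hh)]
        calc _ ≤ M * (2 * (s * Cj h i) * h) := by gcongr; exact s2 i
          _ = _ := by ring
      gcongr))
    (fun i a p a' p' => (hΓ2 i a p u a' p' u).trans (by
      have b2 : CL / (τ * (s * Cj h i * h)) ≤ 2 * M / (τ * (s * h)) := by
        rw [div_le_div_iff₀ (mul_pos hτ (mul_pos (s0 i) hh)) (by positivity)]
        calc _ ≤ M * (τ * (2 * (s * Cj h i) * h)) := by gcongr; exact s2 i
          _ = _ := by ring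
      rw [sub_self, norm_zero, add_zero]
      gcongr))
    (fun j => (r1 j).trans_eq (mul_inv_cancel_left₀ hs.ne' _).symm) r0
    (templKey_single _) (templKey_single _) (templKey_single _)
    (fun i => ((T2 V _ _).le_opNorm _).trans (mul_le_mul (norm_T2_le hV (s0 i) _)
      (templKey_single G i) (norm_nonneg _) zero_le_two))
    (fun j => (norm_sub_le _ _).trans (add_le_add (templKey_single (fun _ => G0) j)
      (templKey_single G j)))
  have b2 := r0 0
  have e0 : s * Cj h (0 : Fin (K + 1)) = s := by simp [Cj, Cs_zero]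
  simp only [y2, e0] at b2
  refine le_trans (le_of_eq ?_) ((mul_le_mul_of_nonneg_left ((norm_sub_le _ _).trans
    (add_le_add b1 b2)) ht.le).trans ?_)
  · rw [← abs_of_pos ht, ← Real.norm_eq_abs, ← norm_smul, Real.norm_of_nonneg ht.le]
    congr 1
    module
  · rw [mul_assoc t, mul_assoc t, ← mul_add]
    refine mul_le_mul_of_nonneg_left ?_ ht.le
    refine (add_right_comm _ _ _).trans_le (add_le_add ?_ le_rfl)
    rw [show (5 : ℝ) = 4 + 1 by norm_num, add_mul (4 : ℝ) 1, one_mul]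
    refine add_le_add le_rfl (le_add_of_le_of_nonneg (le_add_of_le_of_nonneg
      (le_add_of_nonneg_left ?_) ?_) ?_) <;> positivity

theorem templKey_num {K k : ℕ} {h τ s κ M Cn Cg Ch t N r : ℝ} (hM : 1 ≤ M) (hs : 0 < s)
    (hh : 0 < h) (hh1 : h ≤ 1) (hτ : 0 < τ) (hτ1 : τ ≤ 1) (ht : 0 < t) (hκ0 : 0 ≤ κ) (hr : 0 ≤ r)
    (hN : r ≤ N) (m1 : Cn ≤ M) (m2 : Cg ≤ M) (m3 : Ch ≤ M) :
    t * 5 * (s⁻¹ * (M * (Cn * (s * h ^ (K + 1) * N))) + M * (Cn * (h ^ (K + 1) * r)) +
      M * (Cg * (h ^ K + κ ^ k) * (3 * N)) +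
      τ * (M * (Ch * ((h ^ K + κ ^ k) / τ + τ ^ K) * (3 * N)))) +
      t * κ ^ k * (M * (12 * N) + 2 * (M * r) + (M * r + M * r)) ≤
      60 * M ^ 2 * (t * (h ^ K + κ ^ k + τ ^ K) * N) := by
  have M1 : M ≤ M ^ 2 := le_self_pow₀ hM two_ne_zero
  have hN0 := hr.trans hN
  have b1 : h ^ (K + 1) ≤ h ^ K + κ ^ k + τ ^ K :=
    (pow_le_pow_of_le_one hh.le hh1 (Nat.le_succ K)).trans
      (le_add_of_le_of_nonneg (le_add_of_nonneg_right (by positivity)) (by positivity))
  have b2 : h ^ K + κ ^ k ≤ h ^ K + κ ^ k + τ ^ K := le_add_of_nonneg_right (by positivity)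
  have b3 : κ ^ k ≤ h ^ K + κ ^ k + τ ^ K := (le_add_of_nonneg_left (by positivity)).trans b2
  have b4 : τ * ((h ^ K + κ ^ k) / τ + τ ^ K) ≤ h ^ K + κ ^ k + τ ^ K := by
    rw [mul_add, mul_div_cancel₀ _ hτ.ne']
    exact add_le_add le_rfl (mul_le_of_le_one_left (by positivity) hτ1)
  have e1 : s⁻¹ * (M * (Cn * (s * h ^ (K + 1) * N))) = M * (Cn * (h ^ (K + 1) * N)) := by
    field_simp
  have e2 : τ * (M * (Ch * ((h ^ K + κ ^ k) / τ + τ ^ K) * (3 * N))) =
      M * (Ch * (τ * ((h ^ K + κ ^ k) / τ + τ ^ K)) * (3 * N)) := by ring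
  rw [e1, e2]
  generalize h ^ K + κ ^ k + τ ^ K = ε at b1 b2 b3 b4 ⊢
  have b5 : 0 ≤ ε := le_trans (by positivity) b3
  calc _ ≤ t * 5 * (M * (M * (ε * N)) + M * (M * (ε * N)) + M * (M * ε * (3 * N)) +
        M * (M * ε * (3 * N))) + t * ε * (M ^ 2 * (12 * N) + 2 * (M ^ 2 * N) +
        (M ^ 2 * N + M ^ 2 * N)) := by gcongr
    _ = 56 * M ^ 2 * (t * ε * N) := by ring
    _ ≤ _ := by
      gcongr
      norm_num

end Vale.Agent.P347
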