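import Vale.Agent.P347.Templ
import Vale.Agent.P347.TemplKeyAux

namespace Vale.Agent.P347

open MeasureTheory ProbabilityTheory
open scoped RealInnerProductSpace NNReal

variable {d : ℕ}

theorem templKey_real {Ω : Type*} [MeasurableSpace Ω] {μ : Measure Ω} {F G : Ω → ℝ} {c c' : ℝ}
    (h : Dom μ F c) (h' : Dom μ G c') : Dom μ (fun o => F o + G o) (c + c') := by
  simpa only [one_mul] using h.add_le h' zero_le_one zero_le_one (H := fun o => F o + G o)
    (Filter.Eventually.of_forall fun o => (norm_add_le _ _).trans_eq (by rw [one_mul, one_mul]))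

theorem templKey_realc {Ω : Type*} [MeasurableSpace Ω] {μ : Measure Ω} {F : Ω → ℝ} {c a : ℝ}
    (h : Dom μ F c) (ha : 0 ≤ a) : Dom μ (fun o => a * F o) (a * c) :=
  h.smul_le ha (Filter.Eventually.of_forall fun o => by rw [norm_mul, Real.norm_of_nonneg ha])

theorem templKey_sum {Ω X : Type*} [MeasurableSpace Ω] [SeminormedAddCommGroup X] {μ : Measure Ω}
    {K : ℕ} {F : Fin (K + 1) → Ω → X} {c M : ℝ} (hc : 0 ≤ c) (hM : K + 1 ≤ M)
    (h : ∀ i, Dom μ (F i) c) : Dom μ (fun o => ∑ i, ‖F i o‖) (M * c) := by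
  refine (Dom.sum Finset.univ fun i _ => h i).mono (Filter.Eventually.of_forall fun _ => le_rfl) ?_
  simp only [Finset.sum_const, Finset.card_univ, Fintype.card_fin, nsmul_eq_mul]
  push_cast
  exact mul_le_mul_of_nonneg_right hM hc

theorem templKey_prod {V : E d → ℝ} (hV : InClass V) (m : E d) {s : ℝ} (hs : 0 < s) (hs1 : s ≤ 1)
    {K : ℕ} {h : ℝ} (hh : 0 < h) (j : Fin (K + 1)) {Ω : Type*} [MeasurableSpace Ω]
    [TopologicalSpace Ω] [OpensMeasurableSpace Ω] {ν : Measure Ω} [SFinite ν]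
    {F : E d × Ω → E d} (hF : Continuous F) {c : ℝ} (hc : 0 ≤ c)
    (hD : ∀ y, Dom ν (fun o => F (y, o)) (c * Nm y)) :
    Dom ((rhoY V m (s * Sj h j) (s * Cj h j)).prod ν) F (c * (3 * Nm m)) := by
  have := isProb_rhoY hV m (s * Sj h j) (s * Cj h j)
  obtain ⟨-, h1, h2⟩ := templ_dom_Nm hV m hs hs1 hh j
  refine Dom.prod hF.aestronglyMeasurable hD (h1.const_mul c) ?_
  rw [integral_const_mul]
  exact mul_le_mul_of_nonneg_left h2 hc

/-- the key identity, with the quadratic term replaced by its template -/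
theorem key_target (K k : ℕ) (hK : 1 ≤ K) : ∃ C : ℝ, 1 ≤ C ∧ ∀ (d : ℕ) (V : E d → ℝ), InClass V →
    ∀ (m : E d) (s h τ κ β t : ℝ), 0 < s → 0 < h → K * h ≤ 1 / 4 → 0 < τ → 0 < t → C * s ≤ τ →
      C * (|β| * s) ≤ τ → C * τ ≤ κ → κ ≤ 1 / 2 →
      ∀ (f : E d → ℝ) (L : ℝ≥0), LipschitzWith L f →
      |∫ y, ∫ G, ∫ u, f ((β * t) • gg V (s * Cs (K * h)) y + t • G +
          (β * t) • keyQ K h k τ β V s m y G u) ∂gam d ∂gam d
          ∂rhoY V m (s * Sn (K * h)) (s * Cs (K * h)) -
        ∫ z, f ((β * t) • gg V s m + t • z) ∂gam d| ≤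
        L * (C * (t * (h ^ K + κ ^ k + τ ^ K) * Nm m)) := by
  obtain ⟨Cg, hCg, hG⟩ := gam_approx K k hK
  obtain ⟨Ch, hCh, hH⟩ := gam2_approx K k hK
  obtain ⟨Cw, hCw, hI, -⟩ := weights_bound K
  obtain ⟨CL, hCL, hL⟩ := templ_lip K k hK
  obtain ⟨Cn, hCn, hR⟩ := key_nodes K hK
  have hK0 : (0 : ℝ) ≤ K := Nat.cast_nonneg K
  obtain ⟨M, m1, m2, m3, m4, m5, m6⟩ :
      ∃ M : ℝ, Cg ≤ M ∧ Cw ≤ M ∧ CL ≤ M ∧ Cn ≤ M ∧ K + 1 ≤ M ∧ Ch ≤ M :=
    ⟨Cg + Cw + CL + Cn + (K + 1) + Ch, by linarith, by linarith, by linarith, by linarith,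
      by linarith, by linarith⟩
  have hM : 1 ≤ M := hCg.trans m1
  have M1 : M ≤ M ^ 2 := le_self_pow₀ hM two_ne_zero
  refine ⟨60 * M ^ 2, by linarith,
    fun d V hV m s h τ κ β t hs hh hKh hτ ht hsτ hβτ hτκ hκ f L hf => ?_⟩
  have hK1 : (1 : ℝ) ≤ K := by exact_mod_cast hK
  have hh1 : h ≤ 1 := by linarith [mul_le_mul_of_nonneg_right hK1 hh.le]
  have hx0 : 0 ≤ |β| * s := by positivity
  have a1 : M * τ ≤ κ := le_trans (mul_le_mul_of_nonneg_right (by linarith) hτ.le) hτκ
  have a2 : τ ≤ κ := (le_mul_of_one_le_left hτ.le hM).trans a1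
  have a3 : 10 * M ^ 2 * s ≤ τ := le_trans (mul_le_mul_of_nonneg_right (by linarith) hs.le) hsτ
  have a4 : 10 * M ^ 2 * (|β| * s) ≤ τ :=
    le_trans (mul_le_mul_of_nonneg_right (by linarith) hx0) hβτ
  have a5 : M * s ≤ κ := (mul_le_mul_of_nonneg_right (by linarith) hs.le).trans (a3.trans a2)
  have a6 : s ≤ 1 / 2 := (le_mul_of_one_le_left hs.le hM).trans (a5.trans hκ)
  have a7 : |β| * s ≤ 1 / 2 :=
    (le_mul_of_one_le_left hx0 (by linarith)).trans (a4.trans (a2.trans hκ))
  have hs' : 2 * s ^ 2 ≤ 1 := by nlinarith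
  have hκ0 : 0 ≤ κ := hτ.le.trans a2
  have hN := nodes_Nm_nonneg m
  have hN' := nodes_sqrt_le m
  have s0 : ∀ i : Fin (K + 1), 0 < s * Cj h i := fun i => mul_pos hs (Cs_pos _)
  have s1 : ∀ i : Fin (K + 1), s * Cj h i ≤ s := fun i => mul_le_of_le_one_right hs.le (Cs_le_one _)
  have s3 : ∀ (C : ℝ) (i : Fin (K + 1)), C ≤ M → C * (s * Cj h i) ≤ κ := fun C i hC =>
    (mul_le_mul hC (s1 i) (s0 i).le (by linarith)).trans a5
  have l1 := fun i : Fin (K + 1) => hL d V hV (s * Cj h i) h τ 0 (s0 i) hh hKh hτ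
    ((s3 _ i m3).trans (by linarith))
    (by linarith [mul_le_mul_of_nonneg_right m3 hτ.le])
  obtain ⟨Y, G, y1, y2, y3, y4, y5⟩ := hR d V hV m s β h hs hs' (by linarith) hh hKh
  have := fun i : Fin (K + 1) => isProb_rhoY hV m (s * Sj h i) (s * Cj h i)
  set μ := (rhoY V m (s * Sj h (Fin.last K)) (s * Cj h (Fin.last K))).prod (gam d) with hμ
  have p1 : MeasurePreserving (Prod.fst : (E d × E d) × E d → E d × E d) (μ.prod (gam d)) μ :=
    measurePreserving_fst
  have p2 := fun i => (y3 i).comp p1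
  have p3 := fun i => (measurePreserving_prodAssoc _ _ _).comp
    ((y3 i).prod (MeasurePreserving.id (gam d)))
  have p4 := fun i => (measurePreserving_snd (ν := gam d)).comp (p2 i)
  have p5 := fun i => (measurePreserving_fst (ν := gam d)).comp (p2 i)
  have q1 := templKey_realc (templKey_sum (by positivity) m5 fun j => (y4 j).comp p1)
    (inv_pos.2 hs).le
  have q2 := templKey_sum (by positivity) m5 fun j => (y5 j).comp p1
  have q3 := templKey_sum (by positivity) m5 fun i => (templKey_prod hV m hs (by linarith) hh i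
    (ν := gam d) (F := fun z => T2 V (s * Cj h i) z.1 z.2 - Gam K h k V (s * Cj h i) z.1 z.2)
    ((((templ_cont_T2 hV (s0 i)).comp continuous_fst).clm_apply continuous_snd).sub
      (templ_cont_Gam hV (s0 i) continuous_fst continuous_snd))
    (c := Cg * (h ^ K + κ ^ k)) (by positivity) fun y => by
      rw [mul_assoc]
      exact hG d V hV y _ h κ (s0 i) hh hKh (s3 _ i m1) hκ).comp (p2 i)
  have q4 := templKey_realc (templKey_sum (by positivity) m5 fun i =>
    (templKey_prod hV m hs (by linarith) hh i (ν := (gam d).prod (gam d))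
    (F := fun z => T2 V (s * Cj h i) z.1 (T2 V (s * Cj h i) z.1 z.2.1) -
      Gam2 K h k τ V (s * Cj h i) z.1 z.2.1 z.2.2)
    ((((templ_cont_T2 hV (s0 i)).comp continuous_fst).clm_apply
      (((templ_cont_T2 hV (s0 i)).comp continuous_fst).clm_apply continuous_snd.fst)).sub
      (templ_cont_Gam2 hV (s0 i) continuous_fst continuous_snd.fst continuous_snd.snd))
    (c := Ch * ((h ^ K + κ ^ k) / τ + τ ^ K)) (by positivity) fun y => by
      rw [mul_assoc]
      exact hH d V hV y _ h τ κ (s0 i) hh hKh hτ (s3 _ i m6)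
        ((mul_le_mul_of_nonneg_right m6 hτ.le).trans a1) hκ).comp (p3 i)) hτ.le
  have q5 := templKey_sum (by positivity) m5 fun i => (templ_dom_gg hV m hs hs' hh i).comp (p5 i)
  have q6 := templKey_sum (by positivity) m5 fun i => templ_dom_gam.comp (p4 i)
  have q7 := templKey_sum (by positivity) m5 fun _ =>
    templ_dom_gam.comp ((measurePreserving_snd (ν := gam d)).comp p1)
  have hD : Dom (μ.prod (gam d)) (fun w => ((β * t) • gg V (s * Cj h (Fin.last K)) w.1.1 +
      t • w.1.2 + (β * t) • keyQ K h k τ β V s m w.1.1 w.1.2 w.2) -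
      ((β * t) • gg V s m + t • G 0 w.1))
      (60 * M ^ 2 * (t * (h ^ K + κ ^ k + τ ^ K) * Nm m)) := by
    refine ((templKey_real (templKey_real (templKey_real q1 q2) q3) q4).add_le
      (templKey_real (templKey_real q5 (templKey_realc q6 zero_le_two)) (templKey_real q7 q6))
      (a := t * 5) (b := t * κ ^ k) (by positivity) (by positivity)
      (Filter.Eventually.of_forall fun w => ?_)).mono
      (Filter.Eventually.of_forall fun _ => le_rfl) ?_
    · rw [Real.norm_of_nonneg (by positivity), Real.norm_of_nonneg (by positivity)]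
      exact templKey_point2 hV (Y := fun i => Y i w.1) (G := fun i => G i w.1) hM hs hh hh1 hKh hτ ht
        a3 a4 a2 hκ (fun j => (hI _ j).trans m2) m3 (fun i => (l1 i).2.1) (fun i => (l1 i).2.2.1)
        (y2 _)
    · exact templKey_num hM hs hh hh1 hτ (by linarith) ht hκ0 (Real.sqrt_nonneg _) hN' m4 m1 m6
  have iB0 : Integrable (fun z => (β * t) • gg V s m + t • z) (gam d) :=
    (integrable_const _).add (templ_int_gam.smul t)
  have iB : Integrable (fun w : (E d × E d) × E d => (β * t) • gg V s m + t • G 0 w.1)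
      (μ.prod (gam d)) := (p4 0).integrable_comp_of_integrable iB0
  have cA : Continuous fun w : (E d × E d) × E d => (β * t) • gg V (s * Cj h (Fin.last K)) w.1.1 +
      t • w.1.2 + (β * t) • keyQ K h k τ β V s m w.1.1 w.1.2 w.2 :=
    ((((templ_cont_gg hV hs _).comp' continuous_fst.fst).fun_const_smul _).add
      (continuous_fst.snd.fun_const_smul _)).add ((templKey_contQ hV hs m continuous_fst.fst
        continuous_fst.snd continuous_snd).fun_const_smul _)
  have iA := ((hD.integrable (cA.aestronglyMeasurable.sub iB.aestronglyMeasurable)).1.add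
    iB).congr (Filter.Eventually.of_forall fun w => sub_add_cancel _ _)
  have iA' := templ_int_lip iA hf
  have h4 := hD.abs_integral_sub hf iA' (templ_int_lip iB hf)
  have e5 := templ_integral_comp (p4 0) (templ_int_lip iB0 hf).aestronglyMeasurable
  simp only [Function.comp_apply] at e5
  rw [e5, integral_prod _ iA', integral_prod _ iA'.integral_prod_left] at h4
  exact h4

end Vale.Agent.P347
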