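import Vale.Agent.P347.RepS
import Vale.Agent.P347.RepT
import Vale.Agent.P347.TemplKey
import Vale.Agent.P347.StepAuxD
import Vale.Agent.P347.StepAuxZ

namespace Vale.Agent.P347

open MeasureTheory ProbabilityTheory
open scoped RealInnerProductSpace NNReal

variable {d : ℕ}

theorem desc_approx (K k : ℕ) (hK : 1 ≤ K) : ∃ C : ℕ, 1 ≤ C ∧ ∀ (d : ℕ) (h s₀ c τ κ R ε Λ : ℝ)
    (Bq : ℕ), 0 < h → K * h ≤ 1 / 8 → 0 < c → c ≤ 1 → C * s₀ ≤ τ → C * τ ≤ κ → κ ≤ 1 / 2 →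
    C * τ ≤ R * c * h → C * (Λ * R) ≤ 1 → 0 ≤ ε → 0 ≤ Λ → Claim d h s₀ c R ε Λ Bq →
    ∀ (Ω : Type) [MeasurableSpace Ω] (m : (E d → ℝ) → Ω → E d) (s : ℝ) (e : (E d → ℝ) → Ω → ℝ)
      (q : ℕ), 0 < s → s ≤ s₀ → Samp Ω m (c / C * s * h) e q →
      Approx Ω (fun V o f => ∫ y, f y ∂rhoY V (m V o) (s * Sn (K * h)) (s * Cs (K * h)))
        (fun V o => 2 * e V o + C * (s * (ε + h ^ K + κ ^ k) * Nm (m V o)))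
        (C * (Bq + 1) ^ k * (q + 1)) := step_desc K k hK

theorem step_claim (K k : ℕ) (hK : 1 ≤ K) : ∃ C : ℕ, 1 ≤ C ∧
    ∀ (d : ℕ) (h s₀ c τ κ R Ra εa Λa Rb εb Λb : ℝ) (n P Ba Bb : ℕ),
    0 < h → K * h ≤ 1 / 8 → 0 < c → c ≤ 1 → 0 < s₀ → 0 < R → 1 ≤ n →
    C * ((n : ℝ) + 1) ^ 3 ≤ P * c * h → P * s₀ ≤ τ → P * R ≤ τ → P * τ ≤ κ → κ ≤ 1 / 2 →
    P * τ ≤ Ra → P * R ^ 2 ≤ Rb * τ → P * (Λa * Ra) ≤ 1 → Λb * Rb ≤ R →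
    P * (εa + h ^ K + κ ^ k) ≤ 1 → εb + (h ^ K + κ ^ k + τ ^ K + Cs (K * h) ^ n) ≤ R →
    0 ≤ εa → 0 ≤ Λa → 0 ≤ εb → 0 ≤ Λb →
    Claim d h s₀ c Ra εa Λa Ba → Claim d h s₀ c Rb εb Λb Bb →
    Claim d h s₀ (c / C) R (P * (εb + R * εa + (h ^ K + κ ^ k + τ ^ K + Cs (K * h) ^ n))) P
      (P * (Bb + 1) * (Ba + 1) ^ ((k + 1) ^ 3)) := by
  obtain ⟨C₀, hC₀, HD⟩ := step_desc K k hK
  obtain ⟨C₂, hC₂, HL⟩ := templ_lip K k hK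
  obtain ⟨C₄, hC₄, HK⟩ := key_target K k hK
  exact step_main K k hK hC₀ hC₂ hC₄ HD
    (fun d V hV s h τ β h1 h2 h3 h4 h5 h6 => (HL d V hV s h τ β h1 h2 h3 h4 h5 h6).2.2.2) HK

end Vale.Agent.P347
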